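import Vale.Agent.P223.H316.Lab

/-! Words without functions. -/

namespace Vale.Agent.P223.H316

open scoped ENNReal
open PowerSeries Sy

section
variable {n : ℕ} {Γ ι B : Type} [Group Γ] [NormedRing B] [NormedAlgebra ℂ B]
  (W : WS n Γ ι B)

/-- concatenation of label functions -/
def cmb (c : ℕ) (lu lv : ℕ → Γ × ι) (k : ℕ) : Γ × ι := if k < c then lu k else lv (k - c)

theorem ev_cmb (u v : List Sy) (lu lv : ℕ → Γ × ι) :
    W.ev (u ++ v) (cmb (nl u) lu lv) = W.ev u lu * W.ev v lv := by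
  rw [W.ev_append]
  congr 1
  · exact W.ev_congr _ _ _ fun k hk => if_pos hk
  · refine W.ev_congr _ _ _ fun k _ => ?_
    unfold cmb
    rw [if_neg (by omega)]; congr 1; omega

/-- rotation of a word -/
theorem rotw (u : List Sy) : ∃ z : ℂ, ∀ (v : List Sy), 1 ≤ nl v → ∀ K : ℕ,
    W.m * (nk u + nk v) ≤ K → 1 ≤ K → ∀ lu lv : ℕ → Γ × ι,
    W.T.tr (W.Om * coeff K (W.ev u lu * W.ev v lv)) =
      z * W.T.tr (W.Om * coeff K (W.ev v lv * W.ev u lu)) := by
  induction u with
  | nil =>
    refine ⟨1, fun v _ K _ _ lu lv => ?_⟩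
    simp only [WS.ev, one_mul, mul_one]
  | cons x u ih =>
    obtain ⟨z, hz⟩ := ih
    rcases sy_cases x with ⟨b, rfl⟩ | ⟨b, rfl⟩
    · refine ⟨(if b then 1 else (-1 : ℂ) ^ (n + 1)) * z, fun v hv K hK hK1 lu lv => ?_⟩
      rw [nk_ls] at hK
      rw [W.ev_ls, mul_assoc, ← ev_cmb]
      rw [W.rotls b (u ++ v) (by rw [nl_append]; omega) K (by rw [nk_append]; exact hK) hK1]
      rw [ev_cmb]
      have e1 : W.ev v lv * C (W.lt b (lu 0)) =
          W.ev (v ++ [ls b]) (cmb (nl v) lv fun _ => lu 0) := by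
        rw [ev_cmb, W.ev_ls, WS.ev, mul_one]
      have h2 := hz (v ++ [ls b]) (by rw [nl_append]; omega) K
        (by rw [nk_append, nk_ls]; simpa [nk] using hK) hK1 (fun k => lu (k + 1))
        (cmb (nl v) lv fun _ => lu 0)
      rw [mul_assoc (W.ev u _), e1, h2, ← e1]
      simp only [mul_assoc]
    · cases b with
      | true =>
        refine ⟨z, fun v hv K hK hK1 lu lv => ?_⟩
        change W.m * (nk u + 1 + nk v) ≤ K at hK
        change W.T.tr (W.Om * coeff K (W.Gz * W.ev u lu * W.ev v lv)) =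
          z * W.T.tr (W.Om * coeff K (W.ev v lv * (W.Gz * W.ev u lu)))
        have e0 : W.Gz * W.ev u lu * W.ev v lv = W.ev (g :: (u ++ v)) (cmb (nl u) lu lv) := by
          rw [WS.ev, ev_cmb, mul_assoc]
        rw [e0, ← W.rotg (u ++ v) (by rw [nl_append]; omega) K
          (by rw [nk_append]; convert hK using 2; omega)]
        have e1 : W.ev (u ++ v ++ [g]) (cmb (nl u) lu lv) = W.ev u lu * W.ev (v ++ [g]) lv := by
          rw [W.ev_append, ev_cmb, W.ev_append]; simp only [WS.ev, mul_one, mul_assoc]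
        have h2 := hz (v ++ [g]) (by rw [nl_append]; omega) K
          (by rw [nk_append]; simp only [nk]; convert hK using 2; omega) hK1 lu lv
        rw [e1, h2, W.ev_append]
        simp only [WS.ev, mul_one, mul_assoc]
      | false =>
        refine ⟨(-1 : ℂ) ^ (n + 1) * z, fun v hv K hK hK1 lu lv => ?_⟩
        change W.m * (nk u + 1 + nk v) ≤ K at hK
        change W.T.tr (W.Om * coeff K (W.Pz * W.ev u lu * W.ev v lv)) =
          (-1 : ℂ) ^ (n + 1) * z * W.T.tr (W.Om * coeff K (W.ev v lv * (W.Pz * W.ev u lu)))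
        have e0 : W.Pz * W.ev u lu * W.ev v lv = W.ev (q :: (u ++ v)) (cmb (nl u) lu lv) := by
          rw [WS.ev, ev_cmb, mul_assoc]
        have h0 := W.rotq (u ++ v) (by rw [nl_append]; omega) K
          (by rw [nk_append]; convert hK using 2; omega) (cmb (nl u) lu lv)
        have e1 : W.ev (u ++ v ++ [q]) (cmb (nl u) lu lv) = W.ev u lu * W.ev (v ++ [q]) lv := by
          rw [W.ev_append, ev_cmb, W.ev_append]; simp only [WS.ev, mul_one, mul_assoc]
        have h2 := hz (v ++ [q]) (by rw [nl_append]; omega) K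
          (by rw [nk_append]; simp only [nk]; convert hK using 2; omega) hK1 lu lv
        have hs : ((-1 : ℂ) ^ (n + 1)) * ((-1 : ℂ) ^ (n + 1)) = 1 := by
          rw [← mul_pow]; simp
        have e2 : W.T.tr (W.Om * coeff K (W.ev (q :: (u ++ v)) (cmb (nl u) lu lv))) =
            (-1 : ℂ) ^ (n + 1) *
              W.T.tr (W.Om * coeff K (W.ev (u ++ v ++ [q]) (cmb (nl u) lu lv))) := by
          rw [h0, ← mul_assoc, hs, one_mul]
        rw [e0, e2, e1, h2, W.ev_append]
        simp only [WS.ev, mul_one, mul_assoc]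

/-- insertion at the last position -/
def insE (Γ ι : Type) [Group Γ] (k : ℕ) : NL Γ ι k × (Γ × ι) ≃ NL Γ ι (k + 1) where
  toFun x := ⟨(Fin.last (k + 1)).insertNth x.2 x.1.1, by
    have h : (Fin.last (k + 1)).insertNth (α := fun _ => Γ × ι) x.2 x.1.1
        ((Fin.last (k + 1)).succAbove 0) = x.1.1 0 := Fin.insertNth_apply_succAbove _ _ _ _
    rw [Fin.succAbove_last] at h
    rw [show (0 : Fin (k + 2)) = Fin.castSucc 0 from rfl, h]
    exact x.1.2⟩
  invFun l := (⟨fun i => l.1 i.castSucc, l.2⟩, l.1 (Fin.last (k + 1)))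
  left_inv x := by
    refine Prod.ext (Subtype.ext (funext fun i => ?_)) ?_
    · have h : (Fin.last (k + 1)).insertNth (α := fun _ => Γ × ι) x.2 x.1.1
        ((Fin.last (k + 1)).succAbove i) = x.1.1 i := Fin.insertNth_apply_succAbove _ _ _ _
      rw [Fin.succAbove_last] at h
      exact h
    · exact Fin.insertNth_apply_same (α := fun _ => Γ × ι) (Fin.last (k + 1)) x.2 x.1.1
  right_inv l := by
    apply Subtype.ext
    funext i
    refine Fin.lastCases ?_ (fun i => ?_) i
    · exact Fin.insertNth_apply_same (α := fun _ => Γ × ι) (Fin.last (k + 1))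
        (l.1 (Fin.last (k + 1))) fun i => l.1 i.castSucc
    · have h : (Fin.last (k + 1)).insertNth (α := fun _ => Γ × ι) (l.1 (Fin.last (k + 1)))
        (fun i : Fin (k + 1) => l.1 i.castSucc) ((Fin.last (k + 1)).succAbove i) =
          l.1 i.castSucc := Fin.insertNth_apply_succAbove _ _ _ _
      rw [Fin.succAbove_last] at h
      exact h

/-- permutation which moves the last label to the position `p` -/
def mvE (k : ℕ) (p : Fin (k + 2)) : Equiv.Perm (Fin (k + 2)) :=
  (finSuccEquiv' p).trans (finSuccEquiv' (Fin.last (k + 1))).symm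

omit [Group Γ] in
theorem mvE_ins (k : ℕ) (p : Fin (k + 2)) (x : Γ × ι) (l : Fin (k + 1) → Γ × ι) :
    ((Fin.last (k + 1)).insertNth (α := fun _ => Γ × ι) x l) ∘ (mvE k p) =
      p.insertNth (α := fun _ => Γ × ι) x l := by
  funext i
  unfold mvE
  rw [Function.comp_apply, Equiv.trans_apply]
  refine Fin.succAboveCases p ?_ (fun i => ?_) i
  · rw [finSuccEquiv'_at, finSuccEquiv'_symm_none, Fin.insertNth_apply_same,
      Fin.insertNth_apply_same]
  · rw [finSuccEquiv'_succAbove, finSuccEquiv'_symm_some, Fin.insertNth_apply_succAbove,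
      Fin.insertNth_apply_succAbove]

/-- summation over one label -/
theorem tsum_ins {k : ℕ} (f : (Fin (k + 2) → Γ × ι) → ℂ) (hf : Inv f)
    (hs : Summable fun l : NL Γ ι (k + 1) => f l.1) (p : Fin (k + 2)) (G : NL Γ ι k → ℂ)
    (hg : ∀ l' : NL Γ ι k, HasSum (fun x => f (p.insertNth (α := fun _ => Γ × ι) x l'.1)) (G l')) :
    ∑' l : NL Γ ι (k + 1), f l.1 = ∑' l', G l' := by
  have h1 := summable_perm f hf (mvE k p) hs
  have h2 := tsum_perm f hf (mvE k p)
  have h3 := (insE Γ ι k).summable_iff.2 h1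
  have h4 := (insE Γ ι k).tsum_eq fun l => f (l.1 ∘ mvE k p)
  have h5 := h3.hasSum.prod_fiberwise (g := G) fun l' => by
    refine (hg l').congr_fun ?_
    intro x
    exact congrArg f (mvE_ins k p x l'.1)
  rw [h5.tsum_eq, ← h2, ← h4]
  rfl

end

end Vale.Agent.P223.H316
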