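import Vale.Agent.P223.H367.Chords
import Vale.Agent.P223.H566.TruL

/-! Stage 5, block V2c, second half : the theorem `specChdL` (chords of an open subset of `Ω₀`). -/

namespace Vale.Agent.P223.H316.ChL

open scoped ContDiff ENNReal NNReal
open MeasureTheory Set Filter Topology
open Vale.Agent.P223.H765.NC
open Vale.Agent.P223.H566.Chd (chord zero_mem end_mem chord_mono chord_shift isOpen_chord
  isOpen_chord' comp_eq len_pos meas_chord meas_len)
open Vale.Agent.P223.H566.NV (Flo GeoL SpecLiouL SpecKazL SpecPolL SpecChdL)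
open Vale.Agent.P223.H367 (HH meas_HH HH_chord eq_Ioo ham_zero)

variable {n : ℕ}

/-- BLOCK V2c, second half. -/
theorem specChdL (hF : SpecFlow) (hL : SpecLiouL) (hK : SpecKazL) (hP : SpecPolL) : SpecChdL := by
  intro n hn
  obtain ⟨C, hC, hKaz⟩ := hK n hn
  refine ⟨(Real.log 2 / C).toNNReal, fun G Φ Ω₀ hg Ω hΩ hb => ?_⟩
  obtain ⟨hΦ, hadd, -⟩ := hF (J.E n × J.E n) (hv G) Φ
    (H566.ChdG.cd_hv hg.smooth hg.pos) hg.zero hg.flow
  have hU : IsOpen {z : J.E n × J.E n | z.1 ∈ Ω} := hΩ.preimage continuous_fst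
  have hS : MeasurableSet (shl G) := H566.ChdG.meas_shl hg.smooth hg.pos
  have hlen : ∀ z, len Φ Ω z = H566.Chd.len Φ {z | z.1 ∈ Ω} z := by
    intro z
    exact congrArg volume (comp_eq hg.zero {z : J.E n × J.E n | z.1 ∈ Ω} z)
  obtain ⟨R, hR⟩ := H566.TruL.chord_sub hL hg
  have hint : ∀ z ∈ shl G ∩ {z | z.1 ∈ Ω}, ∃ α β, α < 0 ∧ 0 < β ∧
      chord Φ {z | z.1 ∈ Ω} z = Ioo α β := by
    intro z hz
    refine eq_Ioo (R := R + 1) (isOpen_chord' hΦ.continuous hU z) (zero_mem (hg.zero z) hz.2)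
      (fun s hs t ht => chord_mono hs ht) fun t ht => ?_
    have h1 : t ∈ Icc (-R) R := hR Ω hb z hz.1 ht
    constructor <;> linarith [h1.1, h1.2]
  have hfin : ∀ z ∈ shl G ∩ {z | z.1 ∈ Ω}, H566.Chd.len Φ {z | z.1 ∈ Ω} z ≠ ⊤ := by
    intro z hz
    exact H566.TruL.len_fin hL hg hb hz.1
  have hav : ∫⁻ z in shl G ∩ {z | z.1 ∈ Ω}, ((H566.Chd.len Φ {z | z.1 ∈ Ω} z)⁻¹ *
      ∫⁻ s in chord Φ {z | z.1 ∈ Ω} z, HH G Φ Ω (Φ s z)) =
      ∫⁻ z in shl G ∩ {z | z.1 ∈ Ω}, HH G Φ Ω z :=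
    H566.TruL.avg hF hL hg hΩ hb (meas_HH hg.smooth hΦ hΩ)
  have hHH : ∀ z, HH G Φ Ω z = ∫⁻ T in Ioi (0 : ℝ), {T : ℝ | ∀ t ∈ Icc 0 T, (Φ t z).1 ∈ Ω}.indicator
      (fun T => ENNReal.ofReal (bb G Φ T z / T)) T := by
    intro z
    apply setLIntegral_congr_fun measurableSet_Ioi
    intro T hT
    have hT' : 0 < T := hT
    have h2 : T ∈ chord Φ {z | z.1 ∈ Ω} z ↔ T ∈ {T : ℝ | ∀ t ∈ Icc 0 T, (Φ t z).1 ∈ Ω} := by
      unfold chord
      rw [mem_ofPred_eq, uIcc_of_le hT'.le]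
      rfl
    by_cases h : T ∈ {T : ℝ | ∀ t ∈ Icc 0 T, (Φ t z).1 ∈ Ω}
    · rw [indicator_of_mem h, indicator_of_mem (h2.2 h)]
    · rw [indicator_of_notMem h, indicator_of_notMem fun h' => h (h2.1 h')]
  have hC0 : ENNReal.ofReal C ≠ 0 := by
    rw [Ne, ENNReal.ofReal_eq_zero, not_le]
    exact hC
  have main : ENNReal.ofReal C * ∫⁻ z in shl G ∩ {z | z.1 ∈ Ω}, len Φ Ω z ^ n ≤
      ENNReal.ofReal (Real.log 2) * vol G Ω ^ 2 := by
    calc ENNReal.ofReal C * ∫⁻ z in shl G ∩ {z | z.1 ∈ Ω}, len Φ Ω z ^ n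
        = ∫⁻ z in shl G ∩ {z | z.1 ∈ Ω}, ENNReal.ofReal C * len Φ Ω z ^ n := by
          rw [lintegral_const_mul']
          exact ENNReal.ofReal_ne_top
      _ ≤ ∫⁻ z in shl G ∩ {z | z.1 ∈ Ω}, ((H566.Chd.len Φ {z | z.1 ∈ Ω} z)⁻¹ *
            ∫⁻ s in chord Φ {z | z.1 ∈ Ω} z, HH G Φ Ω (Φ s z)) := by
          apply setLIntegral_mono' (hS.inter hU.measurableSet)
          intro z hz
          obtain ⟨α, β, ha, hb', h⟩ := hint z hz
          have hl : H566.Chd.len Φ {z | z.1 ∈ Ω} z = ENNReal.ofReal (β - α) := by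
            rw [H566.Chd.len, h, Real.volume_Ioo]
          have hl0 := len_pos hΦ.continuous hg.zero hU hz.2
          have hlt := hfin z hz
          rw [HH_chord hadd h]
          calc ENNReal.ofReal C * len Φ Ω z ^ n
              = (H566.Chd.len Φ {z | z.1 ∈ Ω} z)⁻¹ *
                  ENNReal.ofReal (C * (β - α) ^ (n + 1)) := by
                rw [ENNReal.ofReal_mul hC.le, ENNReal.ofReal_pow (by linarith), ← hl, hlen,
                  pow_succ]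
                set ℓ := H566.Chd.len Φ {z | z.1 ∈ Ω} z
                calc ENNReal.ofReal C * ℓ ^ n = ENNReal.ofReal C * ℓ ^ n * (ℓ⁻¹ * ℓ) := by
                      rw [ENNReal.inv_mul_cancel hl0.ne' hlt, mul_one]
                  _ = ℓ⁻¹ * (ENNReal.ofReal C * (ℓ ^ n * ℓ)) := by ring
            _ ≤ _ := by
                gcongr
                refine hKaz G Φ Ω₀ hg z α β (by linarith) fun t ht => ?_
                have h3 : t ∈ chord Φ {z | z.1 ∈ Ω} z := by rw [h]; exact ht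
                exact hb (end_mem h3)
      _ = ∫⁻ z in shl G ∩ {z | z.1 ∈ Ω}, HH G Φ Ω z := hav
      _ ≤ ∫⁻ z in shl G, HH G Φ Ω z := lintegral_mono_set inter_subset_left
      _ ≤ ENNReal.ofReal (Real.log 2) * vol G Ω ^ 2 := by
          simp only [hHH]
          exact hP n G Φ Ω₀ hn hg Ω hΩ hb
  calc ∫⁻ z in shl G ∩ {z | z.1 ∈ Ω}, len Φ Ω z ^ n
      = (ENNReal.ofReal C)⁻¹ * (ENNReal.ofReal C *
          ∫⁻ z in shl G ∩ {z | z.1 ∈ Ω}, len Φ Ω z ^ n) := by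
        rw [← mul_assoc, ENNReal.inv_mul_cancel hC0 ENNReal.ofReal_ne_top, one_mul]
    _ ≤ (ENNReal.ofReal C)⁻¹ * (ENNReal.ofReal (Real.log 2) * vol G Ω ^ 2) := by gcongr
    _ = ((Real.log 2 / C).toNNReal : ℝ≥0∞) * vol G Ω ^ 2 := by
        have h1 : ((Real.log 2 / C).toNNReal : ℝ≥0∞) = ENNReal.ofReal (Real.log 2 / C) := rfl
        rw [h1, ENNReal.ofReal_div_of_pos hC, div_eq_mul_inv]
        ring

end Vale.Agent.P223.H316.ChL
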