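import Vale.Agent.P223.H316.Ins2

/-! BLOCK K5 : recursion and absolute convergence. -/

namespace Vale.Agent.P223.H316

open scoped ENNReal InnerProductSpace
open MeasureTheory Vale.Agent.P223.H566 PowerSeries

theorem cc {Γ : Type} [Group Γ] {n : ℕ} {F : (Fin (n + 1) → Γ) → ℝ} (hF : Coc F) : Cc F := ⟨hF.bdd, hF.inv, hF.alt, hF.coc⟩

section ws
variable {n : ℕ} {Γ ι H : Type} [Group Γ] [Countable Γ] [Fintype ι] [NormedAddCommGroup H]
  [InnerProductSpace ℂ H] [CompleteSpace H] {a h k : Γ × ι → H →L[ℂ] H} {W g p : H →L[ℂ] H}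
  {m : ℝ} {w : Γ → ℝ} {A : ℕ → ℝ}

/-- the word system -/
noncomputable def wsH (hTC : SpecTC) (hw : ∀ γ, 0 ≤ w γ) (hs : Summable w)
    (hA : Alg n m a h W g p) (hD : Dec n m a h g p k w A) : WS n Γ ι (H →L[ℂ] H) where
  T := tiH hTC
  lam := m ^ 2
  G := g
  P := p
  Om := W
  a := a
  h := h
  χ := k
  U γ := ⟨hA.tr.choose γ, hA.tr.choose_spec.choose γ,
    (hA.tr.choose_spec.choose_spec.1 γ).1, (hA.tr.choose_spec.choose_spec.1 γ).2⟩
  GP := hA.gp
  PP := by rw [hA.pp]; push_cast; rfl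
  aG := hA.ag
  PaG l := by
    rw [← hA.pag l]; abel
  PaP l := by rw [Alg.pap hA]; push_cast; rfl
  a_a := hA.aa
  a_h := hA.ah
  Om_a := hA.Wa
  Om_G := hA.Wg
  Om_h := hA.Wh
  Om_P := hA.Wp
  χa l := (hD.ka l).1
  aχ l := (hD.ka l).2
  χh l := (hD.kh l).1
  hχ l := (hD.kh l).2
  U_a γ l := hA.tr.choose_spec.choose_spec.2.2.1 γ l
  U_h γ l := hA.tr.choose_spec.choose_spec.2.2.2.1 γ l
  U_G γ := (hA.tr.choose_spec.choose_spec.2.2.2.2 γ).1
  U_P γ := (hA.tr.choose_spec.choose_spec.2.2.2.2 γ).2.1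
  U_Om γ := (hA.tr.choose_spec.choose_spec.2.2.2.2 γ).2.2
  Ca := A 0
  a_le l := (hD.na l).1
  h_le l := (hD.na l).2
  w := w
  w_nonneg := hw
  w_sum := hs
  bd i j := ws_bd hA hD i j
  m := n / 2 + 1
  nuc i j hj := ws_nuc hTC hw hA hD i j hj
  nucl := by
    have main : ∀ i : ℕ, (∀ j : ℕ, n / 2 + 1 ≤ j → ∀ l, (tiH hTC).nn (k l * p ^ i * g ^ j) ≠ ⊤) ∧
        (∀ j : ℕ, n / 2 + 1 ≤ j → ∀ l, (tiH hTC).nn (k l * p ^ (i + 1) * g ^ j) ≠ ⊤) := by
      intro i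
      induction i with
      | zero =>
        refine ⟨fun j hj l => ?_, fun j hj l => ?_⟩
        · rw [pow_zero, mul_one]
          obtain ⟨b, hb⟩ := nucl_aux hTC hw hs hA hD (g ^ j) l _ (fun l' => hD.ng j (by omega) l l')
          exact nnH_ne hb
        · rw [zero_add, pow_one, mul_assoc]
          obtain ⟨b, hb⟩ := nucl_aux hTC hw hs hA hD (p * g ^ j) l _
            (fun l' => hD.np j (by omega) l l')
          exact nnH_ne hb
      | succ i ih =>
        refine ⟨ih.2, fun j hj l => ?_⟩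
        have e : k l * p ^ (i + 1 + 1) * g ^ j = ((m : ℂ) ^ 2) • (k l * p ^ i * g ^ (j + 2)) +
            (-1 : ℂ) • (k l * p ^ i * g ^ (j + 1)) := by
          rw [mul_assoc (k l), show i + 1 + 1 = i + 2 from rfl, p_pow hA, mul_sub,
            mul_smul_comm, neg_one_smul, ← sub_eq_add_neg]
          simp only [mul_assoc]
        rw [e]
        exact (tiH hTC).ne_add ((tiH hTC).ne_smul _ (ih.1 (j + 2) (by omega) l))
          ((tiH hTC).ne_smul _ (ih.1 (j + 1) (by omega) l))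
    exact fun i => (main i).1
  nucr := by
    have main : ∀ i : ℕ, (∀ j : ℕ, n / 2 + 1 ≤ j → ∀ l, (tiH hTC).nn (p ^ i * g ^ j * k l) ≠ ⊤) ∧
        (∀ j : ℕ, n / 2 + 1 ≤ j → ∀ l, (tiH hTC).nn (p ^ (i + 1) * g ^ j * k l) ≠ ⊤) := by
      intro i
      induction i with
      | zero =>
        refine ⟨fun j hj l => ?_, fun j hj l => ?_⟩
        · rw [pow_zero, one_mul]
          obtain ⟨b, hb⟩ := nucr_aux hTC hw hs hA hD (g ^ j) l _ (fun l' => hD.ng j (by omega) l' l)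
          exact nnH_ne hb
        · rw [zero_add, pow_one]
          obtain ⟨b, hb⟩ := nucr_aux hTC hw hs hA hD (p * g ^ j) l _
            (fun l' => hD.np j (by omega) l' l)
          exact nnH_ne hb
      | succ i ih =>
        refine ⟨ih.2, fun j hj l => ?_⟩
        have e : p ^ (i + 1 + 1) * g ^ j * k l = ((m : ℂ) ^ 2) • (p ^ i * g ^ (j + 2) * k l) +
            (-1 : ℂ) • (p ^ i * g ^ (j + 1) * k l) := by
          rw [show i + 1 + 1 = i + 2 from rfl, p_pow hA, sub_mul,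
            smul_mul_assoc, neg_one_smul, ← sub_eq_add_neg]
        rw [e]
        exact (tiH hTC).ne_add ((tiH hTC).ne_smul _ (ih.1 (j + 2) (by omega) l))
          ((tiH hTC).ne_smul _ (ih.1 (j + 1) (by omega) l))
    exact fun i => (main i).1
  sum_a S hS := by
    obtain ⟨b, hb⟩ := exists_nuc hS
    obtain ⟨B, hB⟩ := hA.bda
    have := (hTC H).2.2.2.2 (Γ × ι) a 1 S B b (fun t x => (hB t x).1) (fun x => hA.suma x) hb
    rwa [one_mul] at this
  sum_h S hS := by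
    obtain ⟨b, hb⟩ := exists_nuc hS
    obtain ⟨B, hB⟩ := hA.bda
    have := (hTC H).2.2.2.2 (Γ × ι) h 0 S B b (fun t x => (hB t x).2) (fun x => hA.sumh x) hb
    rw [zero_mul] at this
    have h0 : trH (0 : H →L[ℂ] H) = 0 := (tiH hTC).tr_zero
    rwa [h0] at this

/-- threshold -/
def k5 (n : ℕ) : ℕ := (n / 2 + 1) * (n + 2) + 2

theorem rK_eq (hTC : SpecTC) (hw : ∀ γ, 0 ≤ w γ) (hs : Summable w)
    (hA : Alg n m a h W g p) (hD : Dec n m a h g p k w A) (F : (Fin (n + 1) → Γ) → ℝ)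
    (K : ℕ) (hK : (n / 2 + 1) * (n + 1) ≤ K) :
    rK a h W g F K = (wsH hTC hw hs hA hD).N (lF F) K (.a :: .g :: HG n) := by
  unfold rK
  rw [WS.N_eq]
  refine tsum_congr fun l => ?_
  rw [tv_exp _ K hK]
  rfl

end ws

/-- BLOCK K5, the threshold depends only on `n` -/
theorem specRecU (hTC : SpecTC) : ∀ n : ℕ, ∃ k₀ : ℕ, ∀ (Γ ι H : Type) [Group Γ] [Countable Γ]
    [Fintype ι] [NormedAddCommGroup H] [InnerProductSpace ℂ H] [CompleteSpace H]
    (a h k : Γ × ι → H →L[ℂ] H) (W g p : H →L[ℂ] H)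
    (m : ℝ) (w : Γ → ℝ) (A : ℕ → ℝ) (F : (Fin (n + 1) → Γ) → ℝ), 1 ≤ n → 0 < m →
    (∀ γ, 0 ≤ w γ) → Summable w → Alg n m a h W g p → Dec n m a h g p k w A → Coc F →
    ∀ k, k₀ ≤ k →
      Summable (fun l : {l : Fin (n + 1) → Γ × ι // (l 0).1 = 1} =>
        (F (fun i => (l.1 i).1) : ℂ) *
          ∑ j ∈ Finset.Nat.antidiagonalTuple (n + 1) k, trH (W * wrd a h g j l.1)) ∧
      ((k : ℂ) + 1) * (m : ℂ) ^ 2 * rK a h W g F (k + 1) =
        ((n : ℂ) / 2 + 1 + k) * rK a h W g F k := by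
  intro n
  refine ⟨k5 n, fun Γ ι H _ _ _ _ _ _ a h k W g p m w A F hn hm hw hs hA hD hF K hK => ?_⟩
  unfold k5 at hK
  have hK1 : (n / 2 + 1) * (n + 1) ≤ (n / 2 + 1) * (n + 2) := Nat.mul_le_mul_left _ (by omega)
  constructor
  · have := (wsH hTC hw hs hA hD).sum_tv (.a :: .g :: HG n) K n good_w0.1
      ((Nat.mul_le_mul_left _ good_w0.2).trans (by change (n / 2 + 1) * (n + 2) ≤ K; omega))
      (by omega) (lF F) (lF_le (cc hF))
    refine this.congr fun l => ?_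
    rw [tv_exp _ K (by change (n / 2 + 1) * (n + 1) ≤ K; omega)]
    rfl
  · obtain ⟨K', rfl⟩ : ∃ K', K = K' + 1 := ⟨K - 1, by omega⟩
    have h1 := N_rec (wsH hTC hw hs hA hD) (cc hF) (K := K') (by omega)
      (by change (n / 2 + 1) * (n + 2) ≤ K'; omega) hn
    rw [rK_eq hTC hw hs hA hD F (K' + 1) (by omega),
      rK_eq hTC hw hs hA hD F (K' + 1 + 1) (by omega)]
    have h2 : ((wsH hTC hw hs hA hD).lam : ℂ) = (m : ℂ) ^ 2 := by
      change ((m ^ 2 : ℝ) : ℂ) = _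
      push_cast; rfl
    rw [h2] at h1
    push_cast
    linear_combination (-(1 / 2) : ℂ) * h1

end Vale.Agent.P223.H316
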