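import Vale.Agent.P223.H316.Shift
import Vale.Agent.P223.H316.Rec
import Vale.Agent.P223.H391.Grow

/-! Continuation of the Taylor coefficients in `λ = m²`: abstract part. -/

namespace Vale.Agent.P223.H316

open scoped InnerProductSpace
open PowerSeries Vale.Agent.P223.H566 Vale.Agent.P223.H391

section
variable {H : Type} [NormedAddCommGroup H] [InnerProductSpace ℂ H] [CompleteSpace H]

theorem nuc_left {T : H →L[ℂ] H} {b : ℝ} (h : Nuc T b) (S : H →L[ℂ] H) : Nuc (S * T) (‖S‖ * b) := by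
  have h1 := ((H691.specTC H).1 T S 1 b h).1
  rw [mul_one] at h1
  exact nuc_mono h1 (mul_le_of_le_one_right (mul_nonneg (norm_nonneg _) (nuc_nonneg h))
    norm_one_le')

theorem nuc_right {T : H →L[ℂ] H} {b : ℝ} (h : Nuc T b) (S : H →L[ℂ] H) : Nuc (T * S) (b * ‖S‖) := by
  have h1 := ((H691.specTC H).1 T 1 S b h).1
  rw [one_mul] at h1
  exact nuc_mono h1 (mul_le_mul_of_nonneg_right (mul_le_of_le_one_left (nuc_nonneg h)
    norm_one_le') (norm_nonneg _))

/-- nuclear norms of products -/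
theorem nuc_prod {D : ℝ} (hD : 0 ≤ D) {N : ℕ} : ∀ (x : Fin N → H →L[ℂ] H) (y : Fin N → ℝ),
    (∀ i, ‖x i‖ ≤ y i) → (∃ i, Nuc (x i) (D * y i)) → Nuc (List.ofFn x).prod (D * ∏ i, y i) := by
  have hn : ∀ {N : ℕ} (x : Fin N → H →L[ℂ] H) (y : Fin N → ℝ), (∀ i, ‖x i‖ ≤ y i) →
      ‖(List.ofFn x).prod‖ ≤ ∏ i, y i := by
    intro N
    induction N with
    | zero => intro x y _; simpa using norm_one_le'
    | succ N ih =>
      intro x y hxy
      rw [List.ofFn_succ, List.prod_cons, Fin.prod_univ_succ]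
      exact (norm_mul_le _ _).trans (mul_le_mul (hxy 0) (ih _ _ fun i => hxy i.succ)
        (norm_nonneg _) ((norm_nonneg _).trans (hxy 0)))
  induction N with
  | zero => rintro x y - ⟨i, -⟩; exact i.elim0
  | succ N ih =>
    rintro x y hxy ⟨i, hi⟩
    rw [List.ofFn_succ, List.prod_cons, Fin.prod_univ_succ]
    have hy : ∀ i, 0 ≤ y i := fun i => (norm_nonneg _).trans (hxy i)
    have hP : 0 ≤ ∏ i : Fin N, y i.succ := Finset.prod_nonneg fun i _ => hy _
    revert hi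
    refine Fin.cases (fun hi => ?_) (fun i hi => ?_) i
    · refine nuc_mono (nuc_right hi _) ?_
      rw [← mul_assoc]
      exact mul_le_mul_of_nonneg_left (hn _ _ fun i => hxy i.succ)
        (mul_nonneg hD (hy 0))
    · refine nuc_mono (nuc_left (ih (fun i => x i.succ) (fun i => y i.succ)
        (fun i => hxy i.succ) ⟨i, hi⟩) _) ?_
      calc ‖x 0‖ * (D * ∏ i : Fin N, y i.succ) ≤ y 0 * (D * ∏ i : Fin N, y i.succ) :=
            mul_le_mul_of_nonneg_right (hxy 0) (mul_nonneg hD hP)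
        _ = _ := by ring

theorem nuc_fsum {κ : Type} (s : Finset κ) (T : κ → H →L[ℂ] H) (b : κ → ℝ)
    (h : ∀ i ∈ s, Nuc (T i) (b i)) : Nuc (∑ i ∈ s, T i) (∑ i ∈ s, b i) ∧
      trH (∑ i ∈ s, T i) = ∑ i ∈ s, trH (T i) := by
  classical
  induction s using Finset.induction_on with
  | empty =>
    simp only [Finset.sum_empty]
    exact ⟨nuc_zero, (tiH H691.specTC).tr_zero⟩
  | insert i s hi ih =>
    rw [Finset.sum_insert hi, Finset.sum_insert hi, Finset.sum_insert hi]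
    have h1 := ih fun j hj => h j (Finset.mem_insert_of_mem hj)
    have h2 := (H691.specTC H).2.1 _ _ _ _ (h i (Finset.mem_insert_self _ _)) h1.1
    exact ⟨h2.1, by rw [h2.2, h1.2]⟩

/-- summability -/
theorem summable_cf {t q : ℝ} (ht : 0 ≤ t) (hq : 0 < q) (h : t * q < 1) (K N : ℕ) :
    Summable fun i : ℕ => cf t i K * (((i : ℝ) + 1) ^ N * q ^ i) := by
  obtain ⟨ρ, h1, h2⟩ : ∃ ρ, t < ρ ∧ ρ * q < 1 := by
    refine ⟨(t + 1 / q) / 2, ?_, ?_⟩
    · have : t < 1 / q := by rwa [lt_div_iff₀ hq]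
      linarith
    · have : (t + 1 / q) / 2 * q = (t * q + 1) / 2 := by field_simp
      rw [this]; linarith
  have hρ : 0 < ρ := lt_of_le_of_lt ht h1
  have hσ : 0 < ρ - t := by linarith
  have h3 : Summable fun i : ℕ => (((i + 1 : ℕ) : ℝ) ^ N * (ρ * q) ^ (i + 1)) :=
    (summable_nat_add_iff 1).2 (summable_pow_mul_geometric_of_norm_lt_one N (r := ρ * q) (by
      rw [Real.norm_of_nonneg (by positivity)]; exact h2))
  refine Summable.of_nonneg_of_le (fun i => mul_nonneg (cf_nonneg ht _ _) (by positivity))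
    (fun i => ?_) (h3.mul_left (((ρ - t) ^ K)⁻¹ * (ρ * q)⁻¹))
  have h4 := cf_le ht hσ.le i K
  rw [add_sub_cancel] at h4
  have h5 : 0 < (ρ - t) ^ K := pow_pos hσ _
  have h6 : cf t i K ≤ ((ρ - t) ^ K)⁻¹ * ρ ^ i := by
    rw [← div_eq_inv_mul, le_div_iff₀ h5]; exact h4
  calc _ ≤ (((ρ - t) ^ K)⁻¹ * ρ ^ i) * (((i : ℝ) + 1) ^ N * q ^ i) :=
        mul_le_mul_of_nonneg_right h6 (by positivity)
    _ = _ := by
        have : ρ * q ≠ 0 := by positivity
        rw [pow_succ, mul_pow]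
        push_cast
        field_simp

variable {Λ : Type} {n : ℕ}

/-- nuclear norm of a word -/
theorem nuc_wd {A : Fin (n + 1) → Λ → H →L[ℂ] H} {G : H →L[ℂ] H} {q : ℝ} (hq : 0 < q)
    (hG : ‖G‖ ≤ q) {m : ℕ} (l : Fin (n + 1) → Λ) (hnuc : ∀ p, ∃ b, Nuc (A p (l p) * G ^ m) b) :
    ∃ D : ℝ, 0 ≤ D ∧ ∀ j : Fin (n + 1) → ℕ, (∃ p, m ≤ j p + 1) →
      Nuc (H391.wd A G (fun i => j i + 1) l) (D * q ^ (∑ i, j i)) := by
  choose b hb using hnuc
  set α : ℝ := (∑ p, ‖A p (l p)‖) + 1 with hα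
  have hα1 : ∀ p, ‖A p (l p)‖ ≤ α := fun p =>
    (Finset.single_le_sum (f := fun p => ‖A p (l p)‖) (fun _ _ => norm_nonneg _)
      (Finset.mem_univ p)).trans (by linarith)
  have hα0 : 0 < α := lt_of_lt_of_le one_pos
    (by rw [hα]; exact le_add_of_nonneg_left (Finset.sum_nonneg fun _ _ => norm_nonneg _))
  set β : ℝ := ∑ p, b p with hβ
  have hβ1 : ∀ p, b p ≤ β := fun p =>
    Finset.single_le_sum (f := b) (fun p _ => nuc_nonneg (hb p)) (Finset.mem_univ p)
  have hβ0 : 0 ≤ β := Finset.sum_nonneg fun p _ => nuc_nonneg (hb p)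
  set D : ℝ := β / (α * q ^ m) with hD
  have hD0 : 0 ≤ D := by positivity
  refine ⟨D * (α * q) ^ (n + 1), by positivity, fun j hj => ?_⟩
  obtain ⟨p, hp⟩ := hj
  have h1 := nuc_prod hD0 (fun i => A i (l i) * G ^ (j i + 1)) (fun i => α * q ^ (j i + 1))
    (fun i => (norm_mul_le _ _).trans (mul_le_mul (hα1 i)
      ((norm_pow_le' _ (Nat.succ_pos _)).trans (pow_le_pow_left₀ (norm_nonneg _) hG _))
      (norm_nonneg _) hα0.le)) ⟨p, ?_⟩
  · have e : D * ∏ i, (α * q ^ (j i + 1)) = D * (α * q) ^ (n + 1) * q ^ (∑ i, j i) := by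
      rw [Finset.prod_mul_distrib, Finset.prod_const, Finset.card_univ, Fintype.card_fin,
        Finset.prod_pow_eq_pow_sum, Finset.sum_add_distrib]
      simp only [Finset.sum_const, Finset.card_univ, Fintype.card_fin, smul_eq_mul, mul_one,
        pow_add, mul_pow]
      ring
    rw [← e]
    exact h1
  · have e : A p (l p) * G ^ (j p + 1) = (A p (l p) * G ^ m) * G ^ (j p + 1 - m) := by
      rw [mul_assoc, ← pow_add, Nat.add_sub_cancel' hp]
    rw [e]
    have hpow : ‖G ^ (j p + 1 - m)‖ ≤ q ^ (j p + 1 - m) := by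
      rcases Nat.eq_zero_or_pos (j p + 1 - m) with h0 | h0
      · rw [h0, pow_zero, pow_zero]; exact norm_one_le'
      · exact (norm_pow_le' _ h0).trans (pow_le_pow_left₀ (norm_nonneg _) hG _)
    refine nuc_mono (nuc_right (hb p) _) ?_
    have e2 : D * (α * q ^ (j p + 1)) = β * q ^ (j p + 1 - m) := by
      rw [hD, pow_sub₀ _ hq.ne' hp]
      field_simp
    rw [e2]
    exact mul_le_mul (hβ1 p) hpow (norm_nonneg _) hβ0

end

end Vale.Agent.P223.H316
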