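import Vale.Agent.P223.H316.Cont

/-! Continuation of the Taylor coefficients in `λ = m²`: abstract part. -/

namespace Vale.Agent.P223.H316

open scoped InnerProductSpace
open PowerSeries Vale.Agent.P223.H566 Vale.Agent.P223.H391

section
variable {H : Type} [NormedAddCommGroup H] [InnerProductSpace ℂ H] [CompleteSpace H]
  {Λ : Type} {n : ℕ}

/-- traces of the Taylor coefficients -/
noncomputable def tk (A : Fin (n + 1) → Λ → H →L[ℂ] H) (G : H →L[ℂ] H) (K : ℕ)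
    (l : Fin (n + 1) → Λ) : ℂ :=
  ∑ j ∈ Finset.Nat.antidiagonalTuple (n + 1) K, trH (H391.wd A G (fun i => j i + 1) l)

omit [CompleteSpace H] in
theorem coeff_wd (A : Fin (n + 1) → Λ → H →L[ℂ] H) (G : H →L[ℂ] H) (K : ℕ)
    (l : Fin (n + 1) → Λ) : coeff K (wz (fun i => A i (l i)) G) =
      ∑ j ∈ Finset.Nat.antidiagonalTuple (n + 1) K, H391.wd A G (fun i => j i + 1) l :=
  coeff_wz _ _ _

theorem nuc_coeff {A : Fin (n + 1) → Λ → H →L[ℂ] H} {G : H →L[ℂ] H} {q : ℝ} (hq : 0 < q)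
    (hG : ‖G‖ ≤ q) {m : ℕ} (l : Fin (n + 1) → Λ) (hnuc : ∀ p, ∃ b, Nuc (A p (l p) * G ^ m) b) :
    ∃ D : ℝ, 0 ≤ D ∧ ∀ K, m * (n + 1) ≤ K →
      Nuc (coeff K (wz (fun i => A i (l i)) G)) (((K : ℝ) + 1) ^ (n + 1) * (D * q ^ K)) ∧
      trH (coeff K (wz (fun i => A i (l i)) G)) = tk A G K l := by
  obtain ⟨D, hD0, hD⟩ := nuc_wd (A := A) hq hG l hnuc
  refine ⟨D, hD0, fun K hK => ?_⟩
  have h1 := nuc_fsum (Finset.Nat.antidiagonalTuple (n + 1) K)
    (fun j => H391.wd A G (fun i => j i + 1) l) (fun _ => D * q ^ K) fun j hj => by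
      have hj' := Finset.Nat.mem_antidiagonalTuple.1 hj
      have := hD j (exists_big m n K hK j hj')
      rwa [hj'] at this
  rw [coeff_wd]
  refine ⟨nuc_mono h1.1 ?_, h1.2⟩
  rw [Finset.sum_const, nsmul_eq_mul]
  refine mul_le_mul_of_nonneg_right ?_ (by positivity)
  have := card_comp_le (n + 1) K (Finset.Nat.antidiagonalTuple (n + 1) K)
    fun j hj => Finset.Nat.mem_antidiagonalTuple.1 hj
  exact_mod_cast this

theorem exists_rho {t q : ℝ} (ht : 0 ≤ t) (hq : 0 < q) (h : t * q < 1) :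
    ∃ ρ, t < ρ ∧ q * ρ < 1 := by
  refine ⟨(t + 1 / q) / 2, ?_, ?_⟩
  · have : t < 1 / q := by rwa [lt_div_iff₀ hq]
    linarith
  · have : q * ((t + 1 / q) / 2) = (t * q + 1) / 2 := by field_simp
    rw [this]; linarith

theorem hasSum_sh {B : Type} [NormedRing B] [NormedAlgebra ℂ B] [CompleteSpace B]
    {f : PowerSeries B} {ρ t : ℝ} (hf : Sm ρ f) (ht : 0 ≤ t) (h : t < ρ) (k : ℕ) :
    HasSum (fun i => (cf t i k : ℂ) • coeff i f) (coeff k (sh t f)) := by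
  rw [coeff_sh]
  refine (Summable.of_norm ?_).hasSum
  simp only [norm_cf_smul ht]
  exact hf.cf ht h k

/-- nuclearity is preserved -/
theorem nuc_shift {X G G' : H →L[ℂ] H} {t q : ℝ} (ht : 0 ≤ t) (hq : 0 < q) (htq : t * q < 1)
    (hG : ‖G‖ ≤ q) (hGG : G' = G + (t : ℂ) • (G * G')) {m : ℕ} (hm : 1 ≤ m) {b : ℝ}
    (hb : Nuc (X * G ^ m) b) {m' : ℕ} (hm' : m ≤ m') : ∃ b', Nuc (X * G' ^ m') b' := by
  obtain ⟨ρ, h1, h2⟩ := exists_rho ht hq htq
  have h3 : ‖G‖ * ρ < 1 := (mul_le_mul_of_nonneg_right hG (ht.trans h1.le)).trans_lt h2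
  have h4 := hasSum_sh (Sm_gz (ht.trans h1.le) h3) ht h1 (m' - 1)
  rw [sh_gz hGG ht h1 h3] at h4
  simp only [gz, coeff_mk] at h4
  rw [Nat.sub_add_cancel (hm.trans hm')] at h4
  have hb0 := nuc_nonneg hb
  have h5 := ((H691.specTC H).2.2.2.1 ℕ
    (fun i => (cf t i (m' - 1) : ℂ) • (X * G ^ (i + 1))) (X * G' ^ m')
    (fun i => cf t i (m' - 1) * (((i : ℝ) + 1) ^ 0 * q ^ i) * (b * (q * (q ^ m)⁻¹))) (fun i => ?_)
    ((summable_cf ht hq htq (m' - 1) 0).mul_right _) fun x => ?_).1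
  · exact ⟨_, h5⟩
  · by_cases hi : i < m' - 1
    · rw [cf_zero hi, Complex.ofReal_zero, zero_smul, zero_mul, zero_mul]; exact nuc_zero
    · have e : X * G ^ (i + 1) = (X * G ^ m) * G ^ (i + 1 - m) := by
        rw [mul_assoc, ← pow_add, Nat.add_sub_cancel' (by omega)]
      have h6 := ((H691.specTC H).2.2.1 _ _ (cf t i (m' - 1) : ℂ)
        (nuc_right hb (G ^ (i + 1 - m)))).1
      rw [e]
      refine nuc_mono h6 ?_
      have hpow : ‖G ^ (i + 1 - m)‖ ≤ q ^ (i + 1 - m) := by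
        rcases Nat.eq_zero_or_pos (i + 1 - m) with h0 | h0
        · rw [h0, pow_zero, pow_zero]; exact norm_one_le'
        · exact (norm_pow_le' _ h0).trans (pow_le_pow_left₀ (norm_nonneg _) hG _)
      have e2 : q ^ (i + 1 - m) = q ^ i * (q * (q ^ m)⁻¹) := by
        rw [pow_sub₀ _ hq.ne' (by omega), pow_succ]; ring
      rw [Complex.norm_real, Real.norm_of_nonneg (cf_nonneg ht _ _), pow_zero, one_mul, mul_assoc]
      refine mul_le_mul_of_nonneg_left ?_ (cf_nonneg ht _ _)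
      calc b * ‖G ^ (i + 1 - m)‖ ≤ b * q ^ (i + 1 - m) := mul_le_mul_of_nonneg_left hpow hb0
        _ = _ := by rw [e2]; ring
  · have h7 := (h4.mapL (ContinuousLinearMap.apply ℂ H x)).mapL X
    refine h7.congr_fun fun i => ?_
    simp only [smul_apply, mul_apply_eq_comp, ContinuousLinearMap.apply_apply, map_smul]

/-- shift of one trace -/
theorem shift_tk {A : Fin (n + 1) → Λ → H →L[ℂ] H} {G G' : H →L[ℂ] H} {t q : ℝ} (ht : 0 ≤ t)
    (hq : 0 < q) (htq : t * q < 1) (hG : ‖G‖ ≤ q) (hGG : G' = G + (t : ℂ) • (G * G')) {m : ℕ}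
    (hm : 1 ≤ m) (l : Fin (n + 1) → Λ) (hnuc : ∀ p, ∃ b, Nuc (A p (l p) * G ^ m) b) {K : ℕ}
    (hK : m * (n + 1) ≤ K) : HasSum (fun i => (cf t i K : ℂ) * tk A G i l) (tk A G' K l) := by
  obtain ⟨ρ, h1, h2⟩ := exists_rho ht hq htq
  have h3 : ‖G‖ * ρ < 1 := (mul_le_mul_of_nonneg_right hG (ht.trans h1.le)).trans_lt h2
  have h4 := hasSum_sh (Sm_wz (fun i => A i (l i)) (ht.trans h1.le) h3) ht h1 K
  rw [sh_wz _ hGG ht h1 h3] at h4
  obtain ⟨D, hD0, hD⟩ := nuc_coeff (A := A) hq hG l hnuc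
  -- nuclearity for `G'`
  obtain ⟨q', hq', hG'⟩ : ∃ q' : ℝ, 0 < q' ∧ ‖G'‖ ≤ q' :=
    ⟨‖G'‖ + 1, by positivity, by linarith⟩
  obtain ⟨D', hD0', hD'⟩ := nuc_coeff (A := A) (G := G') hq' hG' (m := m) l fun p => by
    obtain ⟨b, hb⟩ := hnuc p
    exact nuc_shift ht hq htq hG hGG hm hb le_rfl
  have h5 := ((H691.specTC H).2.2.2.1 ℕ
    (fun i => (cf t i K : ℂ) • coeff i (wz (fun i => A i (l i)) G))
    (coeff K (wz (fun i => A i (l i)) G'))
    (fun i => cf t i K * (((i : ℝ) + 1) ^ (n + 1) * q ^ i) * D) (fun i => ?_)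
    ((summable_cf ht hq htq K (n + 1)).mul_right D) fun x => ?_).2
  · rw [(hD' K hK).2] at h5
    refine h5.congr_fun fun i => ?_
    by_cases hi : i < K
    · rw [cf_zero hi, Complex.ofReal_zero, zero_mul, zero_smul]
      exact (tiH H691.specTC).tr_zero.symm
    · rw [((H691.specTC H).2.2.1 _ _ (cf t i K : ℂ) (hD i (by omega)).1).2, (hD i (by omega)).2]
  · by_cases hi : i < K
    · rw [cf_zero hi, Complex.ofReal_zero, zero_smul, zero_mul, zero_mul]; exact nuc_zero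
    · have h6 := ((H691.specTC H).2.2.1 _ _ (cf t i K : ℂ) (hD i (by omega)).1).1
      refine nuc_mono h6 (le_of_eq ?_)
      rw [Complex.norm_real, Real.norm_of_nonneg (cf_nonneg ht _ _)]
      ring
  · exact h4.mapL (ContinuousLinearMap.apply ℂ H x)

end

end Vale.Agent.P223.H316
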