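import Vale.Agent.P223.H316.Cont2
import Mathlib.Analysis.Analytic.Binomial

/-! Continuation of the Taylor coefficients in `λ = m²`: sums over labels, closed form. -/

namespace Vale.Agent.P223.H316

open scoped InnerProductSpace
open PowerSeries Vale.Agent.P223.H566 Vale.Agent.P223.H391

section
variable {H : Type} [NormedAddCommGroup H] [InnerProductSpace ℂ H] [CompleteSpace H]
  {Λ Y : Type} {n : ℕ}

/-- shift of sums over labels (`Y` = set of labels) -/
theorem shift_sum {A : Fin (n + 1) → Λ → H →L[ℂ] H} {G G' : H →L[ℂ] H} {t q r : ℝ} (ht : 0 ≤ t)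
    (hq : 0 < q) (htq : t * q < 1) (hG : ‖G‖ ≤ q) (hGG : G' = G + (t : ℂ) • (G * G')) {m : ℕ}
    (hm : 1 ≤ m) (y : Y → Fin (n + 1) → Λ) (F : Y → ℂ)
    (hnuc : ∀ l p, ∃ b, Nuc (A p (y l p) * G ^ m) b) {K₁ N : ℕ} {D : ℝ} (hr : 0 < r)
    (htr : t * r < 1)
    (hgr : ∀ i, K₁ ≤ i → ∀ T : Finset Y, ∑ l ∈ T, ‖F l * tk A G i (y l)‖ ≤
      D * ((i : ℝ) + 1) ^ N * r ^ i) {K : ℕ} (hK : m * (n + 1) ≤ K) (hK₁ : K₁ ≤ K) :
    HasSum (fun i => (cf t i K : ℂ) * ∑' l, F l * tk A G i (y l))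
      (∑' l, F l * tk A G' K (y l)) := by
  set f : ℕ × Y → ℂ := fun x => (cf t x.1 K : ℂ) * (F x.2 * tk A G x.1 (y x.2)) with hf
  have hD : 0 ≤ D := by
    have := hgr K hK₁ ∅
    rw [Finset.sum_empty] at this
    by_contra hneg
    push Not at hneg
    have h2 : D * ((K : ℝ) + 1) ^ N * r ^ K < 0 :=
      mul_neg_of_neg_of_pos (mul_neg_of_neg_of_pos hneg (by positivity)) (by positivity)
    linarith
  have hnorm : ∀ i (l : Y), ‖f (i, l)‖ = cf t i K * ‖F l * tk A G i (y l)‖ := by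
    intro i l
    rw [hf, norm_mul, Complex.norm_real, Real.norm_of_nonneg (cf_nonneg ht _ _)]
  have h1 : ∀ i, ∀ T : Finset Y, ∑ l ∈ T, ‖f (i, l)‖ ≤
      cf t i K * (((i : ℝ) + 1) ^ N * r ^ i) * D := by
    intro i T
    simp only [hnorm]
    rw [← Finset.mul_sum]
    by_cases hi : i < K
    · rw [cf_zero hi]; simp
    · calc _ ≤ cf t i K * (D * ((i : ℝ) + 1) ^ N * r ^ i) :=
            mul_le_mul_of_nonneg_left (hgr i (by omega) T) (cf_nonneg ht _ _)
        _ = _ := by ring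
  have h2 : ∀ i, Summable fun l => ‖f (i, l)‖ := fun i =>
    summable_of_sum_le (fun _ => norm_nonneg _) (h1 i)
  have h3 : Summable fun x => ‖f x‖ := by
    rw [summable_prod_of_nonneg fun x => norm_nonneg _]
    refine ⟨h2, Summable.of_nonneg_of_le (fun i => tsum_nonneg fun _ => norm_nonneg _)
      (fun i => (h2 i).tsum_le_of_sum_le (h1 i)) ((summable_cf ht hr htr K N).mul_right D)⟩
  have h4 : Summable f := h3.of_norm
  have h5 := h4.hasSum
  have h6 : HasSum (fun i => ∑' l, f (i, l)) (∑' x, f x) :=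
    h5.prod_fiberwise fun i => (h2 i).of_norm.hasSum
  have h7 : HasSum (fun x : Y × ℕ => f x.swap) (∑' x, f x) := (Equiv.prodComm Y ℕ).hasSum_iff.2 h5
  have h8 : HasSum (fun l => F l * tk A G' K (y l)) (∑' x, f x) := by
    refine h7.prod_fiberwise fun l => ?_
    have h9 := (shift_tk (A := A) ht hq htq hG hGG hm (y l) (hnuc l) hK).mul_left (F l)
    refine h9.congr_fun fun i => ?_
    simp only [hf, Prod.swap_prod_mk]
    ring
  rw [h8.tsum_eq]
  refine h6.congr_fun fun i => ?_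
  simp only [hf]
  rw [tsum_mul_left]

end

/-- binomial series -/
theorem hasSum_binom {α x : ℝ} (hx : |x| < 1) :
    HasSum (fun N : ℕ => Ring.multichoose α N * x ^ N) (1 / (1 - x) ^ α) := by
  have h := (Real.one_div_one_sub_rpow_hasFPowerSeriesOnBall_zero α).hasSum (y := x) (by
    simpa [enorm_eq_nnnorm, ← NNReal.coe_lt_coe] using hx)
  rw [zero_add] at h
  refine h.congr_fun fun N => ?_
  rw [Ring.multichoose_eq]
  simp [mul_comm]

theorem mc_succ (β : ℝ) (N : ℕ) :
    ((N : ℝ) + 1) * Ring.multichoose β (N + 1) = (β + N) * Ring.multichoose β N := by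
  have h1 := Ring.factorial_nsmul_multichoose_eq_ascPochhammer β (N + 1)
  have h2 := Ring.factorial_nsmul_multichoose_eq_ascPochhammer β N
  rw [Polynomial.ascPochhammer_smeval_eq_eval] at h1 h2
  rw [ascPochhammer_succ_right, Polynomial.eval_mul, ← h2, Polynomial.eval_add,
    Polynomial.eval_X, Polynomial.eval_natCast, nsmul_eq_mul, nsmul_eq_mul, Nat.factorial_succ] at h1
  push_cast at h1
  have h3 : (N.factorial : ℝ) ≠ 0 := by positivity
  apply mul_left_cancel₀ h3
  linear_combination h1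

/-- closed form for the recursion -/
theorem rec_closed {r : ℕ → ℂ} {lam α : ℝ} (hl : 0 < lam) (K₀ : ℕ)
    (hrec : ∀ K, K₀ ≤ K → ((K : ℂ) + 1) * lam * r (K + 1) = ((α : ℂ) + K) * r K) {K : ℕ}
    (hK : K₀ ≤ K) (N : ℕ) : ((N + K).choose K : ℂ) * r (N + K) =
      ((Ring.multichoose (α + K) N * (lam⁻¹) ^ N : ℝ) : ℂ) * r K := by
  induction N with
  | zero => simp
  | succ N ih =>
    have h1 := hrec (N + K) (by omega)
    have h2 : ((N : ℂ) + 1) * ((N + 1 + K).choose K : ℂ) =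
        ((N : ℂ) + K + 1) * ((N + K).choose K : ℂ) := by
      have h3 := Nat.add_one_mul_choose_eq (N + K) N
      have h4 : (N + K + 1).choose (N + 1) = (N + 1 + K).choose K := by
        rw [show N + K + 1 = N + 1 + K by omega, Nat.choose_symm_add]
      have h5 : (N + K).choose N = (N + K).choose K := Nat.choose_symm_add
      rw [h4, h5] at h3
      have h6 : (((N + K + 1 : ℕ) * (N + K).choose K : ℕ) : ℂ) =
        (((N + 1 + K).choose K * (N + 1) : ℕ) : ℂ) := by exact_mod_cast h3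
      push_cast at h6
      linear_combination -h6
    have h3 := congrArg (fun x : ℝ => (x : ℂ)) (mc_succ (α + K) N)
    push_cast at h1 h3 ih ⊢
    have hN : (N : ℂ) + 1 ≠ 0 := by exact_mod_cast Nat.succ_ne_zero N
    have hl' : (lam : ℂ) ≠ 0 := by exact_mod_cast hl.ne'
    apply mul_left_cancel₀ (mul_ne_zero hN hl')
    rw [show N + 1 + K = N + K + 1 by omega] at h2 ⊢
    calc ((N : ℂ) + 1) * lam * (((N + K + 1).choose K : ℂ) * r (N + K + 1)) =
          (((N : ℂ) + 1) * ((N + K + 1).choose K : ℂ)) * (lam * r (N + K + 1)) := by ring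
      _ = ((N + K).choose K : ℂ) * (((N : ℂ) + K + 1) * lam * r (N + K + 1)) := by rw [h2]; ring
      _ = ((α : ℂ) + (N + K)) * (((N + K).choose K : ℂ) * r (N + K)) := by rw [h1]; ring
      _ = ((α : ℂ) + (N + K)) * ((Ring.multichoose (α + K) N : ℝ) * (lam : ℂ)⁻¹ ^ N * r K) := by
        rw [ih]
      _ = ((α : ℂ) + K + N) * (Ring.multichoose (α + K) N : ℝ) * (lam : ℂ)⁻¹ ^ N * r K := by ring
      _ = _ := by
        rw [← h3, pow_succ]
        field_simp

/-- The Taylor coefficients at `λ - t`. -/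
theorem closed_sum {r : ℕ → ℂ} {lam α t : ℝ} (hl : 0 < lam) (K₀ : ℕ)
    (hrec : ∀ K, K₀ ≤ K → ((K : ℂ) + 1) * lam * r (K + 1) = ((α : ℂ) + K) * r K) {K : ℕ}
    (hK : K₀ ≤ K) (ht : 0 ≤ t) (htl : t < lam) {r' : ℂ}
    (hs : HasSum (fun i => (cf t i K : ℂ) * r i) r') :
    (((lam - t) ^ (α + K) : ℝ) : ℂ) * r' = ((lam ^ (α + K) : ℝ) : ℂ) * r K := by
  have h1 : HasSum (fun N : ℕ => (cf t (N + K) K : ℂ) * r (N + K)) r' := by
    have h2 : HasSum (fun i => (cf t i K : ℂ) * r i) (r' + ∑ i ∈ Finset.range K,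
        (cf t i K : ℂ) * r i) := by
      rw [Finset.sum_eq_zero fun i hi => by
        rw [cf_zero (Finset.mem_range.1 hi)]; simp, add_zero]
      exact hs
    exact (hasSum_nat_add_iff K).2 h2
  have h2 : HasSum (fun N : ℕ => (cf t (N + K) K : ℂ) * r (N + K))
      (((1 / (1 - t / lam) ^ (α + K) : ℝ) : ℂ) * r K) := by
    have hx : |t / lam| < 1 := by
      rw [abs_of_nonneg (by positivity), div_lt_one hl]; exact htl
    have h3 := (Complex.hasSum_ofReal.2 (hasSum_binom (α := α + K) hx)).mul_right (r K)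
    refine h3.congr_fun fun N => ?_
    rw [cf, Nat.add_sub_cancel]
    have h4 := rec_closed hl K₀ hrec hK N
    push_cast at h4 ⊢
    rw [div_pow]
    calc ((N + K).choose K : ℂ) * (t : ℂ) ^ N * r (N + K) =
          (t : ℂ) ^ N * (((N + K).choose K : ℂ) * r (N + K)) := by ring
      _ = _ := by rw [h4, inv_pow]; ring
  have h3 := h1.unique h2
  rw [h3, ← mul_assoc]
  congr 1
  rw [← Complex.ofReal_mul]
  congr 1
  have h4 : 1 - t / lam = (lam - t) / lam := by field_simp
  have h5 : 0 < lam - t := by linarith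
  rw [h4, Real.div_rpow h5.le hl.le]
  have h6 : (lam - t) ^ (α + K) ≠ 0 := (Real.rpow_pos_of_pos h5 _).ne'
  field_simp

end Vale.Agent.P223.H316
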