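import Vale.Agent.P223.H316.Cont3

/-! Continuation of the Taylor coefficients in `λ = m²`. -/

namespace Vale.Agent.P223.H316

open scoped ContDiff InnerProductSpace Topology
open MeasureTheory Filter Vale.Agent.P223.H Vale.Agent.P223.X Vale.Agent.P223.H566
  Vale.Agent.P223.H391

section
variable {H : Type} [NormedAddCommGroup H] [InnerProductSpace ℂ H] {Γ ι : Type} [Group Γ]

/-- growth of the Taylor coefficients, finite sums -/
theorem growth_fin [Fintype ι] (S : Sup H) (R : TrI (H →L[ℂ] H)) {n : ℕ}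
    (A : Fin (n + 1) → Γ × ι → H →L[ℂ] H) (G : H →L[ℂ] H) (χ : ι → H →L[ℂ] H) (m : ℕ)
    (L q C : ℝ) (hL : 0 ≤ L) (hq : 0 < q) (hC : 0 ≤ C) (hA : ∀ i, S.Row (A i) L)
    (hG : S.Op G q)
    (hχ : ∀ p i, χ i * A p (1, i) = A p (1, i))
    (hnuc : ∀ p l k, m ≤ k → R.nuc (A p l * G ^ k))
    (hNB : ∀ i, S.NB R.tr (G ^ m * χ i) C)
    (hinv : ∀ j, (∃ p, m ≤ j p) → ∀ (γ : Γ) l,
      ‖R.tr (H391.wd A G j (H391.tl γ l))‖ = ‖R.tr (H391.wd A G j l)‖)
    (F : (Fin (n + 1) → Γ × ι) → ℂ) (BF : ℝ) (hBF : 0 ≤ BF) (hF : ∀ l, ‖F l‖ ≤ BF) :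
    ∃ D : ℝ, ∀ (K : ℕ) (J : Finset (Fin (n + 1) → ℕ)), (n + 1) * m ≤ K →
      (∀ j ∈ J, ∑ i, j i = K) →
      ∀ T : Finset {l : Fin (n + 1) → Γ × ι // (l 0).1 = 1},
        ∑ l ∈ T, ‖F l * ∑ j ∈ J, R.tr (H391.wd A G (fun i => j i + 1) l)‖ ≤
          D * ((K : ℝ) + 1) ^ (n + 1) * q ^ K := by
  classical
  set D : ℝ := BF * (Fintype.card ι * (C * (L ^ (n + 1) * (q ^ (n + 1) * (q ^ m)⁻¹)))) with hD
  have hD0 : 0 ≤ D := by positivity
  refine ⟨D, fun K J hK hJ => ?_⟩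
  have key : ∀ j ∈ J, ∀ T : Finset {l : Fin (n + 1) → Γ × ι // (l 0).1 = 1},
      ∑ l ∈ T, ‖F l * R.tr (H391.wd A G (fun i => j i + 1) l)‖ ≤ D * q ^ K := by
    intro j hj T
    have hs : ∑ i, (j i + 1) = K + (n + 1) := by
      rw [Finset.sum_add_distrib, hJ j hj]; simp
    obtain ⟨p, hp⟩ := exists_large (m := m) (fun i => j i + 1) (by
      rw [hs]; exact hK.trans (Nat.le_add_right _ _))
    have hmK : m ≤ K + (n + 1) := by
      rw [← hs]
      exact hp.trans (Finset.single_le_sum (f := fun i => j i + 1) (fun _ _ => Nat.zero_le _)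
        (Finset.mem_univ p))
    have hq' : q ^ (K + (n + 1) - m) = q ^ (n + 1) * (q ^ m)⁻¹ * q ^ K := by
      rw [pow_sub₀ _ hq.ne' hmK, pow_add]; ring
    have h1 := growth_word S R A G χ m L q C hL hq.le hA hG hχ hnuc hNB (fun i => j i + 1)
      (hinv _ ⟨p, hp⟩) p hp (K + (n + 1) - m) (by rw [hs]; omega) (T.map ⟨Subtype.val,
        Subtype.val_injective⟩) (fun l hl => by
          obtain ⟨l', _, rfl⟩ := Finset.mem_map.1 hl
          exact l'.2)
    rw [Finset.sum_map] at h1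
    calc ∑ l ∈ T, ‖F l * R.tr (H391.wd A G (fun i => j i + 1) l)‖
        ≤ ∑ l ∈ T, BF * ‖R.tr (H391.wd A G (fun i => j i + 1) l)‖ :=
          Finset.sum_le_sum fun l _ => by
            rw [norm_mul]
            exact mul_le_mul_of_nonneg_right (hF _) (norm_nonneg _)
      _ = BF * ∑ l ∈ T, ‖R.tr (H391.wd A G (fun i => j i + 1) l)‖ := by rw [Finset.mul_sum]
      _ ≤ BF * (Fintype.card ι * (C * (L ^ (n + 1) * q ^ (K + (n + 1) - m)))) :=
          mul_le_mul_of_nonneg_left h1 hBF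
      _ = D * q ^ K := by rw [hq', hD]; ring
  have hfin : ∀ T : Finset {l : Fin (n + 1) → Γ × ι // (l 0).1 = 1},
      ∑ l ∈ T, ‖F l * ∑ j ∈ J, R.tr (H391.wd A G (fun i => j i + 1) l)‖ ≤
        D * ((K : ℝ) + 1) ^ (n + 1) * q ^ K := by
    intro T
    calc ∑ l ∈ T, ‖F l * ∑ j ∈ J, R.tr (H391.wd A G (fun i => j i + 1) l)‖
        ≤ ∑ l ∈ T, ∑ j ∈ J, ‖F l * R.tr (H391.wd A G (fun i => j i + 1) l)‖ :=
          Finset.sum_le_sum fun l _ => by
            rw [Finset.mul_sum]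
            exact norm_sum_le _ _
      _ = ∑ j ∈ J, ∑ l ∈ T, ‖F l * R.tr (H391.wd A G (fun i => j i + 1) l)‖ := Finset.sum_comm
      _ ≤ ∑ j ∈ J, D * q ^ K := Finset.sum_le_sum fun j hj => key j hj T
      _ = (J.card : ℝ) * (D * q ^ K) := by rw [Finset.sum_const, nsmul_eq_mul]
      _ ≤ (((K + 1) ^ (n + 1) : ℕ) : ℝ) * (D * q ^ K) := by
          refine mul_le_mul_of_nonneg_right ?_ (by positivity)
          exact_mod_cast card_comp_le (n + 1) K J hJ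
      _ = D * ((K : ℝ) + 1) ^ (n + 1) * q ^ K := by push_cast; ring
  exact hfin

end

/-- blocks used below -/
structure Blk : Prop where
  hI : SpecIntS
  hL : SpecLocal
  hDe : SpecDense
  hS : SpecSup
  hAlg : SpecAlg
  hDecA : SpecDecA
  hDec : SpecDec
  hPW : SpecPW

/-- growth of the Taylor coefficients, finite sums -/
theorem growF (hB : Blk) (n : ℕ) (M X Γ I V H : Type) [TopologicalSpace M] [TopologicalSpace X]
    [Group Γ] [MulAction Γ X] [Fintype I] [T2Space X] [ConnectedSpace X] [T2Space M]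
    [MeasurableSpace X] [BorelSpace X] [NormedAddCommGroup V] [InnerProductSpace ℂ V]
    [FiniteDimensional ℂ V] [NormedAddCommGroup H] [InnerProductSpace ℂ H] [CompleteSpace H]
    (c : Ctx n M X Γ I V H) (ι : Type) [Fintype ι] (P : PUX c.C ι) (a h : Γ × ι → H →L[ℂ] H)
    (W : H →L[ℂ] H) (s : ℝ) (w : X → ℝ) (F : (Fin (n + 1) → Γ) → ℝ) (hn : 1 ≤ n)
    (hO : OpA c.E P a h W) (hw : Gst c.C c.G s w) (hF : Coc F) :
    ∃ m₀ : ℝ, 0 < m₀ ∧ ∀ (m : ℝ) (g p : H →L[ℂ] H), m₀ ≤ m → 0 < m ^ 2 + s → Rsv c.E m g p →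
      (∀ q l k, n ≤ k → ∃ b, Nuc (lt n a h W q l * g ^ k) b) ∧
      ∃ D : ℝ, ∀ k, (n + 1) * n ≤ k →
        ∀ T : Finset {l : Fin (n + 1) → Γ × ι // (l 0).1 = 1},
        ∑ l ∈ T, ‖(F (fun i => (l.1 i).1) : ℂ) * tk (lt n a h W) g k l.1‖ ≤
          D * ((k : ℝ) + 1) ^ (n + 1) * ((m ^ 2 + s)⁻¹) ^ k := by
  obtain ⟨hI, hL, -, hS, hAlg, hDecA, hDec, hPW⟩ := hB
  classical
  have : Countable Γ := Vol.countable_group c.C
  -- cutoffs
  choose κ hκ1 hκ2 hκ3 hκ4 hκ5 using fun i : ι => exists_cut c.C (K := tsupport (P.φ i))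
    (P.supp i).isCompact
  obtain ⟨k₁, -, -, -, hk₁, -⟩ := hDecA n M X Γ I V H c ι κ hn ⟨hκ1, hκ2, hκ3, hκ4⟩
  obtain ⟨k, wt, A, m₀, hm₀, hwt, hsum, hD⟩ := hDec n M X Γ I V H c ι P a h W hn hO
  have hwc : Continuous w := Ck_continuous c.C fun γ i => (hw.smooth γ i).of_le (by simp)
  obtain ⟨La, hLa, hra⟩ := row_a hI hn c.vol c.E hwc hw.pos hO
  obtain ⟨Lh, hLh, hrh⟩ := row_h hI hL hn c.vol c.E hwc hw.pos hO
  have hrow : ∀ i, (supW c.E w hw.pos).Row (lt n a h W i) (La + Lh) := by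
    intro i
    refine Fin.cases ?_ (fun i => ?_) i
    · have := hra.mul (op_W hL c.E hw.pos hO) hLa
      rw [one_mul] at this
      exact this.mono (by linarith)
    · exact hrh.mono (by linarith)
  refine ⟨max m₀ (1 + |s|), lt_max_of_lt_left hm₀, fun m g p hm hms hR => ?_⟩
  have hm1 : m₀ ≤ m := (le_max_left _ _).trans hm
  have hm2 : 1 + |s| ≤ m := (le_max_right _ _).trans hm
  have hm3 : 1 ≤ m := by linarith [abs_nonneg s]
  have hm4 : 1 ≤ m ^ 2 + s := by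
    have h1 := neg_abs_le s
    have h2 := abs_nonneg s
    nlinarith
  have hA := hAlg n M X Γ I V H c ι P a h W g p m hn (by linarith) hO hR
  have hD := hD m hm1 g p hR
  -- the nuclear operators
  have hκe : ∀ (i : ι) φ, k₁ (1, i) (c.E.e φ) = c.E.e (c.S.mC (κ i) (hκ1 i) φ) := by
    intro i φ
    have hl : c.C.Ck ∞ (fun x => κ i ((1 : Γ)⁻¹ • x)) := by
      have e : (fun x : X => κ i ((1 : Γ)⁻¹ • x)) = κ i := by
        funext x; rw [inv_one, one_smul]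
      rw [e]; exact hκ1 i
    rw [hk₁.k_e (1, i) hl φ]
    congr 1
    refine Subtype.ext ?_
    funext γ j y
    change ((κ i ((1 : Γ)⁻¹ • γ • c.C.ψ j y) : ℝ) : ℂ) • _ = ((κ i (γ • c.C.ψ j y) : ℝ) : ℂ) • _
    rw [inv_one, one_smul]
  have hNB : ∀ i : ι, ∃ C : ℝ, 0 ≤ C ∧
      (supW c.E w hw.pos).NB (trI H).tr (g ^ n * k₁ (1, i)) C := by
    intro i
    obtain ⟨α, _, ν, u, v, hu, hv, hint, hrep, hb⟩ := hPW n M X Γ I V H c (κ i) (hκ1 i)
      (k₁ (1, i)) n m g p hn (hκ2 i) (hκe i) (by omega) hm3 hR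
    obtain ⟨cu, cv, h1, h2, h3, h4, h5⟩ := hb s w hw hm4
    refine ⟨_, integral_nonneg fun a => mul_nonneg (h1 a) (h2 a),
      nb_of_rep (intRep_of hu hv hint hrep) (supW c.E w hw.pos) h1 h2 h3 h4 ?_⟩
    intro a b x hb hx
    exact h5 a b x hb hx
  choose Cn hCn hNB using hNB
  have hNB' : ∀ i : ι, (supW c.E w hw.pos).NB (trI H).tr (g ^ n * k₁ (1, i)) (∑ i, Cn i) := by
    intro i κ T Fk R hR hFk
    refine (hNB i κ T Fk R hR hFk).trans (mul_le_mul_of_nonneg_right ?_ hR)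
    exact Finset.single_le_sum (f := Cn) (fun j _ => hCn j) (Finset.mem_univ i)
  -- cutoffs on the left of the letters
  have hka : ∀ i : ι, k₁ (1, i) * a (1, i) = a (1, i) := by
    intro i
    refine ext_core c.E fun φ => ?_
    rw [mul_apply_eq_comp, hO.a_e _ (ck_fn hO.sm (1, i)), hκe]
    congr 1
    refine Subtype.ext ?_
    funext γ j y
    exact mul_cut (hκ5 i) (fun x hx => by
      change P.φ i ((1 : Γ)⁻¹ • x) = 0
      rw [inv_one, one_smul]
      exact image_eq_zero_of_notMem_tsupport hx) _ _ _ _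
  have hkh : ∀ i : ι, k₁ (1, i) * h (1, i) = h (1, i) := by
    intro i
    refine ext_core c.E fun φ => ?_
    rw [mul_apply_eq_comp, hO.h_e _ (ck_fn hO.sm (1, i)), hκe]
    congr 1
    refine Subtype.ext ?_
    funext γ j y
    exact cl_cut (hκ5 i) (fun x => by
      change P.φ i ((1 : Γ)⁻¹ • x) = _
      rw [inv_one, one_smul]) _ _ _ _
  have hχ : ∀ (q : Fin (n + 1)) (i : ι), k₁ (1, i) * lt n a h W q (1, i) =
      lt n a h W q (1, i) := by
    intro q i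
    refine Fin.cases ?_ (fun q => ?_) q
    · change k₁ (1, i) * (W * a (1, i)) = W * a (1, i)
      rw [hA.Wa, ← mul_assoc, hka]
    · exact hkh i
  refine ⟨fun q l j hj => nuc_lt hA hD hwt hsum (by omega) q l, ?_⟩
  obtain ⟨D, hgr⟩ := growth_fin (supW c.E w hw.pos) (trI H) (lt n a h W) g (fun i => k₁ (1, i)) n
    (La + Lh) (m ^ 2 + s)⁻¹ (∑ i, Cn i) (by positivity) (by positivity)
    (Finset.sum_nonneg fun i _ => hCn i) hrow
    (op_g hS c hn hw (by linarith) hms hR) hχ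
    (fun q l j hj => nuc_lt hA hD hwt hsum (by omega) q l) hNB'
    (fun j ⟨q, hq⟩ γ l => by rw [inv_lt hA hD hwt hsum (q := q) (by omega) γ l])
    (fun l => (F fun i => (l i).1 : ℂ)) 1 zero_le_one (fun l => by
      rw [Complex.norm_real]
      exact hF.bdd _)
  refine ⟨D, fun K hK T => ?_⟩
  exact hgr K (Finset.Nat.antidiagonalTuple (n + 1) K) hK (fun j hj =>
    Finset.Nat.mem_antidiagonalTuple.1 hj) T

end Vale.Agent.P223.H316
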