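import Vale.Agent.P223.H316.Rec

/-! BLOCK K5 : recursion and absolute convergence, explicit threshold. -/

namespace Vale.Agent.P223.H316

open scoped ENNReal InnerProductSpace
open MeasureTheory Vale.Agent.P223.H566 PowerSeries

/-- BLOCK K5, the threshold is `k5 n` -/
theorem specRecU_k5 (hTC : SpecTC) (n : ℕ) : ∀ (Γ ι H : Type) [Group Γ] [Countable Γ]
    [Fintype ι] [NormedAddCommGroup H] [InnerProductSpace ℂ H] [CompleteSpace H]
    (a h k : Γ × ι → H →L[ℂ] H) (W g p : H →L[ℂ] H)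
    (m : ℝ) (w : Γ → ℝ) (A : ℕ → ℝ) (F : (Fin (n + 1) → Γ) → ℝ), 1 ≤ n → 0 < m →
    (∀ γ, 0 ≤ w γ) → Summable w → Alg n m a h W g p → Dec n m a h g p k w A → Coc F →
    ∀ k, k5 n ≤ k →
      Summable (fun l : {l : Fin (n + 1) → Γ × ι // (l 0).1 = 1} =>
        (F (fun i => (l.1 i).1) : ℂ) *
          ∑ j ∈ Finset.Nat.antidiagonalTuple (n + 1) k, trH (W * wrd a h g j l.1)) ∧
      ((k : ℂ) + 1) * (m : ℂ) ^ 2 * rK a h W g F (k + 1) =
        ((n : ℂ) / 2 + 1 + k) * rK a h W g F k := by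
  intro Γ ι H _ _ _ _ _ _ a h k W g p m w A F hn hm hw hs hA hD hF K hK
  unfold k5 at hK
  have hK1 : (n / 2 + 1) * (n + 1) ≤ (n / 2 + 1) * (n + 2) := Nat.mul_le_mul_left _ (by omega)
  constructor
  · have := (wsH hTC hw hs hA hD).sum_tv (.a :: .g :: HG n) K n good_w0.1
      ((Nat.mul_le_mul_left _ good_w0.2).trans (by change (n / 2 + 1) * (n + 2) ≤ K; omega))
      (by omega) (lF F) (lF_le (cc hF))
    refine this.congr fun l => ?_
    rw [tv_exp _ K (by change (n / 2 + 1) * (n + 1) ≤ K; omega)]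
    rfl
  · obtain ⟨K', rfl⟩ : ∃ K', K = K' + 1 := ⟨K - 1, by omega⟩
    have h1 := N_rec (wsH hTC hw hs hA hD) (cc hF) (K := K') (by omega)
      (by change (n / 2 + 1) * (n + 2) ≤ K'; omega) hn
    rw [rK_eq hTC hw hs hA hD F (K' + 1) (by omega),
      rK_eq hTC hw hs hA hD F (K' + 1 + 1) (by omega)]
    have h2 : ((wsH hTC hw hs hA hD).lam : ℂ) = (m : ℂ) ^ 2 := by
      change ((m ^ 2 : ℝ) : ℂ) = _
      push_cast; rfl
    rw [h2] at h1
    push_cast
    linear_combination (-(1 / 2) : ℂ) * h1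

end Vale.Agent.P223.H316
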