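import Vale.Agent.P223.H316.Cont4
import Vale.Agent.P223.H316.Rec2
import Vale.Agent.P223.H440.Res

/-! CONT: `m^(n+2+2K) r_K(m)` does not depend on `m`. -/

namespace Vale.Agent.P223.H316

open scoped ContDiff InnerProductSpace Topology
open MeasureTheory Filter Vale.Agent.P223.H Vale.Agent.P223.X Vale.Agent.P223.H566
  Vale.Agent.P223.H391

theorem rK_tk {H Γ ι : Type} [NormedAddCommGroup H] [InnerProductSpace ℂ H] [CompleteSpace H]
    [Group Γ] {n : ℕ} (a h : Γ × ι → H →L[ℂ] H) (W g : H →L[ℂ] H)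
    (F : (Fin (n + 1) → Γ) → ℝ) (k : ℕ) : rK a h W g F k =
      ∑' l : {l : Fin (n + 1) → Γ × ι // (l 0).1 = 1},
        (F (fun i => (l.1 i).1) : ℂ) * tk (lt n a h W) g k l.1 := by
  unfold rK tk
  refine tsum_congr fun l => ?_
  congr 1
  refine Finset.sum_congr rfl fun j _ => ?_
  rw [wrd_eq]

/-- threshold -/
def k6 (n : ℕ) : ℕ := (n / 2 + 1) * (n + 2) + 2 + (n + 1) * n

theorem pow_conv {x : ℝ} (hx : 0 < x) (n K : ℕ) :
    (x ^ 2) ^ ((n : ℝ) / 2 + 1 + K) = x ^ (n + 2 + 2 * K) := by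
  rw [← Real.rpow_natCast x 2, ← Real.rpow_mul hx.le, ← Real.rpow_natCast x (n + 2 + 2 * K)]
  congr 1
  push_cast
  ring

/-- CONT -/
theorem cont (hB : Blk) (n : ℕ) (M X Γ I V H : Type) [TopologicalSpace M] [TopologicalSpace X]
    [Group Γ] [MulAction Γ X] [Fintype I] [T2Space X] [ConnectedSpace X] [T2Space M]
    [MeasurableSpace X] [BorelSpace X] [NormedAddCommGroup V] [InnerProductSpace ℂ V]
    [FiniteDimensional ℂ V] [NormedAddCommGroup H] [InnerProductSpace ℂ H] [CompleteSpace H]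
    (c : Ctx n M X Γ I V H) (ι : Type) [Fintype ι] (P : PUX c.C ι) (a h : Γ × ι → H →L[ℂ] H)
    (W : H →L[ℂ] H) (s : ℝ) (w : X → ℝ) (F : (Fin (n + 1) → Γ) → ℝ) (hn : 1 ≤ n)
    (hO : OpA c.E P a h W) (hw : Gst c.C c.G s w) (hF : Coc F) :
    ∃ m₀ : ℝ, 0 < m₀ ∧ ∀ (m₂ : ℝ) (g₂ p₂ : H →L[ℂ] H), m₀ ≤ m₂ → Rsv c.E m₂ g₂ p₂ →
      ∀ (m : ℝ) (g p : H →L[ℂ] H), 0 < m → 0 < m ^ 2 + s → m ≤ m₂ → Rsv c.E m g p →
      (∀ q l k, n ≤ k → ∃ b, Nuc (lt n a h W q l * g ^ k) b) ∧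
      ∀ K, k6 n ≤ K → (m : ℂ) ^ (n + 2 + 2 * K) * rK a h W g F K =
        (m₂ : ℂ) ^ (n + 2 + 2 * K) * rK a h W g₂ F K := by
  have : Countable Γ := Vol.countable_group c.C
  obtain ⟨m₁, hm₁, h1⟩ := growF hB n M X Γ I V H c ι P a h W s w F hn hO hw hF
  obtain ⟨k, wt, A, m₀, hm₀, hwt, hsum, hD⟩ := hB.hDec n M X Γ I V H c ι P a h W hn hO
  refine ⟨max m₁ m₀, lt_max_of_lt_left hm₁, fun m₂ g₂ p₂ hm₂ hR₂ m g p hm hms hmm hR => ?_⟩
  have hm2 : 0 < m₂ := hm₁.trans_le ((le_max_left _ _).trans hm₂)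
  have hsq : m ^ 2 ≤ m₂ ^ 2 := pow_le_pow_left₀ hm.le hmm 2
  have hms2 : 0 < m₂ ^ 2 + s := by linarith
  obtain ⟨hnuc, D, hgr⟩ := h1 m₂ g₂ p₂ ((le_max_left _ _).trans hm₂) hms2 hR₂
  have hA := hB.hAlg n M X Γ I V H c ι P a h W g₂ p₂ m₂ hn hm2 hO hR₂
  have hD' := hD m₂ ((le_max_right _ _).trans hm₂) g₂ p₂ hR₂
  -- the shift
  set t : ℝ := m₂ ^ 2 - m ^ 2 with ht
  have ht0 : 0 ≤ t := by rw [ht]; linarith
  have hGG : g = g₂ + (t : ℂ) • (g₂ * g) := by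
    have := H440.res_id hB.hDe hm2.ne' hm.ne' hR₂ hR
    rw [ht]; push_cast; exact this
  set q : ℝ := (m₂ ^ 2)⁻¹ with hq
  have hq0 : 0 < q := by positivity
  have hGn : ‖g₂‖ ≤ q := by
    refine ContinuousLinearMap.opNorm_le_bound _ hq0.le fun u => ?_
    have := H440.g_norm hR₂ hm2 hB.hDe u
    rw [hq, inv_mul_eq_div, le_div_iff₀ (by positivity), mul_comm]
    exact this
  have htq : t * q < 1 := by
    rw [hq, ← div_eq_mul_inv, div_lt_one (by positivity), ht]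
    have : 0 < m ^ 2 := by positivity
    linarith
  have hr0 : 0 < (m₂ ^ 2 + s)⁻¹ := by positivity
  have htr : t * (m₂ ^ 2 + s)⁻¹ < 1 := by
    rw [← div_eq_mul_inv, div_lt_one hms2, ht]; linarith
  constructor
  · intro q' l k' hk'
    obtain ⟨b, hb⟩ := hnuc q' l n le_rfl
    exact nuc_shift ht0 hq0 htq hGn hGG hn hb hk'
  · intro K hK
    unfold k6 at hK
    have h3 := shift_sum (A := lt n a h W) ht0 hq0 htq hGn hGG hn
      (fun l : {l : Fin (n + 1) → Γ × ι // (l 0).1 = 1} => l.1)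
      (fun l => (F (fun i => (l.1 i).1) : ℂ)) (fun l p => hnuc p _ n le_rfl) hr0 htr
      (K₁ := (n + 1) * n) (N := n + 1) (fun i hi T => hgr i hi T) (K := K)
      (by rw [mul_comm]; omega) (by omega)
    have h4 : HasSum (fun i => (cf t i K : ℂ) * rK a h W g₂ F i) (rK a h W g F K) := by
      rw [rK_tk]
      refine h3.congr_fun fun i => ?_
      rw [rK_tk]
    obtain ⟨k₀, hk₀⟩ : ∃ k₀, k₀ = k5 n := ⟨_, rfl⟩
    have h5 := closed_sum (r := fun K => rK a h W g₂ F K) (lam := m₂ ^ 2)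
      (α := (n : ℝ) / 2 + 1) (t := t) (by positivity) (k5 n) (fun K hK => ?_) (K := K)
      (by unfold k5; omega) ht0 (by rw [ht]; have : 0 < m ^ 2 := by positivity
                                    linarith) h4
    · have e : m₂ ^ 2 - t = m ^ 2 := by rw [ht]; ring
      rw [e, pow_conv hm, pow_conv hm2] at h5
      push_cast at h5
      exact h5
    · have h6 := (specRecU_k5 H691.specTC n Γ ι H a h k W g₂ p₂ m₂ wt A F hn hm2 hwt hsum hA hD' hF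
        K hK).2
      push_cast
      exact h6

end Vale.Agent.P223.H316
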