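import Vale.Agent.P223.H316.Liou2
import Mathlib.Analysis.SpecialFunctions.SmoothTransition

/-! BLOCK V1: complete flows.  A `C^1` vector field on `ℝ^N` which is bounded on the sublevels of a
conserved function is complete; geodesic flow of a metric which is constant outside a ball. -/

namespace Vale.Agent.P223.H316

open Set Filter Topology Metric MeasureTheory
open scoped ContDiff Matrix NNReal
open H765.NC

section
variable {E : Type} [NormedAddCommGroup E] [NormedSpace ℝ E] [FiniteDimensional ℝ E]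

/-- solutions on `[-T, T]` -/
theorem exists_sol {F : E → E} (hF : ContDiff ℝ 1 F) {L : ℝ} (hb : ∀ x, ‖F x‖ ≤ L) (x : E)
    {T : ℝ} (hT : 0 < T) : ∃ f : ℝ → E, f 0 = x ∧ ∀ t ∈ Ioo (-T) T, HasDerivAt f (F (f t)) t := by
  have : CompleteSpace E := FiniteDimensional.complete ℝ E
  have hL : 0 ≤ L := (norm_nonneg _).trans (hb x)
  set a : ℝ := L * T with ha
  have ha0 : 0 ≤ a := by positivity
  obtain ⟨K, hK, -, hK2⟩ := lip_ball hF (‖x‖ + a)
  have hsub : closedBall x a ⊆ closedBall 0 (‖x‖ + a) := by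
    intro y hy
    rw [mem_closedBall_zero_iff]
    rw [mem_closedBall, dist_eq_norm] at hy
    have := norm_le_norm_add_norm_sub' y x
    linarith
  have hlip : LipschitzOnWith (Real.toNNReal K) F (closedBall x (⟨a, ha0⟩ : ℝ≥0)) :=
    LipschitzOnWith.of_dist_le_mul fun y hy z hz => by
      rw [dist_eq_norm, dist_eq_norm, Real.coe_toNNReal _ (by linarith)]
      exact hK2 y (hsub hy) z (hsub hz)
  have h0 : (0 : ℝ) ∈ Icc (-T) T := ⟨by linarith, hT.le⟩
  have hP : IsPicardLindelof (fun _ => F) (tmin := -T) (tmax := T) ⟨0, h0⟩ x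
      (⟨a, ha0⟩ : ℝ≥0) 0 (⟨L, hL⟩ : ℝ≥0) (Real.toNNReal K) := by
    refine IsPicardLindelof.of_time_independent (fun y _ => hb y) hlip ?_
    simp only [sub_zero, zero_sub, neg_neg, max_self, NNReal.coe_zero]
    exact le_of_eq ha.symm
  obtain ⟨f, hf0, hf⟩ := hP.exists_eq_forall_mem_Icc_hasDerivWithinAt₀
  exact ⟨f, hf0, fun t ht => (hf t ⟨ht.1.le, ht.2.le⟩).hasDerivAt (Icc_mem_nhds ht.1 ht.2)⟩

theorem sol_unique_Ioo {F : E → E} (hF : ContDiff ℝ 1 F) {f g : ℝ → E} {T : ℝ}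
    (hf : ∀ t ∈ Ioo (-T) T, HasDerivAt f (F (f t)) t)
    (hg : ∀ t ∈ Ioo (-T) T, HasDerivAt g (F (g t)) t)
    (h0 : f 0 = g 0) {t : ℝ} (ht : t ∈ Ioo (-T) T) : f t = g t := by
  -- shrink the interval
  set S : ℝ := (|t| + T) / 2 with hS
  have ht' : |t| < T := abs_lt.2 ht
  have h1 : |t| < S := by rw [hS]; linarith
  have h2 : S < T := by rw [hS]; linarith
  have hsub : Icc (-S) S ⊆ Ioo (-T) T := fun s hs => ⟨by linarith [hs.1], by linarith [hs.2]⟩
  have hfc : ContinuousOn f (Icc (-S) S) := fun s hs =>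
    (hf s (hsub hs)).continuousAt.continuousWithinAt
  have hgc : ContinuousOn g (Icc (-S) S) := fun s hs =>
    (hg s (hsub hs)).continuousAt.continuousWithinAt
  obtain ⟨R₁, h3⟩ := (isCompact_Icc (a := -S) (b := S)).exists_bound_of_continuousOn hfc
  obtain ⟨R₂, h4⟩ := (isCompact_Icc (a := -S) (b := S)).exists_bound_of_continuousOn hgc
  obtain ⟨K, hK, -, hK2⟩ := lip_ball hF (max R₁ R₂)
  have hl : LipschitzOnWith (Real.toNNReal K) F (closedBall 0 (max R₁ R₂)) :=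
    LipschitzOnWith.of_dist_le_mul fun x hx y hy => by
      rw [dist_eq_norm, dist_eq_norm, Real.coe_toNNReal _ (by linarith)]
      exact hK2 x hx y hy
  have hS0 : 0 < S := (abs_nonneg t).trans_lt h1
  have h5 := ODE_solution_unique_of_mem_Ioo (v := fun _ => F)
    (s := fun _ => closedBall 0 (max R₁ R₂)) (a := -S) (b := S) (t₀ := 0)
    (fun _ _ => hl) ⟨by linarith, hS0⟩
    (fun s hs => ⟨hf s (hsub ⟨hs.1.le, hs.2.le⟩), mem_closedBall_zero_iff.2
      ((h3 s ⟨hs.1.le, hs.2.le⟩).trans (le_max_left _ _))⟩)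
    (fun s hs => ⟨hg s (hsub ⟨hs.1.le, hs.2.le⟩), mem_closedBall_zero_iff.2
      ((h4 s ⟨hs.1.le, hs.2.le⟩).trans (le_max_right _ _))⟩) h0
  exact h5 ⟨by linarith [neg_abs_le t], by linarith [le_abs_self t]⟩

/-- bounded `C^1` vector fields are complete -/
theorem exists_flw {F : E → E} (hF : ContDiff ℝ 1 F) {L : ℝ} (hb : ∀ x, ‖F x‖ ≤ L) :
    ∃ Φ, Flw F Φ := by
  choose f hf0 hf using fun (x : E) (T : {T : ℝ // 0 < T}) => exists_sol hF hb x T.2
  let τ : ℝ → {T : ℝ // 0 < T} := fun t => ⟨|t| + 1, by positivity⟩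
  have hmem : ∀ t : ℝ, t ∈ Ioo (-(|t| + 1)) (|t| + 1) := fun t =>
    ⟨by linarith [neg_abs_le t], by linarith [le_abs_self t]⟩
  have hag : ∀ x (T₁ T₂ : {T : ℝ // 0 < T}) t, t ∈ Ioo (-T₁.1) T₁.1 → t ∈ Ioo (-T₂.1) T₂.1 →
      f x T₁ t = f x T₂ t := by
    intro x T₁ T₂ t h1 h2
    refine sol_unique_Ioo hF (T := min T₁.1 T₂.1) (fun s hs => hf x T₁ s
      ⟨by linarith [hs.1, min_le_left T₁.1 T₂.1], by linarith [hs.2, min_le_left T₁.1 T₂.1]⟩)
      (fun s hs => hf x T₂ s ⟨by linarith [hs.1, min_le_right T₁.1 T₂.1],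
        by linarith [hs.2, min_le_right T₁.1 T₂.1]⟩) ((hf0 x T₁).trans (hf0 x T₂).symm) ?_
    refine ⟨?_, lt_min h1.2 h2.2⟩
    rw [neg_lt, lt_min_iff]
    exact ⟨by linarith [h1.1], by linarith [h2.1]⟩
  refine ⟨fun t x => f x (τ t) t, fun z => hf0 z _, fun t z => ?_⟩
  have h1 := hf z (τ (|t| + 1)) t (by
    change t ∈ Ioo (-(|(|t| + 1)| + 1)) (|(|t| + 1)| + 1)
    rw [abs_of_pos (by positivity : (0 : ℝ) < |t| + 1)]
    exact ⟨by linarith [neg_abs_le t], by linarith [le_abs_self t]⟩)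
  have h2 : ∀ s : ℝ, |s| < |t| + 1 → f z (τ s) s = f z (τ (|t| + 1)) s := by
    intro s hs
    refine hag z _ _ s (hmem s) ?_
    change s ∈ Ioo (-(|(|t| + 1)| + 1)) (|(|t| + 1)| + 1)
    rw [abs_of_pos (by positivity : (0 : ℝ) < |t| + 1)]
    exact ⟨by linarith [neg_abs_le s], by linarith [le_abs_self s]⟩
  rw [h2 t (by linarith)]
  refine h1.congr_of_eventuallyEq ?_
  have h3 : ∀ᶠ s in 𝓝 t, |s| < |t| + 1 :=
    (continuous_abs.tendsto t).eventually (gt_mem_nhds (lt_add_one |t|))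
  filter_upwards [h3] with s hs
  exact h2 s hs

/-- `C^1` vector fields with a conserved quantity, bounded on the sublevels, are complete -/
theorem exists_flw_of_cons {F : E → E} (hF : ContDiff ℝ 1 F) {H : E → ℝ} (hH : ContDiff ℝ 1 H)
    (hc : ∀ z, fderiv ℝ H z (F z) = 0) (hb : ∀ c : ℝ, ∃ L : ℝ, ∀ z, H z ≤ c → ‖F z‖ ≤ L) :
    ∃ Φ, Flw F Φ := by
  -- cut-off
  let χ : ℝ → E → ℝ := fun c z => Real.smoothTransition (c + 2 - H z)
  have hχ : ∀ c, ContDiff ℝ 1 (χ c) := fun c =>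
    Real.smoothTransition.contDiff.comp (contDiff_const.sub hH)
  have hχ1 : ∀ c z, H z ≤ c + 1 → χ c z = 1 := fun c z hz =>
    Real.smoothTransition.one_of_one_le (by linarith)
  have hχ0 : ∀ c z, c + 2 ≤ H z → χ c z = 0 := fun c z hz =>
    Real.smoothTransition.zero_of_nonpos (by linarith)
  have h1 : ∀ c, ∃ Φ, Flw (fun z => χ c z • F z) Φ := by
    intro c
    obtain ⟨L, hL⟩ := hb (c + 2)
    refine exists_flw ((hχ c).smul hF) (L := max L 0) fun z => ?_
    rcases le_total (c + 2) (H z) with h | h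
    · rw [hχ0 c z h, zero_smul, norm_zero]; exact le_max_right _ _
    · rw [norm_smul, Real.norm_of_nonneg (Real.smoothTransition.nonneg _)]
      calc χ c z * ‖F z‖ ≤ 1 * ‖F z‖ :=
            mul_le_mul_of_nonneg_right (Real.smoothTransition.le_one _) (norm_nonneg _)
        _ ≤ max L 0 := by rw [one_mul]; exact (hL z h).trans (le_max_left _ _)
  choose Ψ hΨ using h1
  have hcons : ∀ c t z, H (Ψ c t z) = H z := by
    intro c t z
    have h2 : ∀ s, HasDerivAt (fun s => H (Ψ c s z)) 0 s := fun s => by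
      have h3 := (hH.differentiable one_ne_zero (Ψ c s z)).hasFDerivAt.comp_hasDerivAt s
        ((hΨ c).der s z)
      rw [map_smul, hc, smul_zero] at h3
      exact h3
    have h4 := is_const_of_deriv_eq_zero (fun s => (h2 s).differentiableAt)
      (fun s => (h2 s).deriv) t 0
    rw [h4, (hΨ c).zero]
  refine ⟨fun t z => Ψ (H z) t z, fun z => (hΨ _).zero z, fun t z => ?_⟩
  have h2 := (hΨ (H z)).der t z
  have h3 : χ (H z) (Ψ (H z) t z) = 1 := hχ1 _ _ (by rw [hcons]; linarith)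
  simp only [h3, one_smul] at h2
  exact h2

end

variable {n : ℕ} {G : J.Mtx n}

/-- the Hamiltonian vector field outside the ball where the metric is constant -/
theorem hv_out {R : ℝ} {G₀ : Matrix (Fin n) (Fin n) ℝ} (hG : ∀ x, R < ‖x‖ → G x = G₀)
    {q : J.E n} (hq : R < ‖q‖) (p : J.E n) :
    hv G (q, p) = (fun i => ∑ j, G₀⁻¹ i j * p j, fun _ => 0) := by
  unfold hv
  refine Prod.ext ?_ ?_
  · simp only [hG q hq]
  · funext k
    simp only []
    have h1 : (fun q => ham G (q, p)) =ᶠ[𝓝 q] fun _ => 1 / 2 * ∑ i, ∑ j, G₀⁻¹ i j * p i * p j := by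
      filter_upwards [(continuous_norm.tendsto q).eventually (lt_mem_nhds hq)] with x hx
      unfold ham
      simp only [hG x hx]
    unfold J.pd
    rw [h1.fderiv_eq, fderiv_fun_const]
    simp

/-- BLOCK V1 -/
theorem exists_geoflow (hs : ∀ i j, ContDiff ℝ ∞ fun x => G x i j) (hp : ∀ x, (G x).PosDef)
    {R : ℝ} {G₀ : Matrix (Fin n) (Fin n) ℝ} (hG : ∀ x, R < ‖x‖ → G x = G₀) :
    ∃ Φ : ℝ → J.E n × J.E n → J.E n × J.E n, (∀ z, Φ 0 z = z) ∧
      ∀ t z, HasDerivAt (fun s => Φ s z) (hv G (Φ t z)) t := by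
  have hF1 : ContDiff ℝ 1 (hv G) := contDiff_infty.1 (hv_smooth hs hp) 1
  have hH1 : ContDiff ℝ 1 (ham G) := contDiff_infty.1 (ham_smooth hs hp) 1
  suffices h : ∃ Φ, Flw (hv G) Φ by
    obtain ⟨Φ, hΦ⟩ := h
    exact ⟨Φ, hΦ.zero, hΦ.der⟩
  refine exists_flw_of_cons hF1 hH1 (ham_hv hs hp) fun c => ?_
  -- a compact set where all values are attained
  obtain ⟨S, hS⟩ : ∃ S : ℝ, ∀ q : J.E n, ∃ q' ∈ closedBall (0 : J.E n) S,
      (∀ p, ham G (q, p) = ham G (q', p)) ∧ ∀ p, hv G (q, p) = hv G (q', p) := by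
    by_cases h : ∃ q₁ : J.E n, R < ‖q₁‖
    · obtain ⟨q₁, hq₁⟩ := h
      refine ⟨‖q₁‖, fun q => ?_⟩
      by_cases hq : ‖q‖ ≤ ‖q₁‖
      · exact ⟨q, mem_closedBall_zero_iff.2 hq, fun _ => rfl, fun _ => rfl⟩
      · have hq' : R < ‖q‖ := hq₁.trans (not_le.1 hq)
        refine ⟨q₁, mem_closedBall_zero_iff.2 le_rfl, fun p => ?_, fun p => ?_⟩
        · unfold ham
          simp only [hG q hq', hG q₁ hq₁]
        · rw [hv_out hG hq', hv_out hG hq₁]
    · push Not at h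
      exact ⟨R, fun q => ⟨q, mem_closedBall_zero_iff.2 (h q), fun _ => rfl, fun _ => rfl⟩⟩
  -- lower bound of the energy
  have hlow : ∃ ε : ℝ, 0 < ε ∧ ∀ q ∈ closedBall (0 : J.E n) S, ∀ p ∈ sphere (0 : J.E n) 1,
      ε ≤ ham G (q, p) := by
    by_cases hne : (closedBall (0 : J.E n) S ×ˢ sphere (0 : J.E n) 1).Nonempty
    · obtain ⟨z, hz, hmin⟩ := ((isCompact_closedBall (0 : J.E n) S).prod
        (isCompact_sphere (0 : J.E n) 1)).exists_isMinOn hne hH1.continuous.continuousOn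
      refine ⟨ham G z, ?_, fun q hq p hp' => hmin (mk_mem_prod hq hp')⟩
      have hz2 : z.2 ≠ 0 := by
        intro h0
        have := hz.2
        rw [h0, mem_sphere_zero_iff_norm, norm_zero] at this
        exact zero_ne_one this
      have h1 := (hp z.1).inv.dotProduct_mulVec_pos hz2
      rw [star_trivial] at h1
      have h2 : ham G z = 1 / 2 * (z.2 ⬝ᵥ ((G z.1)⁻¹ *ᵥ z.2)) := by
        unfold ham
        simp only [dotProduct, Matrix.mulVec, Finset.mul_sum]
        refine Finset.sum_congr rfl fun i _ => Finset.sum_congr rfl fun j _ => ?_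
        ring
      rw [h2]
      positivity
    · refine ⟨1, one_pos, fun q hq p hp' => ?_⟩
      exact absurd ⟨(q, p), mk_mem_prod hq hp'⟩ hne
  obtain ⟨ε, hε, hlow⟩ := hlow
  have hlow' : ∀ q p, ε * ‖p‖ ^ 2 ≤ ham G (q, p) := by
    intro q p
    by_cases hp0 : p = 0
    · subst hp0
      rw [norm_zero]
      have : ham G (q, 0) = 0 := by
        unfold ham
        simp
      rw [this]; simp
    · obtain ⟨q', hq', h1, -⟩ := hS q
      have hn : ‖p‖ ≠ 0 := norm_ne_zero_iff.2 hp0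
      have h2 := hlow q' hq' (‖p‖⁻¹ • p) (by
        rw [mem_sphere_zero_iff_norm, norm_smul, norm_inv, norm_norm, inv_mul_cancel₀ hn])
      rw [ham_smul] at h2
      rw [h1]
      have h3 : ham G (q', p) = ‖p‖ ^ 2 * ((‖p‖⁻¹) ^ 2 * ham G (q', p)) := by
        field_simp
      rw [h3, mul_comm ε]
      exact mul_le_mul_of_nonneg_left h2 (by positivity)
  obtain ⟨L, hL⟩ := ((isCompact_closedBall (0 : J.E n) S).prod
    (isCompact_closedBall (0 : J.E n) (c / ε + 1))).exists_bound_of_continuousOn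
    hF1.continuous.continuousOn
  refine ⟨L, fun z hz => ?_⟩
  obtain ⟨q', hq', -, h1⟩ := hS z.1
  have h2 : hv G z = hv G (q', z.2) := h1 z.2
  rw [h2]
  refine hL (q', z.2) (mk_mem_prod hq' ?_)
  rw [mem_closedBall_zero_iff]
  have h3 := (hlow' z.1 z.2).trans hz
  have h4 : ‖z.2‖ ^ 2 ≤ c / ε := by rw [le_div_iff₀ hε]; linarith
  nlinarith [norm_nonneg z.2]

end Vale.Agent.P223.H316
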