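import Vale.Agent.P223.H316.Cpl
import Mathlib.Geometry.Manifold.PartitionOfUnity

/-! BLOCKS V1b, V2a: extension of a metric from a ball; Liouville measure, energy, scaling for any
complete geodesic flow. -/

namespace Vale.Agent.P223.H316

open Set Filter Topology Metric MeasureTheory
open scoped ContDiff Matrix
open H765.NC

variable {n : ℕ} {G : J.Mtx n}

/-- BLOCK V2a : the parts of T1, T2 which do not use poles. -/
theorem flow_gen (hs : ∀ i j, ContDiff ℝ ∞ fun x => G x i j) (hp : ∀ x, (G x).PosDef)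
    {Φ : ℝ → J.E n × J.E n → J.E n × J.E n} (h0 : ∀ z, Φ 0 z = z)
    (hd : ∀ t z, HasDerivAt (fun s => Φ s z) (hv G (Φ t z)) t) :
    (∀ t, MeasurePreserving (Φ t) volume volume) ∧
    (∀ t z, ham G (Φ t z) = ham G z) ∧
    (∀ (t c : ℝ) q p, Φ t (q, c • p) = ((Φ (c * t) (q, p)).1, c • (Φ (c * t) (q, p)).2)) ∧
    ContDiff ℝ 1 (fun q : ℝ × (J.E n × J.E n) => Φ q.1 q.2) ∧
    (∀ s t z, Φ (s + t) z = Φ s (Φ t z)) ∧
    ∀ t z, HasDerivAt (fun s => fderiv ℝ (Φ s) z)
      ((fderiv ℝ (hv G) (Φ t z)).comp (fderiv ℝ (Φ t) z)) t := by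
  have hF := hv_smooth hs hp
  have hF1 : ContDiff ℝ 1 (hv G) := contDiff_infty.1 hF 1
  have hΦ : Flw (hv G) Φ := ⟨h0, hd⟩
  have hH := ham_smooth hs hp
  have : (volume : Measure (J.E n × J.E n)).IsAddHaarMeasure :=
    Measure.prod.instIsAddHaarMeasure _ _
  refine ⟨fun t => hΦ.measurePreserving hF1 (hv_trace hs hp) volume t, fun t z => ?_,
    fun t c q p => ?_, specFlow _ _ _ hF h0 hd⟩
  · have h1 : ∀ s, HasDerivAt (fun s => ham G (Φ s z)) 0 s := fun s => by
      have h2 := (hH.differentiable (by simp) (Φ s z)).hasFDerivAt.comp_hasDerivAt s (hd s z)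
      rwa [ham_hv hs hp] at h2
    have h3 := is_const_of_deriv_eq_zero (fun s => (h1 s).differentiableAt)
      (fun s => (h1 s).deriv) t 0
    rw [h3, h0]
  · refine sol_unique hF1 (f := fun t => Φ t (q, c • p))
      (g := fun t => ((Φ (c * t) (q, p)).1, c • (Φ (c * t) (q, p)).2)) (fun t => hd t _)
      (fun t => ?_) ?_ t
    · have h1 := (hd (c * t) (q, p)).scomp t ((hasDerivAt_id t).const_mul c)
      rw [mul_one] at h1
      have h2 : HasDerivAt (fun t => (Φ (c * t) (q, p)).1) (c • (hv G (Φ (c * t) (q, p))).1) t :=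
        (ContinuousLinearMap.fst ℝ (J.E n) (J.E n)).hasFDerivAt.comp_hasDerivAt t h1
      have h3 : HasDerivAt (fun t => (Φ (c * t) (q, p)).2) (c • (hv G (Φ (c * t) (q, p))).2) t :=
        (ContinuousLinearMap.snd ℝ (J.E n) (J.E n)).hasFDerivAt.comp_hasDerivAt t h1
      have h4 := h2.prodMk (h3.const_smul c)
      rw [hv_smul c _ _ (by
        have : ∀ p' : J.E n, ContDiff ℝ ∞ fun q => ham G (q, p') := fun p' =>
          hH.comp (contDiff_id.prodMk contDiff_const)
        exact (this _).differentiable (by simp) _)]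
      convert! h4 using 1
      rw [smul_smul, ← sq]
    · simp only [mul_zero, h0]

/-- BLOCK V1b : extension of a metric from an open set to `ℝ^n` -/
theorem exists_ext {U : Set (J.E n)} (hU : IsOpen U)
    (hs : ∀ i j, ContDiffOn ℝ ∞ (fun x => G x i j) U) (hp : ∀ x ∈ U, (G x).PosDef)
    {K : Set (J.E n)} (hK : IsCompact K) (hKU : K ⊆ U) :
    ∃ G' : J.Mtx n, (∀ i j, ContDiff ℝ ∞ fun x => G' x i j) ∧ (∀ x, (G' x).PosDef) ∧
      (∃ R : ℝ, ∀ x, R < ‖x‖ → G' x = 1) ∧ ∃ V : Set (J.E n), IsOpen V ∧ K ⊆ V ∧ V ⊆ U ∧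
        ∀ x ∈ V, G' x = G x := by
  classical
  obtain ⟨K', hK', hKK', hK'U⟩ := exists_compact_between hK hU hKU
  obtain ⟨K'', hK'', hKK'', hK''U⟩ := exists_compact_between hK' hU hK'U
  obtain ⟨χ, hχs, hχr, hχ1, hχ0⟩ : ∃ χ : J.E n → ℝ, ContDiff ℝ ∞ χ ∧ (∀ x, χ x ∈ Icc (0 : ℝ) 1) ∧
      (∀ x ∈ K', χ x = 1) ∧ ∀ x, x ∉ interior K'' → χ x = 0 := by
    obtain ⟨f, h0, h1, h2⟩ := exists_contMDiffMap_zero_one_of_isClosed
      (modelWithCornersSelf ℝ (J.E n)) (n := ⊤) (s := (interior K'')ᶜ) (t := K')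
      isOpen_interior.isClosed_compl hK'.isClosed
      (disjoint_compl_left_iff_subset.2 hKK'')
    exact ⟨f, f.contMDiff.contDiff, h2, fun x hx => h1 hx, fun x hx => h0 hx⟩
  let G' : J.Mtx n := fun x => if x ∈ U then χ x • G x + (1 - χ x) • 1 else 1
  have hG'U : ∀ x ∈ U, G' x = χ x • G x + (1 - χ x) • 1 := fun x hx => if_pos hx
  have hout : ∀ x, x ∉ K'' → G' x = 1 := by
    intro x hx
    have h0 : χ x = 0 := hχ0 x fun h => hx (interior_subset h)
    by_cases hxU : x ∈ U
    · rw [hG'U x hxU, h0, zero_smul, zero_add, sub_zero, one_smul]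
    · exact if_neg hxU
  refine ⟨G', fun i j => ?_, fun x => ?_, ?_, interior K', isOpen_interior, hKK',
    interior_subset.trans hK'U, fun x hx => ?_⟩
  · rw [contDiff_iff_contDiffAt]
    intro x
    by_cases hx : x ∈ U
    · have h1 : ContDiffAt ℝ ∞ (fun x => χ x * G x i j + (1 - χ x) * (1 : Matrix (Fin n) (Fin n) ℝ) i j) x :=
        (hχs.contDiffAt.mul ((hs i j).contDiffAt (hU.mem_nhds hx))).add
          ((contDiffAt_const.sub hχs.contDiffAt).mul contDiffAt_const)
      refine h1.congr_of_eventuallyEq ?_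
      filter_upwards [hU.mem_nhds hx] with y hy
      rw [hG'U y hy]
      simp only [Matrix.add_apply, Matrix.smul_apply, smul_eq_mul]
    · have hxK : x ∉ K'' := fun h => hx (hK''U h)
      have h1 : (fun x => G' x i j) =ᶠ[𝓝 x] fun _ => (1 : Matrix (Fin n) (Fin n) ℝ) i j := by
        filter_upwards [hK''.isClosed.isOpen_compl.mem_nhds hxK] with y hy
        rw [hout y hy]
      exact contDiffAt_const.congr_of_eventuallyEq h1
  · by_cases hx : x ∈ U
    · rw [hG'U x hx]
      have h1 := (hχr x).1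
      have h2 := (hχr x).2
      rcases h1.eq_or_lt with h | h
      · rw [← h, zero_smul, zero_add, sub_zero, one_smul]
        exact Matrix.PosDef.one
      · exact ((hp x hx).smul h).add_posSemidef (Matrix.PosSemidef.one.smul (by linarith))
    · have : G' x = 1 := if_neg hx
      rw [this]
      exact Matrix.PosDef.one
  · obtain ⟨R, hR⟩ := hK''.isBounded.subset_closedBall 0
    refine ⟨R, fun x hx => hout x fun h => ?_⟩
    have := hR h
    rw [mem_closedBall_zero_iff] at this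
    linarith
  · have hxK : x ∈ K' := interior_subset hx
    rw [hG'U x (hK'U hxK), hχ1 x hxK, one_smul, sub_self, zero_smul, add_zero]

end Vale.Agent.P223.H316
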