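import Vale.Agent.P223.H316.WS

/-! Evaluation of words, estimates. -/

namespace Vale.Agent.P223.H316

open scoped ENNReal
open PowerSeries Sy

section TIl
variable {B : Type} [NormedRing B] [NormedAlgebra ℂ B] (T : TI B)

theorem TI.ne_add {x y : B} (hx : T.nn x ≠ ⊤) (hy : T.nn y ≠ ⊤) : T.nn (x + y) ≠ ⊤ :=
  ne_top_of_le_ne_top (ENNReal.add_ne_top.2 ⟨hx, hy⟩) (T.nn_add x y)

theorem TI.ne_smul {x : B} (c : ℂ) (hx : T.nn x ≠ ⊤) : T.nn (c • x) ≠ ⊤ :=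
  ne_top_of_le_ne_top (ENNReal.mul_ne_top enorm_ne_top hx) (T.nn_smul c x)

theorem TI.ne_left (x : B) {y : B} (hy : T.nn y ≠ ⊤) : T.nn (x * y) ≠ ⊤ :=
  ne_top_of_le_ne_top (ENNReal.mul_ne_top enorm_ne_top hy) (T.nn_left x y)

theorem TI.ne_right (x : B) {y : B} (hy : T.nn y ≠ ⊤) : T.nn (y * x) ≠ ⊤ :=
  ne_top_of_le_ne_top (ENNReal.mul_ne_top hy enorm_ne_top) (T.nn_right x y)

theorem TI.ne_zero : T.nn 0 ≠ ⊤ := by rw [T.nn_zero]; exact ENNReal.zero_ne_top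

theorem TI.ne_nsmul {x : B} (c : ℕ) (hx : T.nn x ≠ ⊤) : T.nn (c • x) ≠ ⊤ := by
  rw [← Nat.cast_smul_eq_nsmul ℂ]; exact T.ne_smul _ hx

theorem TI.ne_sum {κ : Type} (s : Finset κ) (f : κ → B) (h : ∀ i ∈ s, T.nn (f i) ≠ ⊤) :
    T.nn (∑ i ∈ s, f i) ≠ ⊤ := by
  classical
  induction s using Finset.induction_on with
  | empty => rw [Finset.sum_empty]; exact T.ne_zero
  | insert i s hi ih =>
    rw [Finset.sum_insert hi]
    exact T.ne_add (h i (Finset.mem_insert_self _ _))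
      (ih fun j hj => h j (Finset.mem_insert_of_mem hj))

theorem TI.nn_sum {κ : Type} (s : Finset κ) (f : κ → B) :
    T.nn (∑ i ∈ s, f i) ≤ ∑ i ∈ s, T.nn (f i) := by
  classical
  induction s using Finset.induction_on with
  | empty => rw [Finset.sum_empty, Finset.sum_empty, T.nn_zero]
  | insert i s hi ih =>
    rw [Finset.sum_insert hi, Finset.sum_insert hi]
    exact (T.nn_add _ _).trans (add_le_add_right ih _)

theorem TI.tr_zero : T.tr 0 = 0 := by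
  have := T.tr_smul 0 0 T.ne_zero
  simpa using this

theorem TI.tr_sum {κ : Type} (s : Finset κ) (f : κ → B) (h : ∀ i ∈ s, T.nn (f i) ≠ ⊤) :
    T.tr (∑ i ∈ s, f i) = ∑ i ∈ s, T.tr (f i) := by
  classical
  induction s using Finset.induction_on with
  | empty => rw [Finset.sum_empty, Finset.sum_empty, T.tr_zero]
  | insert i s hi ih =>
    rw [Finset.sum_insert hi, Finset.sum_insert hi, T.tr_add _ _ (h i (Finset.mem_insert_self _ _))
      (T.ne_sum _ _ fun j hj => h j (Finset.mem_insert_of_mem hj)),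
      ih fun j hj => h j (Finset.mem_insert_of_mem hj)]

theorem TI.tr_sub (x y : B) (hx : T.nn x ≠ ⊤) (hy : T.nn y ≠ ⊤) :
    T.tr (x - y) = T.tr x - T.tr y := by
  have h := T.tr_smul (-1) y hy
  have h2 := T.ne_smul (-1) hy
  rw [neg_one_smul] at h h2
  rw [sub_eq_add_neg, T.tr_add x (-y) hx h2, h]; ring

/-- rotation -/
theorem TI.rot {b χ : B} (h1 : χ * b = b) (h2 : b * χ = b) (T1 T2 Y : B)
    (k1 : T.nn (χ * T2 * Y) ≠ ⊤) (k2 : T.nn (Y * T1 * χ) ≠ ⊤) :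
    T.tr (T1 * b * T2 * Y) = T.tr (Y * T1 * b * T2) := by
  have e1 : T.tr (T1 * b * T2 * Y) = T.tr (T2 * Y * T1 * b) := by
    calc T.tr (T1 * b * T2 * Y) = T.tr ((T1 * b) * (χ * T2 * Y)) := by
          congr 1
          calc T1 * b * T2 * Y = T1 * (b * χ) * T2 * Y := by rw [h2]
            _ = _ := by noncomm_ring
      _ = T.tr ((χ * T2 * Y) * (T1 * b)) := T.tr_comm _ _ k1
      _ = T.tr (χ * (T2 * (Y * T1 * χ) * b)) := by
          congr 1
          calc (χ * T2 * Y) * (T1 * b) = (χ * T2 * Y) * (T1 * (χ * b)) := by rw [h1]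
            _ = _ := by noncomm_ring
      _ = T.tr ((T2 * (Y * T1 * χ) * b) * χ) := T.tr_comm _ _ (T.ne_right _ (T.ne_left _ k2))
      _ = T.tr (T2 * Y * T1 * (χ * (b * χ))) := by congr 1; noncomm_ring
      _ = _ := by rw [h2, h1]
  have e2 : T.tr (Y * T1 * b * T2) = T.tr (T2 * Y * T1 * b) := by
    calc T.tr (Y * T1 * b * T2) = T.tr ((Y * T1 * χ) * (b * T2)) := by
          congr 1
          calc Y * T1 * b * T2 = Y * T1 * (χ * b) * T2 := by rw [h1]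
            _ = _ := by noncomm_ring
      _ = T.tr ((b * T2) * (Y * T1 * χ)) := (T.tr_comm _ _ k2).symm
      _ = T.tr (b * (T2 * (Y * T1 * χ))) := by congr 1; noncomm_ring
      _ = T.tr ((T2 * (Y * T1 * χ)) * b) := T.tr_comm _ _ (T.ne_left _ k2)
      _ = T.tr (T2 * Y * T1 * (χ * b)) := by congr 1; noncomm_ring
      _ = _ := by rw [h1]
  rw [e1, e2]

end TIl

section ev
variable {n : ℕ} {Γ ι B : Type} [Group Γ] [NormedRing B] [NormedAlgebra ℂ B]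
  (W : WS n Γ ι B)

/-- evaluation of words -/
noncomputable def WS.ev : List Sy → (ℕ → Γ × ι) → PowerSeries B
  | [], _ => 1
  | .g :: w, l => W.Gz * WS.ev w l
  | .q :: w, l => W.Pz * WS.ev w l
  | .a :: w, l => C (W.a (l 0)) * WS.ev w (fun k => l (k + 1))
  | .h :: w, l => C (W.h (l 0)) * WS.ev w (fun k => l (k + 1))

theorem WS.ev_append (u v : List Sy) : ∀ l : ℕ → Γ × ι,
    W.ev (u ++ v) l = W.ev u l * W.ev v (fun k => l (k + nl u)) := by
  induction u with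
  | nil => intro l; simp [WS.ev, nl]
  | cons s u ih =>
    intro l
    cases s <;> simp only [List.cons_append, WS.ev, ih, nl, mul_assoc] <;>
      simp only [add_assoc]

theorem WS.ev_congr (w : List Sy) : ∀ l l' : ℕ → Γ × ι, (∀ k < nl w, l k = l' k) →
    W.ev w l = W.ev w l' := by
  induction w with
  | nil => intro l l' _; rfl
  | cons s u ih =>
    intro l l' hl
    cases s with
    | g => simp only [WS.ev]; rw [ih l l' hl]
    | q => simp only [WS.ev]; rw [ih l l' hl]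
    | a =>
      simp only [WS.ev]
      rw [hl 0 (by simp [nl]), ih (fun k => l (k + 1)) (fun k => l' (k + 1))
        fun k hk => hl (k + 1) (by simp only [nl]; omega)]
    | h =>
      simp only [WS.ev]
      rw [hl 0 (by simp [nl]), ih (fun k => l (k + 1)) (fun k => l' (k + 1))
        fun k hk => hl (k + 1) (by simp only [nl]; omega)]

/-- letters -/
noncomputable def WS.lt (s : Bool) : Γ × ι → B := if s then W.a else W.h

theorem WS.lt_χ (s : Bool) (l : Γ × ι) : W.lt s l * W.χ l = W.lt s l := by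
  cases s <;> simp [WS.lt, W.aχ, W.hχ]

theorem WS.χ_lt (s : Bool) (l : Γ × ι) : W.χ l * W.lt s l = W.lt s l := by
  cases s <;> simp [WS.lt, W.χa, W.χh]

/-- nonnegative bound -/
noncomputable def WS.Cb : ℝ := max W.Ca 0

theorem WS.Cb_nonneg : 0 ≤ W.Cb := le_max_right _ _

theorem WS.lt_le (s : Bool) (l : Γ × ι) : ‖W.lt s l‖ ≤ W.Cb := by
  cases s <;> simp [WS.lt, WS.Cb, W.a_le, W.h_le]

theorem WS.Om_lt (s : Bool) (l : Γ × ι) : ∃ e : ℂ, W.Om * W.lt s l = e • (W.lt s l * W.Om) := by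
  cases s
  · exact ⟨_, W.Om_h l⟩
  · exact ⟨1, by rw [one_smul]; exact W.Om_a l⟩

/-- products of kernels -/
noncomputable def WS.kz (p q : ℕ) : PowerSeries B := W.Pz ^ p * W.Gz ^ q

theorem WS.kz_zero : W.kz 0 0 = 1 := by simp [WS.kz]

theorem WS.kz_g (p q : ℕ) (f : PowerSeries B) : W.kz p q * (W.Gz * f) = W.kz p (q + 1) * f := by
  rw [WS.kz, WS.kz, pow_succ]; noncomm_ring

theorem WS.kz_q (p q : ℕ) (f : PowerSeries B) : W.kz p q * (W.Pz * f) = W.kz (p + 1) q * f := by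
  have h : Commute W.Pz (W.Gz ^ q) := (show Commute W.Pz W.Gz from W.PGz).pow_right q
  rw [WS.kz, WS.kz, pow_succ, ← mul_assoc, mul_assoc (W.Pz ^ p), ← h.eq, ← mul_assoc]

/-- coefficients of `S^r` -/
theorem WS.coeff_S (r : ℕ) : ∃ c : ℕ → ℕ, (∀ j, coeff j (W.Sz ^ r) = c j • W.G ^ j) ∧
    (r = 0 → ∀ j, 1 ≤ j → c j = 0) := by
  induction r with
  | zero =>
    refine ⟨fun j => if j = 0 then 1 else 0, fun j => ?_, fun _ j hj => if_neg (by omega)⟩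
    rw [pow_zero, coeff_one]
    split_ifs with h
    · subst h; simp
    · simp [h]
  | succ r ih =>
    obtain ⟨c, hc, -⟩ := ih
    refine ⟨fun j => ∑ p ∈ Finset.antidiagonal j, c p.1, fun j => ?_, fun h => by omega⟩
    rw [pow_succ, coeff_mul, Finset.sum_smul]
    refine Finset.sum_congr rfl fun p hp => ?_
    rw [hc, WS.Sz, coeff_mk, smul_mul_assoc, ← pow_add, Finset.mem_antidiagonal.1 hp]

theorem WS.kz_eq (p q : ℕ) : W.kz p q = C (W.P ^ p * W.G ^ q) * W.Sz ^ (p + q) := by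
  have h1 : Commute (C W.P) W.Sz := W.PS
  have h2 : Commute (C W.G) W.Sz := W.GS
  rw [WS.kz, W.Pz_eq, W.Gz_eq, h1.mul_pow, h2.mul_pow, map_mul, map_pow, map_pow, pow_add]
  have h3 : Commute (W.Sz ^ p) (C W.G ^ q) := (h2.symm.pow_pow p q)
  calc C W.P ^ p * W.Sz ^ p * (C W.G ^ q * W.Sz ^ q) =
      C W.P ^ p * (W.Sz ^ p * C W.G ^ q) * W.Sz ^ q := by noncomm_ring
    _ = _ := by rw [h3.eq]; noncomm_ring

theorem WS.coeff_kz (p q : ℕ) : ∃ c : ℕ → ℕ,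
    (∀ j, coeff j (W.kz p q) = c j • (W.P ^ p * W.G ^ (q + j))) ∧
    (p + q = 0 → ∀ j, 1 ≤ j → c j = 0) := by
  obtain ⟨c, hc, hc0⟩ := W.coeff_S (p + q)
  refine ⟨c, fun j => ?_, hc0⟩
  rw [W.kz_eq, coeff_C_mul, hc, mul_smul_comm, mul_assoc, ← pow_add]

/-- product of weights -/
noncomputable def WS.pw : ℕ → Γ × ι → (ℕ → Γ × ι) → Γ × ι → ℝ
  | 0, l'', _, l' => W.w (l''.1⁻¹ * l'.1)
  | k + 1, l'', l, l' => W.w (l''.1⁻¹ * (l 0).1) * WS.pw k (l 0) (fun j => l (j + 1)) l'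

theorem WS.pw_nonneg (k : ℕ) : ∀ l'' l l', 0 ≤ W.pw k l'' l l' := by
  induction k with
  | zero => intro l'' l l'; exact W.w_nonneg _
  | succ k ih => intro l'' l l'; exact mul_nonneg (W.w_nonneg _) (ih _ _ _)

theorem WS.coeff_let (s : Bool) (p q K : ℕ) (f : PowerSeries B) (l : Γ × ι) :
    coeff K (W.kz p q * (C (W.lt s l) * f)) = ∑ x ∈ Finset.antidiagonal K,
      coeff x.1 (W.kz p q) * W.lt s l * coeff x.2 f := by
  rw [coeff_mul]
  refine Finset.sum_congr rfl fun x _ => ?_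
  rw [coeff_C_mul, mul_assoc]

/-- bounds -/
def WS.BB (W : WS n Γ ι B) (w : List Sy) (p q : ℕ) : Prop := ∀ K, ∃ C : ℝ, 0 ≤ C ∧ ∀ l'' l l',
  ‖W.χ l'' * coeff K (W.kz p q * W.ev w l) * W.χ l'‖ ≤ C * W.pw (nl w) l'' l l'

theorem WS.bd' (i j : ℕ) : ∃ D : ℝ, 0 ≤ D ∧ ∀ l l',
    ‖W.χ l * (W.P ^ i * W.G ^ j) * W.χ l'‖ ≤ D * W.w (l.1⁻¹ * l'.1) := by
  obtain ⟨C, hC⟩ := W.bd i j
  refine ⟨max C 0, le_max_right _ _, fun l l' => ?_⟩
  rw [← mul_assoc]
  exact (hC l l').trans (mul_le_mul_of_nonneg_right (le_max_left _ _) (W.w_nonneg _))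

theorem WS.nuc' (i j : ℕ) (hj : W.m ≤ j) : ∃ D : ℝ, 0 ≤ D ∧ ∀ l l',
    W.T.nn (W.χ l * (W.P ^ i * W.G ^ j) * W.χ l') ≤ ENNReal.ofReal (D * W.w (l.1⁻¹ * l'.1)) := by
  obtain ⟨C, hC⟩ := W.nuc i j hj
  refine ⟨max C 0, le_max_right _ _, fun l l' => ?_⟩
  rw [← mul_assoc]
  exact (hC l l').trans (ENNReal.ofReal_le_ofReal
    (mul_le_mul_of_nonneg_right (le_max_left _ _) (W.w_nonneg _)))

theorem WS.bb_kz (p q K : ℕ) : ∃ D : ℝ, 0 ≤ D ∧ ∀ l l',
    ‖W.χ l * coeff K (W.kz p q) * W.χ l'‖ ≤ D * W.w (l.1⁻¹ * l'.1) := by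
  obtain ⟨c, hc, -⟩ := W.coeff_kz p q
  obtain ⟨C, hC0, hC⟩ := W.bd' p (q + K)
  refine ⟨c K * C, by positivity, fun l l' => ?_⟩
  rw [hc, mul_smul_comm, smul_mul_assoc, ← Nat.cast_smul_eq_nsmul ℂ, norm_smul,
    Complex.norm_natCast, mul_assoc (c K : ℝ)]
  exact mul_le_mul_of_nonneg_left (hC l l') (Nat.cast_nonneg _)

theorem WS.nn_kz (p q K : ℕ) (hK : W.m ≤ K) : ∃ D : ℝ, 0 ≤ D ∧ ∀ l l',
    W.T.nn (W.χ l * coeff K (W.kz p q) * W.χ l') ≤ ENNReal.ofReal (D * W.w (l.1⁻¹ * l'.1)) := by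
  obtain ⟨c, hc, -⟩ := W.coeff_kz p q
  obtain ⟨C, hC0, hC⟩ := W.nuc' p (q + K) (by omega)
  refine ⟨c K * C, by positivity, fun l l' => ?_⟩
  rw [hc, mul_smul_comm, smul_mul_assoc, ← Nat.cast_smul_eq_nsmul ℂ]
  refine (W.T.nn_smul _ _).trans ?_
  have e : ‖(c K : ℂ)‖ₑ = ENNReal.ofReal (c K) := by
    rw [← ofReal_norm, Complex.norm_natCast]
  rw [e, mul_assoc (c K : ℝ), ENNReal.ofReal_mul (Nat.cast_nonneg _)]
  exact mul_le_mul_right (hC l l') _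

theorem WS.bb_let (s : Bool) (w : List Sy) (ih : W.BB w 0 0) (p q K : ℕ) :
    ∃ D : ℝ, 0 ≤ D ∧ ∀ (l'' : Γ × ι) (l : ℕ → Γ × ι) (l' : Γ × ι),
    ‖W.χ l'' * coeff K (W.kz p q * (C (W.lt s (l 0)) * W.ev w (fun k => l (k + 1)))) * W.χ l'‖ ≤
      D * W.pw (nl w + 1) l'' l l' := by
  choose c1 h10 h1 using fun i => W.bb_kz p q i
  choose c2 h20 h2 using ih
  have hCa := W.Cb_nonneg
  refine ⟨∑ x ∈ Finset.antidiagonal K, c1 x.1 * W.Cb * c2 x.2, Finset.sum_nonneg fun x _ => by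
    have := h10 x.1; have := h20 x.2; positivity, fun l'' l l' => ?_⟩
  rw [W.coeff_let, Finset.mul_sum, Finset.sum_mul, Finset.sum_mul]
  refine (norm_sum_le _ _).trans (Finset.sum_le_sum fun x _ => ?_)
  have e : W.χ l'' * (coeff x.1 (W.kz p q) * W.lt s (l 0) *
      coeff x.2 (W.ev w fun k => l (k + 1))) * W.χ l' =
      (W.χ l'' * coeff x.1 (W.kz p q) * W.χ (l 0)) * W.lt s (l 0) *
        (W.χ (l 0) * coeff x.2 (W.kz 0 0 * W.ev w fun k => l (k + 1)) * W.χ l') := by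
    rw [W.kz_zero, one_mul]
    calc _ = W.χ l'' * coeff x.1 (W.kz p q) * (W.lt s (l 0)) *
        coeff x.2 (W.ev w fun k => l (k + 1)) * W.χ l' := by noncomm_ring
      _ = W.χ l'' * coeff x.1 (W.kz p q) * (W.χ (l 0) * (W.lt s (l 0) * W.χ (l 0))) *
        coeff x.2 (W.ev w fun k => l (k + 1)) * W.χ l' := by rw [W.lt_χ, W.χ_lt]
      _ = _ := by noncomm_ring
  rw [e]
  refine (norm_mul_le _ _).trans ?_
  refine (mul_le_mul_of_nonneg_right (norm_mul_le _ _) (norm_nonneg _)).trans ?_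
  have k1 := h1 x.1 l'' (l 0)
  have k2 := h2 x.2 (l 0) (fun k => l (k + 1)) l'
  have k3 := W.lt_le s (l 0)
  have hw := W.w_nonneg (l''.1⁻¹ * (l 0).1)
  have hp := W.pw_nonneg (nl w) (l 0) (fun k => l (k + 1)) l'
  calc _ ≤ (c1 x.1 * W.w (l''.1⁻¹ * (l 0).1)) * W.Cb *
        (c2 x.2 * W.pw (nl w) (l 0) (fun k => l (k + 1)) l') :=
        mul_le_mul (mul_le_mul k1 k3 (norm_nonneg _) (mul_nonneg (h10 _) hw)) k2 (norm_nonneg _)
          (mul_nonneg (mul_nonneg (h10 _) hw) hCa)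
    _ = _ := by rw [WS.pw]; ring

end ev

end Vale.Agent.P223.H316
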