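import Vale.Agent.P223.H316.Est

/-! Estimates for words. -/

namespace Vale.Agent.P223.H316

open scoped ENNReal
open PowerSeries Sy

theorem eml {B : Type} [NormedRing B] (x y : B) : ‖x * y‖ₑ ≤ ‖x‖ₑ * ‖y‖ₑ := by
  simp only [enorm, ← ENNReal.coe_mul]
  exact ENNReal.coe_le_coe.2 (nnnorm_mul_le x y)

section ev
variable {n : ℕ} {Γ ι B : Type} [Group Γ] [NormedRing B] [NormedAlgebra ℂ B]
  (W : WS n Γ ι B)

theorem WS.bb (w : List Sy) : ∀ p q, W.BB w p q := by
  induction w with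
  | nil =>
    intro p q K
    obtain ⟨D, hD0, hD⟩ := W.bb_kz p q K
    refine ⟨D, hD0, fun l'' l l' => ?_⟩
    rw [WS.ev, mul_one]
    exact hD l'' l'
  | cons s w ih =>
    intro p q K
    cases s with
    | g =>
      obtain ⟨D, hD0, hD⟩ := ih p (q + 1) K
      refine ⟨D, hD0, fun l'' l l' => ?_⟩
      rw [WS.ev, W.kz_g]
      exact hD l'' l l'
    | q =>
      obtain ⟨D, hD0, hD⟩ := ih (p + 1) q K
      refine ⟨D, hD0, fun l'' l l' => ?_⟩
      rw [WS.ev, W.kz_q]
      exact hD l'' l l'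
    | a => exact W.bb_let true w (ih 0 0) p q K
    | h => exact W.bb_let false w (ih 0 0) p q K

/-- words without kernels -/
theorem WS.ev_nk0 (w : List Sy) (hw : nk w = 0) : ∀ (l : ℕ → Γ × ι) (K : ℕ), 1 ≤ K →
    coeff K (W.ev w l) = 0 := by
  induction w with
  | nil => intro l K hK; rw [WS.ev, coeff_one, if_neg (by omega)]
  | cons s w ih =>
    intro l K hK
    cases s with
    | g => simp [nk] at hw
    | q => simp [nk] at hw
    | a => rw [WS.ev, coeff_C_mul, ih (by simpa [nk] using hw) _ K hK, mul_zero]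
    | h => rw [WS.ev, coeff_C_mul, ih (by simpa [nk] using hw) _ K hK, mul_zero]

/-- The terms of the product: either the first factor, or the second factor is nuclear. -/
theorem WS.split (s : Bool) (w : List Sy) (p q K i j : ℕ) (l : ℕ → Γ × ι)
    (hK : W.m * (p + q + nk w) ≤ K) (h1 : 1 ≤ p + q + nk w) (hij : i + j = K) :
    (W.m ≤ i ∧ 1 ≤ p + q) ∨
    coeff i (W.kz p q) * W.lt s (l 0) * coeff j (W.ev w (fun k => l (k + 1))) = 0 ∨
    (W.m * nk w ≤ j ∧ 1 ≤ nk w) := by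
  obtain ⟨c, hc, hc0⟩ := W.coeff_kz p q
  by_cases hpq : p + q = 0
  · by_cases hi : 1 ≤ i
    · right; left
      rw [hc, hc0 hpq i hi, zero_smul, zero_mul, zero_mul]
    · right; right
      have : i = 0 := by omega
      subst this
      have : j = K := by omega
      subst this
      rw [hpq, zero_add] at hK h1
      exact ⟨hK, h1⟩
  · by_cases hi : W.m ≤ i
    · left; exact ⟨hi, by omega⟩
    · by_cases hw : nk w = 0
      · right; left
        have : 1 ≤ j := by
          have h3 : W.m * 1 ≤ W.m * (p + q + nk w) := Nat.mul_le_mul_left _ h1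
          omega
        rw [W.ev_nk0 w hw _ j this, mul_zero]
      · right; right
        refine ⟨?_, by omega⟩
        have h3 : W.m * (1 + nk w) ≤ W.m * (p + q + nk w) := Nat.mul_le_mul_left _ (by omega)
        rw [mul_add] at h3
        omega

/-- nuclear bounds -/
def WS.NN (W : WS n Γ ι B) (w : List Sy) (p q : ℕ) : Prop :=
  ∀ K, W.m * (p + q + nk w) ≤ K → 1 ≤ p + q + nk w → ∃ D : ℝ, 0 ≤ D ∧ ∀ l'' l l',
  W.T.nn (W.χ l'' * coeff K (W.kz p q * W.ev w l) * W.χ l') ≤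
    ENNReal.ofReal (D * W.pw (nl w) l'' l l')

theorem WS.nn_let (s : Bool) (w : List Sy) (ih : W.NN w 0 0) (p q K : ℕ)
    (hK : W.m * (p + q + nk w) ≤ K) (h1 : 1 ≤ p + q + nk w) :
    ∃ D : ℝ, 0 ≤ D ∧ ∀ (l'' : Γ × ι) (l : ℕ → Γ × ι) (l' : Γ × ι),
    W.T.nn (W.χ l'' * coeff K (W.kz p q * (C (W.lt s (l 0)) * W.ev w (fun k => l (k + 1)))) *
      W.χ l') ≤ ENNReal.ofReal (D * W.pw (nl w + 1) l'' l l') := by
  classical
  -- constants for each term
  have key : ∀ i j, i + j = K → ∃ D : ℝ, 0 ≤ D ∧ ∀ (l'' : Γ × ι) (l : ℕ → Γ × ι) (l' : Γ × ι),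
      W.T.nn (W.χ l'' * (coeff i (W.kz p q) * W.lt s (l 0) *
        coeff j (W.ev w fun k => l (k + 1))) * W.χ l') ≤
        ENNReal.ofReal (D * W.pw (nl w + 1) l'' l l') := by
    intro i j hij
    have e : ∀ (l'' : Γ × ι) (l : ℕ → Γ × ι) (l' : Γ × ι),
        W.χ l'' * (coeff i (W.kz p q) * W.lt s (l 0) *
        coeff j (W.ev w fun k => l (k + 1))) * W.χ l' =
        (W.χ l'' * coeff i (W.kz p q) * W.χ (l 0)) * W.lt s (l 0) *
          (W.χ (l 0) * coeff j (W.kz 0 0 * W.ev w fun k => l (k + 1)) * W.χ l') := by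
      intro l'' l l'
      rw [W.kz_zero, one_mul]
      calc _ = W.χ l'' * coeff i (W.kz p q) * (W.lt s (l 0)) *
          coeff j (W.ev w fun k => l (k + 1)) * W.χ l' := by noncomm_ring
        _ = W.χ l'' * coeff i (W.kz p q) * (W.χ (l 0) * (W.lt s (l 0) * W.χ (l 0))) *
          coeff j (W.ev w fun k => l (k + 1)) * W.χ l' := by rw [W.lt_χ, W.χ_lt]
        _ = _ := by noncomm_ring
    by_cases hA : W.m ≤ i ∧ 1 ≤ p + q
    · obtain ⟨c1, h10, h1⟩ := W.nn_kz p q i hA.1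
      obtain ⟨c2, h20, h2⟩ := W.bb w 0 0 j
      refine ⟨c1 * W.Cb * c2, mul_nonneg (mul_nonneg h10 W.Cb_nonneg) h20, fun l'' l l' => ?_⟩
      rw [e]
      have k1 := h1 l'' (l 0)
      have k2 := h2 (l 0) (fun k => l (k + 1)) l'
      have k3 := W.lt_le s (l 0)
      have hw := W.w_nonneg (l''.1⁻¹ * (l 0).1)
      have hp := W.pw_nonneg (nl w) (l 0) (fun k => l (k + 1)) l'
      refine (W.T.nn_right _ _).trans ?_
      refine (mul_le_mul_left (W.T.nn_right _ _) _).trans ?_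
      calc _ ≤ ENNReal.ofReal (c1 * W.w (l''.1⁻¹ * (l 0).1)) * ENNReal.ofReal W.Cb *
            ENNReal.ofReal (c2 * W.pw (nl w) (l 0) (fun k => l (k + 1)) l') := by
            refine mul_le_mul' (mul_le_mul' k1 ?_) ?_
            · rw [← ofReal_norm]; exact ENNReal.ofReal_le_ofReal k3
            · rw [← ofReal_norm]; exact ENNReal.ofReal_le_ofReal k2
        _ = _ := by
          rw [← ENNReal.ofReal_mul (mul_nonneg h10 hw),
            ← ENNReal.ofReal_mul (mul_nonneg (mul_nonneg h10 hw) W.Cb_nonneg), WS.pw]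
          congr 1; ring
    · by_cases hB : W.m * nk w ≤ j ∧ 1 ≤ nk w
      · obtain ⟨c1, h10, h1⟩ := W.bb_kz p q i
        obtain ⟨c2, h20, h2⟩ := ih j (by rw [add_zero, zero_add]; exact hB.1)
          (by rw [add_zero, zero_add]; exact hB.2)
        refine ⟨c1 * W.Cb * c2, mul_nonneg (mul_nonneg h10 W.Cb_nonneg) h20, fun l'' l l' => ?_⟩
        rw [e]
        have k1 := h1 l'' (l 0)
        have k2 := h2 (l 0) (fun k => l (k + 1)) l'
        have k3 := W.lt_le s (l 0)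
        have hw := W.w_nonneg (l''.1⁻¹ * (l 0).1)
        have hp := W.pw_nonneg (nl w) (l 0) (fun k => l (k + 1)) l'
        refine (W.T.nn_left _ _).trans ?_
        refine (mul_le_mul_left (eml _ _) _).trans ?_
        calc _ ≤ ENNReal.ofReal (c1 * W.w (l''.1⁻¹ * (l 0).1)) * ENNReal.ofReal W.Cb *
              ENNReal.ofReal (c2 * W.pw (nl w) (l 0) (fun k => l (k + 1)) l') := by
              refine mul_le_mul' (mul_le_mul' ?_ ?_) k2
              · rw [← ofReal_norm]; exact ENNReal.ofReal_le_ofReal k1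
              · rw [← ofReal_norm]; exact ENNReal.ofReal_le_ofReal k3
          _ = _ := by
            rw [← ENNReal.ofReal_mul (mul_nonneg h10 hw),
              ← ENNReal.ofReal_mul (mul_nonneg (mul_nonneg h10 hw) W.Cb_nonneg), WS.pw]
            congr 1; ring
      · refine ⟨0, le_rfl, fun l'' l l' => ?_⟩
        rcases W.split s w p q K i j l hK h1 hij with h | h | h
        · exact absurd h hA
        · rw [h, mul_zero, zero_mul, W.T.nn_zero]; exact zero_le
        · exact absurd h hB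
  choose! D hD0 hD using key
  refine ⟨∑ x ∈ Finset.antidiagonal K, D x.1 x.2, Finset.sum_nonneg fun x hx =>
    hD0 _ _ (Finset.mem_antidiagonal.1 hx), fun l'' l l' => ?_⟩
  rw [W.coeff_let, Finset.mul_sum, Finset.sum_mul, Finset.sum_mul, ENNReal.ofReal_sum_of_nonneg
    fun x hx => mul_nonneg (hD0 _ _ (Finset.mem_antidiagonal.1 hx)) (W.pw_nonneg _ _ _ _)]
  exact (W.T.nn_sum _ _).trans (Finset.sum_le_sum fun x hx =>
    hD _ _ (Finset.mem_antidiagonal.1 hx) l'' l l')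

theorem WS.nn (w : List Sy) : ∀ p q, W.NN w p q := by
  induction w with
  | nil =>
    intro p q K hK h1
    have h2 : W.m * 1 ≤ W.m * (p + q + nk []) := Nat.mul_le_mul_left _ h1
    obtain ⟨D, hD0, hD⟩ := W.nn_kz p q K (by omega)
    refine ⟨D, hD0, fun l'' l l' => ?_⟩
    rw [WS.ev, mul_one]
    exact hD l'' l'
  | cons s w ih =>
    intro p q K hK h1
    cases s with
    | g =>
      rw [show p + q + nk (g :: w) = p + (q + 1) + nk w by simp only [nk]; omega] at hK h1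
      obtain ⟨D, hD0, hD⟩ := ih p (q + 1) K hK h1
      refine ⟨D, hD0, fun l'' l l' => ?_⟩
      rw [WS.ev, W.kz_g]
      exact hD l'' l l'
    | q =>
      rw [show p + q + nk (Sy.q :: w) = (p + 1) + q + nk w by simp only [nk]; omega] at hK h1
      obtain ⟨D, hD0, hD⟩ := ih (p + 1) q K hK h1
      refine ⟨D, hD0, fun l'' l l' => ?_⟩
      rw [WS.ev, W.kz_q]
      exact hD l'' l l'
    | a => exact W.nn_let true w (ih 0 0) p q K hK h1
    | h => exact W.nn_let false w (ih 0 0) p q K hK h1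

/-- one-sided localisation -/
theorem WS.kz_nl (p q K : ℕ) (hK : W.m ≤ K) (l : Γ × ι) :
    W.T.nn (W.χ l * coeff K (W.kz p q)) ≠ ⊤ := by
  obtain ⟨c, hc, -⟩ := W.coeff_kz p q
  rw [hc, mul_smul_comm, ← mul_assoc]
  exact W.T.ne_nsmul _ (W.nucl p (q + K) (by omega) l)

theorem WS.kz_nr (p q K : ℕ) (hK : W.m ≤ K) (l : Γ × ι) :
    W.T.nn (coeff K (W.kz p q) * W.χ l) ≠ ⊤ := by
  obtain ⟨c, hc, -⟩ := W.coeff_kz p q
  rw [hc, smul_mul_assoc]
  exact W.T.ne_nsmul _ (W.nucr p (q + K) (by omega) l)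

theorem WS.st1_let (s : Bool) (w : List Sy)
    (ih : ∀ K, W.m * (0 + 0 + nk w) ≤ K → 1 ≤ 0 + 0 + nk w → ∀ l'' l,
      W.T.nn (W.χ l'' * coeff K (W.kz 0 0 * W.ev w l)) ≠ ⊤) (p q K : ℕ)
    (hK : W.m * (p + q + nk w) ≤ K) (h1 : 1 ≤ p + q + nk w) (l'' : Γ × ι) (l : ℕ → Γ × ι) :
    W.T.nn (W.χ l'' * coeff K (W.kz p q * (C (W.lt s (l 0)) * W.ev w (fun k => l (k + 1))))) ≠
      ⊤ := by
  rw [W.coeff_let, Finset.mul_sum]
  refine W.T.ne_sum _ _ fun x hx => ?_
  rcases W.split s w p q K x.1 x.2 l hK h1 (Finset.mem_antidiagonal.1 hx) with h | h | h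
  · rw [← mul_assoc, ← mul_assoc]
    exact W.T.ne_right _ (W.T.ne_right _ (W.kz_nl p q _ h.1 _))
  · rw [h, mul_zero]; exact W.T.ne_zero
  · rw [← W.lt_χ, mul_assoc (coeff x.1 (W.kz p q)), mul_assoc (W.lt s (l 0))]
    have := ih x.2 (by rw [add_zero, zero_add]; exact h.1) (by rw [add_zero, zero_add]; exact h.2)
      (l 0) (fun k => l (k + 1))
    rw [W.kz_zero, one_mul] at this
    exact W.T.ne_left _ (W.T.ne_left _ (W.T.ne_left _ this))

theorem WS.st1 (w : List Sy) : ∀ p q K, W.m * (p + q + nk w) ≤ K → 1 ≤ p + q + nk w → ∀ l'' l,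
    W.T.nn (W.χ l'' * coeff K (W.kz p q * W.ev w l)) ≠ ⊤ := by
  induction w with
  | nil =>
    intro p q K hK h1 l'' l
    have h2 : W.m * 1 ≤ W.m * (p + q + nk []) := Nat.mul_le_mul_left _ h1
    rw [WS.ev, mul_one]
    exact W.kz_nl p q K (by omega) l''
  | cons s w ih =>
    intro p q K hK h1 l'' l
    cases s with
    | g =>
      rw [show p + q + nk (g :: w) = p + (q + 1) + nk w by simp only [nk]; omega] at hK h1
      rw [WS.ev, W.kz_g]
      exact ih p (q + 1) K hK h1 l'' l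
    | q =>
      rw [show p + q + nk (Sy.q :: w) = (p + 1) + q + nk w by simp only [nk]; omega] at hK h1
      rw [WS.ev, W.kz_q]
      exact ih (p + 1) q K hK h1 l'' l
    | a => exact W.st1_let true w (ih 0 0) p q K hK h1 l'' l
    | h => exact W.st1_let false w (ih 0 0) p q K hK h1 l'' l

theorem WS.st2_let (s : Bool) (w : List Sy) (p q K : ℕ)
    (hK : W.m * (p + q + nk w) ≤ K) (h1 : 1 ≤ p + q + nk w) (l : ℕ → Γ × ι) :
    W.T.nn (coeff K (W.kz p q * (C (W.lt s (l 0)) * W.ev w (fun k => l (k + 1))))) ≠ ⊤ := by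
  rw [W.coeff_let]
  refine W.T.ne_sum _ _ fun x hx => ?_
  rcases W.split s w p q K x.1 x.2 l hK h1 (Finset.mem_antidiagonal.1 hx) with h | h | h
  · rw [← W.χ_lt, ← mul_assoc]
    exact W.T.ne_right _ (W.T.ne_right _ (W.kz_nr p q _ h.1 _))
  · rw [h]; exact W.T.ne_zero
  · rw [← W.lt_χ, mul_assoc (coeff x.1 (W.kz p q)), mul_assoc (W.lt s (l 0))]
    have := W.st1 w 0 0 x.2 (by rw [add_zero, zero_add]; exact h.1)
      (by rw [add_zero, zero_add]; exact h.2) (l 0) (fun k => l (k + 1))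
    rw [W.kz_zero, one_mul] at this
    exact W.T.ne_left _ (W.T.ne_left _ this)

/-- nuclearity of words with a letter -/
theorem WS.st2 (w : List Sy) (hw : 1 ≤ nl w) : ∀ p q K, W.m * (p + q + nk w) ≤ K →
    1 ≤ p + q + nk w → ∀ l, W.T.nn (coeff K (W.kz p q * W.ev w l)) ≠ ⊤ := by
  induction w with
  | nil => simp [nl] at hw
  | cons s w ih =>
    intro p q K hK h1 l
    cases s with
    | g =>
      rw [show p + q + nk (g :: w) = p + (q + 1) + nk w by simp only [nk]; omega] at hK h1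
      rw [WS.ev, W.kz_g]
      exact ih (by simpa [nl] using hw) p (q + 1) K hK h1 l
    | q =>
      rw [show p + q + nk (Sy.q :: w) = (p + 1) + q + nk w by simp only [nk]; omega] at hK h1
      rw [WS.ev, W.kz_q]
      exact ih (by simpa [nl] using hw) (p + 1) q K hK h1 l
    | a => exact W.st2_let true w p q K hK h1 l
    | h => exact W.st2_let false w p q K hK h1 l

theorem WS.nuc_ev (w : List Sy) (hw : 1 ≤ nl w) (K : ℕ) (hK : W.m * nk w ≤ K) (hK1 : 1 ≤ K)
    (l : ℕ → Γ × ι) : W.T.nn (coeff K (W.ev w l)) ≠ ⊤ := by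
  by_cases h : 1 ≤ nk w
  · have := W.st2 w hw 0 0 K (by simpa using hK) (by simpa using h) l
    rwa [W.kz_zero, one_mul] at this
  · rw [W.ev_nk0 w (by omega) l K hK1]
    exact W.T.ne_zero

/-- multiplication with high powers of `G` -/
theorem WS.st4 (w : List Sy) (e j : ℕ) (hj : W.m ≤ j) : ∀ p q i l'' l,
    W.T.nn (W.χ l'' * coeff i (W.kz p q * W.ev w l) * (W.P ^ e * W.G ^ j)) ≠ ⊤ := by
  have hlet : ∀ (s : Bool) (w : List Sy), (∀ p q i l'' l,
      W.T.nn (W.χ l'' * coeff i (W.kz p q * W.ev w l) * (W.P ^ e * W.G ^ j)) ≠ ⊤) →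
      ∀ p q i (l'' : Γ × ι) (l : ℕ → Γ × ι),
      W.T.nn (W.χ l'' * coeff i (W.kz p q * (C (W.lt s (l 0)) * W.ev w (fun k => l (k + 1)))) *
        (W.P ^ e * W.G ^ j)) ≠ ⊤ := by
    intro s w ih p q i l'' l
    rw [W.coeff_let, Finset.mul_sum, Finset.sum_mul]
    refine W.T.ne_sum _ _ fun x hx => ?_
    have := ih 0 0 x.2 (l 0) (fun k => l (k + 1))
    rw [W.kz_zero, one_mul] at this
    rw [← W.lt_χ]
    have e1 : W.χ l'' * (coeff x.1 (W.kz p q) * (W.lt s (l 0) * W.χ (l 0)) *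
        coeff x.2 (W.ev w fun k => l (k + 1))) * (W.P ^ e * W.G ^ j) =
        (W.χ l'' * coeff x.1 (W.kz p q) * W.lt s (l 0)) * (W.χ (l 0) *
        coeff x.2 (W.ev w fun k => l (k + 1)) * (W.P ^ e * W.G ^ j)) := by noncomm_ring
    rw [e1]
    exact W.T.ne_left _ this
  induction w with
  | nil =>
    intro p q i l'' l
    rw [WS.ev, mul_one]
    obtain ⟨c, hc, -⟩ := W.coeff_kz p q
    have hcm : W.G ^ (q + i) * W.P ^ e = W.P ^ e * W.G ^ (q + i) :=
      ((show Commute W.G W.P from W.GP).pow_pow _ _).eq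
    have e1 : W.χ l'' * (W.P ^ p * W.G ^ (q + i)) * (W.P ^ e * W.G ^ j) =
        W.χ l'' * W.P ^ (p + e) * W.G ^ (q + i + j) := by
      rw [pow_add W.P, pow_add W.G _ j]
      calc _ = W.χ l'' * W.P ^ p * (W.G ^ (q + i) * W.P ^ e) * W.G ^ j := by
            simp only [mul_assoc]
        _ = _ := by rw [hcm]; simp only [mul_assoc]
    rw [hc, mul_smul_comm, smul_mul_assoc, e1]
    exact W.T.ne_nsmul _ (W.nucl _ _ (by omega) _)
  | cons s w ih =>
    intro p q i l'' l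
    cases s with
    | g => rw [WS.ev, W.kz_g]; exact ih p (q + 1) i l'' l
    | q => rw [WS.ev, W.kz_q]; exact ih (p + 1) q i l'' l
    | a => exact hlet true w ih p q i l'' l
    | h => exact hlet false w ih p q i l'' l

theorem WS.Om_GP (p q : ℕ) : ∃ e : ℂ, e * e = 1 ∧
    (W.P ^ p * W.G ^ q) * W.Om = e • (W.Om * (W.P ^ p * W.G ^ q)) := by
  have hG : ∀ q, W.G ^ q * W.Om = W.Om * W.G ^ q := fun q =>
    ((show Commute W.G W.Om from W.Om_G.symm).pow_left q).eq
  have hs : ((-1 : ℂ) ^ (n + 1)) * ((-1 : ℂ) ^ (n + 1)) = 1 := by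
    rw [← mul_pow]; simp
  induction p with
  | zero => exact ⟨1, one_mul _, by rw [pow_zero, one_mul, one_smul, hG]⟩
  | succ p ih =>
    obtain ⟨e, he, h⟩ := ih
    refine ⟨(-1 : ℂ) ^ (n + 1) * e, ?_, ?_⟩
    · calc _ = ((-1 : ℂ) ^ (n + 1) * (-1 : ℂ) ^ (n + 1)) * (e * e) := by ring
        _ = 1 := by rw [hs, he, one_mul]
    · have hP : W.P * W.Om = (-1 : ℂ) ^ (n + 1) • (W.Om * W.P) := by
        rw [W.Om_P, smul_smul, hs, one_smul]
      calc W.P ^ (p + 1) * W.G ^ q * W.Om = W.P * ((W.P ^ p * W.G ^ q) * W.Om) := by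
            rw [pow_succ']; simp only [mul_assoc]
        _ = e • ((W.P * W.Om) * (W.P ^ p * W.G ^ q)) := by
            rw [h, mul_smul_comm, mul_assoc W.P]
        _ = _ := by
            rw [hP, smul_mul_assoc, smul_smul, mul_comm e, pow_succ' W.P]
            simp only [mul_assoc]

/-- rotation of high powers of `G` -/
theorem WS.roth (w : List Sy) (hw : 1 ≤ nl w) (e j : ℕ) (hj : W.m ≤ j) : ∀ p q i l,
    W.T.tr (W.Om * coeff i (W.kz p q * W.ev w l) * (W.P ^ e * W.G ^ j)) =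
      W.T.tr ((W.P ^ e * W.G ^ j) * W.Om * coeff i (W.kz p q * W.ev w l)) := by
  have hlet : ∀ (s : Bool) (w : List Sy) p q i (l : ℕ → Γ × ι),
      W.T.tr (W.Om * coeff i (W.kz p q * (C (W.lt s (l 0)) * W.ev w (fun k => l (k + 1)))) *
        (W.P ^ e * W.G ^ j)) =
      W.T.tr ((W.P ^ e * W.G ^ j) * W.Om *
        coeff i (W.kz p q * (C (W.lt s (l 0)) * W.ev w (fun k => l (k + 1))))) := by
    intro s w p q i l
    have k1 : ∀ x : ℕ × ℕ, W.T.nn (W.χ (l 0) * coeff x.2 (W.ev w fun k => l (k + 1)) *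
        (W.P ^ e * W.G ^ j)) ≠ ⊤ := by
      intro x
      have := W.st4 w e j hj 0 0 x.2 (l 0) (fun k => l (k + 1))
      rwa [W.kz_zero, one_mul] at this
    have k2 : ∀ x : ℕ × ℕ, W.T.nn ((W.P ^ e * W.G ^ j) * (W.Om * coeff x.1 (W.kz p q)) *
        W.χ (l 0)) ≠ ⊤ := by
      intro x
      obtain ⟨c, hc, -⟩ := W.coeff_kz p q
      obtain ⟨z, -, hz⟩ := W.Om_GP e j
      have hcm : W.G ^ j * W.P ^ p = W.P ^ p * W.G ^ j :=
        ((show Commute W.G W.P from W.GP).pow_pow _ _).eq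
      have e1 : (W.P ^ e * W.G ^ j) * (W.P ^ p * W.G ^ (q + x.1)) =
          W.P ^ (e + p) * W.G ^ (j + (q + x.1)) := by
        rw [pow_add W.P, pow_add W.G j]
        calc _ = W.P ^ e * (W.G ^ j * W.P ^ p) * W.G ^ (q + x.1) := by simp only [mul_assoc]
          _ = _ := by rw [hcm]; simp only [mul_assoc]
      rw [hc, ← mul_assoc, hz, mul_smul_comm, smul_mul_assoc, smul_mul_assoc, smul_mul_assoc,
        mul_assoc W.Om, e1, mul_assoc W.Om]
      exact W.T.ne_nsmul _ (W.T.ne_smul _ (W.T.ne_left _ (W.nucr _ _ (by omega) _)))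
    rw [W.coeff_let, Finset.mul_sum, Finset.sum_mul, Finset.mul_sum, W.T.tr_sum, W.T.tr_sum]
    · refine Finset.sum_congr rfl fun x _ => ?_
      have := W.T.rot (W.χ_lt s (l 0)) (W.lt_χ s (l 0)) (W.Om * coeff x.1 (W.kz p q))
        (coeff x.2 (W.ev w fun k => l (k + 1))) (W.P ^ e * W.G ^ j) (k1 x) (k2 x)
      calc _ = W.T.tr (W.Om * coeff x.1 (W.kz p q) * W.lt s (l 0) *
            coeff x.2 (W.ev w fun k => l (k + 1)) * (W.P ^ e * W.G ^ j)) := by
            congr 1; noncomm_ring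
        _ = _ := this
        _ = _ := by congr 1; noncomm_ring
    · intro x _
      rw [← W.χ_lt]
      have e1 : W.P ^ e * W.G ^ j * W.Om * (coeff x.1 (W.kz p q) * (W.χ (l 0) * W.lt s (l 0)) *
          coeff x.2 (W.ev w fun k => l (k + 1))) =
          ((W.P ^ e * W.G ^ j) * (W.Om * coeff x.1 (W.kz p q)) * W.χ (l 0)) *
          (W.lt s (l 0) * coeff x.2 (W.ev w fun k => l (k + 1))) := by noncomm_ring
      rw [e1]
      exact W.T.ne_right _ (k2 x)
    · intro x _
      rw [← W.lt_χ]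
      have e1 : W.Om * (coeff x.1 (W.kz p q) * (W.lt s (l 0) * W.χ (l 0)) *
          coeff x.2 (W.ev w fun k => l (k + 1))) * (W.P ^ e * W.G ^ j) =
          (W.Om * coeff x.1 (W.kz p q) * W.lt s (l 0)) *
          (W.χ (l 0) * coeff x.2 (W.ev w fun k => l (k + 1)) * (W.P ^ e * W.G ^ j)) := by
        noncomm_ring
      rw [e1]
      exact W.T.ne_left _ (k1 x)
  induction w with
  | nil => simp [nl] at hw
  | cons s w ih =>
    intro p q i l
    cases s with
    | g => rw [WS.ev, W.kz_g]; exact ih (by simpa [nl] using hw) p (q + 1) i l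
    | q => rw [WS.ev, W.kz_q]; exact ih (by simpa [nl] using hw) (p + 1) q i l
    | a => exact hlet true w p q i l
    | h => exact hlet false w p q i l

end ev

end Vale.Agent.P223.H316
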