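import Vale.Agent.P223.H316.NF

/-! Expansion of coefficients. -/

namespace Vale.Agent.P223.H316

open scoped ENNReal
open PowerSeries Sy

/-- recursion for sums over tuples -/
theorem sum_tuple {M : Type} [AddCommMonoid M] (k K : ℕ) (f : (Fin (k + 1) → ℕ) → M) :
    ∑ j ∈ Finset.Nat.antidiagonalTuple (k + 1) K, f j =
      ∑ p ∈ Finset.antidiagonal K, ∑ j ∈ Finset.Nat.antidiagonalTuple k p.2,
        f (Fin.cons p.1 j) := by
  rw [Finset.sum_sigma']
  refine Finset.sum_bij' (i := fun j _ => ⟨(j 0, K - j 0), fun i => j i.succ⟩)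
    (j := fun x _ => Fin.cons x.1.1 x.2) ?_ ?_ ?_ ?_ ?_
  · intro j hj
    rw [Finset.Nat.mem_antidiagonalTuple, Fin.sum_univ_succ] at hj
    rw [Finset.mem_sigma, Finset.mem_antidiagonal, Finset.Nat.mem_antidiagonalTuple]
    dsimp only
    omega
  · intro x hx
    rw [Finset.mem_sigma, Finset.mem_antidiagonal, Finset.Nat.mem_antidiagonalTuple] at hx
    rw [Finset.Nat.mem_antidiagonalTuple, Fin.sum_univ_succ]
    simp only [Fin.cons_zero, Fin.cons_succ]
    omega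
  · intro j _
    exact Fin.cons_self_tail j
  · rintro ⟨⟨p1, p2⟩, j⟩ hx
    rw [Finset.mem_sigma, Finset.mem_antidiagonal, Finset.Nat.mem_antidiagonalTuple] at hx
    have h1 : K - p1 = p2 := by
      have := hx.1
      dsimp only at this
      omega
    simp only [Fin.cons_zero, Fin.cons_succ, h1]
  · intro j _
    exact congrArg f (Fin.cons_self_tail j).symm

section
variable {n : ℕ} {Γ ι B : Type} [Group Γ] [NormedRing B] [NormedAlgebra ℂ B]
  (W : WS n Γ ι B)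

/-- `h_{l0} g^(j0+1) h_{l1} g^(j1+1) ⋯` -/
noncomputable def tl (W : WS n Γ ι B) (k : ℕ) (L : ℕ → Γ × ι) (j : Fin k → ℕ) : B :=
  (List.ofFn fun i : Fin k => W.h (L i) * W.G ^ (j i + 1)).prod

theorem tl_cons (k : ℕ) (L : ℕ → Γ × ι) (p : ℕ) (j : Fin k → ℕ) :
    tl W (k + 1) L (Fin.cons p j) = W.h (L 0) * W.G ^ (p + 1) * tl W k (fun i => L (i + 1)) j := by
  unfold tl
  rw [List.ofFn_succ, List.prod_cons]
  simp only [Fin.cons_zero, Fin.cons_succ, Fin.val_zero, Fin.val_succ]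

theorem coeff_HG (k : ℕ) : ∀ (K : ℕ) (L : ℕ → Γ × ι), coeff K (W.ev (HG k) L) =
    ∑ j ∈ Finset.Nat.antidiagonalTuple k K, tl W k L j := by
  induction k with
  | zero =>
    intro K L
    rw [HG, WS.ev, coeff_one]
    cases K with
    | zero => simp [tl]
    | succ K => simp
  | succ k ih =>
    intro K L
    rw [sum_tuple, HG, WS.ev, WS.ev, coeff_C_mul, coeff_mul, Finset.mul_sum]
    refine Finset.sum_congr rfl fun p _ => ?_
    simp only [tl_cons, ih, Finset.mul_sum, WS.Gz, coeff_mk, mul_assoc]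

/-- the word -/
noncomputable def wd (W : WS n Γ ι B) (l : Fin (n + 1) → Γ × ι) (j : Fin (n + 1) → ℕ) : B :=
  W.a (l 0) * W.G ^ (j 0 + 1) *
    (List.ofFn fun i : Fin n => W.h (l i.succ) * W.G ^ (j i.succ + 1)).prod

theorem wd_cons (l : Fin (n + 1) → Γ × ι) (p : ℕ) (j : Fin n → ℕ) :
    wd W l (Fin.cons p j) = W.a (l 0) * W.G ^ (p + 1) * tl W n (fun i => ex l (i + 1)) j := by
  unfold wd tl
  simp only [Fin.cons_zero, Fin.cons_succ]
  congr 3
  funext i
  rw [ex_of_lt l (show (i : ℕ) + 1 < n + 1 from Nat.succ_lt_succ i.2)]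
  rfl

theorem coeff_aHG (K : ℕ) (l : Fin (n + 1) → Γ × ι) : coeff K (W.ev (a :: g :: HG n) (ex l)) =
    ∑ j ∈ Finset.Nat.antidiagonalTuple (n + 1) K, wd W l j := by
  rw [sum_tuple, WS.ev, WS.ev, coeff_C_mul, coeff_mul, Finset.mul_sum]
  refine Finset.sum_congr rfl fun p _ => ?_
  simp only [wd_cons, coeff_HG, Finset.mul_sum, WS.Gz, coeff_mk, mul_assoc, ex_zero]

theorem tl_nuc (k : ℕ) : ∀ (L : ℕ → Γ × ι) (j : Fin k → ℕ), (∃ i, W.m ≤ j i + 1) →
    W.T.nn (tl W k L j) ≠ ⊤ := by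
  induction k with
  | zero => rintro L j ⟨i, -⟩; exact i.elim0
  | succ k ih =>
    rintro L j ⟨i, hi⟩
    obtain ⟨p, j', rfl⟩ : ∃ p j', j = Fin.cons p j' := ⟨j 0, fun i => j i.succ,
      (Fin.cons_self_tail j).symm⟩
    rw [tl_cons]
    revert hi
    refine Fin.cases (fun hi => ?_) (fun i hi => ?_) i
    · rw [Fin.cons_zero] at hi
      refine W.T.ne_right _ ?_
      rw [← W.hχ, mul_assoc]
      refine W.T.ne_left _ ?_
      have := W.nucl 0 (p + 1) hi (L 0)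
      rwa [pow_zero, mul_one] at this
    · rw [Fin.cons_succ] at hi
      exact W.T.ne_left _ (ih _ _ ⟨i, hi⟩)

theorem wd_nuc (l : Fin (n + 1) → Γ × ι) (j : Fin (n + 1) → ℕ) (hj : ∃ i, W.m ≤ j i + 1) :
    W.T.nn (wd W l j) ≠ ⊤ := by
  obtain ⟨i, hi⟩ := hj
  obtain ⟨p, j', rfl⟩ : ∃ p j', j = Fin.cons p j' := ⟨j 0, fun i => j i.succ,
    (Fin.cons_self_tail j).symm⟩
  rw [wd_cons]
  revert hi
  refine Fin.cases (fun hi => ?_) (fun i hi => ?_) i
  · rw [Fin.cons_zero] at hi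
    refine W.T.ne_right _ ?_
    rw [← W.aχ, mul_assoc]
    refine W.T.ne_left _ ?_
    have := W.nucl 0 (p + 1) hi (l 0)
    rwa [pow_zero, mul_one] at this
  · rw [Fin.cons_succ] at hi
    exact W.T.ne_left _ (tl_nuc W n _ _ ⟨i, hi⟩)

theorem exists_big (c k K : ℕ) (hK : c * (k + 1) ≤ K) (j : Fin (k + 1) → ℕ)
    (hj : ∑ i, j i = K) : ∃ i, c ≤ j i + 1 := by
  by_contra h
  push Not at h
  have h1 : ∑ i, (j i + 1) ≤ ∑ _i : Fin (k + 1), (c - 1) :=
    Finset.sum_le_sum fun i _ => by have := h i; omega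
  rw [Finset.sum_add_distrib, hj, Finset.sum_const, Finset.sum_const, Finset.card_univ,
    Fintype.card_fin, smul_eq_mul, smul_eq_mul] at h1
  have h2 : (k + 1) * (c - 1) ≤ (k + 1) * c := Nat.mul_le_mul_left _ (Nat.sub_le _ _)
  rw [mul_comm c] at hK
  omega

/-- expansion of the trace -/
theorem tv_exp (K : ℕ) (hK : W.m * (n + 1) ≤ K) (l : Fin (n + 1) → Γ × ι) :
    W.tv (a :: g :: HG n) K l =
      ∑ j ∈ Finset.Nat.antidiagonalTuple (n + 1) K, W.T.tr (W.Om * wd W l j) := by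
  unfold WS.tv
  rw [coeff_aHG, Finset.mul_sum, W.T.tr_sum]
  intro j hj
  rw [Finset.Nat.mem_antidiagonalTuple] at hj
  exact W.T.ne_left _ (wd_nuc W l j (exists_big W.m n K hK j hj))

end

end Vale.Agent.P223.H316
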