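import Vale.Agent.P223.MathlibUsed
import Mathlib.Analysis.ODE.Gronwall
import Mathlib.Analysis.ODE.ExistUnique
import Mathlib.Analysis.Calculus.UniformLimitsDeriv

/-! Complete flows: dependence on the initial data. -/

namespace Vale.Agent.P223.H316

open Set Filter Topology Metric

section
variable {E : Type} [NormedAddCommGroup E] [NormedSpace ℝ E]

/-- a complete flow -/
structure Flw (F : E → E) (Φ : ℝ → E → E) : Prop where
  zero : ∀ z, Φ 0 z = z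
  der : ∀ t z, HasDerivAt (fun t => Φ t z) (F (Φ t z)) t

/-- Gronwall -/
theorem gw {f f' : ℝ → E} {K ε δ T : ℝ} (hK : 1 ≤ K) (hε : 0 ≤ ε) (hδ : 0 ≤ δ)
    (hf : ∀ t ∈ Icc 0 T, HasDerivAt f (f' t) t) (h0 : ‖f 0‖ ≤ δ)
    (hb : ∀ t ∈ Ico 0 T, ‖f' t‖ ≤ K * ‖f t‖ + ε) {t : ℝ} (ht : t ∈ Icc 0 T) :
    ‖f t‖ ≤ (δ + ε) * Real.exp (K * T) := by
  have h1 := norm_le_gronwallBound_of_norm_deriv_right_le
    (fun t ht => (hf t ht).continuousAt.continuousWithinAt)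
    (fun t ht => (hf t ⟨ht.1, ht.2.le⟩).hasDerivWithinAt) h0 hb t ht
  have hK0 : 0 < K := by linarith
  rw [sub_zero, gronwallBound_of_K_ne_0 hK0.ne'] at h1
  have h2 : Real.exp (K * t) ≤ Real.exp (K * T) :=
    Real.exp_le_exp.2 (mul_le_mul_of_nonneg_left ht.2 hK0.le)
  have h3 : 0 < Real.exp (K * T) := Real.exp_pos _
  have h4 : ε / K * (Real.exp (K * t) - 1) ≤ ε * Real.exp (K * T) := by
    have h5 : ε / K ≤ ε := div_le_self hε hK
    have h6 : Real.exp (K * t) - 1 ≤ Real.exp (K * T) := by linarith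
    calc ε / K * (Real.exp (K * t) - 1) ≤ ε / K * Real.exp (K * T) :=
          mul_le_mul_of_nonneg_left h6 (by positivity)
      _ ≤ _ := mul_le_mul_of_nonneg_right h5 h3.le
  have h7 : δ * Real.exp (K * t) ≤ δ * Real.exp (K * T) := mul_le_mul_of_nonneg_left h2 hδ
  linarith

variable [FiniteDimensional ℝ E]

theorem lip_ball {F : E → E} (hF : ContDiff ℝ 1 F) (R : ℝ) : ∃ K : ℝ, 1 ≤ K ∧
    (∀ x ∈ closedBall (0 : E) R, ‖fderiv ℝ F x‖ ≤ K) ∧
    ∀ x ∈ closedBall (0 : E) R, ∀ y ∈ closedBall (0 : E) R, ‖F x - F y‖ ≤ K * ‖x - y‖ := by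
  obtain ⟨C, hC⟩ := (isCompact_closedBall (0 : E) R).exists_bound_of_continuousOn
    (hF.continuous_fderiv one_ne_zero).continuousOn
  have h1 : ∀ x ∈ closedBall (0 : E) R, ‖fderiv ℝ F x‖ ≤ max C 1 := fun x hx =>
    (hC x hx).trans (le_max_left _ _)
  refine ⟨max C 1, le_max_right _ _, h1, fun x hx y hy => ?_⟩
  exact (convex_closedBall (0 : E) R).norm_image_sub_le_of_norm_fderiv_le
    (fun x _ => (hF.differentiable one_ne_zero) x) h1 hy hx

theorem unif_diff {F : E → E} (hF : ContDiff ℝ 1 F) (R : ℝ) {η : ℝ} (hη : 0 < η) :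
    ∃ δ > 0, ∀ x ∈ closedBall (0 : E) R, ∀ w, ‖w‖ ≤ δ →
      ‖F (x + w) - F x - fderiv ℝ F x w‖ ≤ η * ‖w‖ := by
  have h1 := (isCompact_closedBall (0 : E) (R + 1)).uniformContinuousOn_of_continuous
    (hF.continuous_fderiv one_ne_zero).continuousOn
  obtain ⟨δ, hδ, h2⟩ := Metric.uniformContinuousOn_iff_le.1 h1 η hη
  refine ⟨min δ 1, lt_min hδ one_pos, fun x hx w hw => ?_⟩
  have hx' : x ∈ closedBall (0 : E) (R + 1) := closedBall_subset_closedBall (by linarith) hx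
  have h3 := (convex_closedBall x (min δ 1)).norm_image_sub_le_of_norm_fderiv_le' (f := F)
    (φ := fderiv ℝ F x) (C := η) (x := x) (y := x + w)
    (fun x _ => (hF.differentiable one_ne_zero) x) (fun u hu => by
      rw [← dist_eq_norm]
      refine h2 u ?_ x hx' ((mem_closedBall.1 hu).trans (min_le_left _ _))
      rw [mem_closedBall_zero_iff] at hx ⊢
      have := mem_closedBall.1 hu
      have h4 := norm_le_norm_add_norm_sub x u
      rw [← dist_eq_norm, dist_comm] at h4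
      linarith [min_le_right δ 1])
    (mem_closedBall_self (by positivity)) (by
      rw [mem_closedBall, dist_eq_norm, add_sub_cancel_left]; exact hw)
  rwa [add_sub_cancel_left] at h3

/-- tube around a trajectory -/
theorem Flw.tube {F : E → E} {Φ : ℝ → E → E} (hΦ : Flw F Φ) (hF : ContDiff ℝ 1 F) (z₀ : E)
    (T : ℝ) : ∃ r R K : ℝ, 0 < r ∧ 1 ≤ K ∧
      (∀ x ∈ closedBall (0 : E) R, ‖fderiv ℝ F x‖ ≤ K) ∧
      (∀ z ∈ ball z₀ r, ∀ t ∈ Icc 0 T, Φ t z ∈ closedBall (0 : E) R) ∧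
      ∀ z ∈ ball z₀ r, ∀ z' ∈ ball z₀ r, ∀ t ∈ Icc 0 T,
        ‖Φ t z - Φ t z'‖ ≤ ‖z - z'‖ * Real.exp (K * T) := by
  have hc : ∀ z, Continuous fun t => Φ t z := fun z =>
    continuous_iff_continuousAt.2 fun t => (hΦ.der t z).continuousAt
  obtain ⟨R₀, hR₀⟩ := (isCompact_Icc (a := (0 : ℝ)) (b := T)).exists_bound_of_continuousOn
    (hc z₀).continuousOn
  obtain ⟨K, hK, hK1, hK2⟩ := lip_ball hF (R₀ + 1)
  set r : ℝ := (Real.exp (K * T))⁻¹ / 2 with hr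
  have hr0 : 0 < r := by positivity
  have he := Real.exp_pos (K * T)
  -- difference of two trajectories in the ball
  have hd : ∀ z z' S, S ≤ T → (∀ t ∈ Ico 0 S, Φ t z ∈ closedBall (0 : E) (R₀ + 1)) →
      (∀ t ∈ Ico 0 S, Φ t z' ∈ closedBall (0 : E) (R₀ + 1)) → ∀ t ∈ Icc 0 S,
      ‖Φ t z - Φ t z'‖ ≤ ‖z - z'‖ * Real.exp (K * T) := by
    intro z z' S hS h1 h2 t ht
    have h3 := gw (f := fun t => Φ t z - Φ t z') (T := S) hK le_rfl (norm_nonneg (z - z'))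
      (fun t _ => (hΦ.der t z).sub (hΦ.der t z')) (by simp only [hΦ.zero]; exact le_rfl)
      (fun t ht => by
        rw [add_zero]
        exact hK2 _ (h1 t ht) _ (h2 t ht)) ht
    rw [add_zero] at h3
    refine h3.trans (mul_le_mul_of_nonneg_left (Real.exp_le_exp.2 ?_) (norm_nonneg _))
    exact mul_le_mul_of_nonneg_left hS (by linarith)
  have hz₀ : ∀ t ∈ Icc 0 T, Φ t z₀ ∈ closedBall (0 : E) (R₀ + 1) := fun t ht => by
    rw [mem_closedBall_zero_iff]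
    linarith [hR₀ t ht]
  -- trajectories stay in the tube
  have ht : ∀ z ∈ ball z₀ r, ∀ t ∈ Icc 0 T, ‖Φ t z - Φ t z₀‖ < 1 := by
    intro z hz
    by_contra hne
    push Not at hne
    obtain ⟨t₁, ht₁, h1⟩ := hne
    have hcl : IsCompact {t | t ∈ Icc 0 T ∧ 1 ≤ ‖Φ t z - Φ t z₀‖} := by
      refine isCompact_Icc.of_isClosed_subset ?_ (fun t ht => ht.1)
      exact isClosed_Icc.inter (isClosed_le continuous_const ((hc z).sub (hc z₀)).norm)
    obtain ⟨t₂, ⟨h2, h3⟩, h4⟩ := hcl.exists_isLeast ⟨t₁, ht₁, h1⟩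
    have h5 : ∀ t ∈ Ico 0 t₂, ‖Φ t z - Φ t z₀‖ < 1 := by
      intro t ht
      by_contra hge
      exact absurd (h4 ⟨⟨ht.1, ht.2.le.trans h2.2⟩, not_lt.1 hge⟩) (not_le.2 ht.2)
    have h6 := hd z z₀ t₂ h2.2 (fun t ht => by
      rw [mem_closedBall_zero_iff]
      have a1 := norm_le_norm_add_norm_sub' (Φ t z) (Φ t z₀)
      have a2 := h5 t ht
      have a3 := hR₀ t ⟨ht.1, ht.2.le.trans h2.2⟩
      linarith) (fun t ht => hz₀ t ⟨ht.1, ht.2.le.trans h2.2⟩) t₂ ⟨h2.1, le_rfl⟩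
    have h7 : ‖z - z₀‖ < r := by rwa [← dist_eq_norm]
    have h8 : ‖z - z₀‖ * Real.exp (K * T) < r * Real.exp (K * T) :=
      mul_lt_mul_of_pos_right h7 he
    have h9 : r * Real.exp (K * T) = 1 / 2 := by rw [hr]; field_simp
    linarith
  have htube : ∀ z ∈ ball z₀ r, ∀ t ∈ Icc 0 T, Φ t z ∈ closedBall (0 : E) (R₀ + 1) := by
    intro z hz t ht'
    rw [mem_closedBall_zero_iff]
    have a1 := norm_le_norm_add_norm_sub' (Φ t z) (Φ t z₀)
    have a2 := ht z hz t ht'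
    have a3 := hR₀ t ht'
    linarith
  exact ⟨r, R₀ + 1, K, hr0, hK, hK1, htube, fun z hz z' hz' => hd z z' T le_rfl
    (fun t ht => htube z hz t ⟨ht.1, ht.2.le⟩) fun t ht => htube z' hz' t ⟨ht.1, ht.2.le⟩⟩

end

end Vale.Agent.P223.H316
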