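import Vale.Agent.P223.H316.Flow1

/-! Complete flows: differentiability in the initial data, positive times. -/

namespace Vale.Agent.P223.H316

open Set Filter Topology Metric

section
variable {E : Type} [NormedAddCommGroup E] [NormedSpace ℝ E]

/-- approximate solutions of the linear equation `u' = A u` on `[0, T]` -/
def AL (A : ℝ → E →L[ℝ] E) (T ε : ℝ) (f : ℝ → E) : Prop :=
  ∃ f' : ℝ → E, (∀ t ∈ Icc 0 T, HasDerivAt f (f' t) t) ∧ ∀ t ∈ Icc 0 T, ‖f' t - A t (f t)‖ ≤ ε

variable {A : ℝ → E →L[ℝ] E} {T ε ε' K : ℝ} {f g : ℝ → E}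

theorem AL.sub (hf : AL A T ε f) (hg : AL A T ε' g) : AL A T (ε + ε') fun t => f t - g t := by
  obtain ⟨f', h1, h2⟩ := hf
  obtain ⟨g', h3, h4⟩ := hg
  refine ⟨fun t => f' t - g' t, fun t ht => (h1 t ht).sub (h3 t ht), fun t ht => ?_⟩
  have e : f' t - g' t - A t (f t - g t) = (f' t - A t (f t)) - (g' t - A t (g t)) := by
    rw [map_sub]; abel
  rw [e]
  exact (norm_sub_le _ _).trans (add_le_add (h2 t ht) (h4 t ht))

theorem AL.smul (hf : AL A T ε f) (c : ℝ) : AL A T (|c| * ε) fun t => c • f t := by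
  obtain ⟨f', h1, h2⟩ := hf
  refine ⟨fun t => c • f' t, fun t ht => (h1 t ht).const_smul c, fun t ht => ?_⟩
  rw [map_smul, ← smul_sub, norm_smul, Real.norm_eq_abs]
  exact mul_le_mul_of_nonneg_left (h2 t ht) (abs_nonneg c)

theorem AL.mono (hf : AL A T ε f) (h : ε ≤ ε') : AL A T ε' f := by
  obtain ⟨f', h1, h2⟩ := hf
  exact ⟨f', h1, fun t ht => (h2 t ht).trans h⟩

theorem AL.le (hf : AL A T ε f) (hK : 1 ≤ K) (hA : ∀ t ∈ Icc 0 T, ‖A t‖ ≤ K) (hε : 0 ≤ ε)
    {δ : ℝ} (h0 : ‖f 0‖ ≤ δ) {t : ℝ} (ht : t ∈ Icc 0 T) :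
    ‖f t‖ ≤ (δ + ε) * Real.exp (K * T) := by
  obtain ⟨f', h1, h2⟩ := hf
  refine gw hK hε ((norm_nonneg _).trans h0) h1 h0 (fun t ht => ?_) ht
  have ht' : t ∈ Icc 0 T := ⟨ht.1, ht.2.le⟩
  have h3 : ‖f' t‖ ≤ ‖A t (f t)‖ + ‖f' t - A t (f t)‖ := norm_le_norm_add_norm_sub' _ _
  have h4 : ‖A t (f t)‖ ≤ K * ‖f t‖ := (A t).le_of_opNorm_le (hA t ht') _
  linarith [h2 t ht']

variable [FiniteDimensional ℝ E]

/-- differentiability for `0 ≤ t ≤ T` -/
theorem Flw.diff_aux {F : E → E} {Φ : ℝ → E → E} (hΦ : Flw F Φ) (hF : ContDiff ℝ 1 F) (z : E)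
    {T : ℝ} (hT : 0 < T) : ∃ B : ℝ → E →L[ℝ] E, (∀ t ∈ Icc 0 T, HasFDerivAt (Φ t) (B t) z) ∧
      (∀ t ∈ Ioo 0 T, ∀ h, HasDerivAt (fun t => B t h) (fderiv ℝ F (Φ t z) (B t h)) t) := by
  obtain ⟨r, R, K, hr, hK, hK1, htube, hlip⟩ := hΦ.tube hF z T
  have hz : z ∈ ball z r := mem_ball_self hr
  set A : ℝ → E →L[ℝ] E := fun t => fderiv ℝ F (Φ t z) with hA
  have hAK : ∀ t ∈ Icc 0 T, ‖A t‖ ≤ K := fun t ht => hK1 _ (htube z hz t ht)
  set e := Real.exp (K * T) with he
  have he1 : 1 ≤ e := Real.one_le_exp (by have : 0 ≤ K := by linarith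
                                          positivity)
  have he0 : 0 < e := by linarith
  set w : E → ℝ → E := fun h t => Φ t (z + h) - Φ t z with hw
  -- the differences are approximate solutions
  have h1 : ∀ η, 0 < η → ∃ δ > 0, ∀ h, ‖h‖ ≤ δ → AL A T (η * ‖h‖) (w h) := by
    intro η hη
    obtain ⟨δ, hδ, h2⟩ := unif_diff hF R (η := η / e) (by positivity)
    refine ⟨min (δ / e) (r / 2), lt_min (by positivity) (by positivity), fun h hh => ?_⟩
    have hzh : z + h ∈ ball z r := by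
      rw [mem_ball, dist_eq_norm, add_sub_cancel_left]
      exact (hh.trans (min_le_right _ _)).trans_lt (by linarith)
    have h3 : ∀ t ∈ Icc 0 T, ‖w h t‖ ≤ ‖h‖ * e := fun t ht => by
      have := hlip (z + h) hzh z hz t ht
      rwa [add_sub_cancel_left] at this
    refine ⟨fun t => F (Φ t (z + h)) - F (Φ t z), fun t _ =>
      (hΦ.der t (z + h)).sub (hΦ.der t z), fun t ht => ?_⟩
    have h4 : ‖w h t‖ ≤ δ := by
      refine (h3 t ht).trans ?_
      calc ‖h‖ * e ≤ δ / e * e :=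
            mul_le_mul_of_nonneg_right (hh.trans (min_le_left _ _)) he0.le
        _ = δ := by field_simp
    have h5 := h2 (Φ t z) (htube z hz t ht) (w h t) h4
    have h6 : Φ t z + w h t = Φ t (z + h) := by simp only [hw]; abel
    rw [h6] at h5
    refine h5.trans ?_
    calc η / e * ‖w h t‖ ≤ η / e * (‖h‖ * e) :=
          mul_le_mul_of_nonneg_left (h3 t ht) (by positivity)
      _ = η * ‖h‖ := by field_simp
  have hw0 : ∀ h, w h 0 = h := fun h => by simp only [hw, hΦ.zero, add_sub_cancel_left]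
  -- difference quotients
  set u : E → ℕ → ℝ → E := fun h k t => ((k : ℝ) + 1) • w (((k : ℝ) + 1)⁻¹ • h) t with hu
  have hu0 : ∀ h k, u h k 0 = h := fun h k => by
    simp only [hu, hw0]
    rw [smul_inv_smul₀ (by positivity)]
  have h2 : ∀ η, 0 < η → ∃ δ > 0, ∀ (h : E) (k : ℕ), ‖h‖ ≤ δ * ((k : ℝ) + 1) →
      AL A T (η * ‖h‖) (u h k) := by
    intro η hη
    obtain ⟨δ, hδ, h3⟩ := h1 η hη
    refine ⟨δ, hδ, fun h k hk => ?_⟩
    have hk0 : (0 : ℝ) < (k : ℝ) + 1 := by positivity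
    have h4 : ‖((k : ℝ) + 1)⁻¹ • h‖ = ((k : ℝ) + 1)⁻¹ * ‖h‖ := by
      rw [norm_smul, Real.norm_of_nonneg (by positivity)]
    have h5 := (h3 (((k : ℝ) + 1)⁻¹ • h) (by
      rw [h4, inv_mul_le_iff₀ hk0, mul_comm]; exact hk)).smul ((k : ℝ) + 1)
    refine h5.mono (le_of_eq ?_)
    rw [h4, abs_of_pos hk0]
    field_simp
  have h3 : ∀ η, 0 < η → ∀ h, ∃ N : ℕ, ∀ k, N ≤ k → AL A T η (u h k) := by
    intro η hη h
    obtain ⟨δ, hδ, h4⟩ := h2 (η / (‖h‖ + 1)) (by positivity)
    obtain ⟨N, hN⟩ := exists_nat_gt (‖h‖ / δ)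
    refine ⟨N, fun k hk => (h4 h k ?_).mono ?_⟩
    · rw [div_lt_iff₀ hδ] at hN
      have : (N : ℝ) ≤ k := by exact_mod_cast hk
      nlinarith
    · rw [div_mul_eq_mul_div, div_le_iff₀ (by positivity)]
      nlinarith [norm_nonneg h]
  -- the limit
  have hcau : ∀ h t, t ∈ Icc 0 T → CauchySeq fun k => u h k t := by
    intro h t ht
    rw [Metric.cauchySeq_iff']
    intro ε hε
    obtain ⟨N, hN⟩ := h3 (ε / (4 * e)) (by positivity) h
    refine ⟨N, fun k hk => ?_⟩
    have h4 := ((hN k hk).sub (hN N le_rfl)).le hK hAK (by positivity) (δ := 0)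
      (by simp only [hu0, sub_self, norm_zero, le_refl]) ht
    rw [dist_eq_norm]
    refine h4.trans_lt ?_
    rw [zero_add, ← he]
    have : (ε / (4 * e) + ε / (4 * e)) * e = ε / 2 := by field_simp; ring
    rw [this]; linarith
  choose! L hL using fun h t (ht : t ∈ Icc 0 T) => cauchySeq_tendsto_of_complete (hcau h t ht)
  -- uniform convergence
  have hunif : ∀ η, 0 < η → ∀ h, ∃ N : ℕ, ∀ k, N ≤ k → ∀ t ∈ Icc 0 T,
      ‖u h k t - L h t‖ ≤ η := by
    intro η hη h
    obtain ⟨N, hN⟩ := h3 (η / (2 * e)) (by positivity) h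
    refine ⟨N, fun k hk t ht => ?_⟩
    refine le_of_tendsto (tendsto_const_nhds.sub (hL h t ht)).norm ?_
    filter_upwards [eventually_ge_atTop N] with l hl
    have h4 := ((hN k hk).sub (hN l hl)).le hK hAK (by positivity) (δ := 0)
      (by simp only [hu0, sub_self, norm_zero, le_refl]) ht
    refine h4.trans (le_of_eq ?_)
    rw [← he]
    field_simp
    ring
  -- estimate of the differences
  have hest : ∀ η, 0 < η → ∃ δ > 0, ∀ h, ‖h‖ ≤ δ → ∀ t ∈ Icc 0 T,
      ‖w h t - L h t‖ ≤ η * ‖h‖ := by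
    intro η hη
    obtain ⟨δ₁, hδ₁, h4⟩ := h1 (η / (2 * e)) (by positivity)
    obtain ⟨δ₂, hδ₂, h5⟩ := h2 (η / (2 * e)) (by positivity)
    refine ⟨min δ₁ δ₂, lt_min hδ₁ hδ₂, fun h hh t ht => ?_⟩
    refine le_of_tendsto (tendsto_const_nhds.sub (hL h t ht)).norm (Eventually.of_forall fun k => ?_)
    have h6 := ((h4 h (hh.trans (min_le_left _ _))).sub (h5 h k ((hh.trans
      (min_le_right _ _)).trans (by nlinarith [(Nat.cast_nonneg k : (0 : ℝ) ≤ k)])))).le hK hAK
      (by positivity) (δ := 0) (by simp only [hu0, hw0, sub_self, norm_zero, le_refl]) ht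
    refine h6.trans (le_of_eq ?_)
    rw [← he]
    field_simp
    ring
  -- linearity
  have hlin : ∀ h h' (c : ℝ) t, t ∈ Icc 0 T → L (h + c • h') t = L h t + c • L h' t := by
    intro h h' c t ht
    have h4 : Tendsto (fun k => u (h + c • h') k t - u h k t - c • u h' k t) atTop
        (𝓝 (L (h + c • h') t - L h t - c • L h' t)) :=
      ((hL _ t ht).sub (hL h t ht)).sub ((hL h' t ht).const_smul c)
    have h5 : Tendsto (fun k => u (h + c • h') k t - u h k t - c • u h' k t) atTop (𝓝 0) := by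
      rw [Metric.tendsto_atTop]
      intro ε hε
      have hη : 0 < ε / (2 * ((2 + |c|) * e)) := by positivity
      obtain ⟨N₁, hN₁⟩ := h3 _ hη (h + c • h')
      obtain ⟨N₂, hN₂⟩ := h3 _ hη h
      obtain ⟨N₃, hN₃⟩ := h3 _ hη h'
      refine ⟨max N₁ (max N₂ N₃), fun k hk => ?_⟩
      have h6 := (((hN₁ k ((le_max_left _ _).trans hk)).sub
        (hN₂ k ((le_max_left _ _).trans ((le_max_right _ _).trans hk)))).sub
        ((hN₃ k ((le_max_right _ _).trans ((le_max_right _ _).trans hk))).smul c)).le hK hAK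
        (by positivity) (δ := 0) (by
          simp only [hu0, add_sub_cancel_left, sub_self, norm_zero, le_refl]) ht
      rw [dist_zero_right]
      refine h6.trans_lt ?_
      rw [zero_add, ← he]
      have : (ε / (2 * ((2 + |c|) * e)) + ε / (2 * ((2 + |c|) * e)) +
          |c| * (ε / (2 * ((2 + |c|) * e)))) * e = ε / 2 := by
        have : 0 < 2 + |c| := by positivity
        field_simp
        ring
      rw [this]; linarith
    have h6 := tendsto_nhds_unique h4 h5
    rw [sub_sub, sub_eq_zero] at h6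
    exact h6
  have hL0 : ∀ t ∈ Icc 0 T, L 0 t = 0 := by
    intro t ht
    have := hlin 0 0 1 t ht
    rw [one_smul, zero_add, one_smul] at this
    simpa using this
  let Bl : ℝ → E →ₗ[ℝ] E := fun t => if ht : t ∈ Icc 0 T then
    { toFun := fun h => L h t
      map_add' := fun h h' => by
        have := hlin h h' 1 t ht
        rwa [one_smul, one_smul] at this
      map_smul' := fun c h => by
        have := hlin 0 h c t ht
        rwa [zero_add, hL0 t ht, zero_add] at this } else 0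
  let B : ℝ → E →L[ℝ] E := fun t => LinearMap.toContinuousLinearMap (Bl t)
  have hB : ∀ t ∈ Icc 0 T, ∀ h, B t h = L h t := by
    intro t ht h
    simp only [B, Bl, dif_pos ht]
    rfl
  refine ⟨B, fun t ht => ?_, fun t ht h => ?_⟩
  · rw [hasFDerivAt_iff_isLittleO_nhds_zero, Asymptotics.isLittleO_iff]
    intro η hη
    obtain ⟨δ, hδ, h4⟩ := hest η hη
    filter_upwards [Metric.closedBall_mem_nhds (0 : E) hδ] with h hh
    rw [mem_closedBall_zero_iff] at hh
    rw [hB t ht]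
    exact h4 h hh t ht
  · have hd : ∀ k, ∃ f' : ℝ → E, ∀ t ∈ Icc 0 T, HasDerivAt (u h k) (f' t) t := by
      intro k
      refine ⟨fun t => ((k : ℝ) + 1) • (F (Φ t (z + ((k : ℝ) + 1)⁻¹ • h)) - F (Φ t z)),
        fun t _ => ?_⟩
      exact ((hΦ.der t _).sub (hΦ.der t z)).const_smul _
    choose f' hf' using hd
    have h4 : TendstoUniformlyOn f' (fun t => A t (L h t)) atTop (Ioo 0 T) := by
      rw [Metric.tendstoUniformlyOn_iff]
      intro ε hε
      obtain ⟨N₁, hN₁⟩ := h3 (ε / 4) (by positivity) h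
      obtain ⟨N₂, hN₂⟩ := hunif (ε / (4 * K)) (by have : 0 < K := by linarith
                                                  positivity) h
      filter_upwards [eventually_ge_atTop (max N₁ N₂)] with k hk s hs
      have hs' : s ∈ Icc 0 T := ⟨hs.1.le, hs.2.le⟩
      obtain ⟨g', hg1, hg2⟩ := hN₁ k ((le_max_left _ _).trans hk)
      have h5 : g' s = f' k s := (hg1 s hs').unique (hf' k s hs')
      have h6 := hg2 s hs'
      rw [h5] at h6
      have h7 := hN₂ k ((le_max_right _ _).trans hk) s hs'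
      have h8 : ‖A s (u h k s - L h s)‖ ≤ K * (ε / (4 * K)) :=
        ((A s).le_of_opNorm_le (hAK s hs') _).trans
          (mul_le_mul_of_nonneg_left h7 (by linarith))
      have h9 : K * (ε / (4 * K)) = ε / 4 := by
        have : K ≠ 0 := by linarith
        field_simp
      rw [dist_eq_norm]
      have e1 : A s (L h s) - f' k s = -(f' k s - A s (u h k s)) - A s (u h k s - L h s) := by
        rw [map_sub]; abel
      rw [e1]
      refine (norm_sub_le _ _).trans_lt ?_
      rw [norm_neg]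
      linarith
    have h5 := hasDerivAt_of_tendstoUniformlyOn (isOpen_Ioo (a := (0 : ℝ)) (b := T)) h4
      (Eventually.of_forall fun k t ht => hf' k t ⟨ht.1.le, ht.2.le⟩)
      (fun t ht => hL h t ⟨ht.1.le, ht.2.le⟩) ht
    rw [hB t ⟨ht.1.le, ht.2.le⟩]
    refine h5.congr_of_eventuallyEq ?_
    filter_upwards [Ioo_mem_nhds ht.1 ht.2] with s hs
    exact hB s ⟨hs.1.le, hs.2.le⟩ h

end

end Vale.Agent.P223.H316
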