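import Vale.Agent.P223.H316.Flow2
import Mathlib.Analysis.Calculus.FDeriv.Partial

/-! Complete flows: uniqueness, group law, differentiability, the variational equation. -/

namespace Vale.Agent.P223.H316

open Set Filter Topology Metric

section
variable {E : Type} [NormedAddCommGroup E] [NormedSpace ℝ E] {F : E → E} {Φ : ℝ → E → E}

theorem Flw.rev (hΦ : Flw F Φ) : Flw (fun z => -F z) (fun t => Φ (-t)) := by
  refine ⟨fun z => by simp only [neg_zero, hΦ.zero], fun t z => ?_⟩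
  have h := (hΦ.der (-t) z).scomp t (hasDerivAt_neg t)
  rw [neg_one_smul] at h
  exact h

theorem Flw.cont_time (hΦ : Flw F Φ) (z : E) : Continuous fun t => Φ t z :=
  continuous_iff_continuousAt.2 fun t => (hΦ.der t z).continuousAt

variable [FiniteDimensional ℝ E]

theorem sol_unique (hF : ContDiff ℝ 1 F) {f g : ℝ → E} (hf : ∀ t, HasDerivAt f (F (f t)) t)
    (hg : ∀ t, HasDerivAt g (F (g t)) t) (h0 : f 0 = g 0) (t : ℝ) : f t = g t := by
  have hfc : Continuous f := continuous_iff_continuousAt.2 fun t => (hf t).continuousAt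
  have hgc : Continuous g := continuous_iff_continuousAt.2 fun t => (hg t).continuousAt
  obtain ⟨R₁, h1⟩ := (isCompact_Icc (a := -(|t| + 1)) (b := |t| + 1)).exists_bound_of_continuousOn
    hfc.continuousOn
  obtain ⟨R₂, h2⟩ := (isCompact_Icc (a := -(|t| + 1)) (b := |t| + 1)).exists_bound_of_continuousOn
    hgc.continuousOn
  obtain ⟨K, hK, -, hK2⟩ := lip_ball hF (max R₁ R₂)
  have hl : LipschitzOnWith (Real.toNNReal K) F (closedBall 0 (max R₁ R₂)) :=
    LipschitzOnWith.of_dist_le_mul fun x hx y hy => by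
      rw [dist_eq_norm, dist_eq_norm, Real.coe_toNNReal _ (by linarith)]
      exact hK2 x hx y hy
  have ht0 := abs_nonneg t
  have h3 := ODE_solution_unique_of_mem_Ioo (v := fun _ => F)
    (s := fun _ => closedBall 0 (max R₁ R₂)) (a := -(|t| + 1)) (b := |t| + 1) (t₀ := 0)
    (fun _ _ => hl) ⟨by linarith, by linarith⟩
    (fun s hs => ⟨hf s, mem_closedBall_zero_iff.2 ((h1 s ⟨hs.1.le, hs.2.le⟩).trans
      (le_max_left _ _))⟩)
    (fun s hs => ⟨hg s, mem_closedBall_zero_iff.2 ((h2 s ⟨hs.1.le, hs.2.le⟩).trans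
      (le_max_right _ _))⟩) h0
  exact h3 ⟨by linarith [neg_abs_le t], by linarith [le_abs_self t]⟩

theorem Flw.add (hΦ : Flw F Φ) (hF : ContDiff ℝ 1 F) (s t : ℝ) (z : E) :
    Φ (s + t) z = Φ s (Φ t z) :=
  sol_unique hF (f := fun s => Φ (s + t) z) (g := fun s => Φ s (Φ t z))
    (fun s => (hΦ.der (s + t) z).comp_add_const s t) (fun s => hΦ.der s _)
    (by simp only [zero_add, hΦ.zero]) s

theorem Flw.diff_pos (hΦ : Flw F Φ) (hF : ContDiff ℝ 1 F) {t : ℝ} (ht : 0 ≤ t) (z : E) :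
    DifferentiableAt ℝ (Φ t) z := by
  obtain ⟨B, h1, -⟩ := hΦ.diff_aux hF z (T := t + 1) (by linarith)
  exact (h1 t ⟨ht, by linarith⟩).differentiableAt

theorem Flw.diff (hΦ : Flw F Φ) (hF : ContDiff ℝ 1 F) (t : ℝ) (z : E) :
    DifferentiableAt ℝ (Φ t) z := by
  rcases le_total 0 t with h | h
  · exact hΦ.diff_pos hF h z
  · have := hΦ.rev.diff_pos hF.neg (t := -t) (by linarith) z
    simpa only [neg_neg] using this

theorem Flw.ode_pos (hΦ : Flw F Φ) (hF : ContDiff ℝ 1 F) {t : ℝ} (ht : 0 < t) (z h : E) :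
    HasDerivAt (fun s => fderiv ℝ (Φ s) z h) (fderiv ℝ F (Φ t z) (fderiv ℝ (Φ t) z h)) t := by
  obtain ⟨B, h1, h2⟩ := hΦ.diff_aux hF z (T := t + 1) (by linarith)
  have h3 : ∀ s ∈ Icc 0 (t + 1), fderiv ℝ (Φ s) z = B s := fun s hs => (h1 s hs).fderiv
  have h4 := h2 t ⟨ht, by linarith⟩ h
  rw [h3 t ⟨ht.le, by linarith⟩]
  refine h4.congr_of_eventuallyEq ?_
  filter_upwards [Ioo_mem_nhds ht (lt_add_one t)] with s hs
  rw [h3 s ⟨hs.1.le, hs.2.le⟩]

theorem Flw.ode (hΦ : Flw F Φ) (hF : ContDiff ℝ 1 F) (t : ℝ) (z h : E) :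
    HasDerivAt (fun s => fderiv ℝ (Φ s) z h) (fderiv ℝ F (Φ t z) (fderiv ℝ (Φ t) z h)) t := by
  set T : ℝ := |t| + 1 with hT
  have hT0 : 0 < t + T := by linarith [neg_abs_le t]
  have h1 : ∀ s, Φ s = Φ (s + T) ∘ Φ (-T) := fun s => by
    funext x
    rw [Function.comp_apply, ← hΦ.add hF, add_neg_cancel_right]
  have h2 : ∀ s, fderiv ℝ (Φ s) z h =
      fderiv ℝ (Φ (s + T)) (Φ (-T) z) (fderiv ℝ (Φ (-T)) z h) := fun s => by
    conv_lhs => rw [h1 s]
    rw [fderiv_comp _ (hΦ.diff hF _ _) (hΦ.diff hF _ _)]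
    rfl
  have h3 : Φ t z = Φ (t + T) (Φ (-T) z) := congrFun (h1 t) z
  rw [h2 t, h3]
  have h4 := (hΦ.ode_pos hF hT0 (Φ (-T) z) (fderiv ℝ (Φ (-T)) z h)).comp_add_const t T
  exact h4.congr_of_eventuallyEq (Eventually.of_forall h2)

theorem hasDerivAt_clm {G : Type} [NormedAddCommGroup G] [NormedSpace ℝ G]
    {f : ℝ → E →L[ℝ] G} {f' : E →L[ℝ] G} {t : ℝ}
    (h : ∀ v, HasDerivAt (fun s => f s v) (f' v) t) : HasDerivAt f f' t := by
  let d := Module.finrank ℝ E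
  have hd : d = Module.finrank ℝ (Fin d → ℝ) := (Module.finrank_fin_fun ℝ).symm
  let e₁ : E ≃L[ℝ] (Fin d → ℝ) := ContinuousLinearEquiv.ofFinrankEq hd
  let e₂ : (E →L[ℝ] G) ≃L[ℝ] (Fin d → G) :=
    (e₁.arrowCongr (1 : G ≃L[ℝ] G)).trans (ContinuousLinearEquiv.piRing (Fin d))
  have he : ∀ (k : E →L[ℝ] G) i, e₂ k i = k (e₁.symm (Pi.single i 1)) := fun k i => rfl
  have h1 : HasDerivAt (fun s => e₂ (f s)) (e₂ f') t := by
    rw [hasDerivAt_pi]
    intro i
    simp only [he]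
    exact h _
  have h2 := e₂.symm.toContinuousLinearMap.hasFDerivAt.comp_hasDerivAt t h1
  simpa only [Function.comp_def, ContinuousLinearEquiv.coe_coe,
    ContinuousLinearEquiv.symm_apply_apply] using h2

/-- joint continuity -/
theorem Flw.cont (hΦ : Flw F Φ) (hF : ContDiff ℝ 1 F) :
    Continuous fun q : ℝ × E => Φ q.1 q.2 := by
  rw [continuous_iff_continuousAt]
  rintro ⟨t₀, z₀⟩
  -- local Lipschitz bound, uniform in time
  have key : ∃ r L : ℝ, 0 < r ∧ 0 < L ∧ ∀ z ∈ ball z₀ r, ∀ t ∈ Icc (-(|t₀| + 1)) (|t₀| + 1),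
      ‖Φ t z - Φ t z₀‖ ≤ ‖z - z₀‖ * L := by
    obtain ⟨r₁, R₁, K₁, hr₁, hK₁, -, -, h1⟩ := hΦ.tube hF z₀ (|t₀| + 1)
    obtain ⟨r₂, R₂, K₂, hr₂, hK₂, -, -, h2⟩ := hΦ.rev.tube hF.neg z₀ (|t₀| + 1)
    refine ⟨min r₁ r₂, max (Real.exp (K₁ * (|t₀| + 1))) (Real.exp (K₂ * (|t₀| + 1))),
      lt_min hr₁ hr₂, lt_max_of_lt_left (Real.exp_pos _), fun z hz t ht => ?_⟩
    rcases le_total 0 t with h | h
    · exact (h1 z (ball_subset_ball (min_le_left _ _) hz) z₀ (mem_ball_self hr₁) t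
        ⟨h, ht.2⟩).trans (mul_le_mul_of_nonneg_left (le_max_left _ _) (norm_nonneg _))
    · have h3 := h2 z (ball_subset_ball (min_le_right _ _) hz) z₀ (mem_ball_self hr₂) (-t)
        ⟨by linarith, by linarith [ht.1]⟩
      simp only [neg_neg] at h3
      exact h3.trans (mul_le_mul_of_nonneg_left (le_max_right _ _) (norm_nonneg _))
  obtain ⟨r, L, hr, hL, h1⟩ := key
  have h2 : Tendsto (fun q : ℝ × E => ‖q.2 - z₀‖ * L + ‖Φ q.1 z₀ - Φ t₀ z₀‖) (𝓝 (t₀, z₀))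
      (𝓝 0) := by
    have : Continuous fun q : ℝ × E => ‖q.2 - z₀‖ * L + ‖Φ q.1 z₀ - Φ t₀ z₀‖ := by
      have h3 := (hΦ.cont_time z₀).comp (continuous_fst (X := ℝ) (Y := E))
      exact ((continuous_snd.sub continuous_const).norm.mul continuous_const).add
        (h3.sub continuous_const).norm
    have h4 := this.tendsto (t₀, z₀)
    simpa only [sub_self, norm_zero, zero_mul, add_zero] using h4
  rw [ContinuousAt, tendsto_iff_norm_sub_tendsto_zero]
  refine squeeze_zero' (Eventually.of_forall fun _ => norm_nonneg _) ?_ h2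
  have h5 : ∀ᶠ q : ℝ × E in 𝓝 (t₀, z₀), q.1 ∈ Icc (-(|t₀| + 1)) (|t₀| + 1) ∧ q.2 ∈ ball z₀ r := by
    exact prod_mem_nhds (Icc_mem_nhds (by linarith [neg_abs_le t₀])
      (by linarith [le_abs_self t₀])) (ball_mem_nhds z₀ hr)
  filter_upwards [h5] with q hq
  calc ‖Φ q.1 q.2 - Φ t₀ z₀‖ ≤ ‖Φ q.1 q.2 - Φ q.1 z₀‖ + ‖Φ q.1 z₀ - Φ t₀ z₀‖ :=
        norm_sub_le_norm_sub_add_norm_sub _ _ _
    _ ≤ _ := add_le_add (h1 q.2 hq.2 q.1 hq.1) le_rfl

/-- the flow on pairs (point, tangent vector) -/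
theorem Flw.tan (hΦ : Flw F Φ) (hF : ContDiff ℝ 1 F) :
    Flw (fun p : E × E => (F p.1, fderiv ℝ F p.1 p.2))
      (fun t p => (Φ t p.1, fderiv ℝ (Φ t) p.1 p.2)) := by
  refine ⟨fun p => ?_, fun t p => ?_⟩
  · have h1 : Φ 0 = id := funext fun z => hΦ.zero z
    simp only [h1, fderiv_id, id_eq, ContinuousLinearMap.coe_id']
  · exact (hΦ.der t p.1).prodMk (hΦ.ode hF t p.1 p.2)

theorem Flw.cont_fderiv (hΦ : Flw F Φ) (hF : ContDiff ℝ 2 F) :
    Continuous fun q : ℝ × E => fderiv ℝ (Φ q.1) q.2 := by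
  have hF1 : ContDiff ℝ 1 F := hF.of_le (by norm_num)
  have hF' : ContDiff ℝ 1 (fun p : E × E => (F p.1, fderiv ℝ F p.1 p.2)) := by
    have h1 : ContDiff ℝ 1 (fderiv ℝ F) := hF.fderiv_right (by norm_num)
    exact (hF1.comp contDiff_fst).prodMk ((h1.comp contDiff_fst).clm_apply contDiff_snd)
  have h1 := (hΦ.tan hF1).cont hF'
  rw [continuous_clm_apply]
  intro v
  have h2 : Continuous fun q : ℝ × E => (q.1, (q.2, v)) := by fun_prop
  exact continuous_snd.comp (h1.comp h2)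

theorem Flw.contDiff (hΦ : Flw F Φ) (hF : ContDiff ℝ 2 F) :
    ContDiff ℝ 1 fun q : ℝ × E => Φ q.1 q.2 := by
  have hF1 : ContDiff ℝ 1 F := hF.of_le (by norm_num)
  rw [contDiff_one_iff_hasFDerivAt]
  refine ⟨fun q => (ContinuousLinearMap.toSpanSingleton ℝ (F (Φ q.1 q.2))).coprod
    (fderiv ℝ (Φ q.1) q.2), ?_, fun q => ?_⟩
  · have h1 : Continuous fun q : ℝ × E =>
        ContinuousLinearMap.toSpanSingleton ℝ (F (Φ q.1 q.2)) := by
      rw [continuous_clm_apply]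
      intro v
      simp only [ContinuousLinearMap.toSpanSingleton_apply]
      exact (hF1.continuous.comp (hΦ.cont hF1)).const_smul v
    have h2 := hΦ.cont_fderiv hF
    rw [continuous_clm_apply] at h1 h2 ⊢
    intro v
    simp only [ContinuousLinearMap.coprod_apply]
    exact (h1 v.1).add (h2 v.2)
  · have h1 := hasStrictFDerivAt_uncurry_coprod (𝕜 := ℝ) (u := q) (f := Φ)
      (f₁ := fun t z => ContinuousLinearMap.toSpanSingleton ℝ (F (Φ t z)))
      (f₂ := fun t z => fderiv ℝ (Φ t) z)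
      (Eventually.of_forall fun v => (hΦ.der v.1 v.2).hasFDerivAt)
      (Eventually.of_forall fun v => (hΦ.diff hF1 v.1 v.2).hasFDerivAt)
      (by
        have h1 : Continuous fun q : ℝ × E =>
            ContinuousLinearMap.toSpanSingleton ℝ (F (Φ q.1 q.2)) := by
          rw [continuous_clm_apply]
          intro v
          simp only [ContinuousLinearMap.toSpanSingleton_apply]
          exact (hF1.continuous.comp (hΦ.cont hF1)).const_smul v
        exact h1.continuousAt)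
      (hΦ.cont_fderiv hF).continuousAt
    exact h1.hasFDerivAt

end

/-- BLOCK T1 -/
theorem specFlow (W : Type) [NormedAddCommGroup W] [NormedSpace ℝ W]
    [FiniteDimensional ℝ W] (F : W → W) (Φ : ℝ → W → W) (hF : ContDiff ℝ (⊤ : ℕ∞) F)
    (h0 : ∀ z, Φ 0 z = z) (hd : ∀ t z, HasDerivAt (fun s => Φ s z) (F (Φ t z)) t) :
    ContDiff ℝ 1 (fun q : ℝ × W => Φ q.1 q.2) ∧
    (∀ s t z, Φ (s + t) z = Φ s (Φ t z)) ∧
    ∀ t z, HasDerivAt (fun s => fderiv ℝ (Φ s) z)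
      ((fderiv ℝ F (Φ t z)).comp (fderiv ℝ (Φ t) z)) t := by
  have hΦ : Flw F Φ := ⟨h0, hd⟩
  have hF2 : ContDiff ℝ 2 F := contDiff_infty.1 hF 2
  have hF1 : ContDiff ℝ 1 F := hF2.of_le (by norm_num)
  exact ⟨hΦ.contDiff hF2, hΦ.add hF1, fun t z => hasDerivAt_clm fun v => hΦ.ode hF1 t z v⟩

end Vale.Agent.P223.H316
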