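import Vale.Agent.P223.H316.Exp
import Vale.Agent.P223.H566.Spec

/-! The word system of the Dirac operator. -/

namespace Vale.Agent.P223.H316

open scoped ENNReal InnerProductSpace
open MeasureTheory Vale.Agent.P223.H566

section tc
variable {H : Type} [NormedAddCommGroup H] [InnerProductSpace ℂ H]

/-- nuclear norm -/
noncomputable def nnH (T : H →L[ℂ] H) : ℝ≥0∞ := ⨅ (b : ℝ) (_ : Nuc T b), ENNReal.ofReal b

theorem nnH_le {T : H →L[ℂ] H} {b : ℝ} (h : Nuc T b) : nnH T ≤ ENNReal.ofReal b :=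
  iInf₂_le b h

theorem nnH_ne {T : H →L[ℂ] H} {b : ℝ} (h : Nuc T b) : nnH T ≠ ⊤ :=
  ne_top_of_le_ne_top ENNReal.ofReal_ne_top (nnH_le h)

theorem exists_nuc {T : H →L[ℂ] H} (h : nnH T ≠ ⊤) : ∃ b, Nuc T b := by
  by_contra hc
  push Not at hc
  exact h (by simp [nnH, hc])

theorem nuc_nonneg {T : H →L[ℂ] H} {b : ℝ} (h : Nuc T b) : 0 ≤ b := by
  obtain ⟨α, _, ν, u, v, -, -, -, h1, -⟩ := h
  exact (integral_nonneg fun a => mul_nonneg (norm_nonneg _) (norm_nonneg _)).trans h1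

theorem nuc_zero : Nuc (0 : H →L[ℂ] H) 0 :=
  ⟨Unit, inferInstance, 0, fun _ => 0, fun _ => 0, stronglyMeasurable_const,
    stronglyMeasurable_const, by simp, by simp, fun x y => by simp⟩

/-- operations -/
theorem nnH_mono {T T' : H →L[ℂ] H} {c : ℝ} (hc : 0 ≤ c)
    (h : ∀ b, Nuc T b → Nuc T' (c * b)) (h0 : c = 0 → T' = 0) :
    nnH T' ≤ ENNReal.ofReal c * nnH T := by
  by_cases hc0 : c = 0
  · rw [h0 hc0, hc0]
    refine (nnH_le nuc_zero).trans ?_
    simp
  · have hc1 : ENNReal.ofReal c ≠ 0 := by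
      rw [Ne, ENNReal.ofReal_eq_zero, not_le]
      exact lt_of_le_of_ne hc (Ne.symm hc0)
    rw [nnH, nnH, ENNReal.mul_iInf_of_ne hc1 ENNReal.ofReal_ne_top]
    refine le_iInf fun b => ?_
    rw [ENNReal.mul_iInf_of_ne hc1 ENNReal.ofReal_ne_top]
    refine le_iInf fun hb => ?_
    rw [← ENNReal.ofReal_mul hc]
    exact nnH_le (h b hb)

theorem nuc_mono {T : H →L[ℂ] H} {b b' : ℝ} (h : Nuc T b) (hb : b ≤ b') : Nuc T b' := by
  obtain ⟨α, i, ν, u, v, h1, h2, h3, h4, h5⟩ := h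
  exact ⟨α, i, ν, u, v, h1, h2, h3, h4.trans hb, h5⟩

theorem norm_one_le' : ‖(1 : H →L[ℂ] H)‖ ≤ 1 := ContinuousLinearMap.norm_id_le

variable [CompleteSpace H] (hTC : SpecTC)
include hTC

/-- the trace ideal -/
noncomputable def tiH : TI (H →L[ℂ] H) where
  nn := nnH
  tr := trH
  nn_zero := by
    have := nnH_le (nuc_zero (H := H))
    rw [ENNReal.ofReal_zero] at this
    exact le_antisymm this zero_le
  nn_add S T := by
    have h := (hTC H).2.1
    rw [nnH, nnH, nnH, ENNReal.iInf_add]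
    refine le_iInf fun b => ?_
    rw [ENNReal.iInf_add]
    refine le_iInf fun hb => ?_
    rw [ENNReal.add_iInf]
    refine le_iInf fun b' => ?_
    rw [ENNReal.add_iInf]
    refine le_iInf fun hb' => ?_
    rw [← ENNReal.ofReal_add (nuc_nonneg hb) (nuc_nonneg hb')]
    exact nnH_le (h S T b b' hb hb').1
  nn_smul c T := by
    rw [← ofReal_norm]
    refine nnH_mono (norm_nonneg c) (fun b hb => ((hTC H).2.2.1 T b c hb).1) fun h => ?_
    rw [norm_eq_zero.1 h, zero_smul]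
  nn_left S T := by
    rw [← ofReal_norm]
    refine nnH_mono (norm_nonneg S) (fun b hb => ?_) fun h => ?_
    · have h1 := ((hTC H).1 T S 1 b hb).1
      rw [mul_one] at h1
      exact nuc_mono h1 (mul_le_of_le_one_right (mul_nonneg (norm_nonneg _) (nuc_nonneg hb))
        norm_one_le')
    · rw [norm_eq_zero.1 h, zero_mul]
  nn_right S T := by
    rw [← ofReal_norm, mul_comm]
    refine nnH_mono (norm_nonneg S) (fun b hb => ?_) fun h => ?_
    · have h1 := ((hTC H).1 T 1 S b hb).1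
      rw [one_mul] at h1
      refine nuc_mono h1 ?_
      rw [mul_comm]
      exact mul_le_mul_of_nonneg_left (mul_le_of_le_one_left (nuc_nonneg hb) norm_one_le')
        (norm_nonneg _)
    · rw [norm_eq_zero.1 h, mul_zero]
  tr_add S T hS hT := by
    obtain ⟨b, hb⟩ := exists_nuc hS
    obtain ⟨b', hb'⟩ := exists_nuc hT
    exact ((hTC H).2.1 S T b b' hb hb').2
  tr_smul c T hT := by
    obtain ⟨b, hb⟩ := exists_nuc hT
    exact ((hTC H).2.2.1 T b c hb).2
  tr_comm S T hT := by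
    obtain ⟨b, hb⟩ := exists_nuc hT
    have := ((hTC H).1 T S 1 b hb).2.2.2.1
    rwa [mul_one, mul_one] at this
  tr_le T := by
    rw [← ofReal_norm, nnH]
    refine le_iInf fun b => le_iInf fun hb => ENNReal.ofReal_le_ofReal ?_
    exact ((hTC H).1 T 1 1 b hb).2.2.1

end tc

end Vale.Agent.P223.H316
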