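import Vale.Agent.P223.H316.Ins

/-! The word system of the Dirac operator. -/

namespace Vale.Agent.P223.H316

open scoped ENNReal InnerProductSpace
open MeasureTheory Vale.Agent.P223.H566

section ws
variable {n : ℕ} {Γ ι H : Type} [Group Γ] [NormedAddCommGroup H]
  [InnerProductSpace ℂ H] {a h k : Γ × ι → H →L[ℂ] H} {W g p : H →L[ℂ] H}
  {m : ℝ} {w : Γ → ℝ} {A : ℕ → ℝ}

theorem Alg.pap (hA : Alg n m a h W g p) (l : Γ × ι) :
    p * a l * p = ((m : ℂ) ^ 2) • (g * a l * g) - g * a l + g * h l * p := by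
  have h1 := hA.ap l
  have h2 := hA.ag l
  have h3 := hA.pp
  have h4 := hA.gp
  have e1 : p * a l = a l * p + ((m : ℂ) ^ 2) • (g * h l * g) + p * h l * p := by
    have : p * a l = a l * p - (a l * p - p * a l) := by abel
    rw [this, h1]; abel
  have e2 : g * a l = a l * g + (p * h l * g + g * h l * p) := by
    have : g * a l = a l * g - (a l * g - g * a l) := by abel
    rw [this, h2]; abel
  have e3 : p * a l * p = ((m : ℂ) ^ 2) • (a l * (g * g) + g * h l * (p * g) + p * h l * (g * g)) -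
      a l * g - p * h l * g := by
    calc p * a l * p = a l * (p * p) + ((m : ℂ) ^ 2) • (g * h l * (g * p)) +
          p * h l * (p * p) := by
          rw [e1, add_mul, add_mul, smul_mul_assoc]; simp only [mul_assoc]
      _ = _ := by
          rw [h3, h4, mul_sub, mul_sub, mul_smul_comm, mul_smul_comm, smul_add, smul_add]; abel
  rw [e3, e2, smul_add, smul_add]
  simp only [add_mul, smul_add, mul_assoc]
  abel

theorem p_pow (hA : Alg n m a h W g p) (i j : ℕ) :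
    p ^ (i + 2) * g ^ j = ((m : ℂ) ^ 2) • (p ^ i * g ^ (j + 2)) - p ^ i * g ^ (j + 1) := by
  rw [pow_add p i 2, pow_two p, hA.pp, mul_sub, sub_mul, mul_smul_comm, smul_mul_assoc,
    pow_add g j 2, pow_two g, pow_succ g j]
  have h1 : g * g * g ^ j = g ^ j * (g * g) := by
    rw [← pow_two, ← pow_add, ← pow_add, add_comm]
  have h2 : g * g ^ j = g ^ j * g := by rw [← pow_succ', ← pow_succ]
  rw [mul_assoc, mul_assoc (p ^ i) g, h1, h2]

theorem ws_bd (hA : Alg n m a h W g p) (hD : Dec n m a h g p k w A)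
    (i : ℕ) : ∀ j : ℕ, ∃ C : ℝ, ∀ l l',
      ‖k l * p ^ i * g ^ j * k l'‖ ≤ C * w (l.1⁻¹ * l'.1) := by
  have main : ∀ i, (∀ j : ℕ, ∃ C : ℝ, ∀ l l',
      ‖k l * p ^ i * g ^ j * k l'‖ ≤ C * w (l.1⁻¹ * l'.1)) ∧ (∀ j : ℕ, ∃ C : ℝ, ∀ l l',
      ‖k l * p ^ (i + 1) * g ^ j * k l'‖ ≤ C * w (l.1⁻¹ * l'.1)) := by
    intro i
    induction i with
    | zero =>
      refine ⟨fun j => ⟨A j * m ^ (-(2 * j : ℝ)), fun l l' => ?_⟩,
        fun j => ⟨A j * m ^ (-(2 * j + 1 : ℝ)), fun l l' => ?_⟩⟩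
      · rw [pow_zero, mul_one]; exact hD.dg j l l'
      · rw [zero_add, pow_one, mul_assoc (k l)]; exact hD.dp j l l'
    | succ i ih =>
      refine ⟨ih.2, fun j => ?_⟩
      obtain ⟨C1, h1⟩ := ih.1 (j + 2)
      obtain ⟨C2, h2⟩ := ih.1 (j + 1)
      refine ⟨‖(m : ℂ) ^ 2‖ * C1 + C2, fun l l' => ?_⟩
      have e : k l * p ^ (i + 1 + 1) * g ^ j * k l' =
          ((m : ℂ) ^ 2) • (k l * p ^ i * g ^ (j + 2) * k l') -
            k l * p ^ i * g ^ (j + 1) * k l' := by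
        rw [mul_assoc (k l), show i + 1 + 1 = i + 2 from rfl, p_pow hA, mul_sub, sub_mul,
          mul_smul_comm, smul_mul_assoc]
        simp only [mul_assoc]
      rw [e, add_mul, mul_assoc ‖(m : ℂ) ^ 2‖]
      refine (norm_sub_le _ _).trans (add_le_add ?_ (h2 l l'))
      rw [norm_smul]
      exact mul_le_mul_of_nonneg_left (h1 l l') (norm_nonneg _)
  exact (main i).1

variable [CompleteSpace H] (hTC : SpecTC)

theorem ws_nuc (hw : ∀ γ, 0 ≤ w γ) (hA : Alg n m a h W g p) (hD : Dec n m a h g p k w A)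
    (i : ℕ) : ∀ j : ℕ, n / 2 + 1 ≤ j → ∃ C : ℝ, ∀ l l',
      (tiH hTC).nn (k l * p ^ i * g ^ j * k l') ≤ ENNReal.ofReal (C * w (l.1⁻¹ * l'.1)) := by
  have main : ∀ i, (∀ j : ℕ, n / 2 + 1 ≤ j → ∃ C : ℝ, 0 ≤ C ∧ ∀ l l',
      (tiH hTC).nn (k l * p ^ i * g ^ j * k l') ≤ ENNReal.ofReal (C * w (l.1⁻¹ * l'.1))) ∧
      (∀ j : ℕ, n / 2 + 1 ≤ j → ∃ C : ℝ, 0 ≤ C ∧ ∀ l l',
      (tiH hTC).nn (k l * p ^ (i + 1) * g ^ j * k l') ≤
        ENNReal.ofReal (C * w (l.1⁻¹ * l'.1))) := by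
    intro i
    induction i with
    | zero =>
      refine ⟨fun j hj => ⟨|A j * m ^ ((n : ℝ) - 2 * j)|, abs_nonneg _, fun l l' => ?_⟩,
        fun j hj => ⟨|A j * m ^ ((n : ℝ) - 2 * j - 1)|, abs_nonneg _, fun l l' => ?_⟩⟩
      · rw [pow_zero, mul_one]
        refine (nnH_le (hD.ng j (by omega) l l')).trans (ENNReal.ofReal_le_ofReal ?_)
        exact mul_le_mul_of_nonneg_right (le_abs_self _) (hw _)
      · rw [zero_add, pow_one, mul_assoc (k l)]
        refine (nnH_le (hD.np j (by omega) l l')).trans (ENNReal.ofReal_le_ofReal ?_)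
        exact mul_le_mul_of_nonneg_right (le_abs_self _) (hw _)
    | succ i ih =>
      refine ⟨ih.2, fun j hj => ?_⟩
      obtain ⟨C1, h10, h1⟩ := ih.1 (j + 2) (by omega)
      obtain ⟨C2, h20, h2⟩ := ih.1 (j + 1) (by omega)
      refine ⟨‖(m : ℂ) ^ 2‖ * C1 + ‖(-1 : ℂ)‖ * C2, by positivity, fun l l' => ?_⟩
      have e : k l * p ^ (i + 1 + 1) * g ^ j * k l' =
          ((m : ℂ) ^ 2) • (k l * p ^ i * g ^ (j + 2) * k l') +
            (-1 : ℂ) • (k l * p ^ i * g ^ (j + 1) * k l') := by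
        rw [mul_assoc (k l), show i + 1 + 1 = i + 2 from rfl, p_pow hA, mul_sub, sub_mul,
          mul_smul_comm, smul_mul_assoc, neg_one_smul, ← sub_eq_add_neg]
        simp only [mul_assoc]
      rw [e, add_mul, mul_assoc ‖(m : ℂ) ^ 2‖, mul_assoc ‖(-1 : ℂ)‖, ENNReal.ofReal_add
        (mul_nonneg (norm_nonneg _) (mul_nonneg h10 (hw _)))
        (mul_nonneg (norm_nonneg _) (mul_nonneg h20 (hw _))),
        ENNReal.ofReal_mul (norm_nonneg _), ENNReal.ofReal_mul (norm_nonneg _), ofReal_norm,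
        ofReal_norm]
      refine ((tiH hTC).nn_add _ _).trans (add_le_add ?_ ?_)
      · exact ((tiH hTC).nn_smul _ _).trans (mul_le_mul_right (h1 l l') _)
      · exact ((tiH hTC).nn_smul _ _).trans (mul_le_mul_right (h2 l l') _)
  intro j hj
  obtain ⟨C, -, hC⟩ := (main i).1 j hj
  exact ⟨C, hC⟩

omit [Group Γ] [CompleteSpace H] [NormedAddCommGroup H] [InnerProductSpace ℂ H] in
theorem sum_w [Fintype ι] {f : Γ → ℝ} (hw : ∀ γ, 0 ≤ f γ) (hs : Summable f) :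
    Summable fun l : Γ × ι => f l.1 := by
  rw [summable_prod_of_nonneg fun l => hw l.1]
  refine ⟨fun x => Summable.of_finite, ?_⟩
  simp only [tsum_fintype, Finset.sum_const]
  exact hs.const_smul _

include hTC

theorem nucl_aux [Countable Γ] [Fintype ι] (hw : ∀ γ, 0 ≤ w γ) (hs : Summable w)
    (hA : Alg n m a h W g p) (hD : Dec n m a h g p k w A) (X : H →L[ℂ] H) (l : Γ × ι) (c : ℝ)
    (hX : ∀ l', Nuc (k l * X * k l') (c * w (l.1⁻¹ * l'.1))) : ∃ b, Nuc (k l * X) b := by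
  have h1 : Summable fun l' : Γ × ι => w (l.1⁻¹ * l'.1) :=
    sum_w (f := fun γ => w (l.1⁻¹ * γ)) (fun γ => hw _) ((Equiv.mulLeft l.1⁻¹).summable_iff.2 hs)
  have h2 : ∀ l' : Γ × ι, Nuc (k l * X * a l') (c * w (l.1⁻¹ * l'.1) * A 0) := by
    intro l'
    have h3 := ((hTC H).1 _ 1 (a l') _ (hX l')).1
    rw [one_mul, mul_assoc _ (k l'), (hD.ka l').1] at h3
    refine nuc_mono h3 ?_
    have h4 := nuc_nonneg (hX l')
    refine mul_le_mul (mul_le_of_le_one_left h4 norm_one_le') (hD.na l').1 (norm_nonneg _) h4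
  exact ⟨_, ((hTC H).2.2.2.1 (Γ × ι) (fun l' => k l * X * a l') (k l * X) _ h2
    ((h1.mul_left c).mul_right (A 0)) fun x => (hA.suma x).mapL (k l * X)).1⟩

theorem nucr_aux [Countable Γ] [Fintype ι] (hw : ∀ γ, 0 ≤ w γ) (hs : Summable w)
    (hA : Alg n m a h W g p) (hD : Dec n m a h g p k w A) (X : H →L[ℂ] H) (l : Γ × ι) (c : ℝ)
    (hX : ∀ l', Nuc (k l' * X * k l) (c * w (l'.1⁻¹ * l.1))) : ∃ b, Nuc (X * k l) b := by
  have h1 : Summable fun l' : Γ × ι => w (l'.1⁻¹ * l.1) :=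
    sum_w (f := fun γ => w (γ⁻¹ * l.1)) (fun γ => hw _)
      (((Equiv.inv Γ).trans (Equiv.mulRight l.1)).summable_iff.2 hs)
  have h2 : ∀ l' : Γ × ι, Nuc (a l' * (X * k l)) (A 0 * (c * w (l'.1⁻¹ * l.1))) := by
    intro l'
    have h3 := ((hTC H).1 _ (a l') 1 _ (hX l')).1
    rw [mul_one, mul_assoc (k l'), ← mul_assoc (a l'), (hD.ka l').2] at h3
    refine nuc_mono h3 ?_
    have h4 := nuc_nonneg (hX l')
    refine (mul_le_of_le_one_right (mul_nonneg (norm_nonneg _) h4) norm_one_le').trans ?_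
    exact mul_le_mul_of_nonneg_right (hD.na l').1 h4
  exact ⟨_, ((hTC H).2.2.2.1 (Γ × ι) (fun l' => a l' * (X * k l)) (X * k l) _ h2
    ((h1.mul_left c).mul_left (A 0)) fun x => hA.suma ((X * k l) x)).1⟩

end ws

end Vale.Agent.P223.H316
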