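import Vale.Agent.P223.H440.NC1
import Vale.Agent.P223.H566.NV
import Mathlib.MeasureTheory.Function.Jacobian

/-! BLOCK V5, part 1: an injective local diffeomorphism `e : U → X`, `U` open in `ℝ^n`. -/

namespace Vale.Agent.P223.H316.LT

open scoped ContDiff Topology Matrix ENNReal
open Vale.Agent.P223 Vale.Agent.P223.X Filter Set MeasureTheory
open Vale.Agent.P223.H440.NC (fi exists_local_inv)
open Vale.Agent.P223.H566.NV (pul grd)

variable {n : ℕ} {X : Type} [TopologicalSpace X] {c : X → J.Ch n X} {g : X → J.Mtx n}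
  {e : J.E n → X} {U : Set (J.E n)} {a b : X} {v : J.E n}

/-- `e` is an injective local diffeomorphism on `U`. -/
structure GU (c : X → J.Ch n X) (e : J.E n → X) (U : Set (J.E n)) : Prop where
  isOpen : IsOpen U
  cont : ContinuousOn e U
  inj : InjOn e U
  sm : ∀ v ∈ U, ContDiffAt ℝ ∞ (fun w => c (e v) (e w)) v
  det : ∀ v ∈ U, (fderiv ℝ (fun w => c (e v) (e w)) v).det ≠ 0

namespace GU

theorem contAt (he : GU c e U) (hv : v ∈ U) : ContinuousAt e v :=
  he.cont.continuousAt (he.isOpen.mem_nhds hv)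

theorem near (he : GU c e U) (hv : v ∈ U) (hb : e v ∈ (c b).source) :
    ∀ᶠ w in 𝓝 v, e w ∈ (c b).source :=
  (he.contAt hv).eventually_mem ((c b).open_source.mem_nhds hb)

theorem ev (he : GU c e U) (hv : v ∈ U) (a : X) (hb : e v ∈ (c b).source) :
    fi c e a =ᶠ[𝓝 v] fun w => J.cm (c b) (c a) (fi c e b w) := by
  filter_upwards [he.near hv hb] with w hw
  unfold fi J.cm
  rw [(c b).left_inv hw]

theorem smA (hc : J.Atl c) (he : GU c e U) (hv : v ∈ U) (ha : e v ∈ (c a).source) :
    ContDiffAt ℝ ∞ (fi c e a) v := by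
  have h1 : e v ∈ (c (e v)).source := (hc _).1
  refine ContDiffAt.congr_of_eventuallyEq ?_ (he.ev hv a h1)
  exact ContDiffAt.comp (g := J.cm (c (e v)) (c a)) (f := fi c e (e v)) v
    ((((hc (e v)).2 a) _ h1 ha).1) (he.sm v hv)

theorem fd (hc : J.Atl c) (he : GU c e U) (hv : v ∈ U) (ha : e v ∈ (c a).source)
    (hb : e v ∈ (c b).source) :
    fderiv ℝ (fi c e a) v = (fderiv ℝ (J.cm (c b) (c a)) (c b (e v))).comp
      (fderiv ℝ (fi c e b) v) := by
  rw [(he.ev hv a hb).fderiv_eq]
  exact fderiv_comp v ((((hc b).2 a) _ hb ha).1.differentiableAt (by simp))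
    ((he.smA hc hv hb).differentiableAt (by simp))

theorem detA (hc : J.Atl c) (he : GU c e U) (hv : v ∈ U) (ha : e v ∈ (c a).source) :
    (fderiv ℝ (fi c e a) v).det ≠ 0 := by
  have h1 : e v ∈ (c (e v)).source := (hc _).1
  rw [he.fd hc hv ha h1]
  have h2 := (((hc (e v)).2 a) _ h1 ha).2
  have h3 := he.det v hv
  change LinearMap.det (((fderiv ℝ (J.cm (c (e v)) (c a)) (c (e v) (e v)) :
    J.E n →L[ℝ] J.E n) : J.E n →ₗ[ℝ] J.E n) ∘ₗ (fderiv ℝ (fi c e (e v)) v : J.E n →ₗ[ℝ] J.E n)) ≠ 0
  rw [LinearMap.det_comp]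
  exact mul_ne_zero h2.ne' h3

theorem det_jac (hc : J.Atl c) (he : GU c e U) (hv : v ∈ U) (ha : e v ∈ (c a).source) :
    (jac (fi c e a) v).det ≠ 0 := by
  rw [Bas2.det_jac (he.smA hc hv ha)]
  exact he.detA hc hv ha

theorem map_nhds (hc : J.Atl c) (he : GU c e U) (hv : v ∈ U) : map e (𝓝 v) = 𝓝 (e v) := by
  have h1 : e v ∈ (c (e v)).source := (hc _).1
  obtain ⟨-, -, -, -, -, h2⟩ := exists_local_inv (he.smA hc hv h1) (he.detA hc hv h1)
  have h3 : map (c (e v)).symm (𝓝 (c (e v) (e v))) = 𝓝 (e v) := by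
    have := (c (e v)).symm.map_nhds_eq ((c (e v)).map_source h1)
    rw [(c (e v)).left_inv h1] at this
    exact this
  have h4 : map e (𝓝 v) = map (c (e v)).symm (map (fi c e (e v)) (𝓝 v)) := by
    rw [map_map]
    refine Filter.map_congr ?_
    filter_upwards [he.near hv h1] with w hw
    exact ((c (e v)).left_inv hw).symm
  rw [h4, h2]
  exact h3

theorem isOpen_image (hc : J.Atl c) (he : GU c e U) {V : Set (J.E n)} (hV : IsOpen V)
    (hVU : V ⊆ U) : IsOpen (e '' V) := by
  rw [isOpen_iff_mem_nhds]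
  rintro _ ⟨v, hv, rfl⟩
  rw [← he.map_nhds hc (hVU hv)]
  exact image_mem_map (hV.mem_nhds hv)

/-- `e` on the subtype is an open embedding -/
theorem isOpenEmbedding (hc : J.Atl c) (he : GU c e U) :
    Topology.IsOpenEmbedding (fun u : U => e u) := by
  refine Topology.IsOpenEmbedding.of_continuous_injective_isOpenMap
    (continuousOn_iff_continuous_domRestrict.1 he.cont) (fun u v h => Subtype.ext
      (he.inj u.2 v.2 h)) fun V hV => ?_
  have h1 : (fun u : U => e u) '' V = e '' (Subtype.val '' V) := by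
    rw [image_image]
  rw [h1]
  exact he.isOpen_image hc (he.isOpen.isOpenMap_subtype_val _ hV)
    (by rintro _ ⟨u, -, rfl⟩; exact u.2)

/-- the pulled back metric, in any chart -/
theorem pul_eq (hc : J.Atl c) (hg : J.Met c g) (he : GU c e U) (hv : v ∈ U)
    (ha : e v ∈ (c a).source) :
    pul c g e v = (jac (fi c e a) v)ᵀ * g a (fi c e a v) * jac (fi c e a) v := by
  have h1 : e v ∈ (c (e v)).source := (hc _).1
  have h0 : pul c g e v = (jac (fi c e (e v)) v)ᵀ * g (e v) (fi c e (e v) v) *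
      jac (fi c e (e v)) v := by
    ext i j
    have hd := (he.smA hc hv h1).differentiableAt (by simp)
    have h1 : pul c g e v i j = ∑ k, ∑ l, (fderiv ℝ (fi c e (e v)) v (Pi.single i 1)) k *
      (fderiv ℝ (fi c e (e v)) v (Pi.single j 1)) l * g (e v) (c (e v) (e v)) k l := rfl
    rw [h1]
    simp only [Matrix.mul_apply, Matrix.transpose_apply, RicU.jac_apply hd, Finset.sum_mul]
    rw [Finset.sum_comm]
    refine Finset.sum_congr rfl fun l _ => Finset.sum_congr rfl fun k _ => ?_
    change _ = (fderiv ℝ (fi c e (e v)) v (Pi.single i 1)) k * g (e v) (c (e v) (e v)) k l *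
      (fderiv ℝ (fi c e (e v)) v (Pi.single j 1)) l
    ring
  have h2 : c (e v) (e v) ∈ RicU.cd c (e v) a := ⟨(c (e v)).map_source h1, by
    rw [Set.mem_preimage, (c (e v)).left_inv h1]; exact ha⟩
  have h3 := (RicU.chg hc hg (e v) a).compat _ h2
  have h4 : J.cm (c (e v)) (c a) (c (e v) (e v)) = c a (e v) := BoxB.cm_apply _ _ h1
  rw [h4] at h3
  have h5 : jac (fi c e a) v = jac (J.cm (c (e v)) (c a)) (c (e v) (e v)) *
      jac (fi c e (e v)) v := by
    ext i j
    rw [RicU.jac_apply ((he.smA hc hv ha).differentiableAt (by simp)), he.fd hc hv ha h1,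
      ContinuousLinearMap.comp_apply,
      Bas2.fderiv_eq_mulVec ((((hc (e v)).2 a) _ h1 ha).1), Matrix.mul_apply]
    refine Finset.sum_congr rfl fun k _ => ?_
    rw [RicU.jac_apply ((he.smA hc hv h1).differentiableAt (by simp)) k j]
  rw [h0, h5]
  change _ * g (e v) (c (e v) (e v)) * _ = _
  rw [h3]
  simp only [Matrix.transpose_mul, Matrix.mul_assoc]
  rfl

theorem sqrt_det (hc : J.Atl c) (hg : J.Met c g) (he : GU c e U) (hv : v ∈ U)
    (ha : e v ∈ (c a).source) : √(pul c g e v).det =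
      |(fderiv ℝ (fi c e a) v).det| * √(g a (fi c e a v)).det := by
  rw [he.pul_eq hc hg hv ha, Matrix.det_mul, Matrix.det_mul, Matrix.det_transpose,
    ← Bas2.det_jac (he.smA hc hv ha)]
  have h1 : (jac (fi c e a) v).det * (g a (fi c e a v)).det * (jac (fi c e a) v).det =
      (jac (fi c e a) v).det ^ 2 * (g a (fi c e a v)).det := by ring
  rw [h1, Real.sqrt_mul (sq_nonneg _), Real.sqrt_sq_eq_abs]

section meas
variable [MeasurableSpace X] [BorelSpace X] {μ : Measure X}

omit [BorelSpace X] in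
theorem meas_local (hc : J.Atl c) (hg : J.Met c g) (hμ : J.Vol c g μ) (he : GU c e U)
    {A : Set (J.E n)} (hA : MeasurableSet A) (hAU : A ⊆ U) (hAa : ∀ w ∈ A, e w ∈ (c a).source) :
    μ (e '' A) = ∫⁻ w in A, ENNReal.ofReal √(pul c g e w).det := by
  have hd : ∀ w ∈ A, HasFDerivWithinAt (fi c e a) (fderiv ℝ (fi c e a) w) A w := fun w hw =>
    ((he.smA hc (hAU hw) (hAa w hw)).differentiableAt (by simp)).hasFDerivAt.hasFDerivWithinAt
  have hinj : InjOn (fi c e a) A := fun w hw w' hw' h =>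
    he.inj (hAU hw) (hAU hw') ((c a).injOn (hAa w hw) (hAa w' hw') h)
  have h1 : e '' A = (c a).symm '' (fi c e a '' A) := by
    rw [image_image]
    exact image_congr fun w hw => ((c a).left_inv (hAa w hw)).symm
  rw [h1, hμ a _ (by rintro _ ⟨w, hw, rfl⟩; exact (c a).map_source (hAa w hw))
    (measurable_image_of_fderivWithin hA hd hinj),
    lintegral_image_eq_lintegral_abs_det_fderiv_mul volume hA hd hinj]
  refine setLIntegral_congr_fun hA fun w hw => ?_
  rw [he.sqrt_det hc hg (hAU hw) (hAa w hw), ENNReal.ofReal_mul (abs_nonneg _)]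

/-- the volume in the chart `e` -/
theorem comap_eq (hc : J.Atl c) (hg : J.Met c g) (hμ : J.Vol c g μ) (he : GU c e U) :
    μ.comap (fun u : U => e u) = ((volume : Measure (J.E n)).comap (Subtype.val : U → J.E n)).withDensity
      fun u => ENNReal.ofReal √(pul c g e u).det := by
  have hi := (he.isOpenEmbedding hc).measurableEmbedding
  have hval := MeasurableEmbedding.subtype_coe he.isOpen.measurableSet
  -- countable cover
  let V : X → Set U := fun a => {u : U | e u ∈ (c a).source}
  have hVo : ∀ a, IsOpen (V a) := fun a =>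
    (c a).open_source.preimage (he.isOpenEmbedding hc).continuous
  have hcov : ⋃ u : U, V (e u) = univ := by
    refine eq_univ_of_forall fun u => mem_iUnion.2 ⟨u, ?_⟩
    exact (hc (e u)).1
  obtain ⟨T, hT, hTu⟩ := TopologicalSpace.isOpen_iUnion_countable (fun u : U => V (e u))
    fun u => hVo _
  rw [hcov] at hTu
  refine Measure.ext_of_biUnion_eq_univ hT hTu fun u hu => ?_
  refine Measure.ext fun B hB => ?_
  rw [Measure.restrict_apply hB, Measure.restrict_apply hB]
  have hBV : MeasurableSet (B ∩ V (e u)) := hB.inter (hVo _).measurableSet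
  have himg : (fun u : U => e u) '' (B ∩ V (e u)) = e '' (Subtype.val '' (B ∩ V (e u))) := by
    rw [image_image]
  rw [hi.comap_apply, himg, withDensity_apply _ hBV,
    he.meas_local hc hg hμ (hval.measurableSet_image.2 hBV)
      (by rintro _ ⟨w, -, rfl⟩; exact w.2) (by rintro _ ⟨w, hw, rfl⟩; exact hw.2)]
  exact (setLIntegral_subtype he.isOpen.measurableSet (B ∩ V (e u))
    fun w => ENNReal.ofReal √(pul c g e w).det).symm

end meas

end GU

end Vale.Agent.P223.H316.LT
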