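import Vale.Agent.P223.H316.LT1

/-! BLOCK V5, part 2: change of variables, gradients, the truncation inequality on `X`. -/

namespace Vale.Agent.P223.H316.LT

open scoped ContDiff Topology Matrix ENNReal NNReal
open Vale.Agent.P223 Vale.Agent.P223.X Filter Set MeasureTheory
open Vale.Agent.P223.H440.NC (fi exists_local_inv)
open Vale.Agent.P223.H566.NV
open Vale.Agent.P223.H765.NC (vol)
open Vale.Agent.P223.H (gradSq)

variable {n : ℕ} {X : Type} [TopologicalSpace X] {c : X → J.Ch n X} {g : X → J.Mtx n}
  {e : J.E n → X} {U : Set (J.E n)} {a b : X} {v : J.E n}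

theorem cont_of_sm (hc : J.Atl c) {u : X → ℝ} (hu : J.Sm c u) : Continuous u := by
  rw [continuous_iff_continuousAt]
  intro a
  have h1 : a ∈ (c a).source := (hc a).1
  have h2 : ContinuousAt (fun x => u ((c a).symm x)) (c a a) :=
    ((hu a).continuousOn).continuousAt ((c a).open_target.mem_nhds ((c a).map_source h1))
  have h3 : ContinuousAt (fun p => (fun x => u ((c a).symm x)) (c a p)) a :=
    ContinuousAt.comp (g := fun x => u ((c a).symm x)) (f := c a) h2 ((c a).continuousAt h1)
  refine h3.congr ?_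
  filter_upwards [(c a).open_source.mem_nhds h1] with p hp
  rw [(c a).left_inv hp]

namespace GU

theorem pul_smoothAt (hc : J.Atl c) (hg : J.Met c g) (he : GU c e U) (hv : v ∈ U)
    (i j : Fin n) : ContDiffAt ℝ ∞ (fun v => pul c g e v i j) v := by
  have h1 : e v ∈ (c (e v)).source := (hc _).1
  have h2 : ∀ᶠ w in 𝓝 v, pul c g e w =
      (jac (fi c e (e v)) w)ᵀ * g (e v) (fi c e (e v) w) * jac (fi c e (e v)) w := by
    filter_upwards [he.near hv h1, he.isOpen.mem_nhds hv] with w hw hw'
    exact he.pul_eq hc hg hw' hw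
  refine ContDiffAt.congr_of_eventuallyEq (f := fun w =>
    ((jac (fi c e (e v)) w)ᵀ * g (e v) (fi c e (e v) w) * jac (fi c e (e v)) w) i j) ?_
    (h2.mono fun w hw => congrArg (fun A : Matrix (Fin n) (Fin n) ℝ => A i j) hw)
  simp only [Matrix.mul_apply, Matrix.transpose_apply]
  have h3 := fun k l => sm_jac (he.smA hc hv h1) k l
  refine ContDiffAt.sum fun k _ => ContDiffAt.mul (ContDiffAt.sum fun l _ => ?_) (h3 k j)
  exact ContDiffAt.mul (h3 l i) (ContDiffAt.comp (g := fun x => g (e v) x l k)
    (f := fi c e (e v)) v ((hg (e v) _ h1).1 l k) (he.smA hc hv h1))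

theorem cont_det (hc : J.Atl c) (hg : J.Met c g) (he : GU c e U) :
    Continuous fun u : U => √(pul c g e u).det := by
  refine Real.continuous_sqrt.comp ?_
  have h1 : ContinuousOn (fun w => (pul c g e w).det) U := by
    intro w hw
    refine ContinuousAt.continuousWithinAt ?_
    simp only [Matrix.det_apply']
    refine tendsto_finsetSum _ fun σ _ => Tendsto.const_mul _ (tendsto_finsetProd _ fun i _ => ?_)
    exact (he.pul_smoothAt hc hg hw _ _).continuousAt
  exact continuousOn_iff_continuous_domRestrict.1 h1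

section meas
variable [MeasurableSpace X] [BorelSpace X] {μ : Measure X}

/-- change of variables -/
theorem lint (hc : J.Atl c) (hg : J.Met c g) (hμ : J.Vol c g μ) (he : GU c e U) (h : X → ℝ≥0∞)
    {S : Set X} (hS : MeasurableSet S) : ∫⁻ q in S ∩ e '' U, h q ∂μ =
      ∫⁻ w in U ∩ e ⁻¹' S, ENNReal.ofReal √(pul c g e w).det * h (e w) := by
  have hi := (he.isOpenEmbedding hc).measurableEmbedding
  have hr : e '' U = range fun u : U => e u := by
    ext q
    simp only [mem_image, mem_range, Subtype.exists, exists_prop]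
  rw [hr, ← Measure.restrict_restrict hS, ← hi.map_comap, hi.restrict_map, hi.lintegral_map,
    he.comap_eq hc hg hμ]
  have hSU : MeasurableSet ((fun u : U => e u) ⁻¹' S) := hi.measurable hS
  have hden : Measurable fun u : U => ENNReal.ofReal √(pul c g e u).det :=
    ENNReal.measurable_ofReal.comp (he.cont_det hc hg).measurable
  rw [setLIntegral_withDensity_eq_setLIntegral_mul_non_measurable _ hden _ hSU
    (Eventually.of_forall fun u => ENNReal.ofReal_lt_top)]
  have h1 := setLIntegral_subtype (μ := (volume : Measure (J.E n))) he.isOpen.measurableSet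
    ((fun u : U => e u) ⁻¹' S) fun w => ENNReal.ofReal √(pul c g e w).det * h (e w)
  have h2 : (Subtype.val : U → J.E n) '' ((fun u : U => e u) ⁻¹' S) = U ∩ e ⁻¹' S := by
    ext w
    simp only [mem_image, mem_preimage, Subtype.exists, exists_and_left, exists_prop,
      exists_eq_right_right, mem_inter_iff]
    exact and_comm
  rw [h2] at h1
  exact h1

end meas

/-- gradients -/
theorem grd_eq (hc : J.Atl c) (hg : J.Met c g) (he : GU c e U) {u : X → ℝ} (hu : J.Sm c u)
    (hv : v ∈ U) : grd c g u (e v) = √(J.gsq (pul c g e) (fun w => u (e w)) v) := by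
  unfold grd
  congr 1
  have h1 : e v ∈ (c (e v)).source := (hc _).1
  have h2 : ContDiffAt ℝ ∞ (fun x => u ((c (e v)).symm x)) (fi c e (e v) v) :=
    (hu (e v)).contDiffAt ((c (e v)).open_target.mem_nhds ((c (e v)).map_source h1))
  have h3 : (fun w => u (e w)) =ᶠ[𝓝 v]
      fun w => (fun x => u ((c (e v)).symm x)) (fi c e (e v) w) := by
    filter_upwards [he.near hv h1] with w hw
    unfold fi
    rw [(c (e v)).left_inv hw]
  have h5 : J.gsq (pul c g e) (fun v => u (e v)) v = gradSq (pul c g e) (fun v => u (e v)) v := rfl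
  have h6 : J.gsq (g (e v)) (fun x => u ((c (e v)).symm x)) (c (e v) (e v)) =
    gradSq (g (e v)) (fun x => u ((c (e v)).symm x)) (c (e v) (e v)) := rfl
  have h8 := Bas2.gradSq_comp (G := pul c g e) (G' := g (e v))
    (he.smA hc hv h1) (he.det_jac hc hv h1) (he.pul_eq hc hg hv h1) (h2.differentiableAt (by simp))
  rw [h5, h6, Bas2.gradSq_congr h3, h8]
  rfl

theorem comp_smoothAt (hc : J.Atl c) (he : GU c e U) {u : X → ℝ} (hu : J.Sm c u) (hv : v ∈ U) :
    ContDiffAt ℝ ∞ (fun w => u (e w)) v := by
  have h1 : e v ∈ (c (e v)).source := (hc _).1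
  have h2 : ContDiffAt ℝ ∞ (fun x => u ((c (e v)).symm x)) (fi c e (e v) v) :=
    (hu (e v)).contDiffAt ((c (e v)).open_target.mem_nhds ((c (e v)).map_source h1))
  have h3 : ContDiffAt ℝ ∞ (fun w => (fun x => u ((c (e v)).symm x)) (fi c e (e v) w)) v :=
    ContDiffAt.comp (g := fun x => u ((c (e v)).symm x)) (f := fi c e (e v)) v h2
      (he.smA hc hv h1)
  refine h3.congr_of_eventuallyEq ?_
  filter_upwards [he.near hv h1] with w hw
  unfold fi
  rw [(c (e v)).left_inv hw]

/-- functions with compact support in `e '' U` in the chart `e` -/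
theorem ext_zero (hc : J.Atl c) (he : GU c e U) {u : X → ℝ} (hu : J.Sm c u)
    (hcs : HasCompactSupport u) (hsub : tsupport u ⊆ e '' U) :
    ∃ f : J.E n → ℝ, ContDiff ℝ ∞ f ∧ HasCompactSupport f ∧ tsupport f ⊆ U ∧
      (∀ w ∈ U, f w = u (e w)) ∧ ∀ w, w ∉ U → f w = 0 := by
  classical
  let f : J.E n → ℝ := fun w => if w ∈ U then u (e w) else 0
  have hf1 : ∀ w ∈ U, f w = u (e w) := fun w hw => if_pos hw
  have hf0 : ∀ w, w ∉ U → f w = 0 := fun w hw => if_neg hw
  let K : Set (J.E n) := Subtype.val '' ((fun w : U => e w) ⁻¹' tsupport u)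
  have hr : e '' U = range fun u : U => e u := by
    ext q
    simp only [mem_image, mem_range, Subtype.exists, exists_prop]
  have hK : IsCompact K := by
    refine IsCompact.image ?_ continuous_subtype_val
    refine ((he.isOpenEmbedding hc).isInducing.isCompact_preimage_iff ?_).2 hcs
    rw [← hr]; exact hsub
  have hKU : K ⊆ U := by rintro _ ⟨w, -, rfl⟩; exact w.2
  have hfK : ∀ w, w ∉ K → f w = 0 := by
    intro w hw
    by_cases hwU : w ∈ U
    · rw [hf1 w hwU]
      by_contra hne
      exact hw ⟨⟨w, hwU⟩, subset_tsupport u hne, rfl⟩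
    · exact hf0 w hwU
  have hts : tsupport f ⊆ K := closure_minimal (fun w hw => by
    by_contra h
    exact hw (hfK w h)) hK.isClosed
  refine ⟨f, ?_, HasCompactSupport.intro hK hfK, hts.trans hKU, hf1, hf0⟩
  rw [contDiff_iff_contDiffAt]
  intro w
  by_cases hw : w ∈ U
  · refine (he.comp_smoothAt hc hu hw).congr_of_eventuallyEq ?_
    filter_upwards [he.isOpen.mem_nhds hw] with y hy using hf1 y hy
  · have hwK : w ∉ K := fun h => hw (hKU h)
    refine contDiffAt_const (c := (0 : ℝ)) |>.congr_of_eventuallyEq ?_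
    filter_upwards [hK.isClosed.isOpen_compl.mem_nhds hwK] with y hy using hfK y hy

end GU

theorem isOpen_nrm (c : X → J.Ch n X) (g : X → J.Mtx n) (x : X) (s : ℝ) :
    IsOpen {w : J.E n | nrm c g x w < s} := by
  refine isOpen_lt (Real.continuous_sqrt.comp ?_) continuous_const
  unfold J.bil
  fun_prop

theorem gu_of_exp {x : X} {r s : ℝ} (hr : 0 < r) (hs : s ≤ r)
    (he : Exp c g x r e) : GU c e {w | nrm c g x w < s} := by
  have hsub : {w | nrm c g x w < s} ⊆ {v | J.bil (g x (c x x)) v v < r ^ 2} := by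
    intro w hw
    have h1 : √(J.bil (g x (c x x)) w w) < r := lt_of_lt_of_le hw hs
    exact (Real.sqrt_lt' hr).1 h1
  exact ⟨isOpen_nrm c g x s, he.cont.mono hsub, he.inj.mono hsub,
    fun v hv => (he.diff v (hsub hv)).1, fun v hv => (he.diff v (hsub hv)).2⟩

/-- BLOCK V5 -/
theorem specLT (hT : SpecTruL) (hG : SpecGeoL) (hD : SpecDst) : SpecLT := by
  intro n hn
  obtain ⟨C, hC⟩ := hT n hn
  refine ⟨C, fun X _ _ _ _ μ c g r hc hg hμ hr hinj x v hv hvs hvc l ε hl hε => ?_⟩
  obtain ⟨e, he⟩ := (injAt_iff c g x (r x)).1 (hinj x).2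
  have hr0 : 0 < r x := (hinj x).1
  obtain ⟨G, Φ, hGe, hGeo⟩ := hG n X c g r x e hn hc hg hr hinj he
  set U : Set (J.E n) := {w | nrm c g x w < r x / 10} with hU
  have hGU : GU c e U := gu_of_exp hr0 (by linarith) he
  have hball : bal c g x (r x / 10) = e '' U :=
    (hD n X c g x (r x) e hn hc hg hr0 he).2 (r x / 10) (by positivity) (by linarith)
  rw [hball] at hvs
  obtain ⟨f, hf1, hf2, hf3, hfe, hf0⟩ := hGU.ext_zero hc hv hvc hvs
  have hvcont := cont_of_sm hc hv
  have key := hC G Φ U hGeo f (hf1.of_le (by simp)) hf2 hf3 l ε hl hε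
  -- sets
  have hout : ∀ q, q ∉ e '' U → v q = 0 := fun q hq => by
    by_contra hne
    exact hq (hvs (subset_tsupport v hne))
  have hvol : ∀ s, 0 ≤ s → vol G {w | s < |f w|} = μ {q | s < |v q|} := by
    intro s hs
    have hS : MeasurableSet {q | s < |v q|} :=
      (isOpen_lt continuous_const hvcont.abs).measurableSet
    have h1 := hGU.lint hc hg hμ (fun _ => 1) hS
    have h2 : {q | s < |v q|} ∩ e '' U = {q | s < |v q|} := by
      refine inter_eq_left.2 fun q hq => ?_
      by_contra hne
      rw [mem_ofPred_eq, hout q hne, abs_zero] at hq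
      linarith
    have h3 : U ∩ e ⁻¹' {q | s < |v q|} = {w | s < |f w|} := by
      ext w
      constructor
      · rintro ⟨h4, h5⟩
        rw [mem_ofPred_eq, hfe w h4]; exact h5
      · intro h4
        have h5 : w ∈ U := by
          by_contra hne
          rw [mem_ofPred_eq, hf0 w hne, abs_zero] at h4
          linarith
        refine ⟨h5, ?_⟩
        rw [mem_ofPred_eq, hfe w h5] at h4
        exact h4
    rw [h2, h3, setLIntegral_one] at h1
    rw [h1]
    unfold vol
    refine setLIntegral_congr_fun (isOpen_lt continuous_const hf1.continuous.abs).measurableSet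
      fun w hw => ?_
    have h5 : w ∈ U := by
      by_contra hne
      rw [mem_ofPred_eq, hf0 w hne, abs_zero] at hw
      linarith
    simp only [mul_one]
    rw [hGe w h5]
  have hint : ∫⁻ x in {x | l < |f x| ∧ |f x| ≤ l + ε},
      ENNReal.ofReal (√(J.gsq G f x) * √(G x).det / ε) =
      ∫⁻ q in {q | l < |v q| ∧ |v q| ≤ l + ε}, ENNReal.ofReal (grd c g v q / ε) ∂μ := by
    have hS : MeasurableSet {q | l < |v q| ∧ |v q| ≤ l + ε} :=
      (isOpen_lt continuous_const hvcont.abs).measurableSet.inter
        (isClosed_le hvcont.abs continuous_const).measurableSet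
    have h1 := hGU.lint hc hg hμ (fun q => ENNReal.ofReal (grd c g v q / ε)) hS
    have h2 : {q | l < |v q| ∧ |v q| ≤ l + ε} ∩ e '' U = {q | l < |v q| ∧ |v q| ≤ l + ε} := by
      refine inter_eq_left.2 fun q hq => ?_
      by_contra hne
      have := hq.1
      rw [hout q hne, abs_zero] at this
      linarith
    have h3 : U ∩ e ⁻¹' {q | l < |v q| ∧ |v q| ≤ l + ε} = {w | l < |f w| ∧ |f w| ≤ l + ε} := by
      ext w
      constructor
      · rintro ⟨h4, h5⟩
        rw [mem_ofPred_eq, hfe w h4]; exact h5
      · intro h4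
        have h5 : w ∈ U := by
          by_contra hne
          rw [mem_ofPred_eq, hf0 w hne, abs_zero] at h4
          linarith [h4.1]
        refine ⟨h5, ?_⟩
        rw [mem_ofPred_eq, hfe w h5] at h4
        exact h4
    rw [h2, h3] at h1
    rw [h1]
    refine setLIntegral_congr_fun ((isOpen_lt continuous_const
      hf1.continuous.abs).measurableSet.inter (isClosed_le hf1.continuous.abs
        continuous_const).measurableSet) fun w hw => ?_
    have h5 : w ∈ U := by
      by_contra hne
      have := hw.1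
      rw [hf0 w hne, abs_zero] at this
      linarith
    have h6 : J.gsq G f w = J.gsq (pul c g e) (fun w => v (e w)) w := by
      have h7 : f =ᶠ[𝓝 w] fun w => v (e w) := by
        filter_upwards [hGU.isOpen.mem_nhds h5] with y hy using hfe y hy
      have h8 : J.gsq G f w = J.gsq (pul c g e) f w := by
        unfold J.gsq
        rw [hGe w h5]
      rw [h8]
      exact Bas2.gradSq_congr h7
    rw [hGU.grd_eq hc hg hv h5, hGe w h5, h6, ← ENNReal.ofReal_mul (Real.sqrt_nonneg _)]
    congr 1
    ring
  rw [hvol _ (by positivity), hvol _ hl, hint] at key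
  exact key

end Vale.Agent.P223.H316.LT
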