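import Vale.Agent.P223.H316.Lin

/-! Rules with permutations of labels. -/

namespace Vale.Agent.P223.H316

open scoped ENNReal
open PowerSeries Sy

/-- bounded alternating cocycles -/
structure Cc {Γ : Type} [Group Γ] {n : ℕ} (F : (Fin (n + 1) → Γ) → ℝ) : Prop where
  bdd : ∀ g, |F g| ≤ 1
  inv : ∀ (γ : Γ) g, F (fun i => γ * g i) = F g
  alt : ∀ (σ : Equiv.Perm (Fin (n + 1))) g, F (g ∘ σ) = (Equiv.Perm.sign σ : ℤ) * F g
  coc : ∀ g : Fin (n + 2) → Γ, ∑ k : Fin (n + 2), (-1 : ℝ) ^ (k : ℕ) * F (g ∘ k.succAbove) = 0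

/-- functions of labels -/
noncomputable def lF {Γ ι : Type} {n : ℕ} (F : (Fin (n + 1) → Γ) → ℝ) (l : Fin (n + 1) → Γ × ι) :
    ℂ := (F fun i => (l i).1 : ℝ)

section
variable {n : ℕ} {Γ ι B : Type} [Group Γ] [NormedRing B] [NormedAlgebra ℂ B]
  (W : WS n Γ ι B)

theorem lF_le {F : (Fin (n + 1) → Γ) → ℝ} (hF : Cc F) (l : Fin (n + 1) → Γ × ι) :
    ‖lF F l‖ ≤ 1 := by
  rw [lF, Complex.norm_real]; exact hF.bdd _

theorem lF_inv {F : (Fin (n + 1) → Γ) → ℝ} (hF : Cc F) : Inv (lF (ι := ι) F) := by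
  intro γ l
  unfold lF
  rw [hF.inv γ fun i => (l i).1]

theorem lF_alt {F : (Fin (n + 1) → Γ) → ℝ} (hF : Cc F) (σ : Equiv.Perm (Fin (n + 1)))
    (l : Fin (n + 1) → Γ × ι) : lF F (l ∘ σ) = ((Equiv.Perm.sign σ : ℤ) : ℂ) * lF F l := by
  unfold lF
  have := hF.alt σ fun i => (l i).1
  rw [show (fun i => ((l ∘ σ) i).1) = (fun i => (l i).1) ∘ σ from rfl, this]
  push_cast; ring

/-- signs under permutations -/
theorem tsum_alt {F : (Fin (n + 1) → Γ) → ℝ} (hF : Cc F) (σ : Equiv.Perm (Fin (n + 1)))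
    (f : (Fin (n + 1) → Γ × ι) → ℂ) (hf : Inv f) :
    ∑' l : NL Γ ι n, lF F l.1 * f (l.1 ∘ σ) =
      ((Equiv.Perm.sign σ : ℤ) : ℂ) * ∑' l : NL Γ ι n, lF F l.1 * f l.1 := by
  have h1 := tsum_perm (fun l => lF F l * f l)
    (fun γ l => congrArg₂ (· * ·) (lF_inv hF γ l) (hf γ l)) σ
  rw [← h1, ← tsum_mul_left]
  refine tsum_congr fun l => ?_
  rw [lF_alt hF]
  have h2 : ((Equiv.Perm.sign σ : ℤ) : ℂ) * ((Equiv.Perm.sign σ : ℤ) : ℂ) = 1 := by
    rcases Int.units_eq_one_or (Equiv.Perm.sign σ) with h | h <;> rw [h] <;> simp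
  rw [← mul_assoc, ← mul_assoc, h2, one_mul]

theorem lt_comm (x y : Bool) (hxy : x = true ∨ y = true) (l l' : Γ × ι) :
    W.lt y l * W.lt x l' = W.lt x l' * W.lt y l := by
  rcases hxy with rfl | rfl
  · cases y <;> simp [WS.lt, W.a_a, W.a_h]
  · cases x <;> simp [WS.lt, W.a_a l l', W.a_h]

theorem ev_swap (x y : Bool) (hxy : x = true ∨ y = true) (u v : List Sy) (L L' : ℕ → Γ × ι)
    (h1 : L' (nl u) = L (nl u + 1)) (h2 : L' (nl u + 1) = L (nl u))
    (h3 : ∀ k < nl (u ++ ls x :: ls y :: v), k ≠ nl u → k ≠ nl u + 1 → L' k = L k) :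
    W.ev (u ++ ls y :: ls x :: v) L = W.ev (u ++ ls x :: ls y :: v) L' := by
  rw [nl_append, nl_ls, nl_ls] at h3
  rw [W.ev_append, W.ev_append, W.ev_ls, W.ev_ls, W.ev_ls, W.ev_ls]
  rw [W.ev_congr u L' L fun k hk => h3 k (by omega) (by omega) (by omega)]
  rw [W.ev_congr v (fun k => L' (k + 1 + 1 + nl u)) (fun k => L (k + 1 + 1 + nl u))
    fun k hk => h3 _ (by omega) (by omega) (by omega)]
  rw [show 0 + nl u = nl u by omega, show 0 + 1 + nl u = nl u + 1 by omega, h1, h2]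
  rw [← mul_assoc (C (W.lt y (L (nl u)))), ← map_mul, lt_comm W x y hxy, map_mul, mul_assoc]

variable [Fintype ι] {F : (Fin (n + 1) → Γ) → ℝ} (hF : Cc F) {K : ℕ}
  (hK1 : 1 ≤ K) (hK : W.m * (n + 2) ≤ K)

include hF hK1 hK in
omit [Fintype ι] in
theorem r_swap (x y : Bool) (hxy : x = true ∨ y = true) (u v : List Sy)
    (hg : Good n (u ++ ls x :: ls y :: v)) :
    W.N (lF F) K (u ++ ls x :: ls y :: v) + W.N (lF F) K (u ++ ls y :: ls x :: v) = 0 := by
  have hn := hg.1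
  rw [nl_append, nl_ls, nl_ls] at hn
  have hi : nl u < n + 1 := by omega
  have hi1 : nl u + 1 < n + 1 := by omega
  set σ : Equiv.Perm (Fin (n + 1)) := Equiv.swap ⟨nl u, hi⟩ ⟨nl u + 1, hi1⟩ with hσ
  have hs : Equiv.Perm.sign σ = -1 := Equiv.Perm.sign_swap (by simp)
  have h0 : ∀ l : Fin (n + 1) → Γ × ι, W.tv (u ++ ls y :: ls x :: v) K l =
      W.tv (u ++ ls x :: ls y :: v) K (l ∘ σ) := by
    intro l
    unfold WS.tv
    rw [ev_swap W x y hxy u v (ex l) (ex (l ∘ σ))]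
    · rw [ex_of_lt _ hi, ex_of_lt _ hi1, Function.comp_apply, hσ, Equiv.swap_apply_left]
    · rw [ex_of_lt _ hi, ex_of_lt _ hi1, Function.comp_apply, hσ, Equiv.swap_apply_right]
    · intro k hk hk1 hk2
      rw [hg.1] at hk
      rw [ex_of_lt _ hk, ex_of_lt _ hk, Function.comp_apply, hσ, Equiv.swap_apply_of_ne_of_ne]
      · intro h; exact hk1 (congrArg Fin.val h)
      · intro h; exact hk2 (congrArg Fin.val h)
  have h1 := tsum_alt hF σ (fun l => W.tv (u ++ ls x :: ls y :: v) K l)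
    (W.tv_inv _ K n (by rw [hg.1]; omega) ((Nat.mul_le_mul_left _ hg.2).trans hK) hK1)
  rw [WS.N_eq, WS.N_eq]
  simp only [h0]
  rw [h1, hs]
  simp

include hF hK1 hK in
omit [Fintype ι] in
theorem r_ah (u v : List Sy) (hg : Good n (u ++ a :: h :: v)) :
    W.N (lF F) K (u ++ a :: h :: v) + W.N (lF F) K (u ++ h :: a :: v) = 0 :=
  r_swap W hF hK1 hK true false (Or.inl rfl) u v hg

include hF hK1 hK in
omit [Fintype ι] in
theorem r_aa (u v : List Sy) (hg : Good n (u ++ a :: a :: v)) :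
    W.N (lF F) K (u ++ a :: a :: v) = 0 := by
  have := r_swap W hF hK1 hK true true (Or.inl rfl) u v hg
  change W.N (lF F) K (u ++ a :: a :: v) + W.N (lF F) K (u ++ a :: a :: v) = 0 at this
  rwa [← two_mul, mul_eq_zero, or_iff_right two_ne_zero] at this

include hF hK1 hK in
omit [Fintype ι] in
theorem r_rota (hn : 1 ≤ n) (w : List Sy) (hg : Good n (w ++ [a])) :
    W.N (lF F) K (w ++ [a]) = (-1 : ℝ) ^ n • W.N (lF F) K (a :: w) := by
  have h1 : nl w = n := by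
    have := hg.1; simpa [nl] using this
  have h2 : nk w ≤ n + 2 := by
    have := hg.2; simpa [nk] using this
  set σ : Equiv.Perm (Fin (n + 1)) := (finRotate (n + 1))⁻¹ with hσ
  have hs : ((Equiv.Perm.sign σ : ℤ) : ℂ) = (-1) ^ n := by
    rw [hσ, Equiv.Perm.sign_inv, sign_finRotate]; simp
  have hσ0 : σ 0 = Fin.last n := by
    rw [hσ, Equiv.Perm.inv_eq_iff_eq, finRotate_last]
  have hσ1 : ∀ i : Fin n, σ i.succ = i.castSucc := by
    intro i
    rw [hσ, Equiv.Perm.inv_eq_iff_eq]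
    exact (finRotate_of_lt i.2).symm
  have h0 : ∀ l : Fin (n + 1) → Γ × ι, W.tv (w ++ [a]) K l = W.tv (a :: w) K (l ∘ σ) := by
    intro l
    have hr := W.rotls true w (by omega) K ((Nat.mul_le_mul_left _ h2).trans hK) hK1
      (l (Fin.last n)) (ex l)
    simp only [WS.lt, if_true, one_mul] at hr
    unfold WS.tv
    have e1 : W.ev (w ++ [a]) (ex l) = W.ev w (ex l) * C (W.a (l (Fin.last n))) := by
      rw [W.ev_append]
      simp only [WS.ev, mul_one, h1]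
      rw [show 0 + n = n by omega, ex_of_lt l (Nat.lt_succ_self n)]
      rfl
    have e2 : W.ev (a :: w) (ex (l ∘ σ)) = C (W.a (l (Fin.last n))) * W.ev w (ex l) := by
      rw [WS.ev, ex_zero, Function.comp_apply, hσ0]
      congr 1
      refine W.ev_congr w _ _ fun k hk => ?_
      rw [h1] at hk
      rw [ex_of_lt _ (show k + 1 < n + 1 by omega), ex_of_lt _ (show k < n + 1 by omega)]
      have := hσ1 ⟨k, hk⟩
      rw [Function.comp_apply]
      exact congrArg l this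
    rw [e1, e2, hr]
  have h3 := tsum_alt hF σ (fun l => W.tv (a :: w) K l)
    (W.tv_inv _ K n (by simp [nl]) (by simpa [nk] using (Nat.mul_le_mul_left _ h2).trans hK) hK1)
  rw [WS.N_eq, WS.N_eq]
  simp only [h0]
  rw [h3, hs, Complex.real_smul]
  norm_num

end

end Vale.Agent.P223.H316
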