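import Vale.Agent.P223.H316.Val

/-! Linear rules. -/

namespace Vale.Agent.P223.H316

open scoped ENNReal
open PowerSeries Sy

section
variable {n : ℕ} {Γ ι B : Type} [Group Γ] [NormedRing B] [NormedAlgebra ℂ B]
  (W : WS n Γ ι B) {F : (Fin (n + 1) → Γ × ι) → ℂ} [Fintype ι] (hF : ∀ l, ‖F l‖ ≤ 1) {K : ℕ}
  (hK1 : 1 ≤ K) (hK : W.m * (n + 2) ≤ K)

include hF hK1 hK in
theorem r_good {w : List Sy} (hw : Good n w) : W.Ok F fun l => coeff K (W.ev w l) :=
  Ok.word hF hw.1 ((Nat.mul_le_mul_left _ hw.2).trans hK) hK1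

include hF hK1 hK in
theorem r_good' {w : List Sy} (hw : Good n w) : W.Ok F fun l => coeff (K + 1) (W.ev w l) :=
  r_good W hF (by omega) (by omega) hw

include hF hK1 hK in
theorem r_goodl {w : List Sy} (hw : Good n w) :
    W.Ok F (fun l => coeff (K + 1) (lz W.lam (W.ev w l))) ∧
      W.val F (fun l => coeff (K + 1) (lz W.lam (W.ev w l))) = W.Nl F K w :=
  Ok.wordl hF hw.1 ((Nat.mul_le_mul_left _ hw.2).trans hK) hK1

include hF hK1 hK in
theorem r_rqq (u v : List Sy) (hg : Good n (u ++ q :: q :: v)) :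
    W.N F (K + 1) (u ++ q :: q :: v) =
      (-1 : ℝ) • (W.N F (K + 1) (u ++ g :: v) - W.Nl F K (u ++ g :: g :: v)) := by
  have e : (fun l => coeff (K + 1) (W.ev (u ++ q :: q :: v) l)) = fun l =>
      coeff (K + 1) (lz W.lam (W.ev (u ++ g :: g :: v) l)) -
        coeff (K + 1) (W.ev (u ++ g :: v) l) := by
    funext l
    rw [← map_sub]; congr 1
    rw [W.ev_append, W.ev_append, W.ev_append]; simp only [WS.ev]
    set U := W.ev u l
    set V := W.ev v fun k => l (k + nl u)
    calc U * (W.Pz * (W.Pz * V)) = U * (W.Pz * W.Pz) * V := by simp only [mul_assoc]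
      _ = U * lz W.lam (W.Gz * W.Gz) * V - U * W.Gz * V := by rw [W.PPz, mul_sub, sub_mul]
      _ = _ := by rw [lz_mul]; simp only [mul_assoc]
  have g1 : Good n (u ++ g :: g :: v) := by
    unfold Good at hg ⊢; simp [nl, nk] at hg ⊢; omega
  have g2 : Good n (u ++ g :: v) := by
    unfold Good at hg ⊢; simp [nl, nk] at hg ⊢; omega
  have h1 := r_goodl W hF hK1 hK g1
  have h2 := r_good' W hF hK1 hK g2
  have h3 := (Ok.sub h1.1 h2).2
  unfold WS.N
  rw [e, h3, h1.2]
  simp only [neg_smul, one_smul, neg_sub]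

omit [Fintype ι] in
theorem r_rqg (u v : List Sy) :
    W.N F K (u ++ q :: g :: v) = W.N F K (u ++ g :: q :: v) := by
  have e : (fun l => coeff K (W.ev (u ++ q :: g :: v) l)) = fun l =>
      coeff K (W.ev (u ++ g :: q :: v) l) := by
    funext l
    rw [W.ev_append, W.ev_append]; simp only [WS.ev]
    rw [← mul_assoc W.Pz, W.PGz, mul_assoc]
  unfold WS.N
  rw [e]

include hF hK1 hK in
theorem r_rqhg (u v : List Sy) (hg : Good n (u ++ q :: h :: g :: v)) :
    W.N F K (u ++ q :: h :: g :: v) + W.N F K (u ++ g :: h :: q :: v) =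
      (-1 : ℝ) • (W.N F K (u ++ a :: g :: v) - W.N F K (u ++ g :: a :: v)) := by
  have e : (fun l => coeff K (W.ev (u ++ q :: h :: g :: v) l) +
      coeff K (W.ev (u ++ g :: h :: q :: v) l)) = fun l =>
      -(coeff K (W.ev (u ++ a :: g :: v) l) - coeff K (W.ev (u ++ g :: a :: v) l)) := by
    funext l
    rw [← map_sub, ← map_neg, ← map_add]; congr 1
    rw [W.ev_append, W.ev_append, W.ev_append, W.ev_append]; simp only [WS.ev]
    have h := W.aGz (l (0 + nl u))
    set U := W.ev u l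
    set V := W.ev v fun k => l (k + 1 + nl u)
    set x := C (W.h (l (0 + nl u)))
    set y := C (W.a (l (0 + nl u)))
    calc U * (W.Pz * (x * (W.Gz * V))) + U * (W.Gz * (x * (W.Pz * V))) =
        -(U * -(W.Pz * x * W.Gz + W.Gz * x * W.Pz) * V) := by noncomm_ring
      _ = -(U * (y * W.Gz - W.Gz * y) * V) := by rw [h]
      _ = _ := by noncomm_ring
  have g1 : Good n (u ++ g :: h :: q :: v) := by
    unfold Good at hg ⊢; simp [nl, nk] at hg ⊢; omega
  have g2 : Good n (u ++ a :: g :: v) := by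
    unfold Good at hg ⊢; simp [nl, nk] at hg ⊢; omega
  have g3 : Good n (u ++ g :: a :: v) := by
    unfold Good at hg ⊢; simp [nl, nk] at hg ⊢; omega
  have h0 := r_good W hF hK1 hK hg
  have h1 := r_good W hF hK1 hK g1
  have h2 := r_good W hF hK1 hK g2
  have h3 := r_good W hF hK1 hK g3
  have k1 := (Ok.add h0 h1).2
  have k2 := Ok.sub h2 h3
  have k3 := (Ok.neg k2.1).2
  unfold WS.N
  rw [← k1, e, k3, k2.2]
  simp only [neg_smul, one_smul]

include hF hK1 hK in
theorem r_rqag (u v : List Sy) (hg : Good n (u ++ q :: a :: g :: v)) :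
    W.N F K (u ++ q :: a :: g :: v) =
      W.N F K (u ++ g :: a :: q :: v) + W.N F K (u ++ g :: h :: g :: v) := by
  have e : (fun l => coeff K (W.ev (u ++ q :: a :: g :: v) l)) = fun l =>
      coeff K (W.ev (u ++ g :: a :: q :: v) l) + coeff K (W.ev (u ++ g :: h :: g :: v) l) := by
    funext l
    rw [← map_add]; congr 1
    rw [W.ev_append, W.ev_append, W.ev_append]; simp only [WS.ev]
    have h := W.PaGz (l (0 + nl u))
    set U := W.ev u l
    set V := W.ev v fun k => l (k + 1 + nl u)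
    set x := C (W.h (l (0 + nl u)))
    set y := C (W.a (l (0 + nl u)))
    calc U * (W.Pz * (y * (W.Gz * V))) = U * (W.Pz * y * W.Gz) * V := by noncomm_ring
      _ = U * (W.Gz * y * W.Pz + W.Gz * x * W.Gz) * V := by rw [h]
      _ = _ := by noncomm_ring
  have g1 : Good n (u ++ g :: a :: q :: v) := by
    unfold Good at hg ⊢; simp [nl, nk] at hg ⊢; omega
  have g2 : Good n (u ++ g :: h :: g :: v) := by
    unfold Good at hg ⊢; simp [nl, nk] at hg ⊢; omega
  have h1 := r_good W hF hK1 hK g1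
  have h2 := r_good W hF hK1 hK g2
  unfold WS.N
  rw [e, (Ok.add h1 h2).2]

include hF hK1 hK in
theorem r_rqaq (u v : List Sy) (hg : Good n (u ++ q :: a :: q :: v)) :
    W.N F (K + 1) (u ++ q :: a :: q :: v) =
      (-1 : ℝ) • (W.N F (K + 1) (u ++ g :: a :: v) - W.Nl F K (u ++ g :: a :: g :: v)) +
        W.N F (K + 1) (u ++ g :: h :: q :: v) := by
  have e : (fun l => coeff (K + 1) (W.ev (u ++ q :: a :: q :: v) l)) = fun l =>
      (coeff (K + 1) (lz W.lam (W.ev (u ++ g :: a :: g :: v) l)) -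
        coeff (K + 1) (W.ev (u ++ g :: a :: v) l)) +
        coeff (K + 1) (W.ev (u ++ g :: h :: q :: v) l) := by
    funext l
    rw [← map_sub, ← map_add]; congr 1
    rw [W.ev_append, W.ev_append, W.ev_append, W.ev_append]; simp only [WS.ev]
    have h := W.PaPz (l (0 + nl u))
    set U := W.ev u l
    set V := W.ev v fun k => l (k + 1 + nl u)
    set x := C (W.h (l (0 + nl u)))
    set y := C (W.a (l (0 + nl u)))
    calc U * (W.Pz * (y * (W.Pz * V))) = U * (W.Pz * y * W.Pz) * V := by simp only [mul_assoc]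
      _ = U * lz W.lam (W.Gz * y * W.Gz) * V - U * (W.Gz * y) * V + U * (W.Gz * x * W.Pz) * V := by
        rw [h, mul_add, mul_sub, add_mul, sub_mul]
      _ = _ := by rw [lz_mul]; simp only [mul_assoc]
  have g1 : Good n (u ++ g :: a :: g :: v) := by
    unfold Good at hg ⊢; simp [nl, nk] at hg ⊢; omega
  have g2 : Good n (u ++ g :: a :: v) := by
    unfold Good at hg ⊢; simp [nl, nk] at hg ⊢; omega
  have g3 : Good n (u ++ g :: h :: q :: v) := by
    unfold Good at hg ⊢; simp [nl, nk] at hg ⊢; omega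
  have h1 := r_goodl W hF hK1 hK g1
  have h2 := r_good' W hF hK1 hK g2
  have h3 := r_good' W hF hK1 hK g3
  have k1 := Ok.sub h1.1 h2
  have k2 := (Ok.add k1.1 h3).2
  unfold WS.N
  rw [e, k2, k1.2, h1.2]
  simp only [neg_smul, one_smul, neg_sub]

include hK in
omit [Fintype ι] in
theorem r_rrotg (w : List Sy) (hg : Good n (g :: w)) :
    W.N F K (g :: w) = W.N F K (w ++ [g]) := by
  rw [WS.N_eq, WS.N_eq]
  refine tsum_congr fun l => ?_
  unfold WS.tv
  rw [W.rotg w (by have := hg.1; simp only [nl] at this; omega) K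
    ((Nat.mul_le_mul_left _ hg.2).trans hK)]

include hK in
omit [Fintype ι] in
theorem r_rrotgl (w : List Sy) (hg : Good n (g :: w)) :
    W.Nl F K (g :: w) = W.Nl F K (w ++ [g]) := by
  unfold WS.Nl
  rw [r_rrotg W hK w hg, r_rrotg W (by omega) w hg]

include hK in
omit [Fintype ι] in
theorem r_rrotq (w : List Sy) (hg : Good n (w ++ [q])) :
    W.N F K (w ++ [q]) = (-1 : ℝ) ^ (n + 1) • W.N F K (q :: w) := by
  rw [WS.N_eq, WS.N_eq]
  have h1 : nl w = n + 1 := by
    have := hg.1; simpa [nl] using this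
  have h2 : nk w + 1 ≤ n + 2 := by
    have := hg.2; simpa [nk] using this
  have h3 : ∀ x : ℂ, (-1 : ℝ) ^ (n + 1) • x = (-1 : ℂ) ^ (n + 1) * x := by
    intro x
    rw [Complex.real_smul]; norm_num
  rw [h3, ← tsum_mul_left]
  refine tsum_congr fun l => ?_
  unfold WS.tv
  rw [W.rotq w (by omega) K ((Nat.mul_le_mul_left _ h2).trans hK)]
  ring

end

end Vale.Agent.P223.H316
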