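import Vale.Agent.P223.H316.Flow3
import Mathlib.LinearAlgebra.Matrix.Charpoly.Coeff
import Mathlib.MeasureTheory.Function.Jacobian

/-! Liouville's theorem for complete flows of divergence free vector fields. -/

namespace Vale.Agent.P223.H316

open Set Filter Topology Metric MeasureTheory
open scoped ContDiff

/-- derivative of the determinant at the identity -/
theorem hasDerivAt_det {ι : Type} [Fintype ι] [DecidableEq ι] {M : ℝ → Matrix ι ι ℝ}
    {A : Matrix ι ι ℝ} (h : ∀ i j, HasDerivAt (fun s => M s i j) (A i j) 0) (h0 : M 0 = 1) :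
    HasDerivAt (fun s => (M s).det) A.trace 0 := by
  let D : (ι → ι → ℝ) → ℝ := fun m => Matrix.det (Matrix.of m)
  have hD : ContDiff ℝ 1 D := by
    simp only [D, Matrix.det_apply']
    exact ContDiff.sum fun σ _ => contDiff_const.mul (contDiff_prod fun i _ => by
      simp only [Matrix.of_apply]
      fun_prop)
  let M' : ℝ → ι → ι → ℝ := fun s i j => M s i j
  let A' : ι → ι → ℝ := fun i j => A i j
  let L' : ℝ → ι → ι → ℝ := fun s i j => (1 : Matrix ι ι ℝ) i j + s * A i j
  have hd : HasFDerivAt D (fderiv ℝ D (M' 0)) (M' 0) :=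
    (hD.differentiable one_ne_zero _).hasFDerivAt
  have h1 : HasDerivAt M' A' 0 := by
    rw [hasDerivAt_pi]
    intro i
    rw [hasDerivAt_pi]
    intro j
    exact h i j
  have h2 : HasDerivAt (fun s => (M s).det) (fderiv ℝ D (M' 0) A') 0 := hd.comp_hasDerivAt 0 h1
  have h3 : HasDerivAt L' A' 0 := by
    rw [hasDerivAt_pi]
    intro i
    rw [hasDerivAt_pi]
    intro j
    have := ((hasDerivAt_id (0 : ℝ)).mul_const (A i j)).const_add ((1 : Matrix ι ι ℝ) i j)
    simpa only [id_eq, one_mul] using this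
  have hM0 : M' 0 = L' 0 := by
    funext i j
    simp only [M', L', h0, zero_mul, add_zero]
  have h4 : HasDerivAt (fun s : ℝ => (1 + s • A : Matrix ι ι ℝ).det) (fderiv ℝ D (M' 0) A') 0 := by
    rw [hM0] at hd ⊢
    have h5 := hd.comp_hasDerivAt (0 : ℝ) h3
    exact h5
  have h5 : HasDerivAt (fun s : ℝ => (1 + s • A : Matrix ι ι ℝ).det) A.trace 0 := by
    have e : (fun s : ℝ => (1 + s • A : Matrix ι ι ℝ).det) = fun s : ℝ => 1 + A.trace * s +
        (Matrix.det (1 + (Polynomial.X : Polynomial ℝ) • A.map Polynomial.C)).divX.divX.eval s *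
          s ^ 2 := funext fun s => Matrix.det_one_add_smul s A
    rw [e]
    set p := (Matrix.det (1 + (Polynomial.X : Polynomial ℝ) • A.map Polynomial.C)).divX.divX
    have h6 := (((hasDerivAt_id (0 : ℝ)).const_mul A.trace).const_add 1).add
      ((p.hasDerivAt 0).mul ((hasDerivAt_id (0 : ℝ)).pow 2))
    convert! h6 using 1
    simp
  rwa [h4.unique h5] at h2

section
variable {E : Type} [NormedAddCommGroup E] [NormedSpace ℝ E] {F : E → E} {Φ : ℝ → E → E}
  [FiniteDimensional ℝ E]

theorem hasDerivAt_det' {B : ℝ → E →L[ℝ] E} {A : E →L[ℝ] E} (h : HasDerivAt B A 0)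
    (h0 : B 0 = ContinuousLinearMap.id ℝ E) :
    HasDerivAt (fun s => (B s).det) (LinearMap.trace ℝ E (A : E →ₗ[ℝ] E)) 0 := by
  classical
  let b := Module.finBasis ℝ E
  have h1 : ∀ s, (B s).det = (LinearMap.toMatrix b b (B s : E →ₗ[ℝ] E)).det := fun s =>
    (LinearMap.det_toMatrix b _).symm
  simp only [h1]
  rw [LinearMap.trace_eq_matrix_trace ℝ b]
  refine hasDerivAt_det (fun i j => ?_) ?_
  · simp only [LinearMap.toMatrix_apply]
    let L : (E →L[ℝ] E) →ₗ[ℝ] ℝ :=
      { toFun := fun B => b.repr (B (b j)) i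
        map_add' := fun B B' => by
          simp only [add_apply, map_add, Finsupp.add_apply]
        map_smul' := fun c B => by
          simp only [smul_apply, map_smul, Finsupp.smul_apply, RingHom.id_apply] }
    have h2 := (LinearMap.toContinuousLinearMap L).hasFDerivAt.comp_hasDerivAt 0 h
    exact h2
  · rw [h0, ContinuousLinearMap.coe_id]
    exact LinearMap.toMatrix_one b

theorem Flw.det_eq_one (hΦ : Flw F Φ) (hF : ContDiff ℝ 1 F)
    (htr : ∀ z, LinearMap.trace ℝ E (fderiv ℝ F z : E →ₗ[ℝ] E) = 0) (t : ℝ) (z : E) :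
    (fderiv ℝ (Φ t) z).det = 1 := by
  have h0 : Φ 0 = id := funext fun z => hΦ.zero z
  have h1 : ∀ w, HasDerivAt (fun s => (fderiv ℝ (Φ s) w).det) 0 0 := by
    intro w
    have h2 : HasDerivAt (fun s => fderiv ℝ (Φ s) w)
        ((fderiv ℝ F (Φ 0 w)).comp (fderiv ℝ (Φ 0) w)) 0 :=
      hasDerivAt_clm fun v => hΦ.ode hF 0 w v
    have h3 : fderiv ℝ (Φ 0) w = ContinuousLinearMap.id ℝ E := by rw [h0, fderiv_id]
    rw [h3, ContinuousLinearMap.comp_id] at h2
    have h4 := hasDerivAt_det' h2 h3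
    rwa [htr] at h4
  have h2 : ∀ t, HasDerivAt (fun s => (fderiv ℝ (Φ s) z).det) 0 t := by
    intro t
    have h3 : ∀ s, (fderiv ℝ (Φ s) z).det =
        (fderiv ℝ (Φ (s - t)) (Φ t z)).det * (fderiv ℝ (Φ t) z).det := by
      intro s
      have h4 : Φ s = Φ (s - t) ∘ Φ t := by
        funext x
        rw [Function.comp_apply, ← hΦ.add hF, sub_add_cancel]
      conv_lhs => rw [h4]
      rw [fderiv_comp _ (hΦ.diff hF _ _) (hΦ.diff hF _ _)]
      unfold ContinuousLinearMap.det
      exact LinearMap.det_comp _ _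
    have h5 : HasDerivAt (fun s => (fderiv ℝ (Φ (s - t)) (Φ t z)).det) 0 t := by
      have h6 := h1 (Φ t z)
      have h7 : HasDerivAt (fun s => (fderiv ℝ (Φ s) (Φ t z)).det) 0 (t - t) := by
        rwa [sub_self]
      exact h7.comp_sub_const t t
    have h8 := h5.mul_const (fderiv ℝ (Φ t) z).det
    rw [zero_mul] at h8
    exact h8.congr_of_eventuallyEq (Eventually.of_forall h3)
  have h3 := is_const_of_deriv_eq_zero (fun s => (h2 s).differentiableAt)
    (fun s => (h2 s).deriv) t 0
  rw [h3, h0, fderiv_id]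
  unfold ContinuousLinearMap.det
  rw [ContinuousLinearMap.coe_id, LinearMap.det_id]

theorem Flw.measurePreserving (hΦ : Flw F Φ) (hF : ContDiff ℝ 1 F)
    (htr : ∀ z, LinearMap.trace ℝ E (fderiv ℝ F z : E →ₗ[ℝ] E) = 0) [MeasurableSpace E]
    [BorelSpace E] (μ : Measure E) [μ.IsAddHaarMeasure] (t : ℝ) : MeasurePreserving (Φ t) μ μ := by
  have hc : ∀ t, Continuous (Φ t) := fun t =>
    continuous_iff_continuousAt.2 fun z => (hΦ.diff hF t z).continuousAt
  have hinv : ∀ t z, Φ (-t) (Φ t z) = z := fun t z => by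
    rw [← hΦ.add hF, neg_add_cancel, hΦ.zero]
  refine ⟨(hc t).measurable, Measure.ext fun s hs => ?_⟩
  rw [Measure.map_apply (hc t).measurable hs]
  have h1 : Φ t ⁻¹' s = Φ (-t) '' s := by
    ext z
    constructor
    · intro hz
      exact ⟨Φ t z, hz, hinv t z⟩
    · rintro ⟨w, hw, rfl⟩
      rw [mem_preimage]
      have := hinv (-t) w
      rw [neg_neg] at this
      rwa [this]
  rw [h1, ← lintegral_abs_det_fderiv_eq_addHaar_image μ hs
    (fun x _ => (hΦ.diff hF (-t) x).hasFDerivAt.hasFDerivWithinAt) (fun x _ y _ hxy => by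
      have e1 := hinv (-t) x
      have e2 := hinv (-t) y
      rw [← e1, ← e2, hxy])]
  simp only [hΦ.det_eq_one hF htr, abs_one, ENNReal.ofReal_one, lintegral_const, one_mul,
    Measure.restrict_apply MeasurableSet.univ, univ_inter]

end

end Vale.Agent.P223.H316
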