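import Vale.Agent.P223.H316.Liou1
import Vale.Agent.P223.H765.NC

/-! BLOCKS T1 and T2: geodesic flows preserve the Liouville measure and the energy. -/

namespace Vale.Agent.P223.H316

open Set Filter Topology Metric MeasureTheory
open scoped ContDiff
open H765.NC

variable {n : ℕ}

/-- BLOCK T1 -/
theorem specFlow' : SpecFlow := specFlow

theorem cd_det {X : Type} [NormedAddCommGroup X] [NormedSpace ℝ X]
    {M : X → Matrix (Fin n) (Fin n) ℝ}
    (h : ∀ i j, ContDiff ℝ ∞ fun x => M x i j) : ContDiff ℝ ∞ fun x => (M x).det := by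
  simp only [Matrix.det_apply']
  exact ContDiff.sum fun σ _ => contDiff_const.mul (contDiff_prod fun i _ => h _ _)

theorem cd_inv {X : Type} [NormedAddCommGroup X] [NormedSpace ℝ X]
    {M : X → Matrix (Fin n) (Fin n) ℝ}
    (h : ∀ i j, ContDiff ℝ ∞ fun x => M x i j) (h0 : ∀ x, (M x).det ≠ 0) (i j : Fin n) :
    ContDiff ℝ ∞ fun x => (M x)⁻¹ i j := by
  have e : (fun x => (M x)⁻¹ i j) = fun x => ((M x).det)⁻¹ * (M x).adjugate i j := by
    funext x
    rw [Matrix.inv_def, Ring.inverse_eq_inv', Matrix.smul_apply, smul_eq_mul]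
  rw [e]
  refine (ContDiff.inv (cd_det h) h0).mul ?_
  simp only [Matrix.adjugate_apply]
  refine cd_det fun k l => ?_
  by_cases hk : k = j
  · subst hk
    simp only [Matrix.updateRow_self]
    exact contDiff_const
  · simp only [Matrix.updateRow_ne hk]
    exact h k l

/-- the vector `∂/∂q_k` -/
noncomputable def eq₁ (k : Fin n) : J.E n × J.E n := (Pi.single k 1, 0)

/-- the vector `∂/∂p_k` -/
noncomputable def ep₁ (k : Fin n) : J.E n × J.E n := (0, Pi.single k 1)

theorem sum_eq₁ (a b : J.E n) : (a, b) = ∑ i, a i • eq₁ i + ∑ i, b i • ep₁ (n := n) i := by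
  have h : ∀ a : J.E n, ∑ i, a i • (Pi.single i 1 : J.E n) = a := fun a => by
    simp_rw [← Pi.single_smul, smul_eq_mul, mul_one]
    exact Finset.univ_sum_single a
  refine Prod.ext ?_ ?_
  · simp only [Prod.fst_add, Prod.fst_sum, eq₁, ep₁, Prod.smul_mk, smul_zero,
      Finset.sum_const_zero, add_zero]
    exact (h a).symm
  · simp only [Prod.snd_add, Prod.snd_sum, eq₁, ep₁, Prod.smul_mk, smul_zero,
      Finset.sum_const_zero, zero_add]
    exact (h b).symm

variable {G : J.Mtx n} (hs : ∀ i j, ContDiff ℝ ∞ fun x => G x i j) (hp : ∀ x, (G x).PosDef)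
include hs hp

theorem ham_smooth : ContDiff ℝ ∞ (ham G) := by
  have h1 : ∀ i j, ContDiff ℝ ∞ fun x => (G x)⁻¹ i j := cd_inv hs fun x => (hp x).det_pos.ne'
  have h2 : ∀ i, ContDiff ℝ ∞ fun z : J.E n × J.E n => z.2 i := fun i => by fun_prop
  exact contDiff_const.mul (ContDiff.sum fun i _ => ContDiff.sum fun j _ =>
    (((h1 i j).comp contDiff_fst).mul (h2 i)).mul (h2 j))

theorem hv_eq (z : J.E n × J.E n) : hv G z =
    (fun i => fderiv ℝ (ham G) z (ep₁ i), fun k => -fderiv ℝ (ham G) z (eq₁ k)) := by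
  have hd : HasFDerivAt (ham G) (fderiv ℝ (ham G) (z.1, z.2)) (z.1, z.2) :=
    ((ham_smooth hs hp).differentiable (by simp) _).hasFDerivAt
  have hsym : ∀ x i j, (G x)⁻¹ i j = (G x)⁻¹ j i := fun x i j => by
    have h1 := (hp x).inv.isHermitian
    have h2 := congrFun (congrFun h1 i) j
    rw [Matrix.conjTranspose_apply, star_trivial] at h2
    exact h2.symm
  unfold hv
  refine Prod.ext ?_ ?_
  · funext i
    simp only []
    -- derivative in the direction p_i
    have h1 : HasDerivAt (fun s : ℝ => ham G (z.1, z.2 + s • Pi.single i 1))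
        (fderiv ℝ (ham G) z (ep₁ i)) 0 := by
      have h2 : HasDerivAt (fun s : ℝ => ((z.1, z.2 + s • Pi.single i 1) : J.E n × J.E n))
          (ep₁ i) 0 := by
        refine (hasDerivAt_const (0 : ℝ) z.1).prodMk ?_
        have := ((hasDerivAt_id (0 : ℝ)).smul_const (Pi.single i 1 : J.E n)).const_add z.2
        simpa only [id_eq, one_smul] using this
      have h3 : HasFDerivAt (ham G) (fderiv ℝ (ham G) z)
          ((z.1, z.2 + (0 : ℝ) • Pi.single i 1) : J.E n × J.E n) := by
        rw [zero_smul, add_zero]; exact hd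
      exact h3.comp_hasDerivAt (0 : ℝ) h2
    have h4 : HasDerivAt (fun s : ℝ => ham G (z.1, z.2 + s • Pi.single i 1))
        (∑ j, (G z.1)⁻¹ i j * z.2 j) 0 := by
      have e : ∀ s : ℝ, ham G (z.1, z.2 + s • Pi.single i 1) =
          ham G z + s * (∑ j, (G z.1)⁻¹ i j * z.2 j) + s ^ 2 * (1 / 2 * (G z.1)⁻¹ i i) := by
        intro s
        unfold ham
        simp only [Pi.add_apply, Pi.smul_apply, smul_eq_mul]
        have e1 : ∀ k l, (G z.1)⁻¹ k l * (z.2 k + s * (Pi.single i 1 : J.E n) k) *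
            (z.2 l + s * (Pi.single i 1 : J.E n) l) = (G z.1)⁻¹ k l * z.2 k * z.2 l +
            s * ((Pi.single i 1 : J.E n) k * ((G z.1)⁻¹ k l * z.2 l)) +
            s * ((Pi.single i 1 : J.E n) l * ((G z.1)⁻¹ k l * z.2 k)) +
            s ^ 2 * ((Pi.single i 1 : J.E n) k * ((Pi.single i 1 : J.E n) l *
              (G z.1)⁻¹ k l)) := fun k l => by ring
        simp only [e1, Finset.sum_add_distrib, ← Finset.mul_sum]
        have e2 : ∀ f : Fin n → ℝ, ∑ k, (Pi.single i 1 : J.E n) k * f k = f i := fun f => by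
          rw [Finset.sum_eq_single i]
          · rw [Pi.single_eq_same, one_mul]
          · intro k _ hk
            rw [Pi.single_eq_of_ne hk, zero_mul]
          · intro h; exact absurd (Finset.mem_univ i) h
        simp only [e2]
        have e3 : ∑ k, (G z.1)⁻¹ k i * z.2 k = ∑ k, (G z.1)⁻¹ i k * z.2 k :=
          Finset.sum_congr rfl fun k _ => by rw [hsym]
        rw [e3]
        ring
      simp only [e]
      have h5 := (((hasDerivAt_id (0 : ℝ)).mul_const (∑ j, (G z.1)⁻¹ i j * z.2 j)).const_add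
        (ham G z)).add (((hasDerivAt_id (0 : ℝ)).pow 2).mul_const (1 / 2 * (G z.1)⁻¹ i i))
      convert! h5 using 1
      simp
    exact h4.unique h1
  · funext k
    simp only []
    congr 1
    unfold J.pd
    have h1 : HasFDerivAt (fun q : J.E n => ham G (q, z.2))
        ((fderiv ℝ (ham G) (z.1, z.2)).comp (ContinuousLinearMap.inl ℝ (J.E n) (J.E n))) z.1 :=
      HasFDerivAt.comp (x := z.1) (f := fun q : J.E n => (q, z.2)) (g := ham G) hd
        (hasFDerivAt_prodMk_left z.1 z.2)
    rw [h1.fderiv]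
    simp only [ContinuousLinearMap.comp_apply, ContinuousLinearMap.inl_apply, eq₁]

theorem hv_smooth : ContDiff ℝ ∞ (hv G) := by
  have e : hv G = fun z => (fun i => fderiv ℝ (ham G) z (ep₁ i),
      fun k => -fderiv ℝ (ham G) z (eq₁ k)) := funext (hv_eq hs hp)
  rw [e]
  have h1 : ContDiff ℝ ∞ (fderiv ℝ (ham G)) := (ham_smooth hs hp).fderiv_right (by simp)
  refine ContDiff.prodMk ?_ ?_
  · rw [contDiff_pi]
    exact fun i => h1.clm_apply contDiff_const
  · rw [contDiff_pi]
    exact fun i => (h1.clm_apply contDiff_const).neg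

theorem ham_hv (z : J.E n × J.E n) : fderiv ℝ (ham G) z (hv G z) = 0 := by
  rw [hv_eq hs hp, sum_eq₁ (fun i => fderiv ℝ (ham G) z (ep₁ i))
    (fun k => -fderiv ℝ (ham G) z (eq₁ k))]
  simp only [map_add, map_sum, map_smul, smul_eq_mul]
  rw [← Finset.sum_add_distrib]
  exact Finset.sum_eq_zero fun i _ => by ring

theorem hv_trace (z : J.E n × J.E n) :
    LinearMap.trace ℝ (J.E n × J.E n) (fderiv ℝ (hv G) z : J.E n × J.E n →ₗ[ℝ] J.E n × J.E n)
      = 0 := by
  have hH := ham_smooth hs hp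
  have h1 : ContDiff ℝ ∞ (fderiv ℝ (ham G)) := hH.fderiv_right (by simp)
  have h2 : HasFDerivAt (fderiv ℝ (ham G)) (fderiv ℝ (fderiv ℝ (ham G)) z) z :=
    (h1.differentiable (by simp) z).hasFDerivAt
  have hsym : ∀ u v, fderiv ℝ (fderiv ℝ (ham G)) z u v = fderiv ℝ (fderiv ℝ (ham G)) z v u := by
    intro u v
    have h3 : IsSymmSndFDerivAt ℝ (ham G) z :=
      (contDiff_infty.1 hH 2).contDiffAt.isSymmSndFDerivAt (by simp)
    exact h3 u v
  have h3 : ∀ u, fderiv ℝ (hv G) z u = (fun i => fderiv ℝ (fderiv ℝ (ham G)) z u (ep₁ i),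
      fun k => -fderiv ℝ (fderiv ℝ (ham G)) z u (eq₁ k)) := by
    intro u
    have e : hv G = fun z => (fun i => fderiv ℝ (ham G) z (ep₁ i),
      fun k => -fderiv ℝ (ham G) z (eq₁ k)) := funext (hv_eq hs hp)
    have hd : ∀ w, HasFDerivAt (fun z => fderiv ℝ (ham G) z w)
        ((ContinuousLinearMap.apply ℝ ℝ w).comp (fderiv ℝ (fderiv ℝ (ham G)) z)) z := fun w =>
      (ContinuousLinearMap.apply ℝ ℝ w).hasFDerivAt.comp z h2
    have h4 : HasFDerivAt (hv G) ((ContinuousLinearMap.pi fun i =>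
        (ContinuousLinearMap.apply ℝ ℝ (ep₁ i)).comp (fderiv ℝ (fderiv ℝ (ham G)) z)).prod
        (ContinuousLinearMap.pi fun i =>
        -(ContinuousLinearMap.apply ℝ ℝ (eq₁ i)).comp (fderiv ℝ (fderiv ℝ (ham G)) z))) z := by
      rw [e]
      refine HasFDerivAt.prodMk ?_ ?_
      · exact hasFDerivAt_pi.2 fun i => hd _
      · exact hasFDerivAt_pi.2 fun i => (hd _).neg
    rw [h4.fderiv]
    rfl
  rw [LinearMap.trace_eq_matrix_trace ℝ ((Pi.basisFun ℝ (Fin n)).prod (Pi.basisFun ℝ (Fin n))),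
    Matrix.trace, Fintype.sum_sum_type]
  simp only [Matrix.diag_apply, LinearMap.toMatrix_apply, Module.Basis.prod_repr_inl,
    Module.Basis.prod_repr_inr, ContinuousLinearMap.coe_coe, h3]
  have e1 : ∀ i, ((Pi.basisFun ℝ (Fin n)).prod (Pi.basisFun ℝ (Fin n))) (Sum.inl i) =
      eq₁ (n := n) i := fun i => by
    refine Prod.ext ?_ ?_
    · rw [Module.Basis.prod_apply_inl_fst, Pi.basisFun_apply]; rfl
    · rw [Module.Basis.prod_apply_inl_snd]; rfl
  have e2 : ∀ i, ((Pi.basisFun ℝ (Fin n)).prod (Pi.basisFun ℝ (Fin n))) (Sum.inr i) =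
      ep₁ (n := n) i := fun i => by
    refine Prod.ext ?_ ?_
    · rw [Module.Basis.prod_apply_inr_fst]; rfl
    · rw [Module.Basis.prod_apply_inr_snd, Pi.basisFun_apply]; rfl
  simp only [e1, e2, Pi.basisFun_repr]
  rw [← Finset.sum_add_distrib]
  refine Finset.sum_eq_zero fun i _ => ?_
  rw [hsym (ep₁ i) (eq₁ i)]
  ring

omit hs hp

theorem ham_smul (c : ℝ) (q p : J.E n) : ham G (q, c • p) = c ^ 2 * ham G (q, p) := by
  unfold ham
  simp only [Pi.smul_apply, smul_eq_mul, Finset.mul_sum]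
  refine Finset.sum_congr rfl fun i _ => Finset.sum_congr rfl fun j _ => ?_
  ring

theorem hv_smul (c : ℝ) (q p : J.E n) (hd : DifferentiableAt ℝ (fun q => ham G (q, p)) q) :
    hv G (q, c • p) = (c • (hv G (q, p)).1, c ^ 2 • (hv G (q, p)).2) := by
  unfold hv
  refine Prod.ext ?_ ?_
  · funext i
    simp only [Pi.smul_apply, smul_eq_mul, Finset.mul_sum]
    refine Finset.sum_congr rfl fun j _ => ?_
    ring
  · funext k
    simp only [Pi.smul_apply, smul_eq_mul, ham_smul]
    unfold J.pd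
    rw [fderiv_const_mul hd]
    simp only [smul_apply, smul_eq_mul]
    ring

variable {Φ : ℝ → J.E n × J.E n → J.E n × J.E n}

theorem geo_flw (h : Geo G Φ) : Flw (hv G) Φ := ⟨h.zero, h.flow⟩

/-- BLOCK T2 -/
theorem specLiou : SpecLiou := by
  intro n G Φ h
  have hF := hv_smooth h.smooth h.pos
  have hF1 : ContDiff ℝ 1 (hv G) := contDiff_infty.1 hF 1
  have hΦ : Flw (hv G) Φ := geo_flw h
  have hH := ham_smooth h.smooth h.pos
  have hscal : ∀ (t c : ℝ) q p, Φ t (q, c • p) =
      ((Φ (c * t) (q, p)).1, c • (Φ (c * t) (q, p)).2) := by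
    intro t c q p
    refine sol_unique hF1 (f := fun t => Φ t (q, c • p))
      (g := fun t => ((Φ (c * t) (q, p)).1, c • (Φ (c * t) (q, p)).2)) (fun t => h.flow t _)
      (fun t => ?_) ?_ t
    · have h1 := (h.flow (c * t) (q, p)).scomp t ((hasDerivAt_id t).const_mul c)
      rw [mul_one] at h1
      have h2 : HasDerivAt (fun t => (Φ (c * t) (q, p)).1) (c • (hv G (Φ (c * t) (q, p))).1) t :=
        (ContinuousLinearMap.fst ℝ (J.E n) (J.E n)).hasFDerivAt.comp_hasDerivAt t h1
      have h3 : HasDerivAt (fun t => (Φ (c * t) (q, p)).2) (c • (hv G (Φ (c * t) (q, p))).2) t :=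
        (ContinuousLinearMap.snd ℝ (J.E n) (J.E n)).hasFDerivAt.comp_hasDerivAt t h1
      have h4 := h2.prodMk (h3.const_smul c)
      rw [hv_smul c _ _ (by
        have : ∀ p' : J.E n, ContDiff ℝ ∞ fun q => ham G (q, p') := fun p' =>
          hH.comp (contDiff_id.prodMk contDiff_const)
        exact (this _).differentiable (by simp) _)]
      convert! h4 using 1
      rw [smul_smul, ← sq]
    · simp only [mul_zero, h.zero]
  have : (volume : Measure (J.E n × J.E n)).IsAddHaarMeasure :=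
    Measure.prod.instIsAddHaarMeasure _ _
  refine ⟨fun t => hΦ.measurePreserving hF1 (hv_trace h.smooth h.pos) volume t, fun t z => ?_,
    hscal, fun T hT q => ?_⟩
  · have h1 : ∀ s, HasDerivAt (fun s => ham G (Φ s z)) 0 s := fun s => by
      have h2 := (hH.differentiable (by simp) (Φ s z)).hasFDerivAt.comp_hasDerivAt s (h.flow s z)
      rwa [ham_hv h.smooth h.pos] at h2
    have h3 := is_const_of_deriv_eq_zero (fun s => (h1 s).differentiableAt)
      (fun s => (h1 s).deriv) t 0
    rw [h3, h.zero]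
  · have h1 : (fun p => (Φ T (q, p)).1) = fun p => (Φ 1 (q, T • p)).1 := by
      funext p
      rw [hscal 1 T q p, mul_one]
    rw [h1]
    refine ⟨fun p p' hpp' => smul_right_injective _ hT (h.inj q hpp'), fun p => ?_⟩
    have hd : DifferentiableAt ℝ (fun p => (Φ 1 (q, p)).1) (T • p) := by
      have h2 := hΦ.diff hF1 1 (q, T • p)
      have h3 : DifferentiableAt ℝ (fun p : J.E n => (q, p)) (T • p) := by fun_prop
      exact (h2.comp (T • p) h3).fst
    have h2 : HasFDerivAt (fun p : J.E n => T • p) (T • ContinuousLinearMap.id ℝ (J.E n)) p :=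
      (hasFDerivAt_id p).const_smul T
    have h3 := (hd.hasFDerivAt.comp p h2).fderiv
    have h4 : (fun p => (Φ 1 (q, T • p)).1) = (fun p => (Φ 1 (q, p)).1) ∘ fun p => T • p := rfl
    rw [h4, h3, ContinuousLinearMap.comp_smul, ContinuousLinearMap.comp_id]
    unfold ContinuousLinearMap.det
    have h5 := h.imm q (T • p)
    unfold ContinuousLinearMap.det at h5
    rw [ContinuousLinearMap.toLinearMap_smul, LinearMap.det_smul]
    exact mul_ne_zero (pow_ne_zero _ hT) h5

end Vale.Agent.P223.H316
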