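import Vale.Agent.P223.H316.Zero

/-! The recursion. -/

namespace Vale.Agent.P223.H316

open scoped ENNReal
open PowerSeries Sy

section
variable {n : ℕ} {Γ ι B : Type} [Group Γ] [NormedRing B] [NormedAlgebra ℂ B]
  (W : WS n Γ ι B) [Fintype ι] {F : (Fin (n + 1) → Γ) → ℝ} (hF : Cc F) {K : ℕ}
  (hK1 : 1 ≤ K) (hK : W.m * (n + 2) ≤ K)

include hF hK1 hK in
theorem rules (hn : 1 ≤ n) : Rules n (-1) (W.N (lF F) (K + 1)) (W.Nl (lF F) K) where
  qq u v hg := r_rqq W (lF_le hF) hK1 hK u v hg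
  qg u v _ := r_rqg W u v
  qhg u v hg := r_rqhg W (lF_le hF) (by omega) (by omega) u v hg
  qag u v hg := r_rqag W (lF_le hF) (by omega) (by omega) u v hg
  qaq u v hg := r_rqaq W (lF_le hF) hK1 hK u v hg
  ah u v hg := r_ah W hF (by omega) (by omega) u v hg
  aa u v hg := r_aa W hF (by omega) (by omega) u v hg
  rotg w hg := r_rrotg W (by omega) w hg
  rotgl w hg := r_rrotgl W hK w hg
  rotq w hg := r_rrotq W (by omega) w hg
  rota w hg := r_rota W hF (by omega) (by omega) hn w hg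
  all w hg ha := r_all W hF (by omega) (by omega) w hg ha

/-! derivative -/

/-- `z d/dz` -/
noncomputable def dz (f : PowerSeries B) : PowerSeries B :=
  PowerSeries.mk fun j => ((j : ℂ) + 1) • coeff (j + 1) f

theorem coeff_dz (f : PowerSeries B) (j : ℕ) :
    coeff j (dz f) = ((j : ℂ) + 1) • coeff (j + 1) f := by rw [dz, coeff_mk]

theorem dz_mul (f g : PowerSeries B) : dz (f * g) = dz f * g + f * dz g := by
  ext j
  rw [coeff_dz, map_add, coeff_mul, coeff_mul, coeff_mul]
  have h1 : ∀ p ∈ Finset.antidiagonal (j + 1), ((j : ℂ) + 1) • (coeff p.1 f * coeff p.2 g) =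
      ((p.1 : ℂ) • coeff p.1 f) * coeff p.2 g + coeff p.1 f * ((p.2 : ℂ) • coeff p.2 g) := by
    intro p hp
    have : (j : ℂ) + 1 = p.1 + p.2 := by
      have := Finset.mem_antidiagonal.1 hp
      exact_mod_cast this.symm
    rw [this, add_smul, smul_mul_assoc, mul_smul_comm]
  rw [Finset.smul_sum, Finset.sum_congr rfl h1, Finset.sum_add_distrib]
  congr 1
  · rw [Finset.Nat.sum_antidiagonal_succ]
    simp only [coeff_dz]
    simp
  · rw [Finset.Nat.sum_antidiagonal_succ']
    simp only [coeff_dz]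
    simp

theorem dz_C (x : B) : dz (C x) = 0 := by
  ext j
  rw [coeff_dz, coeff_C, if_neg (by omega), smul_zero, map_zero]

omit [Fintype ι] in
theorem dz_Gz : dz W.Gz = W.Gz * W.Gz := by
  ext j
  rw [coeff_dz, coeff_mul]
  simp only [WS.Gz, coeff_mk]
  have h1 : ∀ p ∈ Finset.antidiagonal j, W.G ^ (p.1 + 1) * W.G ^ (p.2 + 1) = W.G ^ (j + 2) := by
    intro p hp
    rw [← pow_add]
    congr 1
    have := Finset.mem_antidiagonal.1 hp
    omega
  rw [Finset.sum_congr rfl h1, Finset.sum_const, Finset.Nat.card_antidiagonal,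
    ← Nat.cast_smul_eq_nsmul ℂ]
  push_cast
  rfl

omit [Fintype ι] in
/-- derivative of `(hG)^m` -/
theorem dz_HG (m : ℕ) : ∀ l : ℕ → Γ × ι, dz (W.ev (HG m) l) =
    ∑ i ∈ Finset.range m, W.ev (HG (i + 1) ++ g :: HG (m - 1 - i)) l := by
  induction m with
  | zero =>
    intro l
    rw [Finset.sum_range_zero, HG, WS.ev, ← map_one C, dz_C]
  | succ m ih =>
    intro l
    rw [Finset.sum_range_succ', HG, WS.ev, WS.ev, dz_mul, dz_mul, dz_C, zero_mul, zero_add,
      dz_Gz, mul_add, ih, add_comm, Finset.mul_sum, Finset.mul_sum]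
    congr 1
    · refine Finset.sum_congr rfl fun i hi => ?_
      rw [show m + 1 - 1 - (i + 1) = m - 1 - i by omega]
      rfl
    · rw [show m + 1 - 1 - 0 = m by omega]
      simp only [HG, List.cons_append, List.nil_append, WS.ev, mul_assoc]

omit [Fintype ι] in
theorem dz_aHG (l : ℕ → Γ × ι) : dz (W.ev (a :: g :: HG n) l) =
    ∑ i ∈ Finset.range (n + 1), W.ev (a :: g :: (HG i ++ g :: HG (n - i))) l := by
  rw [Finset.sum_range_succ']
  simp only [WS.ev]
  rw [dz_mul, dz_mul, dz_C, zero_mul, zero_add, dz_Gz, mul_add, dz_HG, add_comm, Finset.mul_sum,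
    Finset.mul_sum]
  congr 1
  · refine Finset.sum_congr rfl fun i hi => ?_
    rw [show n - (i + 1) = n - 1 - i by omega]
  · simp only [HG, List.nil_append, WS.ev, mul_assoc, Nat.sub_zero]

theorem good_w0 : Good n (a :: g :: HG n) := by
  unfold Good; simp [nl, nk]

theorem good_wi {i : ℕ} (hi : i ∈ Finset.range (n + 1)) :
    Good n (a :: g :: (HG i ++ g :: HG (n - i))) := by
  have := Finset.mem_range.1 hi
  unfold Good; simp [nl, nk]; omega

include hF hK1 hK in
theorem N_der : ∑ i ∈ Finset.range (n + 1), W.N (lF F) K (a :: g :: (HG i ++ g :: HG (n - i))) =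
    ((K : ℂ) + 1) * W.N (lF F) (K + 1) (a :: g :: HG n) := by
  have h1 := (Ok.sum (Finset.range (n + 1)) fun i hi =>
    r_good W (lF_le hF) hK1 hK (good_wi hi)).2
  have h2 := (Ok.smul ((K : ℂ) + 1) (r_good' W (lF_le hF) hK1 hK good_w0)).2
  unfold WS.N
  rw [← h1, ← h2]
  congr 1
  funext l
  rw [← map_sum, ← dz_aHG, coeff_dz]

include hF hK1 hK in
/-- the recursion -/
theorem N_rec (hn : 1 ≤ n) : ((n : ℂ) + 2 + 2 * (K + 1)) * W.N (lF F) (K + 1) (a :: g :: HG n) =
    2 * (W.lam : ℂ) * (K + 2) * W.N (lF F) (K + 2) (a :: g :: HG n) := by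
  have h1 := word (rules W hF hK1 hK hn) (by norm_num)
  have h2 := N_der W hF hK1 hK
  have h3 := N_der W hF (K := K + 1) (by omega) (by omega)
  unfold WS.Nl at h1
  rw [Finset.sum_sub_distrib, ← Finset.mul_sum, h2, h3, Complex.real_smul, Complex.real_smul] at h1
  push_cast at h1
  linear_combination h1

end

end Vale.Agent.P223.H316
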