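import Vale.Agent.P223.H316.Rot

/-! Sums over orbits of labels. -/

namespace Vale.Agent.P223.H316

open scoped ENNReal
open PowerSeries Sy

section orb
variable {Γ ι : Type} [Group Γ]

/-- normalised labels -/
abbrev NL (Γ ι : Type) [Group Γ] (k : ℕ) := {l : Fin (k + 1) → Γ × ι // (l 0).1 = 1}

/-- permutations act on the orbits -/
def permE (k : ℕ) (σ : Equiv.Perm (Fin (k + 1))) : NL Γ ι k ≃ NL Γ ι k where
  toFun l := ⟨fun i => ((l.1 (σ 0)).1⁻¹ * (l.1 (σ i)).1, (l.1 (σ i)).2), inv_mul_cancel _⟩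
  invFun l := ⟨fun i => ((l.1 (σ.symm 0)).1⁻¹ * (l.1 (σ.symm i)).1, (l.1 (σ.symm i)).2),
    inv_mul_cancel _⟩
  left_inv l := by
    apply Subtype.ext
    funext i
    simp only [Equiv.apply_symm_apply, l.2, mul_one, inv_inv, mul_inv_cancel_left]
  right_inv l := by
    apply Subtype.ext
    funext i
    simp only [Equiv.symm_apply_apply, l.2, mul_one, inv_inv, mul_inv_cancel_left]

/-- invariant functions -/
def Inv {k : ℕ} {E : Type} (f : (Fin (k + 1) → Γ × ι) → E) : Prop :=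
  ∀ (γ : Γ) l, f (fun i => (γ * (l i).1, (l i).2)) = f l

theorem permE_apply {k : ℕ} {E : Type} (f : (Fin (k + 1) → Γ × ι) → E) (hf : Inv f)
    (σ : Equiv.Perm (Fin (k + 1))) (l : NL Γ ι k) : f (permE k σ l).1 = f (l.1 ∘ σ) :=
  hf _ _

theorem tsum_perm {k : ℕ} (f : (Fin (k + 1) → Γ × ι) → ℂ) (hf : Inv f)
    (σ : Equiv.Perm (Fin (k + 1))) :
    ∑' l : NL Γ ι k, f (l.1 ∘ σ) = ∑' l : NL Γ ι k, f l.1 := by
  rw [← (permE k σ).tsum_eq fun l => f l.1]
  exact tsum_congr fun l => (permE_apply f hf σ l).symm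

theorem summable_perm {k : ℕ} {E : Type} [AddCommMonoid E] [TopologicalSpace E]
    (f : (Fin (k + 1) → Γ × ι) → E) (hf : Inv f) (σ : Equiv.Perm (Fin (k + 1)))
    (hs : Summable fun l : NL Γ ι k => f l.1) : Summable fun l : NL Γ ι k => f (l.1 ∘ σ) := by
  have := (permE k σ).summable_iff.2 hs
  exact this.congr fun l => permE_apply f hf σ l

/-- extension of a finite sequence -/
def ex {k : ℕ} (l : Fin (k + 1) → Γ × ι) (j : ℕ) : Γ × ι :=
  if h : j < k + 1 then l ⟨j, h⟩ else l 0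

omit [Group Γ] in
theorem ex_zero {k : ℕ} (l : Fin (k + 1) → Γ × ι) : ex l 0 = l 0 := by
  simp [ex]

omit [Group Γ] in
theorem ex_of_lt {k : ℕ} (l : Fin (k + 1) → Γ × ι) {j : ℕ} (h : j < k + 1) :
    ex l j = l ⟨j, h⟩ := dif_pos h

theorem ex_smul {k : ℕ} (γ : Γ) (l : Fin (k + 1) → Γ × ι) (j : ℕ) :
    ex (fun i => (γ * (l i).1, (l i).2)) j = (γ * (ex l j).1, (ex l j).2) := by
  unfold ex
  split_ifs <;> rfl

/-- weight of a chain -/
noncomputable def cp (w : Γ → ℝ) : (k : ℕ) → Γ × ι → (Fin k → Γ × ι) → ℝ≥0∞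
  | 0, _, _ => 1
  | k + 1, l'', l => ENNReal.ofReal (w (l''.1⁻¹ * (l 0).1)) * cp w k (l 0) fun i => l i.succ

theorem tsum_cp [Fintype ι] (w : Γ → ℝ) (k : ℕ) : ∀ l'' : Γ × ι,
    ∑' l : Fin k → Γ × ι, cp w k l'' l =
      (Fintype.card ι * ∑' γ, ENNReal.ofReal (w γ)) ^ k := by
  induction k with
  | zero =>
    intro l''
    rw [tsum_eq_single (fun i => i.elim0) fun l hl => absurd (Subsingleton.elim _ _) hl]
    simp [cp]
  | succ k ih =>
    intro l''
    rw [← (Fin.consEquiv fun _ => Γ × ι).tsum_eq, ENNReal.tsum_prod']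
    have h1 : ∀ (x : Γ × ι) (l : Fin k → Γ × ι),
        cp w (k + 1) l'' (Fin.consEquiv (fun _ => Γ × ι) (x, l)) =
        ENNReal.ofReal (w (l''.1⁻¹ * x.1)) * cp w k x l := by
      intro x l
      simp [cp, Fin.consEquiv]
    simp_rw [h1, ENNReal.tsum_mul_left, ih, ENNReal.tsum_mul_right, pow_succ']
    congr 1
    rw [ENNReal.tsum_prod']
    simp only [tsum_fintype, Finset.sum_const, Finset.card_univ, nsmul_eq_mul,
      ENNReal.tsum_mul_left]
    congr 1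
    exact (Equiv.mulLeft l''.1⁻¹).tsum_eq fun γ => ENNReal.ofReal (w γ)

theorem tsum_cp_NL [Fintype ι] (w : Γ → ℝ) (hw : Summable w) (hw0 : ∀ γ, 0 ≤ w γ) (k : ℕ) :
    ∑' l : NL Γ ι k, cp w k (l.1 0) (fun i => l.1 i.succ) ≠ ⊤ := by
  have hA : (Fintype.card ι * ∑' γ, ENNReal.ofReal (w γ)) ≠ ⊤ := by
    refine ENNReal.mul_ne_top (ENNReal.natCast_ne_top _) ?_
    rw [← ENNReal.ofReal_tsum_of_nonneg hw0 hw]
    exact ENNReal.ofReal_ne_top
  let J : NL Γ ι k → ι × (Fin k → Γ × ι) := fun l => ((l.1 0).2, fun i => l.1 i.succ)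
  have hJ : Function.Injective J := by
    intro l l' h
    apply Subtype.ext
    funext i
    have h1 := congrArg Prod.fst h
    have h2 := congrArg Prod.snd h
    refine Fin.cases ?_ (fun i => congrFun h2 i) i
    exact Prod.ext (by rw [l.2, l'.2]) h1
  have h1 : ∑' l : NL Γ ι k, cp w k (l.1 0) (fun i => l.1 i.succ) =
      ∑' l : NL Γ ι k, (fun x : ι × (Fin k → Γ × ι) => cp w k (1, x.1) x.2) (J l) := by
    refine tsum_congr fun l => ?_
    simp only [J]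
    rw [show ((1 : Γ), (l.1 0).2) = l.1 0 from Prod.ext l.2.symm rfl]
  rw [h1]
  refine ne_top_of_le_ne_top ?_ (ENNReal.tsum_comp_le_tsum_of_injective hJ
    (fun x : ι × (Fin k → Γ × ι) => cp w k (1, x.1) x.2))
  rw [ENNReal.tsum_prod']
  simp only [tsum_cp, tsum_fintype, Finset.sum_const, Finset.card_univ, nsmul_eq_mul]
  exact ENNReal.mul_ne_top (ENNReal.natCast_ne_top _) (ENNReal.pow_ne_top hA)

end orb

section ev
variable {n : ℕ} {Γ ι B : Type} [Group Γ] [NormedRing B] [NormedAlgebra ℂ B]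
  (W : WS n Γ ι B)

theorem WS.pw_le (k : ℕ) (M : ℝ) (hM : ∀ γ, W.w γ ≤ M) : ∀ (l'' : Γ × ι) (l : ℕ → Γ × ι)
    (l' : Γ × ι), ENNReal.ofReal (W.pw k l'' l l') ≤
      ENNReal.ofReal M * cp W.w k l'' (fun i => l i) := by
  induction k with
  | zero =>
    intro l'' l l'
    rw [WS.pw, cp, mul_one]
    exact ENNReal.ofReal_le_ofReal (hM _)
  | succ k ih =>
    intro l'' l l'
    rw [WS.pw, cp, ENNReal.ofReal_mul (W.w_nonneg _), mul_left_comm]
    exact mul_le_mul_right (ih (l 0) (fun j => l (j + 1)) l') _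

theorem WS.cw_nonneg (k : ℕ) (l : ℕ → Γ × ι) : 0 ≤ W.cw k l := W.pw_nonneg _ _ _ _

theorem WS.sum_cw [Fintype ι] (k : ℕ) : Summable fun l : NL Γ ι k => W.cw k (ex l.1) := by
  have hM : ∀ γ, W.w γ ≤ ∑' γ, W.w γ := fun γ => W.w_sum.le_tsum γ fun _ _ => W.w_nonneg _
  have h1 : ∑' l : NL Γ ι k, ENNReal.ofReal (W.cw k (ex l.1)) ≠ ⊤ := by
    have h2 : ∑' l : NL Γ ι k, ENNReal.ofReal (W.cw k (ex l.1)) ≤
        ∑' l : NL Γ ι k, ENNReal.ofReal (∑' γ, W.w γ) *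
          cp W.w k (l.1 0) (fun i => l.1 i.succ) := by
      refine ENNReal.tsum_le_tsum fun l => ?_
      have h3 := W.pw_le k _ hM (ex l.1 0) (fun j => ex l.1 (j + 1)) (ex l.1 0)
      rw [ex_zero] at h3
      rw [WS.cw, ex_zero]
      refine h3.trans (le_of_eq ?_)
      congr 2
      funext i
      rw [ex_of_lt l.1 (by have := i.2; omega)]
      rfl
    refine ne_top_of_le_ne_top ?_ h2
    rw [ENNReal.tsum_mul_left]
    exact ENNReal.mul_ne_top ENNReal.ofReal_ne_top (tsum_cp_NL W.w W.w_sum W.w_nonneg k)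
  have h2 := ENNReal.summable_toReal h1
  refine h2.congr fun l => ?_
  rw [ENNReal.toReal_ofReal (W.cw_nonneg _ _)]

/-- value of a word -/
noncomputable def WS.tv (w : List Sy) (K : ℕ) {k : ℕ} (l : Fin (k + 1) → Γ × ι) : ℂ :=
  W.T.tr (W.Om * coeff K (W.ev w (ex l)))

theorem WS.sum_tv [Fintype ι] (w : List Sy) (K k : ℕ) (hw : nl w = k + 1)
    (hK : W.m * nk w ≤ K) (hK1 : 1 ≤ K) (F : (Fin (k + 1) → Γ × ι) → ℂ) (hF : ∀ l, ‖F l‖ ≤ 1) :
    Summable fun l : NL Γ ι k => F l.1 * W.tv w K l.1 := by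
  obtain ⟨D, hD0, hD⟩ := W.bd_ev w k K hw hK hK1
  refine Summable.of_norm_bounded ((W.sum_cw k).mul_left D) fun l => ?_
  rw [norm_mul]
  calc _ ≤ 1 * ‖W.tv w K l.1‖ := mul_le_mul_of_nonneg_right (hF _) (norm_nonneg _)
    _ ≤ _ := by rw [one_mul]; exact hD _

/-- translations -/
theorem WS.U_ev (γ : Γ) (w : List Sy) : ∀ (l : ℕ → Γ × ι),
    C (W.U γ : B) * W.ev w l = W.ev w (fun j => (γ * (l j).1, (l j).2)) * C (W.U γ : B) := by
  have hG : C (W.U γ : B) * W.Gz = W.Gz * C (W.U γ : B) := by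
    ext j
    rw [coeff_C_mul, coeff_mul_C, WS.Gz, coeff_mk]
    exact ((show Commute (W.U γ : B) W.G from W.U_G γ).pow_right _).eq
  have hP : C (W.U γ : B) * W.Pz = W.Pz * C (W.U γ : B) := by
    ext j
    rw [coeff_C_mul, coeff_mul_C, WS.Pz, coeff_mk]
    exact ((show Commute (W.U γ : B) W.P from W.U_P γ).mul_right
      ((show Commute (W.U γ : B) W.G from W.U_G γ).pow_right _)).eq
  induction w with
  | nil => intro l; rw [WS.ev, WS.ev, one_mul, mul_one]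
  | cons s w ih =>
    intro l
    cases s with
    | g => rw [WS.ev, WS.ev, ← mul_assoc, hG, mul_assoc, ih, mul_assoc]
    | q => rw [WS.ev, WS.ev, ← mul_assoc, hP, mul_assoc, ih, mul_assoc]
    | a => rw [WS.ev, WS.ev, ← mul_assoc, ← map_mul, W.U_a, map_mul, mul_assoc, ih, mul_assoc]
    | h => rw [WS.ev, WS.ev, ← mul_assoc, ← map_mul, W.U_h, map_mul, mul_assoc, ih, mul_assoc]

theorem WS.tv_inv (w : List Sy) (K k : ℕ) (hw : 1 ≤ nl w) (hK : W.m * nk w ≤ K) (hK1 : 1 ≤ K) :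
    Inv (fun l : Fin (k + 1) → Γ × ι => W.tv w K l) := by
  intro γ l
  have h1 : W.ev w (ex fun i => (γ * (l i).1, (l i).2)) =
      W.ev w (fun j => (γ * (ex l j).1, (ex l j).2)) := by
    congr 1; funext j; exact ex_smul γ l j
  have h2 := W.U_ev γ w (ex l)
  have h3 : (W.U γ : B) * coeff K (W.ev w (ex l)) =
      coeff K (W.ev w (fun j => (γ * (ex l j).1, (ex l j).2))) * (W.U γ : B) := by
    have := congrArg (coeff K) h2
    rwa [coeff_C_mul, coeff_mul_C] at this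
  have hn := W.nuc_ev w hw K hK hK1 (ex l)
  show W.T.tr _ = W.T.tr _
  rw [h1]
  set T1 := coeff K (W.ev w (fun j => (γ * (ex l j).1, (ex l j).2))) with hT1
  set T0 := coeff K (W.ev w (ex l)) with hT0
  have h4 : T1 = (W.U γ : B) * T0 * ((W.U γ)⁻¹ : Bˣ) := by
    rw [h3, mul_assoc, Units.mul_inv, mul_one]
  calc W.T.tr (W.Om * T1) = W.T.tr ((W.U γ : B) * (W.Om * T0 * ((W.U γ)⁻¹ : Bˣ))) := by
        rw [h4]
        congr 1
        calc W.Om * ((W.U γ : B) * T0 * ((W.U γ)⁻¹ : Bˣ)) =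
            (W.Om * W.U γ) * T0 * ((W.U γ)⁻¹ : Bˣ) := by simp only [mul_assoc]
          _ = _ := by rw [← W.U_Om]; simp only [mul_assoc]
    _ = W.T.tr ((W.Om * T0 * ((W.U γ)⁻¹ : Bˣ)) * (W.U γ : B)) :=
        W.T.tr_comm _ _ (W.T.ne_right _ (W.T.ne_left _ hn))
    _ = _ := by rw [mul_assoc, Units.inv_mul, mul_one]

end ev

end Vale.Agent.P223.H316
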