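import Vale.Agent.P223.H316.Est2

/-! Rotation of words. -/

namespace Vale.Agent.P223.H316

open scoped ENNReal
open PowerSeries Sy

section ev
variable {n : ℕ} {Γ ι B : Type} [Group Γ] [NormedRing B] [NormedAlgebra ℂ B]
  (W : WS n Γ ι B)

theorem WS.Om_GP' (p q : ℕ) :
    (W.P ^ p * W.G ^ q) * W.Om = ((-1 : ℂ) ^ (n + 1)) ^ p • (W.Om * (W.P ^ p * W.G ^ q)) := by
  have hG : ∀ q, W.G ^ q * W.Om = W.Om * W.G ^ q := fun q =>
    ((show Commute W.G W.Om from W.Om_G.symm).pow_left q).eq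
  have hs : ((-1 : ℂ) ^ (n + 1)) * ((-1 : ℂ) ^ (n + 1)) = 1 := by
    rw [← mul_pow]; simp
  induction p with
  | zero => rw [pow_zero, one_mul, pow_zero, one_smul, hG]
  | succ p ih =>
    have hP : W.P * W.Om = (-1 : ℂ) ^ (n + 1) • (W.Om * W.P) := by
      rw [W.Om_P, smul_smul, hs, one_smul]
    calc W.P ^ (p + 1) * W.G ^ q * W.Om = W.P * ((W.P ^ p * W.G ^ q) * W.Om) := by
          rw [pow_succ']; simp only [mul_assoc]
      _ = ((-1 : ℂ) ^ (n + 1)) ^ p • ((W.P * W.Om) * (W.P ^ p * W.G ^ q)) := by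
          rw [ih, mul_smul_comm, mul_assoc W.P]
      _ = _ := by
          rw [hP, smul_mul_assoc, smul_smul, pow_succ ((-1 : ℂ) ^ (n + 1)), pow_succ' W.P]
          simp only [mul_assoc]

/-- multiplication with high powers of `G` -/
theorem WS.st4' (w : List Sy) (hw : 1 ≤ nl w) (e j : ℕ) (hj : W.m ≤ j) : ∀ p q i l,
    W.T.nn (coeff i (W.kz p q * W.ev w l) * (W.P ^ e * W.G ^ j)) ≠ ⊤ := by
  have hlet : ∀ (s : Bool) (w : List Sy) p q i (l : ℕ → Γ × ι),
      W.T.nn (coeff i (W.kz p q * (C (W.lt s (l 0)) * W.ev w (fun k => l (k + 1)))) *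
        (W.P ^ e * W.G ^ j)) ≠ ⊤ := by
    intro s w p q i l
    rw [W.coeff_let, Finset.sum_mul]
    refine W.T.ne_sum _ _ fun x hx => ?_
    have := W.st4 w e j hj 0 0 x.2 (l 0) (fun k => l (k + 1))
    rw [W.kz_zero, one_mul] at this
    rw [← W.lt_χ]
    have e1 : (coeff x.1 (W.kz p q) * (W.lt s (l 0) * W.χ (l 0)) *
        coeff x.2 (W.ev w fun k => l (k + 1))) * (W.P ^ e * W.G ^ j) =
        (coeff x.1 (W.kz p q) * W.lt s (l 0)) * (W.χ (l 0) *
        coeff x.2 (W.ev w fun k => l (k + 1)) * (W.P ^ e * W.G ^ j)) := by noncomm_ring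
    rw [e1]
    exact W.T.ne_left _ this
  induction w with
  | nil => simp [nl] at hw
  | cons s w ih =>
    intro p q i l
    cases s with
    | g => rw [WS.ev, W.kz_g]; exact ih (by simpa [nl] using hw) p (q + 1) i l
    | q => rw [WS.ev, W.kz_q]; exact ih (by simpa [nl] using hw) (p + 1) q i l
    | a => exact hlet true w p q i l
    | h => exact hlet false w p q i l

theorem WS.st5 (w : List Sy) (hw : 1 ≤ nl w) (e j : ℕ) (hj : W.m ≤ j) : ∀ p q i l,
    W.T.nn ((W.P ^ e * W.G ^ j) * coeff i (W.kz p q * W.ev w l)) ≠ ⊤ := by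
  have hlet : ∀ (s : Bool) (w : List Sy) p q i (l : ℕ → Γ × ι),
      W.T.nn ((W.P ^ e * W.G ^ j) *
        coeff i (W.kz p q * (C (W.lt s (l 0)) * W.ev w (fun k => l (k + 1))))) ≠ ⊤ := by
    intro s w p q i l
    rw [W.coeff_let, Finset.mul_sum]
    refine W.T.ne_sum _ _ fun x hx => ?_
    obtain ⟨c, hc, -⟩ := W.coeff_kz p q
    have hcm : W.G ^ j * W.P ^ p = W.P ^ p * W.G ^ j :=
      ((show Commute W.G W.P from W.GP).pow_pow _ _).eq
    have e1 : (W.P ^ e * W.G ^ j) * (W.P ^ p * W.G ^ (q + x.1)) =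
        W.P ^ (e + p) * W.G ^ (j + (q + x.1)) := by
      rw [pow_add W.P, pow_add W.G j]
      calc _ = W.P ^ e * (W.G ^ j * W.P ^ p) * W.G ^ (q + x.1) := by simp only [mul_assoc]
        _ = _ := by rw [hcm]; simp only [mul_assoc]
    rw [← W.χ_lt, hc]
    have e2 : W.P ^ e * W.G ^ j * (c x.1 • (W.P ^ p * W.G ^ (q + x.1)) *
        (W.χ (l 0) * W.lt s (l 0)) * coeff x.2 (W.ev w fun k => l (k + 1))) =
        c x.1 • ((W.P ^ (e + p) * W.G ^ (j + (q + x.1)) * W.χ (l 0)) *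
          (W.lt s (l 0) * coeff x.2 (W.ev w fun k => l (k + 1)))) := by
      rw [← e1]; simp only [smul_mul_assoc, mul_smul_comm, mul_assoc]
    rw [e2]
    exact W.T.ne_nsmul _ (W.T.ne_right _ (W.nucr _ _ (by omega) _))
  induction w with
  | nil => simp [nl] at hw
  | cons s w ih =>
    intro p q i l
    cases s with
    | g => rw [WS.ev, W.kz_g]; exact ih (by simpa [nl] using hw) p (q + 1) i l
    | q => rw [WS.ev, W.kz_q]; exact ih (by simpa [nl] using hw) (p + 1) q i l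
    | a => exact hlet true w p q i l
    | h => exact hlet false w p q i l

/-- rotation of a kernel -/
theorem WS.rotk (w : List Sy) (hw : 1 ≤ nl w) (K : ℕ) (hK : W.m * (nk w + 1) ≤ K)
    (e : ℕ) (f : ℕ → ℕ) (hf : ∀ j, j ≤ f j) (Y : PowerSeries B)
    (hY : ∀ j, coeff j Y = W.P ^ e * W.G ^ f j) (l : ℕ → Γ × ι) :
    W.T.tr (W.Om * coeff K (W.ev w l * Y)) =
      ((-1 : ℂ) ^ (n + 1)) ^ e * W.T.tr (W.Om * coeff K (Y * W.ev w l)) := by
  have hswap : coeff K (Y * W.ev w l) = ∑ x ∈ Finset.antidiagonal K,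
      coeff x.2 Y * coeff x.1 (W.ev w l) := by
    rw [coeff_mul]
    exact (Finset.Nat.sum_antidiagonal_swap
      (f := fun x : ℕ × ℕ => coeff x.1 Y * coeff x.2 (W.ev w l))).symm
  have hsp : ∀ x ∈ Finset.antidiagonal K, W.m ≤ f x.2 ∨
      W.T.nn (coeff x.1 (W.ev w l)) ≠ ⊤ := by
    intro x hx
    by_cases h : W.m ≤ f x.2
    · exact Or.inl h
    · right
      have h1 := Finset.mem_antidiagonal.1 hx
      have h2 := hf x.2
      rw [mul_add] at hK
      exact W.nuc_ev w hw x.1 (by omega) (by omega) l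
  have n1 : ∀ x ∈ Finset.antidiagonal K,
      W.T.nn (W.Om * coeff x.1 (W.ev w l) * coeff x.2 Y) ≠ ⊤ := by
    intro x hx
    rcases hsp x hx with h | h
    · have := W.st4' w hw e (f x.2) h 0 0 x.1 l
      rw [W.kz_zero, one_mul] at this
      rw [hY, mul_assoc]
      exact W.T.ne_left _ this
    · exact W.T.ne_right _ (W.T.ne_left _ h)
  have n2 : ∀ x ∈ Finset.antidiagonal K,
      W.T.nn (W.Om * (coeff x.2 Y * coeff x.1 (W.ev w l))) ≠ ⊤ := by
    intro x hx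
    rcases hsp x hx with h | h
    · have := W.st5 w hw e (f x.2) h 0 0 x.1 l
      rw [W.kz_zero, one_mul] at this
      rw [hY]
      exact W.T.ne_left _ this
    · exact W.T.ne_left _ (W.T.ne_left _ h)
  rw [coeff_mul, hswap, Finset.mul_sum, Finset.mul_sum,
    W.T.tr_sum _ _ fun x hx => by rw [← mul_assoc]; exact n1 x hx,
    W.T.tr_sum _ _ n2, Finset.mul_sum]
  refine Finset.sum_congr rfl fun x hx => ?_
  have hc : coeff x.2 Y * W.Om * coeff x.1 (W.ev w l) =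
      ((-1 : ℂ) ^ (n + 1)) ^ e • (W.Om * (coeff x.2 Y * coeff x.1 (W.ev w l))) := by
    rw [hY, W.Om_GP', smul_mul_assoc, mul_assoc W.Om]
  have key : W.T.tr (W.Om * coeff x.1 (W.ev w l) * coeff x.2 Y) =
      W.T.tr (coeff x.2 Y * W.Om * coeff x.1 (W.ev w l)) := by
    rcases hsp x hx with h | h
    · have := W.roth w hw e (f x.2) h 0 0 x.1 l
      rw [W.kz_zero, one_mul] at this
      rw [hY]; exact this
    · rw [mul_assoc (coeff x.2 Y)]
      exact (W.T.tr_comm _ _ (W.T.ne_left _ h)).symm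
  rw [← mul_assoc, key, hc, W.T.tr_smul _ _ (n2 x hx)]

theorem WS.rotg (w : List Sy) (hw : 1 ≤ nl w) (K : ℕ) (hK : W.m * (nk w + 1) ≤ K)
    (l : ℕ → Γ × ι) : W.T.tr (W.Om * coeff K (W.ev (w ++ [Sy.g]) l)) =
      W.T.tr (W.Om * coeff K (W.ev (Sy.g :: w) l)) := by
  have h := W.rotk w hw K hK 0 (fun j => j + 1) (fun j => Nat.le_succ j) W.Gz
    (fun j => by rw [WS.Gz, coeff_mk, pow_zero, one_mul]) l
  rw [pow_zero, one_mul] at h
  rw [W.ev_append]
  simpa only [WS.ev, mul_one] using h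

theorem WS.rotq (w : List Sy) (hw : 1 ≤ nl w) (K : ℕ) (hK : W.m * (nk w + 1) ≤ K)
    (l : ℕ → Γ × ι) : W.T.tr (W.Om * coeff K (W.ev (w ++ [Sy.q]) l)) =
      (-1 : ℂ) ^ (n + 1) * W.T.tr (W.Om * coeff K (W.ev (Sy.q :: w) l)) := by
  have h := W.rotk w hw K hK 1 (fun j => j) (fun j => le_rfl) W.Pz
    (fun j => by rw [WS.Pz, coeff_mk, pow_one]) l
  rw [pow_one] at h
  rw [W.ev_append]
  simpa only [WS.ev, mul_one] using h

/-- symbol of a letter -/
def ls (s : Bool) : Sy := if s then a else h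

theorem WS.ev_ls (s : Bool) (w : List Sy) (l : ℕ → Γ × ι) :
    W.ev (ls s :: w) l = C (W.lt s (l 0)) * W.ev w (fun k => l (k + 1)) := by
  cases s <;> rfl

theorem nl_ls (s : Bool) (w : List Sy) : nl (ls s :: w) = nl w + 1 := by
  cases s <;> rfl

theorem nk_ls (s : Bool) (w : List Sy) : nk (ls s :: w) = nk w := by
  cases s <;> rfl

/-- symbol of a kernel -/
def ksy (s : Bool) : Sy := if s then g else q

theorem nl_ksy (s : Bool) (w : List Sy) : nl (ksy s :: w) = nl w := by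
  cases s <;> rfl

theorem nk_ksy (s : Bool) (w : List Sy) : nk (ksy s :: w) = nk w + 1 := by
  cases s <;> rfl

theorem sy_cases (s : Sy) : (∃ b, s = ls b) ∨ ∃ b, s = ksy b := by
  cases s
  · exact Or.inr ⟨true, rfl⟩
  · exact Or.inr ⟨false, rfl⟩
  · exact Or.inl ⟨true, rfl⟩
  · exact Or.inl ⟨false, rfl⟩

/-- rotation of a kernel, up to sign -/
theorem WS.rotks (s : Bool) (w : List Sy) (hw : 1 ≤ nl w) (K : ℕ) (hK : W.m * (nk w + 1) ≤ K) :
    ∃ z : ℂ, ‖z‖ = 1 ∧ ∀ l : ℕ → Γ × ι, W.T.tr (W.Om * coeff K (W.ev (ksy s :: w) l)) =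
      z * W.T.tr (W.Om * coeff K (W.ev (w ++ [ksy s]) l)) := by
  cases s with
  | true => exact ⟨1, norm_one, fun l => by rw [one_mul]; exact (W.rotg w hw K hK l).symm⟩
  | false =>
    refine ⟨(-1 : ℂ) ^ (n + 1), by simp, fun l => ?_⟩
    have h := W.rotq w hw K hK l
    change _ = (-1 : ℂ) ^ (n + 1) * W.T.tr (W.Om * coeff K (W.ev (w ++ [Sy.q]) l))
    rw [h, ← mul_assoc, ← mul_pow]
    simp only [mul_neg, mul_one, neg_neg, one_pow, one_mul]
    rfl

/-- rotation of a letter, up to sign -/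
theorem WS.rotls (s : Bool) (w : List Sy) (hw : 1 ≤ nl w) (K : ℕ) (hK : W.m * nk w ≤ K)
    (hK1 : 1 ≤ K) (x : Γ × ι) (l : ℕ → Γ × ι) :
    W.T.tr (W.Om * coeff K (C (W.lt s x) * W.ev w l)) =
      (if s then 1 else (-1 : ℂ) ^ (n + 1)) * W.T.tr (W.Om * coeff K (W.ev w l * C (W.lt s x))) := by
  have hnuc := W.nuc_ev w hw K hK hK1 l
  rw [coeff_C_mul, coeff_mul_C]
  cases s with
  | true =>
    simp only [WS.lt, if_true, one_mul]
    rw [← mul_assoc, W.Om_a, mul_assoc, W.T.tr_comm _ _ (W.T.ne_left _ hnuc), mul_assoc]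
  | false =>
    simp only [WS.lt, Bool.false_eq_true, if_false]
    rw [← mul_assoc, W.Om_h, smul_mul_assoc, W.T.tr_smul _ _ (by
      rw [mul_assoc]; exact W.T.ne_left _ (W.T.ne_left _ hnuc)), mul_assoc,
      W.T.tr_comm _ _ (W.T.ne_left _ hnuc), mul_assoc]

/-- the weight of a cycle -/
noncomputable def WS.cw (k : ℕ) (l : ℕ → Γ × ι) : ℝ := W.pw k (l 0) (fun j => l (j + 1)) (l 0)

/-- main bound, for words which begin with a letter -/
theorem WS.bd_ls (s : Bool) (w : List Sy) (K : ℕ) (hK : W.m * nk w ≤ K) (h1 : 1 ≤ nk w) :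
    ∃ D : ℝ, 0 ≤ D ∧ ∀ l : ℕ → Γ × ι, ‖W.T.tr (W.Om * coeff K (W.ev (ls s :: w) l))‖ ≤
      D * W.cw (nl w) l := by
  obtain ⟨D, hD0, hD⟩ := W.nn w 0 0 K (by simpa using hK) (by simpa using h1)
  refine ⟨D * (‖W.Om‖ * W.Cb), mul_nonneg hD0 (mul_nonneg (norm_nonneg _) W.Cb_nonneg),
    fun l => ?_⟩
  set U := coeff K (W.ev w (fun k => l (k + 1))) with hU
  set b := W.lt s (l 0) with hb
  set χ := W.χ (l 0) with hχ
  have e1 : W.T.tr (W.Om * coeff K (W.ev (ls s :: w) l)) =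
      W.T.tr ((χ * U * χ) * (W.Om * b)) := by
    rw [W.ev_ls, coeff_C_mul]
    have hn := W.st1 w 0 0 K (by simpa using hK) (by simpa using h1) (l 0) (fun k => l (k + 1))
    rw [W.kz_zero, one_mul] at hn
    obtain ⟨z, hz⟩ := W.Om_lt s (l 0)
    have h3 : χ * (W.Om * b) = W.Om * b := by
      rw [hz, mul_smul_comm, ← mul_assoc, W.χ_lt]
    calc W.T.tr (W.Om * (b * U)) = W.T.tr ((W.Om * b) * (χ * U)) := by
          congr 1
          rw [mul_assoc W.Om, ← mul_assoc b, hb, hχ, W.lt_χ]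
      _ = W.T.tr ((χ * U) * (W.Om * b)) := W.T.tr_comm _ _ hn
      _ = W.T.tr ((χ * U) * (χ * (W.Om * b))) := by rw [h3]
      _ = _ := by congr 1; noncomm_ring
  have h2 := hD (l 0) (fun k => l (k + 1)) (l 0)
  rw [W.kz_zero, one_mul] at h2
  have h3 : ‖W.T.tr (W.Om * coeff K (W.ev (ls s :: w) l))‖ₑ ≤
      ENNReal.ofReal (D * (‖W.Om‖ * W.Cb) * W.cw (nl w) l) := by
    rw [e1]
    refine (W.T.tr_le _).trans ((W.T.nn_right _ _).trans ?_)
    calc _ ≤ ENNReal.ofReal (D * W.cw (nl w) l) * ENNReal.ofReal (‖W.Om‖ * W.Cb) := by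
          refine mul_le_mul' h2 ?_
          rw [← ofReal_norm]
          refine ENNReal.ofReal_le_ofReal ((norm_mul_le _ _).trans ?_)
          exact mul_le_mul_of_nonneg_left (W.lt_le _ _) (norm_nonneg _)
      _ = _ := by
          rw [← ENNReal.ofReal_mul (mul_nonneg hD0
            (show 0 ≤ W.cw (nl w) l from W.pw_nonneg _ _ _ _))]
          congr 1; ring
  rw [← ofReal_norm] at h3
  exact (ENNReal.ofReal_le_ofReal_iff (mul_nonneg (mul_nonneg hD0
    (mul_nonneg (norm_nonneg _) W.Cb_nonneg)) (W.pw_nonneg _ _ _ _))).1 h3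

/-- main bound -/
theorem WS.bd_w (r : ℕ) : ∀ (w : List Sy), w.length = r → ∀ (v : List Sy) (s : Bool) (k K : ℕ),
    nl (w ++ ls s :: v) = k + 1 → nl w = 0 → W.m * nk (w ++ ls s :: v) ≤ K →
    1 ≤ nk (w ++ ls s :: v) → ∃ D : ℝ, 0 ≤ D ∧ ∀ l : ℕ → Γ × ι,
      ‖W.T.tr (W.Om * coeff K (W.ev (w ++ ls s :: v) l))‖ ≤ D * W.cw k l := by
  induction r with
  | zero =>
    intro w hw v s k K h1 h2 h3 h4
    have : w = [] := List.length_eq_zero_iff.1 hw
    subst this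
    rw [List.nil_append, nl_ls] at h1
    rw [List.nil_append, nk_ls] at h3 h4
    obtain ⟨D, hD0, hD⟩ := W.bd_ls s v K h3 h4
    have : nl v = k := by omega
    subst this
    exact ⟨D, hD0, hD⟩
  | succ r ih =>
    intro w hw v s k K h1 h2 h3 h4
    cases w with
    | nil => simp at hw
    | cons x w =>
      rcases sy_cases x with ⟨b, rfl⟩ | ⟨b, rfl⟩
      · rw [nl_ls] at h2; omega
      · rw [List.cons_append] at h1 h3 h4 ⊢
        rw [nl_ksy] at h1 h2
        rw [nk_ksy] at h3 h4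
        obtain ⟨z, hz, hz2⟩ := W.rotks b (w ++ ls s :: v) (by omega) K h3
        have e1 : nl (w ++ ls s :: (v ++ [ksy b])) = k + 1 := by
          have h5 : nl [ksy b] = 0 := by rw [nl_ksy]; rfl
          rw [nl_append, nl_ls] at h1 ⊢
          rw [nl_append, h5]; omega
        have e2 : nk (w ++ ls s :: (v ++ [ksy b])) = nk (w ++ ls s :: v) + 1 := by
          have h5 : nk [ksy b] = 1 := by rw [nk_ksy]; rfl
          rw [nk_append, nk_ls, nk_append, nk_append, nk_ls, h5]; omega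
        obtain ⟨D, hD0, hD⟩ := ih w (by simpa using hw) (v ++ [ksy b]) s k K e1 h2
          (by rw [e2]; exact h3) (by rw [e2]; omega)
        refine ⟨D, hD0, fun l => ?_⟩
        rw [hz2, norm_mul, hz, one_mul, List.append_assoc, List.cons_append]
        exact hD l

theorem exists_letter (w : List Sy) (hw : 1 ≤ nl w) : ∃ (u v : List Sy) (s : Bool),
    w = u ++ ls s :: v ∧ nl u = 0 := by
  induction w with
  | nil => simp [nl] at hw
  | cons x w ih =>
    rcases sy_cases x with ⟨b, rfl⟩ | ⟨b, rfl⟩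
    · exact ⟨[], w, b, rfl, rfl⟩
    · rw [nl_ksy] at hw
      obtain ⟨u, v, s, h1, h2⟩ := ih hw
      exact ⟨ksy b :: u, v, s, by rw [h1, List.cons_append], by rw [nl_ksy, h2]⟩

/-- main bound -/
theorem WS.bd_ev (w : List Sy) (k K : ℕ) (hw : nl w = k + 1) (hK : W.m * nk w ≤ K)
    (hK1 : 1 ≤ K) : ∃ D : ℝ, 0 ≤ D ∧ ∀ l : ℕ → Γ × ι,
      ‖W.T.tr (W.Om * coeff K (W.ev w l))‖ ≤ D * W.cw k l := by
  by_cases h : 1 ≤ nk w
  · obtain ⟨u, v, s, rfl, h2⟩ := exists_letter w (by omega)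
    exact W.bd_w u.length u rfl v s k K hw h2 hK h
  · refine ⟨0, le_rfl, fun l => ?_⟩
    rw [W.ev_nk0 w (by omega) l K hK1, mul_zero, W.T.tr_zero, norm_zero, zero_mul]

end ev

end Vale.Agent.P223.H316
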