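import Vale.Agent.P223.H316.Exp

/-! The shift `z ↦ z + t` for power series over Banach algebras. -/

namespace Vale.Agent.P223.H316

open PowerSeries

section cf

/-- coefficients of the shift -/
noncomputable def cf (t : ℝ) (i k : ℕ) : ℝ := (i.choose k : ℝ) * t ^ (i - k)

theorem cf_nonneg {t : ℝ} (ht : 0 ≤ t) (i k : ℕ) : 0 ≤ cf t i k :=
  mul_nonneg (Nat.cast_nonneg _) (pow_nonneg ht _)

theorem cf_zero {t : ℝ} {i k : ℕ} (h : i < k) : cf t i k = 0 := by
  rw [cf, Nat.choose_eq_zero_of_lt h]; simp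

theorem cf_vdm (t : ℝ) (i j K : ℕ) :
    ∑ x ∈ Finset.antidiagonal K, cf t i x.1 * cf t j x.2 = cf t (i + j) K := by
  rw [cf, Nat.add_choose_eq]
  push_cast
  rw [Finset.sum_mul]
  refine Finset.sum_congr rfl fun x hx => ?_
  have hx' := Finset.mem_antidiagonal.1 hx
  by_cases h : x.1 ≤ i ∧ x.2 ≤ j
  · rw [cf, cf, show i + j - K = (i - x.1) + (j - x.2) by omega, pow_add]; ring
  · rw [not_and_or, not_le, not_le] at h
    rcases h with h | h
    · rw [cf_zero h, Nat.choose_eq_zero_of_lt h]; simp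
    · rw [cf_zero h, Nat.choose_eq_zero_of_lt h]; simp

theorem cf_succ (t : ℝ) (i k : ℕ) : (k + 1 : ℝ) * cf t (i + 1) (k + 1) = (i + 1 : ℝ) * cf t i k := by
  have h := Nat.add_one_mul_choose_eq i k
  have h' : ((i : ℝ) + 1) * (i.choose k : ℝ) = ((i + 1).choose (k + 1) : ℝ) * (k + 1) := by
    exact_mod_cast h
  rw [cf, cf, show i + 1 - (k + 1) = i - k by omega]
  calc _ = (((i + 1).choose (k + 1) : ℝ) * (k + 1)) * t ^ (i - k) := by ring
    _ = _ := by rw [← h']; ring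

theorem cf_le {t σ : ℝ} (ht : 0 ≤ t) (hσ : 0 ≤ σ) (i k : ℕ) : cf t i k * σ ^ k ≤ (t + σ) ^ i := by
  by_cases h : i < k
  · rw [cf_zero h, zero_mul]; positivity
  · rw [add_comm t, add_pow]
    have h1 : cf t i k * σ ^ k = σ ^ k * t ^ (i - k) * (i.choose k : ℝ) := by rw [cf]; ring
    rw [h1]
    exact Finset.single_le_sum (f := fun m => σ ^ m * t ^ (i - m) * (i.choose m : ℝ))
      (fun m _ => by positivity) (Finset.mem_range.2 (by omega))

end cf

section tsum

/-- pairs of natural numbers, by their sum -/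
def sgE : ((M : ℕ) × Finset.antidiagonal M) ≃ ℕ × ℕ where
  toFun x := x.2.1
  invFun p := ⟨p.1 + p.2, p, Finset.mem_antidiagonal.2 rfl⟩
  left_inv := by
    rintro ⟨M, p, hp⟩
    rw [Finset.mem_antidiagonal] at hp
    subst hp
    rfl
  right_inv _ := rfl

theorem tsum_antidiagonal {E : Type} [NormedAddCommGroup E] [CompleteSpace E] {f : ℕ × ℕ → E}
    (hf : Summable f) : ∑' p, f p = ∑' M, ∑ p ∈ Finset.antidiagonal M, f p := by
  rw [← sgE.tsum_eq f, Summable.tsum_sigma' (f := fun x => f (sgE x))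
    (fun M => Summable.of_finite) (sgE.summable_iff.2 hf)]
  refine tsum_congr fun M => ?_
  rw [tsum_fintype]
  exact Finset.sum_attach (Finset.antidiagonal M) f

end tsum

section shift
variable {B : Type} [NormedRing B] [NormedAlgebra ℂ B]

/-- absolutely convergent power series -/
def Sm (ρ : ℝ) (f : PowerSeries B) : Prop := Summable fun i => ‖coeff i f‖ * ρ ^ i

omit [NormedAlgebra ℂ B] in
theorem Sm.cf {f : PowerSeries B} {ρ t : ℝ} (hf : Sm ρ f) (ht : 0 ≤ t) (h : t < ρ) (k : ℕ) :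
    Summable fun i => cf t i k * ‖coeff i f‖ := by
  have hσ : 0 < ρ - t := by linarith
  refine Summable.of_nonneg_of_le (fun i => mul_nonneg (cf_nonneg ht _ _) (norm_nonneg _))
    (fun i => ?_) (hf.mul_left (((ρ - t) ^ k)⁻¹))
  have h1 := cf_le ht hσ.le i k
  rw [add_sub_cancel] at h1
  have h2 : 0 < (ρ - t) ^ k := pow_pos hσ _
  have h3 : H316.cf t i k ≤ ((ρ - t) ^ k)⁻¹ * ρ ^ i := by
    rw [← div_eq_inv_mul, le_div_iff₀ h2]; exact h1
  calc _ ≤ (((ρ - t) ^ k)⁻¹ * ρ ^ i) * ‖coeff i f‖ :=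
        mul_le_mul_of_nonneg_right h3 (norm_nonneg _)
    _ = _ := by ring

theorem norm_cf_smul {t : ℝ} (ht : 0 ≤ t) (i k : ℕ) (x : B) :
    ‖(cf t i k : ℂ) • x‖ = cf t i k * ‖x‖ := by
  rw [norm_smul, Complex.norm_real, Real.norm_of_nonneg (cf_nonneg ht _ _)]

/-- shift -/
noncomputable def sh (t : ℝ) (f : PowerSeries B) : PowerSeries B :=
  PowerSeries.mk fun k => ∑' i, (cf t i k : ℂ) • coeff i f

theorem coeff_sh (t : ℝ) (f : PowerSeries B) (k : ℕ) :
    coeff k (sh t f) = ∑' i, (cf t i k : ℂ) • coeff i f := by rw [sh, coeff_mk]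

omit [NormedAlgebra ℂ B] in
theorem Sm.mul {f f' : PowerSeries B} {ρ : ℝ} (hρ : 0 ≤ ρ) (hf : Sm ρ f) (hf' : Sm ρ f') :
    Sm ρ (f * f') := by
  have h1 := summable_norm_sum_mul_antidiagonal_of_summable_norm
    (f := fun i => ‖coeff i f‖ * ρ ^ i) (g := fun i => ‖coeff i f'‖ * ρ ^ i) hf.norm hf'.norm
  refine Summable.of_nonneg_of_le (fun i => mul_nonneg (norm_nonneg _) (pow_nonneg hρ _))
    (fun M => ?_) h1
  rw [coeff_mul]
  refine (mul_le_mul_of_nonneg_right (norm_sum_le _ _) (pow_nonneg hρ _)).trans ?_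
  refine le_trans ?_ (le_abs_self _)
  rw [Finset.sum_mul]
  refine Finset.sum_le_sum fun p hp => ?_
  rw [← Finset.mem_antidiagonal.1 hp, pow_add]
  calc _ ≤ (‖coeff p.1 f‖ * ‖coeff p.2 f'‖) * (ρ ^ p.1 * ρ ^ p.2) :=
        mul_le_mul_of_nonneg_right (norm_mul_le _ _) (by positivity)
    _ = _ := by ring

variable [CompleteSpace B]

theorem seq_mul {u v : ℕ → B} {t : ℝ} (s1 : ∀ k, Summable fun i => ‖(cf t i k : ℂ) • u i‖)
    (s2 : ∀ k, Summable fun i => ‖(cf t i k : ℂ) • v i‖) (K : ℕ) :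
    ∑ x ∈ Finset.antidiagonal K, (∑' i, (cf t i x.1 : ℂ) • u i) * (∑' i, (cf t i x.2 : ℂ) • v i) =
      ∑' M, (cf t M K : ℂ) • ∑ p ∈ Finset.antidiagonal M, u p.1 * v p.2 := by
  have s3 : ∀ x ∈ Finset.antidiagonal K, Summable fun p : ℕ × ℕ =>
      ((cf t p.1 x.1 : ℂ) • u p.1) * ((cf t p.2 x.2 : ℂ) • v p.2) := fun x _ =>
    summable_mul_of_summable_norm (f := fun i => (cf t i x.1 : ℂ) • u i)
      (g := fun i => (cf t i x.2 : ℂ) • v i) (s1 x.1) (s2 x.2)
  have e1 : ∀ x ∈ Finset.antidiagonal K,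
      (∑' i, (cf t i x.1 : ℂ) • u i) * (∑' i, (cf t i x.2 : ℂ) • v i) =
      ∑' p : ℕ × ℕ, ((cf t p.1 x.1 : ℂ) • u p.1) * ((cf t p.2 x.2 : ℂ) • v p.2) := fun x _ =>
    tsum_mul_tsum_of_summable_norm (f := fun i => (cf t i x.1 : ℂ) • u i)
      (g := fun i => (cf t i x.2 : ℂ) • v i) (s1 x.1) (s2 x.2)
  have e2 : ∀ p : ℕ × ℕ, ∑ x ∈ Finset.antidiagonal K,
      ((cf t p.1 x.1 : ℂ) • u p.1) * ((cf t p.2 x.2 : ℂ) • v p.2) =
      (cf t (p.1 + p.2) K : ℂ) • (u p.1 * v p.2) := by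
    intro p
    have h1 : (cf t (p.1 + p.2) K : ℂ) =
        ∑ x ∈ Finset.antidiagonal K, (cf t p.1 x.1 : ℂ) * (cf t p.2 x.2 : ℂ) := by
      rw [← cf_vdm]; push_cast; rfl
    rw [h1, Finset.sum_smul]
    exact Finset.sum_congr rfl fun x _ => smul_mul_smul_comm _ _ _ _
  have s4 : Summable fun p : ℕ × ℕ => (cf t (p.1 + p.2) K : ℂ) • (u p.1 * v p.2) :=
    (summable_sum s3).congr e2
  rw [Finset.sum_congr rfl e1, ← Summable.tsum_finsetSum s3, tsum_congr e2, tsum_antidiagonal s4]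
  refine tsum_congr fun M => ?_
  rw [Finset.smul_sum]
  refine Finset.sum_congr rfl fun p hp => ?_
  rw [Finset.mem_antidiagonal.1 hp]

theorem sh_mul {f f' : PowerSeries B} {ρ t : ℝ} (hf : Sm ρ f) (hf' : Sm ρ f') (ht : 0 ≤ t)
    (h : t < ρ) : sh t (f * f') = sh t f * sh t f' := by
  ext K
  have s1 : ∀ k, Summable fun i => ‖(cf t i k : ℂ) • coeff i f‖ := fun k => by
    simp only [norm_cf_smul ht]; exact hf.cf ht h k
  have s2 : ∀ k, Summable fun i => ‖(cf t i k : ℂ) • coeff i f'‖ := fun k => by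
    simp only [norm_cf_smul ht]; exact hf'.cf ht h k
  rw [coeff_mul, coeff_sh]
  simp only [coeff_sh, coeff_mul]
  exact (seq_mul s1 s2 K).symm

theorem sh_dz {f : PowerSeries B} {ρ t : ℝ} (hf : Sm ρ f) (ht : 0 ≤ t)
    (h : t < ρ) : sh t (dz f) = dz (sh t f) := by
  ext k
  rw [coeff_dz, coeff_sh, coeff_sh]
  have s1 : Summable fun i => (cf t i (k + 1) : ℂ) • coeff i f := by
    refine Summable.of_norm ?_
    simp only [norm_cf_smul ht]; exact hf.cf ht h (k + 1)
  rw [s1.tsum_eq_zero_add, cf_zero (Nat.succ_pos k), Complex.ofReal_zero, zero_smul, zero_add,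
    ← ((summable_nat_add_iff 1).2 s1).tsum_const_smul]
  refine tsum_congr fun i => ?_
  rw [coeff_dz, smul_smul, smul_smul]
  congr 1
  have := congrArg (fun r : ℝ => (r : ℂ)) (cf_succ t i k)
  push_cast at this
  rw [this]; ring

omit [CompleteSpace B] in
theorem sh_C (t : ℝ) (x : B) : sh t (C x) = C x := by
  ext k
  rw [coeff_sh, tsum_eq_single 0 fun i hi => by rw [coeff_C, if_neg hi, smul_zero]]
  rw [coeff_C, if_pos rfl, coeff_C]
  by_cases h : k = 0
  · subst h; simp [cf]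
  · rw [if_neg h, cf_zero (Nat.pos_of_ne_zero h)]; simp

omit [NormedAlgebra ℂ B] [CompleteSpace B] in
theorem Sm_C (ρ : ℝ) (x : B) : Sm ρ (C x) := by
  refine summable_of_ne_finset_zero (s := {0}) fun i hi => ?_
  rw [coeff_C, if_neg (by simpa using hi), norm_zero, zero_mul]

/-- `∑ z^j G^(j+1)` -/
noncomputable def gz (G : B) : PowerSeries B := PowerSeries.mk fun j => G ^ (j + 1)

omit [NormedAlgebra ℂ B] [CompleteSpace B] in
theorem Sm_gz {G : B} {ρ : ℝ} (hρ : 0 ≤ ρ) (h : ‖G‖ * ρ < 1) : Sm ρ (gz G) := by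
  have h0 : 0 ≤ ‖G‖ * ρ := mul_nonneg (norm_nonneg _) hρ
  refine Summable.of_nonneg_of_le (fun i => mul_nonneg (norm_nonneg _) (pow_nonneg hρ _))
    (fun i => ?_) ((summable_geometric_of_lt_one h0 h).mul_left ‖G‖)
  rw [gz, coeff_mk, mul_pow, ← mul_assoc, ← pow_succ']
  exact mul_le_mul_of_nonneg_right (norm_pow_le' _ (Nat.succ_pos _)) (pow_nonneg hρ _)

omit [CompleteSpace B] in
theorem dz_gz (G : B) : dz (gz G) = gz G * gz G := by
  ext j
  rw [coeff_dz, coeff_mul]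
  simp only [gz, coeff_mk]
  have h1 : ∀ p ∈ Finset.antidiagonal j, G ^ (p.1 + 1) * G ^ (p.2 + 1) = G ^ (j + 2) := by
    intro p hp
    rw [← pow_add]
    congr 1
    have := Finset.mem_antidiagonal.1 hp
    omega
  rw [Finset.sum_congr rfl h1, Finset.sum_const, Finset.Nat.card_antidiagonal,
    ← Nat.cast_smul_eq_nsmul ℂ]
  push_cast
  rfl

/-- the shift of the resolvent -/
theorem sh_gz {G G' : B} {ρ t : ℝ} (hG : G' = G + (t : ℂ) • (G * G')) (ht : 0 ≤ t) (h : t < ρ)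
    (hρ : ‖G‖ * ρ < 1) : sh t (gz G) = gz G' := by
  have hρ0 : 0 ≤ ρ := ht.trans h.le
  have hs := Sm_gz hρ0 hρ
  have h0 : coeff 0 (sh t (gz G)) = G' := by
    rw [coeff_sh]
    have hn : ‖(t : ℂ) • G‖ < 1 := by
      rw [norm_smul, Complex.norm_real, Real.norm_of_nonneg ht, mul_comm]
      exact (mul_le_mul_of_nonneg_left h.le (norm_nonneg _)).trans_lt hρ
    have h1 := geom_series_mul_neg ((t : ℂ) • G) hn
    have h2 : (1 - (t : ℂ) • G) * G' = G := by
      rw [sub_mul, one_mul, smul_mul_assoc, sub_eq_iff_eq_add]; exact hG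
    have h3 : (∑' i : ℕ, ((t : ℂ) • G) ^ i) * G = G' := by
      calc _ = (∑' i : ℕ, ((t : ℂ) • G) ^ i) * ((1 - (t : ℂ) • G) * G') := by rw [h2]
        _ = G' := by rw [← mul_assoc, h1, one_mul]
    rw [← h3, ← (summable_geometric_of_norm_lt_one hn).tsum_mul_right]
    refine tsum_congr fun i => ?_
    rw [gz, coeff_mk, cf, Nat.choose_zero_right, Nat.cast_one, one_mul, Nat.sub_zero, smul_pow,
      smul_mul_assoc, ← pow_succ]
    push_cast
    rfl
  have h1 : dz (sh t (gz G)) = sh t (gz G) * sh t (gz G) := by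
    rw [← sh_dz hs ht h, dz_gz, sh_mul hs hs ht h]
  have h2 : ∀ k, ∀ j ≤ k, coeff j (sh t (gz G)) = G' ^ (j + 1) := by
    intro k
    induction k with
    | zero => intro j hj; rw [Nat.le_zero.1 hj, h0, zero_add, pow_one]
    | succ k ih =>
      intro j hj
      rcases Nat.lt_or_ge j (k + 1) with hlt | hge
      · exact ih j (by omega)
      · have : j = k + 1 := by omega
        subst this
        have h3 := congrArg (coeff k) h1
        rw [coeff_dz, coeff_mul] at h3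
        have h4 : ∀ p ∈ Finset.antidiagonal k,
            coeff p.1 (sh t (gz G)) * coeff p.2 (sh t (gz G)) = G' ^ (k + 2) := by
          intro p hp
          have := Finset.mem_antidiagonal.1 hp
          rw [ih p.1 (by omega), ih p.2 (by omega), ← pow_add]
          congr 1; omega
        rw [Finset.sum_congr rfl h4, Finset.sum_const, Finset.Nat.card_antidiagonal,
          ← Nat.cast_smul_eq_nsmul ℂ] at h3
        push_cast at h3
        exact smul_right_injective B (show ((k : ℂ) + 1) ≠ 0 by exact_mod_cast Nat.succ_ne_zero k) h3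
  ext k
  rw [h2 k k le_rfl, gz, coeff_mk]

/-- words -/
noncomputable def wz {N : ℕ} (A : Fin N → B) (G : B) : PowerSeries B :=
  (List.ofFn fun i => C (A i) * gz G).prod

omit [NormedAlgebra ℂ B] [CompleteSpace B] in
theorem Sm_wz {N : ℕ} (A : Fin N → B) {G : B} {ρ : ℝ} (hρ : 0 ≤ ρ) (h : ‖G‖ * ρ < 1) :
    Sm ρ (wz A G) := by
  induction N with
  | zero => simp only [wz, List.ofFn_zero, List.prod_nil, ← map_one C]; exact Sm_C _ _
  | succ N ih =>
    rw [wz, List.ofFn_succ, List.prod_cons]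
    exact ((Sm_C _ _).mul hρ (Sm_gz hρ h)).mul hρ (ih fun i => A i.succ)

theorem sh_wz {N : ℕ} (A : Fin N → B) {G G' : B} {ρ t : ℝ} (hG : G' = G + (t : ℂ) • (G * G'))
    (ht : 0 ≤ t) (h : t < ρ) (hρ : ‖G‖ * ρ < 1) : sh t (wz A G) = wz A G' := by
  have hρ0 : 0 ≤ ρ := ht.trans h.le
  induction N with
  | zero => simp only [wz, List.ofFn_zero, List.prod_nil, ← map_one C]; exact sh_C _ _
  | succ N ih =>
    rw [wz, wz, List.ofFn_succ, List.prod_cons, List.ofFn_succ, List.prod_cons]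
    have h1 := Sm_gz hρ0 hρ
    change sh t (C (A 0) * gz G * wz (fun i => A i.succ) G) = _
    rw [sh_mul ((Sm_C _ _).mul hρ0 h1) (Sm_wz (fun i => A i.succ) hρ0 hρ) ht h,
      sh_mul (Sm_C _ _) h1 ht h, sh_C, sh_gz hG ht h hρ]
    congr 1
    exact ih fun i => A i.succ

omit [NormedAlgebra ℂ B] [CompleteSpace B] in
theorem coeff_wz {N : ℕ} (A : Fin N → B) (G : B) (K : ℕ) : coeff K (wz A G) =
    ∑ j ∈ Finset.Nat.antidiagonalTuple N K, (List.ofFn fun i => A i * G ^ (j i + 1)).prod := by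
  induction N generalizing K with
  | zero =>
    rw [wz, List.ofFn_zero, List.prod_nil, coeff_one]
    cases K with
    | zero => simp
    | succ K => simp
  | succ N ih =>
    rw [sum_tuple, wz, List.ofFn_succ, List.prod_cons, mul_assoc, coeff_C_mul, coeff_mul,
      Finset.mul_sum]
    refine Finset.sum_congr rfl fun p _ => ?_
    have e : (List.ofFn fun i : Fin N => C (A i.succ) * gz G).prod = wz (fun i => A i.succ) G := rfl
    rw [e, ih, Finset.mul_sum, Finset.mul_sum]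
    refine Finset.sum_congr rfl fun j _ => ?_
    rw [List.ofFn_succ, List.prod_cons]
    simp only [Fin.cons_zero, Fin.cons_succ, gz, coeff_mk, mul_assoc]

end shift

end Vale.Agent.P223.H316
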