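import Vale.Agent.P223.H316.Cont5

/-! UPPER: words without commutators. -/

namespace Vale.Agent.P223.H316

open Vale.Agent.P223.H566 Vale.Agent.P223.H391

section
variable {B Λ : Type} [Ring B] [Algebra ℂ B]

/-- `g`, `D g`, `D² g` -/
def yk (m : ℝ) (g p : B) : Fin 3 → B := ![g, p, ((m : ℂ) ^ 2) • g - 1]

/-- kernels -/
def xk (m : ℝ) (g p : B) (e : Fin 3) (j : ℕ) : B := yk m g p e * g ^ j

/-- words without commutators -/
def wX (a : Λ → B) {k : ℕ} (X : Fin (k + 1) → B) (l : Fin k → Λ) : B :=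
  X 0 * (List.ofFn fun i : Fin k => a (l i) * X i.succ).prod

omit [Algebra ℂ B] in
theorem wX_succ (a : Λ → B) {k : ℕ} (X : Fin (k + 2) → B) (l : Fin (k + 1) → Λ) :
    wX a X l = X 0 * a (l 0) * wX a (fun i => X i.succ) (fun i => l i.succ) := by
  unfold wX
  rw [List.ofFn_succ, List.prod_cons]
  simp only [mul_assoc]

theorem sum_cons {M : Type} [AddCommMonoid M] {k : ℕ} (f : (Fin (k + 1) → Fin 3) → M) :
    ∑ e, f e = ∑ e' : Fin k → Fin 3, (f (Fin.cons 0 e') + f (Fin.cons 1 e') +
      f (Fin.cons 2 e')) := by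
  rw [← (Fin.consEquiv fun _ : Fin (k + 1) => Fin 3).sum_comp f, Fintype.sum_prod_type_right]
  refine Finset.sum_congr rfl fun e' _ => ?_
  rw [Fin.sum_univ_three]
  rfl

/-- expansion of a word with commutators -/
theorem expand {m : ℝ} {g p : B} {a h : Λ → B} (hgp : g * p = p * g)
    (hg : ∀ l, g * h l * g = p * a l * g - g * a l * p)
    (hp : ∀ l, p * h l * g = (((m : ℂ) ^ 2) • g - 1) * a l * g - p * a l * p) (k : ℕ) :
    ∃ c₀ c₁ : (Fin (k + 1) → Fin 3) → ℂ, (∀ e, ‖c₀ e‖ ≤ 1) ∧ (∀ e, ‖c₁ e‖ ≤ 1) ∧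
      ∀ (j : Fin (k + 1) → ℕ) (l : Fin k → Λ),
      g ^ (j 0 + 1) * (List.ofFn fun i : Fin k => h (l i) * g ^ (j i.succ + 1)).prod =
        ∑ e, c₀ e • wX a (fun i => xk m g p (e i) (j i)) l ∧
      p * g ^ (j 0) * (List.ofFn fun i : Fin k => h (l i) * g ^ (j i.succ + 1)).prod =
        ∑ e, c₁ e • wX a (fun i => xk m g p (e i) (j i)) l := by
  have hc : ∀ j : ℕ, g ^ j * p = p * g ^ j := fun j =>
    ((show Commute g p from hgp).pow_left j).eq
  induction k with
  | zero =>
    refine ⟨fun e => if e 0 = 0 then 1 else 0, fun e => if e 0 = 1 then 1 else 0, fun e => ?_,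
      fun e => ?_, fun j l => ⟨?_, ?_⟩⟩
    · dsimp only; split_ifs <;> simp
    · dsimp only; split_ifs <;> simp
    · rw [sum_cons]
      simp [wX, xk, yk, pow_succ']
    · rw [sum_cons]
      simp [wX, xk, yk]
  | succ k ih =>
    obtain ⟨c₀, c₁, h0, h1, hw⟩ := ih
    refine ⟨fun e => if e 0 = 0 then -c₁ (Fin.tail e) else if e 0 = 1 then c₀ (Fin.tail e) else 0,
      fun e => if e 0 = 1 then -c₁ (Fin.tail e) else if e 0 = 2 then c₀ (Fin.tail e) else 0,
      fun e => ?_, fun e => ?_, fun j l => ?_⟩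
    · dsimp only; split_ifs
      · rw [norm_neg]; exact h1 _
      · exact h0 _
      · simp
    · dsimp only; split_ifs
      · rw [norm_neg]; exact h1 _
      · exact h0 _
      · simp
    · obtain ⟨w0, w1⟩ := hw (fun i => j i.succ) (fun i => l i.succ)
      set Y := g ^ (j (Fin.succ 0)) *
        (List.ofFn fun i : Fin k => h (l i.succ) * g ^ (j i.succ.succ + 1)).prod with hY
      have e0 : g * Y = ∑ e, c₀ e • wX a (fun i => xk m g p (e i) (j i.succ))
          (fun i => l i.succ) := by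
        rw [← w0, hY, pow_succ']; simp only [mul_assoc]
      have e1 : p * Y = ∑ e, c₁ e • wX a (fun i => xk m g p (e i) (j i.succ))
          (fun i => l i.succ) := by
        rw [← w1, hY]; simp only [mul_assoc]
      have e2 : (List.ofFn fun i : Fin (k + 1) => h (l i) * g ^ (j i.succ + 1)).prod =
          h (l 0) * (g * Y) := by
        rw [List.ofFn_succ, List.prod_cons, hY, pow_succ']; simp only [mul_assoc]
      have t0 : g ^ (j 0 + 1) * (h (l 0) * (g * Y)) =
          xk m g p 1 (j 0) * a (l 0) * (g * Y) - xk m g p 0 (j 0) * a (l 0) * (p * Y) := by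
        calc _ = g ^ (j 0) * (g * h (l 0) * g) * Y := by rw [pow_succ]; simp only [mul_assoc]
          _ = (g ^ j 0 * p) * a (l 0) * (g * Y) - (g ^ j 0 * g) * a (l 0) * (p * Y) := by
            rw [hg, mul_sub, sub_mul]; simp only [mul_assoc]
          _ = _ := by
            rw [hc, ← pow_succ, pow_succ']; rfl
      have t1 : p * g ^ j 0 * (h (l 0) * (g * Y)) =
          xk m g p 2 (j 0) * a (l 0) * (g * Y) - xk m g p 1 (j 0) * a (l 0) * (p * Y) := by
        have hc2 : g ^ j 0 * (((m : ℂ) ^ 2) • g - 1) = (((m : ℂ) ^ 2) • g - 1) * g ^ j 0 := by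
          rw [mul_sub, sub_mul, mul_smul_comm, smul_mul_assoc, ← pow_succ, ← pow_succ', mul_one,
            one_mul]
        calc _ = g ^ (j 0) * (p * h (l 0) * g) * Y := by rw [← hc]; simp only [mul_assoc]
          _ = (g ^ j 0 * (((m : ℂ) ^ 2) • g - 1)) * a (l 0) * (g * Y) -
              (g ^ j 0 * p) * a (l 0) * (p * Y) := by
            rw [hp, mul_sub, sub_mul]; simp only [mul_assoc]
          _ = _ := by rw [hc, hc2]; rfl
      have hx : ∀ (x : Fin 3) (e : Fin (k + 1) → Fin 3),
          wX a (fun i => xk m g p ((Fin.cons x e : Fin (k + 2) → Fin 3) i) (j i)) l =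
          xk m g p x (j 0) * a (l 0) * wX a (fun i => xk m g p (e i) (j i.succ))
            (fun i => l i.succ) := by
        intro x e
        rw [wX_succ]
        simp only [Fin.cons_zero, Fin.cons_succ]
      refine ⟨?_, ?_⟩
      · conv_rhs => rw [sum_cons]
        rw [e2, t0, e0, e1, Finset.mul_sum, Finset.mul_sum, ← Finset.sum_sub_distrib]
        refine Finset.sum_congr rfl fun e _ => ?_
        rw [hx, hx, hx]
        simp only [Fin.cons_zero, Fin.tail_cons, if_true, one_ne_zero, if_false, neg_smul,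
          mul_smul_comm]
        have h20 : (2 : Fin 3) ≠ 0 := by decide
        have h21 : (2 : Fin 3) ≠ 1 := by decide
        rw [if_neg h20, if_neg h21, zero_smul]
        abel
      · conv_rhs => rw [sum_cons]
        rw [e2, t1, e0, e1, Finset.mul_sum, Finset.mul_sum, ← Finset.sum_sub_distrib]
        refine Finset.sum_congr rfl fun e _ => ?_
        rw [hx, hx, hx]
        have h20 : (2 : Fin 3) ≠ 1 := by decide
        have h21 : (0 : Fin 3) ≠ 1 := by decide
        have h22 : (0 : Fin 3) ≠ 2 := by decide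
        simp only [Fin.cons_zero, Fin.tail_cons, if_true, if_neg h20, if_neg h21, if_neg h22,
          neg_smul, mul_smul_comm, zero_smul]
        abel

end

/-- the relations -/
theorem Alg.phg {n : ℕ} {Γ ι H : Type} [Group Γ] [NormedAddCommGroup H]
    [InnerProductSpace ℂ H] {a h : Γ × ι → H →L[ℂ] H} {W g p : H →L[ℂ] H}
    {m : ℝ} (hA : H566.Alg n m a h W g p) (l : Γ × ι) :
    p * h l * g = (((m : ℂ) ^ 2) • g - 1) * a l * g - p * a l * p := by
  have h1 := Alg.pap hA l
  have h2 := hA.ag l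
  have e2 : g * a l = a l * g + (p * h l * g + g * h l * p) := by
    have : g * a l = a l * g - (a l * g - g * a l) := by abel
    rw [this, h2]; abel
  rw [h1, sub_mul, sub_mul, smul_mul_assoc, smul_mul_assoc, one_mul, e2]
  abel

end Vale.Agent.P223.H316
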