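import Vale.Agent.P223.H316.Up1

/-! UPPER: nested bounds with a sharp nuclear norm. -/

namespace Vale.Agent.P223.H316

open scoped InnerProductSpace
open Vale.Agent.P223.H566 Vale.Agent.P223.H391

section
variable {H : Type} [NormedAddCommGroup H] [InnerProductSpace ℂ H]

theorem row_single {Λ : Type} [DecidableEq Λ] (S : Sup H) (x : Λ) :
    S.Row (fun l => if l = x then (1 : H →L[ℂ] H) else 0) 1 := by
  intro T c u hc hu
  have e : ∑ l ∈ T, (if l = x then (1 : H →L[ℂ] H) else 0) (u l) = if x ∈ T then u x else 0 := by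
    rw [← Finset.sum_ite_eq' T x u]
    refine Finset.sum_congr rfl fun l _ => ?_
    split_ifs <;> simp
  rw [e, one_mul]
  split_ifs with hx
  · exact hu x hx
  · exact S.zero c hc

variable {Γ ι : Type} [Group Γ]

theorem upper_word [Fintype ι] (S : Sup H) (R : TrI (H →L[ℂ] H)) {n : ℕ}
    (A : Fin (n + 1) → Γ × ι → H →L[ℂ] H) (X : Fin (n + 1) → H →L[ℂ] H) (q : Fin (n + 1) → ℝ)
    (hq : ∀ i, 0 ≤ q i) (hA : ∀ i, S.Row (A i) 1) (hX : ∀ i, S.Op (X i) (q i))
    (p : Fin (n + 1)) (Y GJ : H →L[ℂ] H) (hXp : X p = Y * GJ) (hY : S.Op Y (q p))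
    (hnuc : ∀ l, R.nuc (A p l * X p)) (χ : ι → H →L[ℂ] H)
    (hχ : ∀ i, χ i * A (p + 1) (1, i) = A (p + 1) (1, i)) (hnχ : ∀ i, R.nuc (GJ * χ i))
    (C : ι → ℝ) (hNB : ∀ i, S.NB R.tr (GJ * A (p + 1) (1, i)) (C i))
    (hinv : ∀ (γ : Γ) l, ‖R.tr (H391.word A X (H391.tl γ l))‖ = ‖R.tr (H391.word A X l)‖)
    (T : Finset (Fin (n + 1) → Γ × ι)) (hT : ∀ l ∈ T, (l 0).1 = 1) :
    ∑ l ∈ T, ‖R.tr (H391.word A X l)‖ ≤ (∑ i, C i) * ∏ i, q i := by
  classical
  -- change of the base point
  let mv : (Fin (n + 1) → Γ × ι) → Fin (n + 1) → Γ × ι := fun l => H391.tl ((l (p + 1)).1)⁻¹ l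
  have hinj : Set.InjOn mv T := by
    intro l hl l' hl' h
    have h0 := congrArg Prod.fst (congrFun h 0)
    simp only [mv, H391.tl, hT l hl, hT l' hl', mul_one, inv_inj] at h0
    funext i
    have hi := congrFun h i
    simp only [mv, H391.tl, h0, Prod.mk.injEq, mul_right_inj] at hi
    exact Prod.ext hi.1 hi.2
  have h1 : ∑ l ∈ T, ‖R.tr (H391.word A X l)‖ = ∑ l ∈ T.image mv, ‖R.tr (H391.word A X l)‖ := by
    rw [Finset.sum_image hinj]
    exact Finset.sum_congr rfl fun l _ => (hinv _ _).symm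
  have hT1 : ∀ l ∈ T.image mv, (l (p + 1)).1 = 1 := by
    intro l hl
    obtain ⟨l', _, rfl⟩ := Finset.mem_image.1 hl
    simp [mv, H391.tl]
  rw [h1, ← Finset.sum_fiberwise (T.image mv) (fun l => (l (p + 1)).2), Finset.sum_mul]
  refine Finset.sum_le_sum fun i _ => ?_
  set T' := (T.image mv).filter fun l => (l (p + 1)).2 = i with hT'
  have hT2 : ∀ l ∈ T', l (p + 1) = (1, i) := by
    intro l hl
    have := Finset.mem_filter.1 hl
    exact Prod.ext (hT1 l this.1) this.2
  -- the rotated word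
  let σ : (Fin (n + 1) → Γ × ι) → Fin (n + 1) → Γ × ι := fun l k => l (k + (p + 1))
  let A₁ : Fin (n + 1) → Γ × ι → H →L[ℂ] H := fun k => A (k + (p + 1))
  let X₂ : Fin (n + 1) → H →L[ℂ] H := fun k => if k = Fin.last n then Y else X (k + (p + 1))
  let A₃ : Fin (n + 1) → Γ × ι → H →L[ℂ] H := fun k =>
    if k = 0 then fun l => if l = (1, i) then 1 else 0 else A₁ k
  have hlast : (Fin.last n + (p + 1) : Fin (n + 1)) = p := by
    rw [add_comm p 1, ← add_assoc, Fin.last_add_one, zero_add]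
  have h2 : ∀ l ∈ T', R.tr (H391.word A X l) =
      R.tr (H391.word A₃ X₂ (σ l) * (GJ * A (p + 1) (1, i))) := by
    intro l hl
    have hr := R.rot (fun k => A k (l k) * X k) p (hnuc _)
    have e1 : H391.word A X l = (List.ofFn fun k => A k (l k) * X k).prod := rfl
    have e2 : (List.ofFn fun k : Fin (n + 1) => A (k + (p + 1)) (l (k + (p + 1))) *
        X (k + (p + 1))).prod = H391.word A₁ X₂ (σ l) * GJ := by
      change H391.word A₁ (fun k => X (k + (p + 1))) (σ l) = _
      refine word_last _ _ _ _ _ (fun k hk => ?_) ?_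
      · simp only [X₂, if_neg hk]
      · simp only [hlast, X₂, if_true]
        exact hXp
    rw [e2] at hr
    have e0 : σ l 0 = (1, i) := by
      simp only [σ, zero_add]
      exact hT2 l hl
    have e3 : H391.word A₁ X₂ (σ l) = A (p + 1) (1, i) * H391.word A₃ X₂ (σ l) := by
      rw [word_succ, word_succ, e0]
      simp only [A₃, A₁, if_true, one_mul, zero_add, mul_assoc]
      congr 2
    rw [e1, hr.2, e3]
    have hn := hr.1
    rw [e3] at hn
    set b := A (p + 1) (1, i) with hb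
    set Z := H391.word A₃ X₂ (σ l) with hZ
    calc R.tr (b * Z * GJ) = R.tr (χ i * (b * Z * GJ)) := by
          rw [← mul_assoc (χ i), ← mul_assoc (χ i), hχ]
      _ = R.tr (b * Z * GJ * χ i) := R.comm _ _ hn
      _ = R.tr (b * (Z * (GJ * χ i))) := by simp only [mul_assoc]
      _ = R.tr (Z * (GJ * χ i) * b) := R.comm _ _ (R.left _ _ (hnχ i))
      _ = R.tr (Z * (GJ * (χ i * b))) := by simp only [mul_assoc]
      _ = _ := by rw [hχ]
  rw [Finset.sum_congr rfl fun l hl => by rw [h2 l hl]]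
  refine hNB i (Fin (n + 1) → Γ × ι) T' (fun l => H391.word A₃ X₂ (σ l)) _
    (Finset.prod_nonneg fun i _ => hq i) fun c d u v hc hd hu hv => ?_
  have hσ : Function.Injective σ := by
    intro l l' h
    funext k
    have := congrFun h (k - (p + 1))
    simpa only [σ, sub_add_cancel] using this
  have h3 := S.nest_sum (A := A₃) (X := X₂) (L := 1) (q := fun k => q (k + (p + 1)))
    zero_le_one (fun k => hq _) (fun k => by
      by_cases hk : k = 0
      · simp only [A₃, if_pos hk]; exact row_single S (1, i)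
      · simp only [A₃, if_neg hk]; exact hA _) (fun k => by
      by_cases hk : k = Fin.last n
      · simp only [X₂, if_pos hk]; rw [hk, hlast]; exact hY
      · simp only [X₂, if_neg hk]; exact hX _) (T'.image σ) hc hu hv
  rw [Finset.sum_image hσ.injOn] at h3
  refine h3.trans (le_of_eq ?_)
  rw [one_pow, one_mul]
  congr 1
  exact Fintype.prod_equiv (Equiv.addRight (p + 1)) (fun k => q (k + (p + 1))) q fun k => rfl

end

end Vale.Agent.P223.H316
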