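import Vale.Agent.P223.H316.Up2
import Vale.Agent.P223.H66.S2

/-! UPPER: sharp nuclear bound, rows of a nonnegative partition of unity. -/

namespace Vale.Agent.P223.H316

open scoped ContDiff InnerProductSpace Topology
open MeasureTheory Filter Vale.Agent.P223.H Vale.Agent.P223.X Vale.Agent.P223.H566
  Vale.Agent.P223.H391

theorem one_pos' {X : Type} : ∀ _ : X, (0 : ℝ) < 1 := fun _ => one_pos

theorem nb_left {H : Type} [NormedAddCommGroup H] [InnerProductSpace ℂ H] {S : Sup H}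
    {tr : (H →L[ℂ] H) → ℂ} {D W : H →L[ℂ] H} {C : ℝ} (h : S.NB tr D C) (hW : S.Op W 1) :
    S.NB tr (W * D) C := by
  intro κ T F R hR hF
  have := h κ T (fun k => F k * W) R hR (fun c d u v hc hd hu hv => by
    have h2 := hW c u hc hu
    rw [one_mul] at h2
    exact hF c d (W u) v hc hd h2 hv)
  simpa only [mul_assoc] using this

section
variable {n : ℕ} {M X Γ I V H : Type} [TopologicalSpace M] [TopologicalSpace X]
  [Group Γ] [MulAction Γ X] [Fintype I] [T2Space X] [ConnectedSpace X] [T2Space M]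
  [MeasurableSpace X] [BorelSpace X] [NormedAddCommGroup V] [InnerProductSpace ℂ V]
  [FiniteDimensional ℂ V] [NormedAddCommGroup H] [InnerProductSpace ℂ H] [CompleteSpace H]

/-- sharp nuclear bound -/
theorem nb_sharp (hI : SpecIntS) (hT : H66.SpecTrB) (c : Ctx n M X Γ I V H) (hn : 1 ≤ n)
    {χ₀ : X → ℝ} (hχ : c.C.Ck ∞ χ₀) (hs : HasCompactSupport χ₀) (h0 : ∀ x, 0 ≤ χ₀ x)
    {a' GJ k' : H →L[ℂ] H} (ha' : ∀ φ, a' (c.E.e φ) = c.E.e (c.S.mC χ₀ hχ φ))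
    {κ : X → ℝ} (hκ : c.C.Ck ∞ κ) (hκ0 : ∀ x, 0 ≤ κ x) (hκ1 : ∀ x, κ x ≤ 1)
    (hk' : ∀ φ, k' (c.E.e φ) = c.E.e (c.S.mC κ hκ φ)) (hka : k' * a' = a')
    (hnuc : ∃ b, Nuc (GJ * k') b) {kap : ℝ} (hk0 : 0 ≤ kap)
    (hker : ∀ φ ψ : Core c.S, ‖⟪c.E.e φ, GJ (c.E.e ψ)⟫_ℂ‖ ≤
      kap * (∫ x, nm c.C (φ : Raw Γ I n V) x ∂c.μ) * ∫ x, nm c.C (ψ : Raw Γ I n V) x ∂c.μ) :
    (supW c.E (fun _ => 1) one_pos').NB (trI H).tr (GJ * a')
      (Module.finrank ℂ V * kap * ∫ x, χ₀ x ∂c.μ) := by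
  intro ι T F R hR hF
  have e0 : GJ * a' = GJ * k' * a' := by rw [mul_assoc, hka]
  have hD : (trI H).nuc (GJ * a') := by
    rw [e0]; exact (trI H).right _ _ hnuc
  choose z hz1 hz2 using fun k : ι => exists_phase ((trI H).tr (F k * (GJ * a')))
  set D₀ : H →L[ℂ] H := ∑ k ∈ T, z k • (F k * (GJ * k')) with hD₀
  have hn0 : ∀ k, ∃ b, Nuc (F k * (GJ * k')) b := fun k => (trI H).left _ _ hnuc
  choose b hb using hn0
  choose b' hb' using fun k => (trI H).left (F k) _ hD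
  have hDn : Nuc D₀ (∑ k ∈ T, ‖z k‖ * b k) :=
    (nuc_fsum T _ _ fun k _ => ((H691.specTC H).2.2.1 _ _ (z k) (hb k)).1).1
  have hDa : D₀ * a' = ∑ k ∈ T, z k • (F k * (GJ * a')) := by
    rw [hD₀, Finset.sum_mul]
    refine Finset.sum_congr rfl fun k _ => ?_
    rw [smul_mul_assoc, mul_assoc, mul_assoc GJ k', hka]
  have htr : trH (D₀ * a') = ((∑ k ∈ T, ‖(trI H).tr (F k * (GJ * a'))‖ : ℝ) : ℂ) := by
    rw [hDa, (nuc_fsum T _ _ fun k _ => ((H691.specTC H).2.2.1 _ _ (z k) (hb' k)).1).2,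
      Complex.ofReal_sum]
    refine Finset.sum_congr rfl fun k _ => ?_
    rw [((H691.specTC H).2.2.1 _ _ (z k) (hb' k)).2]
    exact hz2 k
  have hker' : ∀ φ ψ : Core c.S, ‖⟪c.E.e φ, D₀ (c.E.e ψ)⟫_ℂ‖ ≤
      (R * kap) * (∫ x, nm c.C (φ : Raw Γ I n V) x ∂c.μ) *
        ∫ x, nm c.C (ψ : Raw Γ I n V) x ∂c.μ := by
    intro φ ψ
    set Iφ := ∫ x, nm c.C (φ : Raw Γ I n V) x ∂c.μ with hIφ
    set Iψ := ∫ x, nm c.C (ψ : Raw Γ I n V) x ∂c.μ with hIψ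
    have nnφ : ∀ φ : Core c.S, 0 ≤ ∫ x, nm c.C (φ : Raw Γ I n V) x ∂c.μ := fun φ =>
      integral_nonneg fun x => nm_nonneg _ _
    set ψ' := c.S.mC κ hκ ψ with hψ'
    have hint : ∀ φ : Core c.S, Integrable (fun x => nm c.C (φ : Raw Γ I n V) x) c.μ := by
      intro φ
      have := integrable_nm hI hn c.vol (w := fun _ => (1 : ℝ)) continuous_const φ
      simpa only [one_mul] using this
    have hle : ∫ x, nm c.C (ψ' : Raw Γ I n V) x ∂c.μ ≤ Iψ := by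
      refine integral_mono (hint _) (hint _) fun x => ?_
      change nm c.C (mulR c.C κ (ψ : Raw Γ I n V)) x ≤ _
      rw [nm_mul, abs_of_nonneg (hκ0 x)]
      calc κ x * nm c.C (ψ : Raw Γ I n V) x ≤ 1 * nm c.C (ψ : Raw Γ I n V) x :=
            mul_le_mul_of_nonneg_right (hκ1 x) (nm_nonneg _ _)
        _ = _ := one_mul _
    have hu : (supW c.E (fun _ => 1) one_pos').SB (kap * Iψ) (GJ (c.E.e ψ')) := by
      intro φ'
      have h1 := hker φ' ψ'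
      rw [← inner_conj_symm, RCLike.norm_conj]
      refine h1.trans ?_
      simp only [one_mul]
      calc kap * (∫ x, nm c.C (φ' : Raw Γ I n V) x ∂c.μ) *
            (∫ x, nm c.C (ψ' : Raw Γ I n V) x ∂c.μ)
          ≤ kap * (∫ x, nm c.C (φ' : Raw Γ I n V) x ∂c.μ) * Iψ :=
            mul_le_mul_of_nonneg_left hle (mul_nonneg hk0 (nnφ φ'))
        _ = _ := by ring
    have hv := pb_core c.E (fun _ => (1 : ℝ)) one_pos' φ
    simp only [one_mul] at hv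
    have h2 := hF (kap * Iψ) Iφ (GJ (c.E.e ψ')) (c.E.e φ) (mul_nonneg hk0 (nnφ ψ)) (nnφ φ) hu hv
    have h3 : ⟪c.E.e φ, D₀ (c.E.e ψ)⟫_ℂ =
        ∑ k ∈ T, z k * ⟪c.E.e φ, F k (GJ (c.E.e ψ'))⟫_ℂ := by
      rw [hD₀, sum_apply, inner_sum]
      refine Finset.sum_congr rfl fun k _ => ?_
      rw [smul_apply, inner_smul_right, mul_apply_eq_comp, mul_apply_eq_comp, hk']
    rw [h3]
    calc ‖∑ k ∈ T, z k * ⟪c.E.e φ, F k (GJ (c.E.e ψ'))⟫_ℂ‖
        ≤ ∑ k ∈ T, ‖z k * ⟪c.E.e φ, F k (GJ (c.E.e ψ'))⟫_ℂ‖ := norm_sum_le _ _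
      _ ≤ ∑ k ∈ T, ‖⟪c.E.e φ, F k (GJ (c.E.e ψ'))⟫_ℂ‖ := Finset.sum_le_sum fun k _ => by
          rw [norm_mul]
          exact (mul_le_mul_of_nonneg_right (hz1 k) (norm_nonneg _)).trans (one_mul _).le
      _ ≤ R * (kap * Iψ * Iφ) := h2
      _ = R * kap * Iφ * Iψ := by ring
  have hfin := hT n M X Γ I V H c χ₀ hχ D₀ a' _ (R * kap) hn hs h0 ha' hDn
    (mul_nonneg hR hk0) hker'
  rw [htr, Complex.norm_real, Real.norm_of_nonneg (Finset.sum_nonneg fun _ _ => norm_nonneg _)]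
    at hfin
  refine hfin.trans (le_of_eq ?_)
  ring

/-- the functions of a nonnegative partition of unity -/
theorem fn_sum {C : Cov n M X Γ I} {ι : Type} [Fintype ι] (P : PUX C ι)
    (hP : ∀ i x, 0 ≤ P.φ i x) (T : Finset (Γ × ι)) (x : X) : ∑ l ∈ T, |P.fn l x| ≤ 1 := by
  classical
  have h0 : ∀ l x, 0 ≤ P.fn l x := fun l x => hP _ _
  have hf : ∀ i, (Function.support fun γ : Γ => P.φ i (γ⁻¹ • x)).Finite := by
    intro i
    have hfin := properX C (isCompact_singleton (x := x)) (P.supp i).isCompact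
    refine (hfin.inv).subset fun γ hγ => ?_
    exact Set.mem_inv.2 ⟨x, Set.mem_singleton x, subset_tsupport _ hγ⟩
  rw [← P.sum x]
  have h1 : ∀ i, ∑ᶠ γ : Γ, P.φ i (γ⁻¹ • x) = ∑ γ ∈ (hf i).toFinset, P.φ i (γ⁻¹ • x) := fun i =>
    finsum_eq_sum _ (hf i)
  simp only [h1]
  set U : Finset Γ := Finset.univ.biUnion fun i => (hf i).toFinset with hU
  have h2 : ∀ i, ∑ γ ∈ (hf i).toFinset, P.φ i (γ⁻¹ • x) =
      ∑ γ ∈ U ∪ T.image Prod.fst, P.φ i (γ⁻¹ • x) := by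
    intro i
    refine Finset.sum_subset (fun γ hγ => Finset.mem_union_left _ (Finset.mem_biUnion.2
      ⟨i, Finset.mem_univ _, hγ⟩)) fun γ _ hγ => ?_
    by_contra hne
    exact hγ ((Set.Finite.mem_toFinset _).2 hne)
  rw [Finset.sum_congr rfl fun i _ => h2 i, Finset.sum_comm, ← Finset.sum_product']
  calc ∑ l ∈ T, |P.fn l x| = ∑ l ∈ T, P.φ l.2 (l.1⁻¹ • x) :=
        Finset.sum_congr rfl fun l _ => abs_of_nonneg (h0 l x)
    _ ≤ _ := by
        refine Finset.sum_le_sum_of_subset_of_nonneg (fun l hl => ?_) fun l _ _ => hP _ _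
        exact Finset.mem_product.2 ⟨Finset.mem_union_right _ (Finset.mem_image_of_mem _ hl),
          Finset.mem_univ _⟩

end

end Vale.Agent.P223.H316
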