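import Vale.Agent.P223.H316.Up3

/-! UPPER: words in `W a, a, …, a`. -/

namespace Vale.Agent.P223.H316

open scoped ContDiff InnerProductSpace Topology
open MeasureTheory Filter Vale.Agent.P223.H Vale.Agent.P223.X Vale.Agent.P223.H566
  Vale.Agent.P223.H391

section
variable {H Γ ι : Type} [NormedAddCommGroup H] [InnerProductSpace ℂ H] [Group Γ]
  {n : ℕ} {m : ℝ} {a h : Γ × ι → H →L[ℂ] H} {W g p : H →L[ℂ] H}

omit [Group Γ] in
theorem word_wX (X : Fin (n + 1) → H →L[ℂ] H) (l : Fin (n + 1) → Γ × ι) :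
    H391.word (lt n a a W) X l = W * a (l 0) * wX a X (fun i => l i.succ) := by
  rw [word_succ]
  simp only [wX, lt, H391.word, Fin.cases_zero, Fin.cases_succ, mul_assoc]

theorem wd_expand (hA : Alg n m a h W g p) : ∃ c₀ : (Fin (n + 1) → Fin 3) → ℂ,
    (∀ e, ‖c₀ e‖ ≤ 1) ∧ ∀ (j : Fin (n + 1) → ℕ) (l : Fin (n + 1) → Γ × ι),
      H391.wd (lt n a h W) g (fun i => j i + 1) l =
        ∑ e, c₀ e • H391.word (lt n a a W) (fun i => xk m g p (e i) (j i)) l := by
  have hg : ∀ l, g * h l * g = p * a l * g - g * a l * p := fun l => (hA.pag l).symm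
  obtain ⟨c₀, c₁, h0, -, hw⟩ := expand hA.gp.symm.symm hg (Alg.phg hA) n
  refine ⟨c₀, h0, fun j l => ?_⟩
  have h1 := (hw j (fun i => l i.succ)).1
  have h2 : H391.wd (lt n a h W) g (fun i => j i + 1) l = W * a (l 0) *
      (g ^ (j 0 + 1) * (List.ofFn fun i : Fin n => h (l i.succ) * g ^ (j i.succ + 1)).prod) := by
    rw [← wrd_eq]
    simp only [wrd, mul_assoc]
  rw [h2, h1, Finset.mul_sum]
  refine Finset.sum_congr rfl fun e _ => ?_
  rw [word_wX, mul_smul_comm]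

/-- the kernels commute with the powers of `g` -/
theorem yk_comm (hgp : g * p = p * g) (e : Fin 3) (j : ℕ) :
    yk m g p e * g ^ j = g ^ j * yk m g p e := by
  have h1 : Commute (yk m g p e) g := by
    fin_cases e
    · exact Commute.refl g
    · exact (show Commute g p from hgp).symm
    · change Commute (((m : ℂ) ^ 2) • g - 1) g
      exact ((Commute.refl g).smul_left _).sub_left (Commute.one_left g)
  exact (h1.pow_right j).eq

theorem xk_split {e : Fin 3} {j J : ℕ} (hJ : J ≤ j) :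
    xk m g p e j = xk m g p e (j - J) * g ^ J := by
  unfold xk
  rw [mul_assoc, ← pow_add, Nat.sub_add_cancel hJ]

/-- commutation with operators -/
theorem xk_comm {τ : H →L[ℂ] H} (hg : τ * g = g * τ) (hp : τ * p = p * τ) (e : Fin 3) (j : ℕ) :
    τ * xk m g p e j = xk m g p e j * τ := by
  have h1 : Commute τ (yk m g p e) := by
    fin_cases e
    · exact hg
    · exact hp
    · change Commute τ (((m : ℂ) ^ 2) • g - 1)
      exact ((show Commute τ g from hg).smul_right _).sub_right (Commute.one_right τ)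
  exact (h1.mul_right ((show Commute τ g from hg).pow_right j)).eq

variable [CompleteSpace H]

theorem inv_word (hA : Alg n m a h W g p) {X : Fin (n + 1) → H →L[ℂ] H}
    (hX : ∀ i (τ : H →L[ℂ] H), τ * g = g * τ → τ * p = p * τ → τ * X i = X i * τ)
    {q : Fin (n + 1)} (l : Fin (n + 1) → Γ × ι)
    (hnuc : (trI H).nuc (lt n a a W q (l q) * X q)) (γ : Γ) :
    (trI H).tr (H391.word (lt n a a W) X (H391.tl γ l)) =
      (trI H).tr (H391.word (lt n a a W) X l) := by
  obtain ⟨τ, τ', h1, -, h2, h3, h4⟩ := hA.tr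
  have hXc : ∀ i, X i = τ γ * X i * τ' γ := by
    intro i
    rw [hX i (τ γ) (h4 γ).1 (h4 γ).2.1, mul_assoc, (h1 γ).1, mul_one]
  have ha : ∀ l : Γ × ι, a (γ * l.1, l.2) = τ γ * a l * τ' γ := by
    intro l
    rw [h2, mul_assoc, (h1 γ).1, mul_one]
  have hlt : ∀ (i : Fin (n + 1)) (l : Γ × ι), lt n a a W i (γ * l.1, l.2) =
      τ γ * lt n a a W i l * τ' γ := by
    intro i l
    refine Fin.cases ?_ (fun i => ?_) i
    · change W * a (γ * l.1, l.2) = τ γ * (W * a l) * τ' γ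
      rw [ha, ← mul_assoc, ← mul_assoc, ← mul_assoc, (h4 γ).2.2]
    · exact ha l
  have e1 : H391.word (lt n a a W) X (H391.tl γ l) =
      τ γ * H391.word (lt n a a W) X l * τ' γ := by
    unfold H391.word
    rw [← prod_conj (h1 γ).1 (h1 γ).2]
    congr 1
    congr 1
    funext i
    change lt n a a W i (γ * (l i).1, (l i).2) * X i =
      τ γ * (lt n a a W i (l i) * X i) * τ' γ
    rw [hlt]
    conv_lhs => rw [hXc i]
    simp only [mul_assoc]
    rw [← mul_assoc (τ' γ) (τ γ), (h1 γ).2, one_mul]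
  have e2 : (trI H).nuc (H391.word (lt n a a W) X l) := by
    refine (trI H).prod_mem (x := lt n a a W q (l q) * X q) ?_ hnuc
    exact (List.mem_ofFn' _ _).2 ⟨q, rfl⟩
  rw [e1, mul_assoc, (trI H).comm _ _ ((trI H).right _ _ e2), mul_assoc, (h1 γ).2, mul_one]

end

section
variable {n : ℕ} {M X Γ I : Type} [TopologicalSpace M] [TopologicalSpace X] [Group Γ]
    [MulAction Γ X] {V : Type} [NormedAddCommGroup V] [InnerProductSpace ℂ V]
    {C : Cov n M X Γ I} {G : I → E n → Matrix (Fin n) (Fin n) ℝ} {K : Cliff n V}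
    [MeasurableSpace X] {S : SpX C G K} {μ : Measure X} {H : Type} [NormedAddCommGroup H]
    [InnerProductSpace ℂ H] [T2Space X]

theorem W_sq (E : Emb S μ H) {ι : Type} [Fintype ι] {P : PUX C ι}
    {a h : Γ × ι → H →L[ℂ] H} {W : H →L[ℂ] H} (hO : OpA E P a h W) :
    ∃ W' : H →L[ℂ] H, W' * W = 1 := by
  obtain ⟨s, hs, h1⟩ := vol_sq K
  refine ⟨(s : ℂ) • W, ext_core E fun φ => ?_⟩
  rw [smul_mul_assoc, smul_apply, mul_apply_eq_comp, hO.W_e, hO.W_e, ← map_smul, one_apply_eq_self]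
  congr 1
  refine Subtype.ext ?_
  funext γ i y
  change (s : ℂ) • K.vol (K.vol ((φ : Raw Γ I n V) γ i y)) = (φ : Raw Γ I n V) γ i y
  have h2 : K.vol (K.vol ((φ : Raw Γ I n V) γ i y)) = (s : ℂ) • ((φ : Raw Γ I n V) γ i y) := by
    have := congrArg (fun L : V →L[ℂ] V => L ((φ : Raw Γ I n V) γ i y)) h1
    simp only [mul_apply_eq_comp] at this
    rw [this, ← Int.cast_smul_eq_zsmul ℂ]
    rfl
  rw [h2, smul_smul]
  rcases hs with rfl | rfl <;> simp

omit [T2Space X] in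
theorem op_yk (E : Emb S μ H) {g p : H →L[ℂ] H} {m qg qp Q : ℝ}
    (hg : (supW E (fun _ => 1) one_pos').Op g qg) (hp : (supW E (fun _ => 1) one_pos').Op p qp)
    (h1 : qg ≤ Q) (h2 : qp ≤ Q) (h3 : m ^ 2 * qg + 1 ≤ Q) (e : Fin 3) :
    (supW E (fun _ => 1) one_pos').Op (yk m g p e) Q := by
  intro b u hb hu
  fin_cases e
  · exact (supW E (fun _ => 1) one_pos').mono _ _ _ (mul_le_mul_of_nonneg_right h1 hb)
      (hg b u hb hu)
  · exact (supW E (fun _ => 1) one_pos').mono _ _ _ (mul_le_mul_of_nonneg_right h2 hb)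
      (hp b u hb hu)
  · intro φ
    change ‖⟪(((m : ℂ) ^ 2) • g - 1) u, E.e φ⟫_ℂ‖ ≤ _
    have hi : 0 ≤ ∫ x, 1 * nm C (φ : Raw Γ I n V) x ∂μ :=
      integral_nonneg fun x => mul_nonneg zero_le_one (nm_nonneg _ _)
    have a1 := hg b u hb hu φ
    have a2 := hu φ
    simp only [sub_apply, smul_apply, one_apply_eq_self, inner_sub_left, inner_smul_left]
    refine (norm_sub_le _ _).trans ?_
    rw [norm_mul]
    have a3 : ‖(starRingEnd ℂ) ((m : ℂ) ^ 2)‖ = m ^ 2 := by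
      rw [RCLike.norm_conj, norm_pow, Complex.norm_real, Real.norm_eq_abs, sq_abs]
    rw [a3]
    calc m ^ 2 * ‖⟪g u, E.e φ⟫_ℂ‖ + ‖⟪u, E.e φ⟫_ℂ‖
        ≤ m ^ 2 * (qg * b * ∫ x, 1 * nm C (φ : Raw Γ I n V) x ∂μ) +
          b * ∫ x, 1 * nm C (φ : Raw Γ I n V) x ∂μ :=
          add_le_add (mul_le_mul_of_nonneg_left a1 (sq_nonneg m)) a2
      _ = (m ^ 2 * qg + 1) * (b * ∫ x, 1 * nm C (φ : Raw Γ I n V) x ∂μ) := by ring
      _ ≤ Q * (b * ∫ x, 1 * nm C (φ : Raw Γ I n V) x ∂μ) :=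
          mul_le_mul_of_nonneg_right h3 (mul_nonneg hb hi)
      _ = _ := by ring

end

end Vale.Agent.P223.H316
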