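import Vale.Agent.P223.H316.Up4

/-! UPPER: bound for the Taylor coefficients at a fixed mass. -/

namespace Vale.Agent.P223.H316

open scoped ContDiff InnerProductSpace Topology
open MeasureTheory Filter Vale.Agent.P223.H Vale.Agent.P223.X Vale.Agent.P223.H566
  Vale.Agent.P223.H391

section
variable {H Γ ι : Type} [NormedAddCommGroup H] [InnerProductSpace ℂ H] [CompleteSpace H]
  [Group Γ] {n : ℕ} {m : ℝ} {a h : Γ × ι → H →L[ℂ] H} {W g p : H →L[ℂ] H}

omit [Group Γ] in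
/-- trace of a word with commutators -/
theorem tr_wd_le {c₀ : (Fin (n + 1) → Fin 3) → ℂ}
    (hc : ∀ e, ‖c₀ e‖ ≤ 1) {j : Fin (n + 1) → ℕ} {l : Fin (n + 1) → Γ × ι}
    (hw : H391.wd (lt n a h W) g (fun i => j i + 1) l =
        ∑ e, c₀ e • H391.word (lt n a a W) (fun i => xk m g p (e i) (j i)) l)
    {q : Fin (n + 1)} (hnuc : ∀ e : Fin 3, (trI H).nuc (lt n a a W q (l q) * xk m g p e (j q))) :
    ‖trH (H391.wd (lt n a h W) g (fun i => j i + 1) l)‖ ≤
      ∑ e : Fin (n + 1) → Fin 3, ‖(trI H).tr (H391.word (lt n a a W)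
        (fun i => xk m g p (e i) (j i)) l)‖ := by
  have h1 : ∀ e : Fin (n + 1) → Fin 3, ∃ b, Nuc (H391.word (lt n a a W)
      (fun i => xk m g p (e i) (j i)) l) b := by
    intro e
    refine (trI H).prod_mem (x := lt n a a W q (l q) * xk m g p (e q) (j q)) ?_ (hnuc _)
    exact (List.mem_ofFn' _ _).2 ⟨q, rfl⟩
  choose b hb using h1
  rw [hw, (nuc_fsum Finset.univ _ _ fun e _ => ((H691.specTC H).2.2.1 _ _ (c₀ e) (hb e)).1).2]
  refine (norm_sum_le _ _).trans (Finset.sum_le_sum fun e _ => ?_)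
  rw [((H691.specTC H).2.2.1 _ _ (c₀ e) (hb e)).2, norm_mul]
  exact (mul_le_mul_of_nonneg_right (hc e) (norm_nonneg _)).trans (one_mul _).le

end

/-- UPPER -/
theorem upper (hB : Blk) (hT : H66.SpecTrB) (n : ℕ) (M X Γ I V H : Type) [TopologicalSpace M]
    [TopologicalSpace X]
    [Group Γ] [MulAction Γ X] [Fintype I] [T2Space X] [ConnectedSpace X] [T2Space M]
    [MeasurableSpace X] [BorelSpace X] [NormedAddCommGroup V] [InnerProductSpace ℂ V]
    [FiniteDimensional ℂ V] [NormedAddCommGroup H] [InnerProductSpace ℂ H] [CompleteSpace H]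
    (c : Ctx n M X Γ I V H) (ι : Type) [Fintype ι] (P : PUX c.C ι) (a h : Γ × ι → H →L[ℂ] H)
    (W : H →L[ℂ] H) (F : (Fin (n + 1) → Γ) → ℝ) (hn : 1 ≤ n) (hO : OpA c.E P a h W)
    (hF : Coc F) (hP : ∀ i x, 0 ≤ P.φ i x) {m : ℝ} {g p : H →L[ℂ] H} (hm : 1 ≤ m)
    (hR : Rsv c.E m g p) (hnuc : ∀ q l k, n ≤ k → ∃ b, Nuc (lt n a h W q l * g ^ k) b)
    {J : ℕ} (hJ : n ≤ J) {qg qp Q kap : ℝ}
    (hg : (supW c.E (fun _ => 1) one_pos').Op g qg)
    (hp : (supW c.E (fun _ => 1) one_pos').Op p qp) (hQ0 : 1 ≤ Q) (hQ1 : qg ≤ Q)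
    (hQ2 : qp ≤ Q) (hQ3 : m ^ 2 * qg + 1 ≤ Q) (hk0 : 0 ≤ kap)
    (hker : ∀ φ ψ : Core c.S, ‖⟪c.E.e φ, (g ^ J) (c.E.e ψ)⟫_ℂ‖ ≤
      kap * (∫ x, nm c.C (φ : Raw Γ I n V) x ∂c.μ) * ∫ x, nm c.C (ψ : Raw Γ I n V) x ∂c.μ)
    {K : ℕ} (hK : (n + 1) * J ≤ K) :
    ‖rK a h W g F K‖ ≤ ((K : ℝ) + 1) ^ (n + 1) * 3 ^ (n + 1) * Q ^ (K + (n + 1)) *
      (Module.finrank ℂ V * kap * ∑ i, ∫ x, P.φ i x ∂c.μ) := by
  classical
  have hQ : 0 ≤ Q := zero_le_one.trans hQ0
  set S := supW c.E (fun _ => (1 : ℝ)) one_pos' with hS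
  have hA := hB.hAlg n M X Γ I V H c ι P a h W g p m hn (by linarith) hO hR
  -- cutoffs
  choose κ hκ1 hκ2 hκ3 hκ4 hκ5 using fun i : ι => exists_cut c.C (K := tsupport (P.φ i))
    (P.supp i).isCompact
  obtain ⟨k₁, -, -, -, hk₁, -⟩ := hB.hDecA n M X Γ I V H c ι κ hn ⟨hκ1, hκ2, hκ3, hκ4⟩
  have e1 : ∀ f : X → ℝ, (fun x : X => f ((1 : Γ)⁻¹ • x)) = f := fun f => by
    funext x; rw [inv_one, one_smul]
  have hκe : ∀ (i : ι) φ, k₁ (1, i) (c.E.e φ) = c.E.e (c.S.mC (κ i) (hκ1 i) φ) := by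
    intro i φ
    have hl : c.C.Ck ∞ (fun x => κ i ((1 : Γ)⁻¹ • x)) := by rw [e1]; exact hκ1 i
    rw [hk₁.k_e (1, i) hl φ]
    congr 1
    refine Subtype.ext ?_
    funext γ j y
    change ((κ i ((1 : Γ)⁻¹ • γ • c.C.ψ j y) : ℝ) : ℂ) • _ = ((κ i (γ • c.C.ψ j y) : ℝ) : ℂ) • _
    rw [inv_one, one_smul]
  have hae : ∀ (i : ι) φ, a (1, i) (c.E.e φ) = c.E.e (c.S.mC (P.φ i) (hO.sm i) φ) := by
    intro i φ
    rw [hO.a_e _ (ck_fn hO.sm (1, i))]
    congr 1
    refine Subtype.ext ?_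
    funext γ j y
    change ((P.φ i ((1 : Γ)⁻¹ • γ • c.C.ψ j y) : ℝ) : ℂ) • _ =
      ((P.φ i (γ • c.C.ψ j y) : ℝ) : ℂ) • _
    rw [inv_one, one_smul]
  have hka : ∀ i : ι, k₁ (1, i) * a (1, i) = a (1, i) := by
    intro i
    refine ext_core c.E fun φ => ?_
    rw [mul_apply_eq_comp, hae, hκe]
    congr 1
    refine Subtype.ext ?_
    funext γ j y
    exact mul_cut (hκ5 i) (fun x hx => image_eq_zero_of_notMem_tsupport hx) _ _ _ _
  have hnk : ∀ i, ∃ b, Nuc (g ^ J * k₁ (1, i)) b := by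
    intro i
    obtain ⟨α, mα, ν, u, v, hu, hv, hint, hrep, -⟩ := hB.hPW n M X Γ I V H c (κ i) (hκ1 i)
      (k₁ (1, i)) J m g p hn (hκ2 i) (hκe i) (by omega) hm hR
    exact ⟨_, α, mα, ν, u, v, hu, hv, hint, le_rfl, hrep⟩
  -- the sharp bound
  set Ci : ι → ℝ := fun i => Module.finrank ℂ V * kap * ∫ x, P.φ i x ∂c.μ with hCi
  have hCi0 : ∀ i, 0 ≤ Ci i := fun i => mul_nonneg (mul_nonneg (Nat.cast_nonneg _) hk0)
    (integral_nonneg fun x => hP i x)
  have hNB : ∀ i, S.NB (trI H).tr (g ^ J * a (1, i)) (Ci i) := fun i =>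
    nb_sharp hB.hI hT c hn (hO.sm i) (P.supp i) (hP i) (hae i) (hκ1 i) (hκ3 i) (hκ4 i) (hκe i)
      (hka i) (hnk i) hk0 hker
  have hWJ : g ^ J * W = W * g ^ J := ((show Commute W g from hA.Wg).pow_right J).eq.symm
  have hNB' : ∀ (q : Fin (n + 1)) (i : ι),
      S.NB (trI H).tr (g ^ J * lt n a a W q (1, i)) (Ci i) := by
    intro q i
    refine Fin.cases ?_ (fun q => ?_) q
    · change S.NB (trI H).tr (g ^ J * (W * a (1, i))) (Ci i)
      rw [← mul_assoc, hWJ, mul_assoc]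
      exact nb_left (hNB i) (op_W hB.hL c.E one_pos' hO)
    · exact hNB i
  -- rows
  have hrow : ∀ i, S.Row (lt n a a W i) 1 := by
    have h1 : S.Row a 1 := by
      refine row_core hB.hI hn c.vol c.E continuous_const one_pos'
        (A' := fun l => c.S.mC (P.fn l) (ck_fn hO.sm l))
        (fun l φ => hO.a_e l _ φ) 1 (by simp) (fun l φ ψ => ?_) (b := fun l x => |P.fn l x|)
        (fun l φ x => le_of_eq (nm_mul _ _ _)) (fun T x => fn_sum P hP T x)
      rw [one_mul]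
      exact integral_congr_ae (Filter.Eventually.of_forall fun x => hp_mul _ _ _ x)
    intro i
    refine Fin.cases ?_ (fun i => h1) i
    have := h1.mul (op_W hB.hL c.E one_pos' hO) zero_le_one
    rwa [one_mul] at this
  -- nuclear operators
  obtain ⟨W', hW'⟩ := W_sq c.E hO
  have hna : ∀ q l k, n ≤ k → (trI H).nuc (lt n a a W q l * g ^ k) := by
    intro q l k hk
    have h0 : (trI H).nuc (W * a l * g ^ k) := hnuc 0 l k hk
    refine Fin.cases h0 (fun q => ?_) q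
    change (trI H).nuc (a l * g ^ k)
    have h1 : a l * g ^ k = W' * (W * a l * g ^ k) := by
      rw [← mul_assoc, ← mul_assoc, hW', one_mul]
    rw [h1]
    exact (trI H).left _ _ h0
  have hnx : ∀ (q : Fin (n + 1)) l (e : Fin 3) (k : ℕ), n ≤ k →
      (trI H).nuc (lt n a a W q l * xk m g p e k) := by
    intro q l e k hk
    unfold xk
    rw [yk_comm hA.gp, ← mul_assoc]
    exact (trI H).right _ _ (hna q l k hk)
  -- the kernels
  have hqy := fun e => op_yk (m := m) c.E hg hp hQ1 hQ2 hQ3 e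
  have hgQ : S.Op g Q := hqy 0
  have hxk : ∀ (e : Fin 3) (j : ℕ), S.Op (xk m g p e j) (Q ^ (j + 1)) := by
    intro e j
    rw [pow_succ']
    exact (hqy e).mul (hgQ.pow hQ j) (pow_nonneg hQ j)
  -- the estimate for given exponents
  set B : ℝ := (∑ i, Ci i) * Q ^ (K + (n + 1)) with hBd
  have hB0 : 0 ≤ B := mul_nonneg (Finset.sum_nonneg fun i _ => hCi0 i) (pow_nonneg hQ _)
  have key : ∀ j ∈ Finset.Nat.antidiagonalTuple (n + 1) K, ∀ e : Fin (n + 1) → Fin 3,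
      ∀ T : Finset {l : Fin (n + 1) → Γ × ι // (l 0).1 = 1},
      ∑ l ∈ T, ‖(trI H).tr (H391.word (lt n a a W) (fun i => xk m g p (e i) (j i)) l.1)‖ ≤ B := by
    intro j hj e T
    have hj' := Finset.Nat.mem_antidiagonalTuple.1 hj
    obtain ⟨q, hq⟩ := exists_large (m := J) j (by rw [hj']; exact hK)
    have h1 := upper_word S (trI H) (lt n a a W) (fun i => xk m g p (e i) (j i))
      (fun i => Q ^ (j i + 1)) (fun i => pow_nonneg hQ _) hrow (fun i => hxk _ _) q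
      (xk m g p (e q) (j q - J)) (g ^ J) (xk_split hq) (fun b u hb hu =>
        S.mono _ _ _ (mul_le_mul_of_nonneg_right (pow_le_pow_right₀ hQ0 (by omega)) hb)
          (hxk (e q) (j q - J) b u hb hu))
      (fun l => hnx q l (e q) (j q) (hJ.trans hq)) (fun i => k₁ (1, i)) (fun i => ?_)
      (fun i => hnk i) Ci (fun i => hNB' (q + 1) i) (fun γ l => by
        rw [inv_word hA (fun i τ h1 h2 => xk_comm h1 h2 _ _) (q := q) l
          (hnx q _ _ _ (hJ.trans hq)) γ])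
      (T.map ⟨Subtype.val, Subtype.val_injective⟩) (fun l hl => by
        obtain ⟨l', _, rfl⟩ := Finset.mem_map.1 hl
        exact l'.2)
    · rw [Finset.sum_map] at h1
      refine h1.trans (le_of_eq ?_)
      rw [Finset.prod_pow_eq_pow_sum, Finset.sum_add_distrib, hj', hBd]
      simp
    · generalize q + 1 = q'
      refine Fin.cases ?_ (fun q => ?_) q'
      · change k₁ (1, i) * (W * a (1, i)) = W * a (1, i)
        rw [hA.Wa, ← mul_assoc, hka]
      · exact hka i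
  -- sums over labels
  obtain ⟨c₀, hc₀, hw⟩ := wd_expand hA
  have hfin : ∀ T : Finset {l : Fin (n + 1) → Γ × ι // (l 0).1 = 1},
      ∑ l ∈ T, ‖(F (fun i => (l.1 i).1) : ℂ) * tk (lt n a h W) g K l.1‖ ≤
        ((K : ℝ) + 1) ^ (n + 1) * 3 ^ (n + 1) * B := by
    intro T
    have h1 : ∀ l : {l : Fin (n + 1) → Γ × ι // (l 0).1 = 1},
        ‖(F (fun i => (l.1 i).1) : ℂ) * tk (lt n a h W) g K l.1‖ ≤
        ∑ j ∈ Finset.Nat.antidiagonalTuple (n + 1) K, ∑ e : Fin (n + 1) → Fin 3,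
          ‖(trI H).tr (H391.word (lt n a a W) (fun i => xk m g p (e i) (j i)) l.1)‖ := by
      intro l
      rw [norm_mul, Complex.norm_real]
      refine (mul_le_mul_of_nonneg_right (hF.bdd _) (norm_nonneg _)).trans ?_
      rw [one_mul]
      unfold tk
      refine (norm_sum_le _ _).trans (Finset.sum_le_sum fun j hj => ?_)
      have hj' := Finset.Nat.mem_antidiagonalTuple.1 hj
      obtain ⟨q, hq⟩ := exists_large (m := J) j (by rw [hj']; exact hK)
      exact tr_wd_le hc₀ (hw j l.1) (q := q) fun e => hnx q _ e (j q) (hJ.trans hq)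
    refine (Finset.sum_le_sum fun l _ => h1 l).trans ?_
    rw [Finset.sum_comm]
    calc ∑ j ∈ Finset.Nat.antidiagonalTuple (n + 1) K, ∑ l ∈ T, ∑ e : Fin (n + 1) → Fin 3,
          ‖(trI H).tr (H391.word (lt n a a W) (fun i => xk m g p (e i) (j i)) l.1)‖
        ≤ ∑ j ∈ Finset.Nat.antidiagonalTuple (n + 1) K, 3 ^ (n + 1) * B := by
          refine Finset.sum_le_sum fun j hj => ?_
          rw [Finset.sum_comm]
          refine (Finset.sum_le_sum fun e _ => key j hj e T).trans (le_of_eq ?_)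
          rw [Finset.sum_const, nsmul_eq_mul, Finset.card_univ, Fintype.card_fun,
            Fintype.card_fin, Fintype.card_fin]
          push_cast
          ring
      _ = ((Finset.Nat.antidiagonalTuple (n + 1) K).card : ℝ) * (3 ^ (n + 1) * B) := by
          rw [Finset.sum_const, nsmul_eq_mul]
      _ ≤ (((K + 1) ^ (n + 1) : ℕ) : ℝ) * (3 ^ (n + 1) * B) := by
          refine mul_le_mul_of_nonneg_right ?_ (by positivity)
          exact_mod_cast card_comp_le (n + 1) K _ fun j hj =>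
            Finset.Nat.mem_antidiagonalTuple.1 hj
      _ = _ := by push_cast; ring
  rw [rK_tk]
  have hsum := summable_of_sum_le (f := fun l : {l : Fin (n + 1) → Γ × ι // (l 0).1 = 1} =>
    ‖(F (fun i => (l.1 i).1) : ℂ) * tk (lt n a h W) g K l.1‖) (fun _ => norm_nonneg _) hfin
  refine ((norm_tsum_le_tsum_norm hsum).trans (hsum.tsum_le_of_sum_le hfin)).trans (le_of_eq ?_)
  rw [hBd, hCi, ← Finset.mul_sum]
  ring

end Vale.Agent.P223.H316
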