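import Vale.Agent.P223.H316.Up5

/-! UPPER with a weight: sharp nuclear bound. -/

namespace Vale.Agent.P223.H316

open scoped ContDiff InnerProductSpace Topology
open MeasureTheory Filter Vale.Agent.P223.H Vale.Agent.P223.X Vale.Agent.P223.H566
  Vale.Agent.P223.H391

section
variable {n : ℕ} {M X Γ I V H : Type} [TopologicalSpace M] [TopologicalSpace X]
  [Group Γ] [MulAction Γ X] [Fintype I] [T2Space X] [ConnectedSpace X] [T2Space M]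
  [MeasurableSpace X] [BorelSpace X] [NormedAddCommGroup V] [InnerProductSpace ℂ V]
  [FiniteDimensional ℂ V] [NormedAddCommGroup H] [InnerProductSpace ℂ H] [CompleteSpace H]

omit [Fintype I] [T2Space X] [ConnectedSpace X] [T2Space M] [BorelSpace X]
  [FiniteDimensional ℂ V] [CompleteSpace H] in
/-- multiplication operators are symmetric -/
theorem mul_symm (c : Ctx n M X Γ I V H) {f : X → ℝ} (hf : c.C.Ck ∞ f) {A : H →L[ℂ] H}
    (hA : ∀ φ, A (c.E.e φ) = c.E.e (c.S.mC f hf φ)) (u : H) (φ : Core c.S) :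
    ⟪c.E.e φ, A u⟫_ℂ = ⟪c.E.e (c.S.mC f hf φ), u⟫_ℂ := by
  have h1 := sym_core c.E (A := A) (A' := c.S.mC f hf) hA (s := 1) (fun φ ψ => by
    rw [one_mul]
    exact integral_congr_ae (Filter.Eventually.of_forall fun x => hp_mul _ _ _ x)) u φ
  rw [← inner_conj_symm, h1, one_mul, inner_conj_symm]

/-- trace bound with a weight -/
theorem trB_w (hT : H66.SpecTrB) (c : Ctx n M X Γ I V H) (hn : 1 ≤ n)
    {w : X → ℝ} (hw : c.C.Ck ∞ w) (hwp : ∀ x, 0 < w x) {bw : ℝ}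
    (hwb : ∀ x, w x ≤ bw ∧ (w x)⁻¹ ≤ bw) {χ₀ : X → ℝ} (hχ : c.C.Ck ∞ χ₀)
    (hs : HasCompactSupport χ₀) (h0 : ∀ x, 0 ≤ χ₀ x) {a' D : H →L[ℂ] H}
    (ha' : ∀ φ, a' (c.E.e φ) = c.E.e (c.S.mC χ₀ hχ φ)) {b β : ℝ} (hD : Nuc D b) (hβ : 0 ≤ β)
    (hker : ∀ φ ψ : Core c.S, ‖⟪c.E.e φ, D (c.E.e ψ)⟫_ℂ‖ ≤
      β * (∫ x, w x * nm c.C (φ : Raw Γ I n V) x ∂c.μ) *
        ∫ x, w x * nm c.C (ψ : Raw Γ I n V) x ∂c.μ) :
    ‖trH (D * a')‖ ≤ Module.finrank ℂ V * β * ∫ x, w x ^ 2 * χ₀ x ∂c.μ := by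
  have hwi : c.C.Ck ∞ (fun x => (w x)⁻¹) := fun γ i => (hw γ i).inv fun y => (hwp _).ne'
  have hχ' : c.C.Ck ∞ (fun x => w x ^ 2 * χ₀ x) := fun γ i => ((hw γ i).pow 2).mul (hχ γ i)
  obtain ⟨Mw, hMw, -⟩ := Emb.mul_op c.E c.vol hw (c := bw) (fun x => by
    rw [abs_of_pos (hwp x)]; exact (hwb x).1)
  obtain ⟨Mi, hMi, -⟩ := Emb.mul_op c.E c.vol hwi (c := bw) (fun x => by
    rw [abs_of_pos (inv_pos.2 (hwp x))]; exact (hwb x).2)
  have e1 : Mi * Mw = 1 := by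
    refine ext_core c.E fun φ => ?_
    rw [mul_apply_eq_comp, hMw, hMi, one_apply_eq_self]
    congr 1
    refine Subtype.ext ?_
    funext γ j y
    change (((w (γ • c.C.ψ j y))⁻¹ : ℝ) : ℂ) • ((w (γ • c.C.ψ j y) : ℂ) •
      (φ : Raw Γ I n V) γ j y) = (φ : Raw Γ I n V) γ j y
    rw [smul_smul, ← Complex.ofReal_mul, inv_mul_cancel₀ (hwp _).ne', Complex.ofReal_one, one_smul]
  have e2 : Mw * Mi = 1 := by
    refine ext_core c.E fun φ => ?_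
    rw [mul_apply_eq_comp, hMi, hMw, one_apply_eq_self]
    congr 1
    refine Subtype.ext ?_
    funext γ j y
    change ((w (γ • c.C.ψ j y) : ℝ) : ℂ) • ((((w (γ • c.C.ψ j y))⁻¹ : ℝ) : ℂ) •
      (φ : Raw Γ I n V) γ j y) = (φ : Raw Γ I n V) γ j y
    rw [smul_smul, ← Complex.ofReal_mul, mul_inv_cancel₀ (hwp _).ne', Complex.ofReal_one, one_smul]
  have hk : ∀ φ, (Mw * a' * Mw) (c.E.e φ) = c.E.e (c.S.mC _ hχ' φ) := by
    intro φ
    rw [mul_apply_eq_comp, mul_apply_eq_comp, hMw, ha', hMw]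
    congr 1
    refine Subtype.ext ?_
    funext γ j y
    change ((w (γ • c.C.ψ j y) : ℝ) : ℂ) • (((χ₀ (γ • c.C.ψ j y) : ℝ) : ℂ) •
      (((w (γ • c.C.ψ j y) : ℝ) : ℂ) • (φ : Raw Γ I n V) γ j y)) =
      ((w (γ • c.C.ψ j y) ^ 2 * χ₀ (γ • c.C.ψ j y) : ℝ) : ℂ) • (φ : Raw Γ I n V) γ j y
    rw [smul_smul, smul_smul]
    congr 1
    push_cast
    ring
  have hN := ((H691.specTC H).1 D Mi Mi b hD).1
  have hint : ∀ φ : Core c.S, ∫ x, w x * nm c.C (c.S.mC _ hwi φ : Raw Γ I n V) x ∂c.μ =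
      ∫ x, nm c.C (φ : Raw Γ I n V) x ∂c.μ := by
    intro φ
    refine integral_congr_ae (Filter.Eventually.of_forall fun x => ?_)
    change w x * nm c.C (mulR c.C (fun x => (w x)⁻¹) (φ : Raw Γ I n V)) x = _
    rw [nm_mul, abs_of_pos (inv_pos.2 (hwp x)), mul_inv_cancel_left₀ (hwp x).ne']
  have h1 := hT n M X Γ I V H c _ hχ' (Mi * D * Mi) (Mw * a' * Mw) _ β hn hs.mul_left
    (fun x => mul_nonneg (sq_nonneg _) (h0 x)) hk hN hβ (fun φ ψ => by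
      rw [mul_apply_eq_comp, mul_apply_eq_comp, mul_symm c hwi hMi, hMi]
      refine (hker _ _).trans (le_of_eq ?_)
      rw [hint, hint])
  have h2 : Mi * D * Mi * (Mw * a' * Mw) = Mi * (D * a' * Mw) := by
    calc Mi * D * Mi * (Mw * a' * Mw) = Mi * (D * (Mi * Mw) * a' * Mw) := by
          simp only [mul_assoc]
      _ = _ := by rw [e1, mul_one]
  have h3 : (trI H).nuc (D * a' * Mw) := (trI H).right _ _ ((trI H).right _ _ ⟨_, hD⟩)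
  have h4 : trH (Mi * (D * a' * Mw)) = trH (D * a') := by
    have := (trI H).comm Mi _ h3
    change trH (Mi * (D * a' * Mw)) = trH (D * a' * Mw * Mi) at this
    rw [this, mul_assoc (D * a'), e2, mul_one]
  rw [h2, h4] at h1
  exact h1

/-- sharp nuclear bound -/
theorem nb_sharpW (hI : SpecIntS) (hT : H66.SpecTrB) (c : Ctx n M X Γ I V H) (hn : 1 ≤ n)
    {w : X → ℝ} (hw : c.C.Ck ∞ w) (hwp : ∀ x, 0 < w x) {bw : ℝ}
    (hwb : ∀ x, w x ≤ bw ∧ (w x)⁻¹ ≤ bw)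
    {χ₀ : X → ℝ} (hχ : c.C.Ck ∞ χ₀) (hs : HasCompactSupport χ₀) (h0 : ∀ x, 0 ≤ χ₀ x)
    {a' GJ k' : H →L[ℂ] H} (ha' : ∀ φ, a' (c.E.e φ) = c.E.e (c.S.mC χ₀ hχ φ))
    {κ : X → ℝ} (hκ : c.C.Ck ∞ κ) (hκ0 : ∀ x, 0 ≤ κ x) (hκ1 : ∀ x, κ x ≤ 1)
    (hk' : ∀ φ, k' (c.E.e φ) = c.E.e (c.S.mC κ hκ φ)) (hka : k' * a' = a')
    (hnuc : ∃ b, Nuc (GJ * k') b) {kap : ℝ} (hk0 : 0 ≤ kap)
    (hker : ∀ φ ψ : Core c.S, ‖⟪c.E.e φ, GJ (c.E.e ψ)⟫_ℂ‖ ≤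
      kap * (∫ x, w x * nm c.C (φ : Raw Γ I n V) x ∂c.μ) *
        ∫ x, w x * nm c.C (ψ : Raw Γ I n V) x ∂c.μ) :
    (supW c.E w hwp).NB (trI H).tr (GJ * a')
      (Module.finrank ℂ V * kap * ∫ x, w x ^ 2 * χ₀ x ∂c.μ) := by
  intro ι T F R hR hF
  have hwc : Continuous w := Ck_continuous c.C fun γ i => (hw γ i).of_le (by simp)
  have e0 : GJ * a' = GJ * k' * a' := by rw [mul_assoc, hka]
  have hD : (trI H).nuc (GJ * a') := by
    rw [e0]; exact (trI H).right _ _ hnuc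
  choose z hz1 hz2 using fun k : ι => exists_phase ((trI H).tr (F k * (GJ * a')))
  set D₀ : H →L[ℂ] H := ∑ k ∈ T, z k • (F k * (GJ * k')) with hD₀
  have hn0 : ∀ k, ∃ b, Nuc (F k * (GJ * k')) b := fun k => (trI H).left _ _ hnuc
  choose b hb using hn0
  choose b' hb' using fun k => (trI H).left (F k) _ hD
  have hDn : Nuc D₀ (∑ k ∈ T, ‖z k‖ * b k) :=
    (nuc_fsum T _ _ fun k _ => ((H691.specTC H).2.2.1 _ _ (z k) (hb k)).1).1
  have hDa : D₀ * a' = ∑ k ∈ T, z k • (F k * (GJ * a')) := by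
    rw [hD₀, Finset.sum_mul]
    refine Finset.sum_congr rfl fun k _ => ?_
    rw [smul_mul_assoc, mul_assoc, mul_assoc GJ k', hka]
  have htr : trH (D₀ * a') = ((∑ k ∈ T, ‖(trI H).tr (F k * (GJ * a'))‖ : ℝ) : ℂ) := by
    rw [hDa, (nuc_fsum T _ _ fun k _ => ((H691.specTC H).2.2.1 _ _ (z k) (hb' k)).1).2,
      Complex.ofReal_sum]
    refine Finset.sum_congr rfl fun k _ => ?_
    rw [((H691.specTC H).2.2.1 _ _ (z k) (hb' k)).2]
    exact hz2 k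
  have hker' : ∀ φ ψ : Core c.S, ‖⟪c.E.e φ, D₀ (c.E.e ψ)⟫_ℂ‖ ≤
      (R * kap) * (∫ x, w x * nm c.C (φ : Raw Γ I n V) x ∂c.μ) *
        ∫ x, w x * nm c.C (ψ : Raw Γ I n V) x ∂c.μ := by
    intro φ ψ
    set Iφ := ∫ x, w x * nm c.C (φ : Raw Γ I n V) x ∂c.μ with hIφ
    set Iψ := ∫ x, w x * nm c.C (ψ : Raw Γ I n V) x ∂c.μ with hIψ
    have nnφ : ∀ φ : Core c.S, 0 ≤ ∫ x, w x * nm c.C (φ : Raw Γ I n V) x ∂c.μ := fun φ =>
      integral_nonneg fun x => mul_nonneg (hwp x).le (nm_nonneg _ _)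
    set ψ' := c.S.mC κ hκ ψ with hψ'
    have hint : ∀ φ : Core c.S, Integrable (fun x => w x * nm c.C (φ : Raw Γ I n V) x) c.μ :=
      fun φ => integrable_nm hI hn c.vol hwc φ
    have hle : ∫ x, w x * nm c.C (ψ' : Raw Γ I n V) x ∂c.μ ≤ Iψ := by
      refine integral_mono (hint _) (hint _) fun x => ?_
      change w x * nm c.C (mulR c.C κ (ψ : Raw Γ I n V)) x ≤ _
      rw [nm_mul, abs_of_nonneg (hκ0 x)]
      refine mul_le_mul_of_nonneg_left ?_ (hwp x).le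
      calc κ x * nm c.C (ψ : Raw Γ I n V) x ≤ 1 * nm c.C (ψ : Raw Γ I n V) x :=
            mul_le_mul_of_nonneg_right (hκ1 x) (nm_nonneg _ _)
        _ = _ := one_mul _
    have hu : (supW c.E w hwp).SB (kap * Iψ) (GJ (c.E.e ψ')) := by
      intro φ'
      have h1 := hker φ' ψ'
      rw [← inner_conj_symm, RCLike.norm_conj]
      refine h1.trans ?_
      calc kap * (∫ x, w x * nm c.C (φ' : Raw Γ I n V) x ∂c.μ) *
            (∫ x, w x * nm c.C (ψ' : Raw Γ I n V) x ∂c.μ)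
          ≤ kap * (∫ x, w x * nm c.C (φ' : Raw Γ I n V) x ∂c.μ) * Iψ :=
            mul_le_mul_of_nonneg_left hle (mul_nonneg hk0 (nnφ φ'))
        _ = _ := by ring
    have hv := pb_core c.E w hwp φ
    have h2 := hF (kap * Iψ) Iφ (GJ (c.E.e ψ')) (c.E.e φ) (mul_nonneg hk0 (nnφ ψ)) (nnφ φ) hu hv
    have h3 : ⟪c.E.e φ, D₀ (c.E.e ψ)⟫_ℂ =
        ∑ k ∈ T, z k * ⟪c.E.e φ, F k (GJ (c.E.e ψ'))⟫_ℂ := by
      rw [hD₀, sum_apply, inner_sum]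
      refine Finset.sum_congr rfl fun k _ => ?_
      rw [smul_apply, inner_smul_right, mul_apply_eq_comp, mul_apply_eq_comp, hk']
    rw [h3]
    calc ‖∑ k ∈ T, z k * ⟪c.E.e φ, F k (GJ (c.E.e ψ'))⟫_ℂ‖
        ≤ ∑ k ∈ T, ‖z k * ⟪c.E.e φ, F k (GJ (c.E.e ψ'))⟫_ℂ‖ := norm_sum_le _ _
      _ ≤ ∑ k ∈ T, ‖⟪c.E.e φ, F k (GJ (c.E.e ψ'))⟫_ℂ‖ := Finset.sum_le_sum fun k _ => by
          rw [norm_mul]
          exact (mul_le_mul_of_nonneg_right (hz1 k) (norm_nonneg _)).trans (one_mul _).le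
      _ ≤ R * (kap * Iψ * Iφ) := h2
      _ = R * kap * Iφ * Iψ := by ring
  have hfin := trB_w hT c hn hw hwp hwb hχ hs h0 ha' hDn (mul_nonneg hR hk0) hker'
  rw [htr, Complex.norm_real, Real.norm_of_nonneg (Finset.sum_nonneg fun _ _ => norm_nonneg _)]
    at hfin
  refine hfin.trans (le_of_eq ?_)
  ring

end

end Vale.Agent.P223.H316
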