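import Vale.Agent.P223.H316.Cpl2
import Vale.Agent.P223.H566.NV

/-! BLOCKS V1, V2a of Stage 5. -/

namespace Vale.Agent.P223.H316

open Set Filter Topology Metric MeasureTheory
open scoped ContDiff Matrix
open H765.NC H566.NV

/-- BLOCK V1 -/
theorem specCpl : SpecCpl := by
  intro n G G₀ R hs hp hG
  obtain ⟨Φ, h0, hd⟩ := exists_geoflow hs hp (R := R) (G₀ := G₀ 0) fun x hx => hG x hx.le
  exact ⟨Φ, hs, hp, h0, hd⟩

/-- BLOCK V2a -/
theorem specLiouL : SpecLiouL := by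
  intro n G Φ h
  obtain ⟨h1, h2, h3, -, -, -⟩ := flow_gen h.smooth h.pos h.zero h.flow
  refine ⟨h1, h2, h3, fun Ω₀ hG T hT q => ?_⟩
  have hF1 : ContDiff ℝ 1 (hv G) := contDiff_infty.1 (hv_smooth h.smooth h.pos) 1
  have hΦ : Flw (hv G) Φ := ⟨h.zero, h.flow⟩
  have hsc : (fun p => (Φ T (q, p)).1) = fun p => (Φ 1 (q, T • p)).1 := by
    funext p
    rw [h3 1 T q p, mul_one]
  have hseg : ∀ p, Seg Φ Ω₀ T (q, p) → Seg Φ Ω₀ 1 (q, T • p) := by
    intro p hp t ht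
    rw [h3 t T q p]
    exact hp (T * t) ⟨mul_nonneg hT.le ht.1, by nlinarith [ht.2]⟩
  rw [hsc]
  refine ⟨fun p hp p' hp' hpp => smul_right_injective _ hT.ne'
    (hG.inj q _ _ (hseg p hp) (hseg p' hp') hpp), fun p hp => ?_⟩
  have hd : DifferentiableAt ℝ (fun p => (Φ 1 (q, p)).1) (T • p) := by
    have h2 := hΦ.diff hF1 1 (q, T • p)
    have h3 : DifferentiableAt ℝ (fun p : J.E n => (q, p)) (T • p) := by fun_prop
    exact (h2.comp (T • p) h3).fst
  have h4 : HasFDerivAt (fun p : J.E n => T • p) (T • ContinuousLinearMap.id ℝ (J.E n)) p :=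
    (hasFDerivAt_id p).const_smul T
  have h5 := (hd.hasFDerivAt.comp p h4).fderiv
  have h6 : (fun p => (Φ 1 (q, T • p)).1) = (fun p => (Φ 1 (q, p)).1) ∘ fun p => T • p := rfl
  rw [h6, h5, ContinuousLinearMap.comp_smul, ContinuousLinearMap.comp_id]
  have h7 := hG.imm q (T • p) (hseg p hp)
  unfold ContinuousLinearMap.det at h7 ⊢
  rw [ContinuousLinearMap.toLinearMap_smul, LinearMap.det_smul]
  exact mul_ne_zero (pow_ne_zero _ hT.ne') h7

end Vale.Agent.P223.H316
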