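import Vale.Agent.P223.H316.Orb

/-! Values of words. -/

namespace Vale.Agent.P223.H316

open scoped ENNReal
open PowerSeries Sy

section
variable {n : ℕ} {Γ ι B : Type} [Group Γ] [NormedRing B] [NormedAlgebra ℂ B]
  (W : WS n Γ ι B) (F : (Fin (n + 1) → Γ × ι) → ℂ)

/-- admissible functions -/
def WS.Ok (f : (ℕ → Γ × ι) → B) : Prop := (∀ l, W.T.nn (f l) ≠ ⊤) ∧
  Summable fun l : NL Γ ι n => F l.1 * W.T.tr (W.Om * f (ex l.1))

/-- value -/
noncomputable def WS.val (f : (ℕ → Γ × ι) → B) : ℂ :=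
  ∑' l : NL Γ ι n, F l.1 * W.T.tr (W.Om * f (ex l.1))

variable {W F}

theorem Ok.add {f f' : (ℕ → Γ × ι) → B} (h : W.Ok F f) (h' : W.Ok F f') :
    W.Ok F (fun l => f l + f' l) ∧ W.val F (fun l => f l + f' l) = W.val F f + W.val F f' := by
  have e : ∀ l : NL Γ ι n, F l.1 * W.T.tr (W.Om * (f (ex l.1) + f' (ex l.1))) =
      F l.1 * W.T.tr (W.Om * f (ex l.1)) + F l.1 * W.T.tr (W.Om * f' (ex l.1)) := by
    intro l
    rw [mul_add, W.T.tr_add _ _ (W.T.ne_left _ (h.1 _)) (W.T.ne_left _ (h'.1 _)), mul_add]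
  refine ⟨⟨fun l => W.T.ne_add (h.1 l) (h'.1 l), (h.2.add h'.2).congr fun l => (e l).symm⟩, ?_⟩
  unfold WS.val
  rw [← h.2.tsum_add h'.2]
  exact tsum_congr e

theorem Ok.smul {f : (ℕ → Γ × ι) → B} (c : ℂ) (h : W.Ok F f) :
    W.Ok F (fun l => c • f l) ∧ W.val F (fun l => c • f l) = c * W.val F f := by
  have e : ∀ l : NL Γ ι n, F l.1 * W.T.tr (W.Om * (c • f (ex l.1))) =
      c * (F l.1 * W.T.tr (W.Om * f (ex l.1))) := by
    intro l
    rw [mul_smul_comm, W.T.tr_smul _ _ (W.T.ne_left _ (h.1 _))]; ring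
  refine ⟨⟨fun l => W.T.ne_smul c (h.1 l), (h.2.mul_left c).congr fun l => (e l).symm⟩, ?_⟩
  unfold WS.val
  rw [← tsum_mul_left]
  exact tsum_congr e

theorem Ok.neg {f : (ℕ → Γ × ι) → B} (h : W.Ok F f) :
    W.Ok F (fun l => -f l) ∧ W.val F (fun l => -f l) = -W.val F f := by
  have := Ok.smul (-1) h
  simpa only [neg_one_smul, neg_one_mul] using this

theorem Ok.sub {f f' : (ℕ → Γ × ι) → B} (h : W.Ok F f) (h' : W.Ok F f') :
    W.Ok F (fun l => f l - f' l) ∧ W.val F (fun l => f l - f' l) = W.val F f - W.val F f' := by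
  have h1 := Ok.neg h'
  have := Ok.add h h1.1
  simpa only [← sub_eq_add_neg, h1.2] using this

theorem Ok.sum {κ : Type} (s : Finset κ) {f : κ → (ℕ → Γ × ι) → B} (h : ∀ i ∈ s, W.Ok F (f i)) :
    W.Ok F (fun l => ∑ i ∈ s, f i l) ∧
      W.val F (fun l => ∑ i ∈ s, f i l) = ∑ i ∈ s, W.val F (f i) := by
  classical
  induction s using Finset.induction_on with
  | empty =>
    simp only [Finset.sum_empty]
    refine ⟨⟨fun l => W.T.ne_zero, ?_⟩, ?_⟩
    · simp only [mul_zero, W.T.tr_zero]; exact summable_zero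
    · simp only [WS.val, mul_zero, W.T.tr_zero, tsum_zero]
  | insert i s hi ih =>
    have h1 := ih fun j hj => h j (Finset.mem_insert_of_mem hj)
    have h2 := Ok.add (h i (Finset.mem_insert_self _ _)) h1.1
    simp only [Finset.sum_insert hi]
    rw [← h1.2]
    exact h2

/-- the value of a word -/
noncomputable def WS.N (W : WS n Γ ι B) (F : (Fin (n + 1) → Γ × ι) → ℂ) (K : ℕ) (w : List Sy) :
    ℂ := W.val F fun l => coeff K (W.ev w l)

theorem WS.N_eq (K : ℕ) (w : List Sy) :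
    W.N F K w = ∑' l : NL Γ ι n, F l.1 * W.tv w K l.1 := rfl

theorem Ok.word [Fintype ι] (hF : ∀ l, ‖F l‖ ≤ 1) {K : ℕ} {w : List Sy} (hw : nl w = n + 1)
    (hK : W.m * nk w ≤ K) (hK1 : 1 ≤ K) : W.Ok F fun l => coeff K (W.ev w l) :=
  ⟨W.nuc_ev w (by omega) K hK hK1, W.sum_tv w K n hw hK hK1 F hF⟩

/-- the value of `λ w` -/
noncomputable def WS.Nl (W : WS n Γ ι B) (F : (Fin (n + 1) → Γ × ι) → ℂ) (K : ℕ) (w : List Sy) :
    ℂ := (W.lam : ℂ) * W.N F (K + 1) w - W.N F K w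

theorem Ok.wordl [Fintype ι] (hF : ∀ l, ‖F l‖ ≤ 1) {K : ℕ} {w : List Sy} (hw : nl w = n + 1)
    (hK : W.m * nk w ≤ K) (hK1 : 1 ≤ K) :
    W.Ok F (fun l => coeff (K + 1) (lz W.lam (W.ev w l))) ∧
      W.val F (fun l => coeff (K + 1) (lz W.lam (W.ev w l))) = W.Nl F K w := by
  have h1 := Ok.word (W := W) hF hw (K := K + 1) (by omega) (by omega)
  have h2 := Ok.word (W := W) hF hw hK hK1
  have h3 := Ok.smul (W.lam : ℂ) h1
  have h4 := Ok.sub h3.1 h2
  rw [h3.2] at h4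
  simp only [coeff_lz]
  exact h4

end

end Vale.Agent.P223.H316
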