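import Vale.Agent.P223.H316.Up5
import Vale.Agent.P223.H66.S3
import Vale.Agent.P223.H440.KerX
import Vale.Agent.P223.H391.SupP
import Vale.Agent.P223.H765.SpecAsy

/-! The pairing is bounded by the volume. -/

namespace Vale.Agent.P223.H316

open scoped ContDiff InnerProductSpace Topology
open MeasureTheory Filter Vale.Agent.P223.H Vale.Agent.P223.X Vale.Agent.P223.H566
  Vale.Agent.P223.H391
open Vale.Agent.P223.H66 (scX ScGe Cc SobX Vl)

section
variable {n : ℕ} {M X Γ I : Type} [TopologicalSpace M] [TopologicalSpace X] [Group Γ]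
    [MulAction Γ X]

/-- the constant function -/
theorem gst_one (C : Cov n M X Γ I) {G : I → E n → Matrix (Fin n) (Fin n) ℝ} {κ : ℝ}
    (h : ScGe G κ) : Gst C G (-(κ / 4)) fun _ => 1 where
  smooth γ i := by
    unfold Cov.rep
    exact contDiff_const
  pos _ := one_pos
  grad := ⟨0, fun x => by
    have h1 : gsX C G (fun _ => 1) x = 0 := by
      change gradSq (G (C.pi x)) (fun _ => 1) (C.py x) = 0
      unfold gradSq gradIp
      simp [H.pd]
    rw [h1]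
    positivity⟩
  ineq γ i y := by
    have h1 : lap (G i) (C.rep (fun _ => 1) γ i) y = 0 := by
      change lap (G i) (fun _ => 1) y = 0
      unfold lap
      simp [H.pd]
    rw [h1, neg_zero, zero_add, mul_one, mul_one]
    have := h i y
    linarith

end

/-- the pairing is bounded, for nonnegative partitions of unity -/
theorem specVp (hB : Blk) (hEmb : SpecEmb) (hOps : SpecOps) (hT : H66.SpecTrB)
    (hP : SpecSupP) (hKer : H440.SpecKerX) (n d : ℕ) (hn : 3 ≤ n) (hd : 0 < d) :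
    ∃ A : ℝ, 0 < A ∧
  ∀ (M X Γ I V : Type) [TopologicalSpace M] [TopologicalSpace X]
  [Group Γ] [MulAction Γ X] [Fintype I] [T2Space X] [ConnectedSpace X] [T2Space M]
  [MeasurableSpace X] [BorelSpace X] [NormedAddCommGroup V] [InnerProductSpace ℂ V]
  [FiniteDimensional ℂ V] (C : Cov n M X Γ I) (G : I → E n → Matrix (Fin n) (Fin n) ℝ)
  (K : Cliff n V) (_ : SpX C G K) (μ : Measure X) (ι : Type) [Fintype ι] (P : PUX C ι)
  (χ : I → E n → ℝ) (y : ℝ) (F : (Fin (n + 1) → Γ) → ℝ), Module.finrank ℂ V = d →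
  (∀ i, C.Ck ∞ (P.φ i)) → (∀ i x, 0 ≤ P.φ i x) → VolX C G μ → Part C χ → 0 < y → ScGe G 1 →
  SobX C G μ (1 / 4) (1 / 4) y → Coc F →
  |∑ᶠ l ∈ {l : Fin (n + 1) → Γ × ι | (l 0).1 = 1}, P.wt χ l * F (fun k => (l k).1)| ≤
    A * y ^ (-(n : ℝ) / 2) * ∑ i, ∫ x, P.φ i x ∂μ := by
  have hn1 : 1 ≤ n := by omega
  obtain ⟨q, hq0, hP⟩ := hP n
  obtain ⟨κ₀, hκ₀, hKer⟩ := hKer n hn
  obtain ⟨k, hk⟩ : ∃ k, k = k6 n + (n + 1) * (2 * n + 2) := ⟨_, rfl⟩
  have hk1 : k6 n ≤ k := by omega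
  have hk2 : (n + 1) * (2 * n + 2) ≤ k := by omega
  have hk3 : (n + 1) * n ≤ k := by
    refine le_trans (Nat.mul_le_mul_left _ ?_) hk2
    omega
  set b : ℝ := H765.bK n k d with hb
  have hb0 : 0 < b := H765.bK_pos hd
  set t : ℝ := ((1 : ℝ) ^ 2 - 1 / 4) ^ ((n : ℝ) / 2 - (2 * n + 2)) with ht
  have ht0 : 0 < t := Real.rpow_pos_of_pos (by norm_num) _
  refine ⟨b⁻¹ * (((k : ℝ) + 1) ^ (n + 1) * 3 ^ (n + 1) * (q + 3) ^ (k + (n + 1)) *
    (d * (κ₀ * t))), by have : (0 : ℝ) < d := by exact_mod_cast hd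
                        positivity, ?_⟩
  intro M X Γ I V _ _ _ _ _ _ _ _ _ _ _ _ _ C G K S μ ι _ P χ y F hV hPs hPn hμ hχ hy hsc hsob hF
  obtain ⟨H, _, _, _, ⟨E⟩⟩ := hEmb n M X Γ I V C G K S μ hμ
  let c : Ctx n M X Γ I V H := ⟨C, G, K, S, μ, hμ, E⟩
  obtain ⟨hR, hO⟩ := hOps n M X Γ I V H c
  obtain ⟨a, h, W, hO⟩ := hO ι P hPs
  choose g p hgp using fun m : Set.Ioi (0 : ℝ) => hR m.1 m.2
  let g' : ℝ → H →L[ℂ] H := fun m => if hm : 0 < m then g ⟨m, hm⟩ else 0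
  let p' : ℝ → H →L[ℂ] H := fun m => if hm : 0 < m then p ⟨m, hm⟩ else 0
  have hgp' : ∀ m, 0 < m → Rsv c.E m (g' m) (p' m) := by
    intro m hm
    simp only [g', p', dif_pos hm]
    exact hgp ⟨m, hm⟩
  have hR1 := hgp' 1 one_pos
  have hG := gst_one C hsc
  obtain ⟨m₀, hm₀, hcont⟩ := cont hB n M X Γ I V H c ι P a h W (-(1 / 4)) (fun _ => 1) F hn1 hO
    hG hF
  -- the value at `m = 1`
  have hlim := H765.asyX hB.hI hB.hL hB.hS hB.hAlg hB.hDec n M X Γ I V H c ι P a h W g' p' χ F m₀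
    hn1 hO hχ hF (fun m hm => hgp' m (hm₀.trans_le hm)) k hk3
  have hval : rK a h W (g' 1) F k = (b : ℂ) *
      ((∑ᶠ l ∈ {l : Fin (n + 1) → Γ × ι | (l 0).1 = 1},
        P.wt χ l * F (fun i => (l i).1) : ℝ) : ℂ) := by
    have hc : Tendsto (fun m : ℝ => (m : ℂ) ^ (n + 2 + 2 * k) * rK a h W (g' m) F k) atTop
        (𝓝 (rK a h W (g' 1) F k)) := by
      refine tendsto_const_nhds.congr' ?_
      filter_upwards [eventually_ge_atTop (max m₀ 1)] with m hm
      have hm1 : m₀ ≤ m := (le_max_left _ _).trans hm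
      have h1 := (hcont m (g' m) (p' m) hm1 (hgp' m (hm₀.trans_le hm1)) 1 (g' 1) (p' 1)
        one_pos (by norm_num) ((le_max_right _ _).trans hm) hR1).2 k hk1
      rw [Complex.ofReal_one, one_pow, one_mul] at h1
      exact h1
    rw [hV] at hlim
    exact tendsto_nhds_unique hc hlim
  -- the bound at `m = 1`
  have hM : max m₀ 1 ≤ max m₀ 1 := le_rfl
  have hnuc := (hcont (max m₀ 1) (g' (max m₀ 1)) (p' (max m₀ 1)) (le_max_left _ _)
    (hgp' _ (hm₀.trans_le (le_max_left _ _))) 1 (g' 1) (p' 1) one_pos (by norm_num)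
    (le_max_right _ _) hR1).1
  have hup := upper hB hT n M X Γ I V H c ι P a h W F hn1 hO hF hPn (le_refl (1 : ℝ)) hR1 hnuc
    (J := 2 * n + 2) (by omega) (qg := ((1 : ℝ) ^ 2 + -(1 / 4))⁻¹) (qp := q / 1) (Q := q + 3)
    (kap := κ₀ * y ^ (-((n : ℝ) / 2)) * t)
    (op_g hB.hS c hn1 hG one_pos (by norm_num) hR1)
    (fun b u hb hu => hP M X Γ I V H c 1 1 (g' 1) (p' 1) hn1 one_pos (by norm_num) hsc hR1 b u hb
      hu)
    (by linarith) (by norm_num; linarith) (by rw [div_one]; linarith) (by norm_num; linarith)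
    (by have := Real.rpow_nonneg hy.le (-((n : ℝ) / 2)); positivity)
    (hKer M X Γ I V H c y 1 1 (g' 1) (p' 1) hy zero_le_one one_pos (by norm_num) hsc hsob hR1)
    (K := k) hk2
  rw [hval, norm_mul, Complex.norm_real, Complex.norm_real, Real.norm_of_nonneg hb0.le,
    Real.norm_eq_abs, hV] at hup
  rw [← le_div_iff₀' hb0] at hup
  refine hup.trans (le_of_eq ?_)
  rw [neg_div, div_eq_inv_mul]
  ring

/-- integral of the partition of unity given by `χ` -/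
theorem int_ex {n : ℕ} {M X Γ I : Type} [TopologicalSpace M] [TopologicalSpace X] [Group Γ]
    [MulAction Γ X] [Fintype I] [MeasurableSpace X] [BorelSpace X] {C : Cov n M X Γ I}
    {G : I → E n → Matrix (Fin n) (Fin n) ℝ} {μ : Measure X} {χ : I → E n → ℝ}
    (hG : MetX C G) (hμ : VolX C G μ) : ∑ i, ∫ x, C.ex i (χ i) x ∂μ = Vl G χ := by
  refine Finset.sum_congr rfl fun i _ => ?_
  rw [Int.integral_chart hG hμ 1 i _ fun x hx => ?_]
  · refine integral_congr_ae (Filter.Eventually.of_forall fun y => ?_)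
    simp only [one_smul, Vale.Agent.P223.X.ex_ψ]
  · unfold Cov.ex
    rw [if_neg]
    intro h
    obtain ⟨y, rfl⟩ := h
    exact hx ⟨y, one_smul _ _⟩

/-- BLOCK V for the partition of unity given by `χ` -/
def SpecVx : Prop := ∀ (n d : ℕ), 3 ≤ n → 0 < d → ∃ A : ℝ, 0 < A ∧
  ∀ (M X Γ I V : Type) [TopologicalSpace M] [TopologicalSpace X]
  [Group Γ] [MulAction Γ X] [Fintype I] [T2Space X] [ConnectedSpace X] [T2Space M]
  [MeasurableSpace X] [BorelSpace X] [NormedAddCommGroup V] [InnerProductSpace ℂ V]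
  [FiniteDimensional ℂ V] (C : Cov n M X Γ I) (G : I → E n → Matrix (Fin n) (Fin n) ℝ)
  (K : Cliff n V) (_ : SpX C G K) (μ : Measure X) (P : PUX C I)
  (χ : I → E n → ℝ) (y : ℝ) (F : (Fin (n + 1) → Γ) → ℝ), Module.finrank ℂ V = d →
  P.φ = (fun i => C.ex i (χ i)) →
  (∀ i, C.Ck ∞ (P.φ i)) → VolX C G μ → Part C χ → 0 < y → ScGe G 1 →
  SobX C G μ (1 / 4) (1 / 4) y → Coc F →
  |∑ᶠ l ∈ {l : Fin (n + 1) → Γ × I | (l 0).1 = 1}, P.wt χ l * F (fun k => (l k).1)| ≤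
    A * y ^ (-(n : ℝ) / 2) * Vl G χ

theorem specVx (hB : Blk) (hEmb : SpecEmb) (hOps : SpecOps) (hT : H66.SpecTrB)
    (hP : SpecSupP) (hKer : H440.SpecKerX) : SpecVx := by
  intro n d hn hd
  obtain ⟨A, hA, h⟩ := specVp hB hEmb hOps hT hP hKer n d hn hd
  refine ⟨A, hA, ?_⟩
  intro M X Γ I V _ _ _ _ _ _ _ _ _ _ _ _ _ C G K S μ P χ y F hV hPφ hPs hμ hχ hy hsc hsob hF
  have h1 := h M X Γ I V C G K S μ I P χ y F hV hPs (fun i x => by
    rw [hPφ]
    change 0 ≤ C.ex i (χ i) x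
    unfold Cov.ex
    split_ifs
    · exact hχ.nonneg _ _
    · exact le_rfl) hμ hχ hy hsc hsob hF
  refine h1.trans (le_of_eq ?_)
  rw [hPφ, int_ex S.met hμ]

end Vale.Agent.P223.H316
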