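import Vale.Agent.P223.H316.Word
import Mathlib.RingTheory.PowerSeries.Basic
import Mathlib.Analysis.Normed.Ring.Units
import Mathlib.Analysis.Normed.Algebra.Basic

/-! Abstract word systems: `G = (λ - D²)⁻¹`, `P = DG`, functions `a l`, `h l = [D, a l]`. -/

namespace Vale.Agent.P223.H316

open scoped ENNReal

/-- A trace ideal: `nn` is the nuclear norm (`⊤` if the operator is not nuclear). -/
structure TI (B : Type) [NormedRing B] [NormedAlgebra ℂ B] where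
  nn : B → ℝ≥0∞
  tr : B → ℂ
  nn_zero : nn 0 = 0
  nn_add : ∀ S T, nn (S + T) ≤ nn S + nn T
  nn_smul : ∀ (c : ℂ) T, nn (c • T) ≤ ‖c‖ₑ * nn T
  nn_left : ∀ S T, nn (S * T) ≤ ‖S‖ₑ * nn T
  nn_right : ∀ S T, nn (T * S) ≤ nn T * ‖S‖ₑ
  tr_add : ∀ S T, nn S ≠ ⊤ → nn T ≠ ⊤ → tr (S + T) = tr S + tr T
  tr_smul : ∀ (c : ℂ) T, nn T ≠ ⊤ → tr (c • T) = c * tr T
  tr_comm : ∀ S T, nn T ≠ ⊤ → tr (S * T) = tr (T * S)
  tr_le : ∀ T, ‖tr T‖ₑ ≤ nn T

/-- `G = (λ - D²)⁻¹`, `P = DG`, `Om` = volume element, `a l` = functions (a partition of unity),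
`h l = [D, a l]`, `χ l` = cutoff functions, `U γ` = translations. -/
structure WS (n : ℕ) (Γ ι B : Type) [Group Γ] [NormedRing B] [NormedAlgebra ℂ B] where
  T : TI B
  lam : ℝ
  G : B
  P : B
  Om : B
  a : Γ × ι → B
  h : Γ × ι → B
  χ : Γ × ι → B
  U : Γ → Bˣ
  GP : G * P = P * G
  PP : P * P = (lam : ℂ) • (G * G) - G
  aG : ∀ l, a l * G - G * a l = -(P * h l * G + G * h l * P)
  PaG : ∀ l, P * a l * G = G * a l * P + G * h l * G
  PaP : ∀ l, P * a l * P = (lam : ℂ) • (G * a l * G) - G * a l + G * h l * P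
  a_a : ∀ l l', a l * a l' = a l' * a l
  a_h : ∀ l l', a l * h l' = h l' * a l
  Om_a : ∀ l, Om * a l = a l * Om
  Om_G : Om * G = G * Om
  Om_h : ∀ l, Om * h l = (-1 : ℂ) ^ (n + 1) • (h l * Om)
  Om_P : Om * P = (-1 : ℂ) ^ (n + 1) • (P * Om)
  χa : ∀ l, χ l * a l = a l
  aχ : ∀ l, a l * χ l = a l
  χh : ∀ l, χ l * h l = h l
  hχ : ∀ l, h l * χ l = h l
  U_a : ∀ γ l, U γ * a l = a (γ * l.1, l.2) * U γ
  U_h : ∀ γ l, U γ * h l = h (γ * l.1, l.2) * U γ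
  U_G : ∀ γ, U γ * G = G * U γ
  U_P : ∀ γ, U γ * P = P * U γ
  U_Om : ∀ γ, U γ * Om = Om * U γ
  /-- bound for `a`, `h` -/
  Ca : ℝ
  a_le : ∀ l, ‖a l‖ ≤ Ca
  h_le : ∀ l, ‖h l‖ ≤ Ca
  /-- weight -/
  w : Γ → ℝ
  w_nonneg : ∀ γ, 0 ≤ w γ
  w_sum : Summable w
  bd : ∀ i j : ℕ, ∃ C : ℝ, ∀ l l', ‖χ l * P ^ i * G ^ j * χ l'‖ ≤ C * w (l.1⁻¹ * l'.1)
  /-- order of nuclearity -/
  m : ℕ
  nuc : ∀ i j : ℕ, m ≤ j → ∃ C : ℝ, ∀ l l',
    T.nn (χ l * P ^ i * G ^ j * χ l') ≤ ENNReal.ofReal (C * w (l.1⁻¹ * l'.1))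
  nucl : ∀ i j : ℕ, m ≤ j → ∀ l, T.nn (χ l * P ^ i * G ^ j) ≠ ⊤
  nucr : ∀ i j : ℕ, m ≤ j → ∀ l, T.nn (P ^ i * G ^ j * χ l) ≠ ⊤
  sum_a : ∀ S, T.nn S ≠ ⊤ → HasSum (fun l => T.tr (a l * S)) (T.tr S)
  sum_h : ∀ S, T.nn S ≠ ⊤ → HasSum (fun l => T.tr (h l * S)) 0

section ser
variable {n : ℕ} {Γ ι B : Type} [Group Γ] [NormedRing B] [NormedAlgebra ℂ B]
  (W : WS n Γ ι B)

open PowerSeries

/-- `∑ z^j G^j` -/
noncomputable def WS.Sz : PowerSeries B := PowerSeries.mk fun j => W.G ^ j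

/-- `(λ - z - D²)⁻¹` -/
noncomputable def WS.Gz : PowerSeries B := PowerSeries.mk fun j => W.G ^ (j + 1)

/-- `D (λ - z - D²)⁻¹` -/
noncomputable def WS.Pz : PowerSeries B := PowerSeries.mk fun j => W.P * W.G ^ j

theorem WS.Gz_eq : W.Gz = PowerSeries.C W.G * W.Sz := by
  ext j; simp [WS.Gz, WS.Sz, coeff_C_mul, pow_succ']

theorem WS.Gz_eq' : W.Gz = W.Sz * PowerSeries.C W.G := by
  ext j; simp [WS.Gz, WS.Sz, coeff_mul_C, pow_succ]

theorem WS.Pz_eq : W.Pz = PowerSeries.C W.P * W.Sz := by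
  ext j; simp [WS.Pz, WS.Sz, coeff_C_mul]

theorem WS.P_comm (j : ℕ) : W.P * W.G ^ j = W.G ^ j * W.P := by
  have : Commute W.P W.G := W.GP.symm
  exact (this.pow_right j).eq

theorem WS.Pz_eq' : W.Pz = W.Sz * PowerSeries.C W.P := by
  ext j; simp [WS.Pz, WS.Sz, coeff_mul_C, W.P_comm]

theorem WS.Sz_eq : W.Sz = 1 + PowerSeries.X * (PowerSeries.C W.G * W.Sz) := by
  ext j
  cases j with
  | zero => simp [WS.Sz]
  | succ j =>
    rw [map_add, coeff_succ_X_mul, coeff_C_mul]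
    simp [WS.Sz, pow_succ', coeff_one]

/-- `GS = SG` -/
theorem WS.GS : PowerSeries.C W.G * W.Sz = W.Sz * PowerSeries.C W.G := by rw [← W.Gz_eq, W.Gz_eq']

theorem WS.PS : PowerSeries.C W.P * W.Sz = W.Sz * PowerSeries.C W.P := by rw [← W.Pz_eq, W.Pz_eq']

/-- multiplication by `λ - z` -/
noncomputable def lz (lam : ℝ) (f : PowerSeries B) : PowerSeries B :=
  PowerSeries.C (algebraMap ℂ B lam) * f - PowerSeries.X * f

theorem lz_mul (lam : ℝ) (u f v : PowerSeries B) :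
    u * lz lam f * v = lz lam (u * f * v) := by
  unfold lz
  have h1 : u * PowerSeries.C (algebraMap ℂ B lam) = PowerSeries.C (algebraMap ℂ B lam) * u := by
    ext j; rw [coeff_mul_C, coeff_C_mul]; exact (Algebra.commutes _ _).symm
  have h2 : u * PowerSeries.X = PowerSeries.X * u := (commute_X u).eq
  calc u * (PowerSeries.C (algebraMap ℂ B lam) * f - PowerSeries.X * f) * v
      = (u * PowerSeries.C (algebraMap ℂ B lam)) * f * v - (u * PowerSeries.X) * f * v := by noncomm_ring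
    _ = _ := by rw [h1, h2]; noncomm_ring

theorem coeff_lz (lam : ℝ) (f : PowerSeries B) (K : ℕ) :
    coeff (K + 1) (lz lam f) = (lam : ℂ) • coeff (K + 1) f - coeff K f := by
  unfold lz
  rw [map_sub, coeff_C_mul, coeff_succ_X_mul, Algebra.smul_def]

theorem WS.SXG (f : PowerSeries B) : W.Sz * f = f + W.Gz * PowerSeries.X * f := by
  conv_lhs => rw [W.Sz_eq]
  rw [← W.Gz_eq, add_mul, one_mul, (commute_X W.Gz).symm.eq]

/-- `P² = (λ - z) G² - G` -/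
theorem WS.PPz : W.Pz * W.Pz = lz W.lam (W.Gz * W.Gz) - W.Gz := by
  have h1 : W.Pz * W.Pz = W.Sz * (PowerSeries.C (W.P * W.P)) * W.Sz := by
    nth_rewrite 1 [W.Pz_eq']; nth_rewrite 1 [W.Pz_eq]
    rw [map_mul]; noncomm_ring
  have h2 : PowerSeries.C (W.P * W.P) = PowerSeries.C (algebraMap ℂ B W.lam) * (PowerSeries.C W.G * PowerSeries.C W.G) - PowerSeries.C W.G := by
    rw [W.PP, map_sub, ← map_mul, ← map_mul, Algebra.smul_def]
  have h3 : W.Sz * PowerSeries.C (algebraMap ℂ B W.lam) = PowerSeries.C (algebraMap ℂ B W.lam) * W.Sz := by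
    ext j; rw [coeff_mul_C, coeff_C_mul]; exact (Algebra.commutes _ _).symm
  rw [h1, h2]
  have h4 : W.Gz = W.Sz * PowerSeries.C W.G * 1 := by rw [W.Gz_eq', mul_one]
  have h5 : W.Sz * (PowerSeries.C (algebraMap ℂ B W.lam) * (PowerSeries.C W.G * PowerSeries.C W.G) - PowerSeries.C W.G) * W.Sz =
      PowerSeries.C (algebraMap ℂ B W.lam) * (W.Gz * W.Gz) - W.Gz * W.Sz := by
    calc _ = (W.Sz * PowerSeries.C (algebraMap ℂ B W.lam)) * PowerSeries.C W.G * (PowerSeries.C W.G * W.Sz) -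
          (W.Sz * PowerSeries.C W.G) * W.Sz := by noncomm_ring
      _ = PowerSeries.C (algebraMap ℂ B W.lam) * ((W.Sz * PowerSeries.C W.G) *
          (PowerSeries.C W.G * W.Sz)) - (W.Sz * PowerSeries.C W.G) * W.Sz := by
        rw [h3]; noncomm_ring
      _ = _ := by rw [← W.Gz_eq, ← W.Gz_eq']
  rw [h5]
  unfold lz
  have h6 : W.Gz * W.Sz = W.Gz + PowerSeries.X * (W.Gz * W.Gz) := by
    conv_lhs => rw [W.Sz_eq, ← W.Gz_eq]
    rw [mul_add, mul_one, ← mul_assoc, (commute_X W.Gz).eq, mul_assoc]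
  rw [h6]; abel

theorem WS.PGz : W.Pz * W.Gz = W.Gz * W.Pz := by
  rw [W.Pz_eq, W.Gz_eq']
  nth_rewrite 1 [show PowerSeries.C W.P * W.Sz * (W.Sz * PowerSeries.C W.G) = PowerSeries.C W.P * (W.Sz * W.Sz) * PowerSeries.C W.G by noncomm_ring]
  have h1 : PowerSeries.C W.P * (W.Sz * W.Sz) = (W.Sz * W.Sz) * PowerSeries.C W.P := by
    rw [← mul_assoc, W.PS, mul_assoc, W.PS, mul_assoc]
  have h2 : PowerSeries.C W.P * PowerSeries.C W.G = PowerSeries.C W.G * PowerSeries.C W.P := by rw [← map_mul, ← map_mul, W.GP]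
  rw [h1, mul_assoc, h2, mul_assoc, ← mul_assoc W.Sz (PowerSeries.C W.G), ← W.GS, mul_assoc, ← W.PS, ← mul_assoc,
    W.GS]

/-- `aG - Ga = -(PhG + GhP)` -/
theorem WS.aGz (l : Γ × ι) : PowerSeries.C (W.a l) * W.Gz - W.Gz * PowerSeries.C (W.a l) =
    -(W.Pz * PowerSeries.C (W.h l) * W.Gz + W.Gz * PowerSeries.C (W.h l) * W.Pz) := by
  have h1 : PowerSeries.C (W.a l) * W.Gz - W.Gz * PowerSeries.C (W.a l) =
      W.Sz * (PowerSeries.C (W.a l) * PowerSeries.C W.G - PowerSeries.C W.G * PowerSeries.C (W.a l)) * W.Sz := by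
    have e1 : W.Sz * (PowerSeries.C (W.a l) * PowerSeries.C W.G - PowerSeries.C W.G * PowerSeries.C (W.a l)) * W.Sz =
        W.Sz * PowerSeries.C (W.a l) * W.Gz - W.Gz * PowerSeries.C (W.a l) * W.Sz := by
      calc _ = W.Sz * PowerSeries.C (W.a l) * (PowerSeries.C W.G * W.Sz) -
            (W.Sz * PowerSeries.C W.G) * PowerSeries.C (W.a l) * W.Sz := by noncomm_ring
        _ = _ := by rw [← W.Gz_eq, ← W.Gz_eq']
    have e2 : W.Sz * PowerSeries.C (W.a l) * W.Gz = PowerSeries.C (W.a l) * W.Gz + W.Gz * PowerSeries.X * PowerSeries.C (W.a l) * W.Gz := by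
      rw [mul_assoc, W.SXG]; noncomm_ring
    have e3 : PowerSeries.C (W.a l) * W.Sz = PowerSeries.C (W.a l) + PowerSeries.X * (PowerSeries.C (W.a l) * W.Gz) := by
      conv_lhs => rw [W.Sz_eq, ← W.Gz_eq]
      rw [mul_add, mul_one, ← mul_assoc, (commute_X (PowerSeries.C (W.a l))).eq, mul_assoc]
    rw [e1, e2, mul_assoc W.Gz (PowerSeries.C (W.a l)) W.Sz, e3]; noncomm_ring
  have h2 : PowerSeries.C (W.a l) * PowerSeries.C W.G - PowerSeries.C W.G * PowerSeries.C (W.a l) =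
      -(PowerSeries.C W.P * PowerSeries.C (W.h l) * PowerSeries.C W.G + PowerSeries.C W.G * PowerSeries.C (W.h l) * PowerSeries.C W.P) := by
    simp only [← map_mul, ← map_sub, ← map_add, ← map_neg, W.aG]
  rw [h1, h2]
  have e : W.Pz * PowerSeries.C (W.h l) * W.Gz + W.Gz * PowerSeries.C (W.h l) * W.Pz =
      W.Sz * (PowerSeries.C W.P * PowerSeries.C (W.h l) * PowerSeries.C W.G + PowerSeries.C W.G * PowerSeries.C (W.h l) * PowerSeries.C W.P) * W.Sz := by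
    nth_rewrite 1 [W.Pz_eq', W.Gz_eq, W.Gz_eq', W.Pz_eq]; noncomm_ring
  rw [e]; noncomm_ring

theorem WS.PaGz (l : Γ × ι) : W.Pz * PowerSeries.C (W.a l) * W.Gz =
    W.Gz * PowerSeries.C (W.a l) * W.Pz + W.Gz * PowerSeries.C (W.h l) * W.Gz := by
  have e1 : W.Pz * PowerSeries.C (W.a l) * W.Gz = W.Sz * PowerSeries.C (W.P * W.a l * W.G) * W.Sz := by
    rw [W.Pz_eq', W.Gz_eq, map_mul, map_mul]; noncomm_ring
  have e2 : W.Gz * PowerSeries.C (W.a l) * W.Pz = W.Sz * PowerSeries.C (W.G * W.a l * W.P) * W.Sz := by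
    rw [W.Pz_eq, W.Gz_eq', map_mul, map_mul]; noncomm_ring
  have e3 : W.Gz * PowerSeries.C (W.h l) * W.Gz = W.Sz * PowerSeries.C (W.G * W.h l * W.G) * W.Sz := by
    nth_rewrite 2 [W.Gz_eq]; rw [W.Gz_eq', map_mul, map_mul]; noncomm_ring
  rw [e1, e2, e3, W.PaG, map_add]; noncomm_ring

theorem WS.PaPz (l : Γ × ι) : W.Pz * PowerSeries.C (W.a l) * W.Pz =
    lz W.lam (W.Gz * PowerSeries.C (W.a l) * W.Gz) - W.Gz * PowerSeries.C (W.a l) + W.Gz * PowerSeries.C (W.h l) * W.Pz := by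
  have e1 : W.Pz * PowerSeries.C (W.a l) * W.Pz = W.Sz * PowerSeries.C (W.P * W.a l * W.P) * W.Sz := by
    nth_rewrite 1 [W.Pz_eq']; rw [W.Pz_eq, map_mul, map_mul]; noncomm_ring
  have e3 : W.Gz * PowerSeries.C (W.h l) * W.Pz = W.Sz * PowerSeries.C (W.G * W.h l * W.P) * W.Sz := by
    rw [W.Pz_eq, W.Gz_eq', map_mul, map_mul]; noncomm_ring
  have e4 : W.Sz * PowerSeries.C ((W.lam : ℂ) • (W.G * W.a l * W.G)) * W.Sz =
      PowerSeries.C (algebraMap ℂ B W.lam) * (W.Gz * PowerSeries.C (W.a l) * W.Gz) := by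
    have h3 : W.Sz * PowerSeries.C (algebraMap ℂ B W.lam) = PowerSeries.C (algebraMap ℂ B W.lam) * W.Sz := by
      ext j; rw [coeff_mul_C, coeff_C_mul]; exact (Algebra.commutes _ _).symm
    rw [Algebra.smul_def, map_mul, map_mul, map_mul]
    nth_rewrite 2 [W.Gz_eq]; rw [W.Gz_eq']
    calc _ = (W.Sz * PowerSeries.C (algebraMap ℂ B W.lam)) * PowerSeries.C W.G * PowerSeries.C (W.a l) * PowerSeries.C W.G * W.Sz := by noncomm_ring
      _ = _ := by rw [h3]; noncomm_ring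
  have e5 : W.Sz * PowerSeries.C (W.G * W.a l) * W.Sz = W.Gz * PowerSeries.C (W.a l) + PowerSeries.X * (W.Gz * PowerSeries.C (W.a l) * W.Gz) := by
    have e3 : PowerSeries.C (W.a l) * W.Sz = PowerSeries.C (W.a l) + PowerSeries.X * (PowerSeries.C (W.a l) * W.Gz) := by
      conv_lhs => rw [W.Sz_eq, ← W.Gz_eq]
      rw [mul_add, mul_one, ← mul_assoc, (commute_X (PowerSeries.C (W.a l))).eq, mul_assoc]
    rw [map_mul, ← mul_assoc, ← W.Gz_eq', mul_assoc, e3, mul_add, ← mul_assoc W.Gz PowerSeries.X,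
      (commute_X W.Gz).eq]
    noncomm_ring
  rw [e1, W.PaP, map_add, map_sub, mul_add, add_mul, mul_sub, sub_mul, e4, e5, ← e3]
  unfold lz; noncomm_ring

end ser

end Vale.Agent.P223.H316
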