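import Mathlib.Tactic

/-! Combinatorics of words: `g = G`, `q = DG`, `a` = function, `h = [D, a]`. -/

namespace Vale.Agent.P223.H316

/-- symbols -/
inductive Sy
  | g | q | a | h
deriving DecidableEq

open Sy

/-- number of letters `a`, `h` -/
def nl : List Sy → ℕ
  | [] => 0
  | g :: w => nl w
  | q :: w => nl w
  | a :: w => nl w + 1
  | h :: w => nl w + 1

/-- number of kernels `g`, `q` -/
def nk : List Sy → ℕ
  | [] => 0
  | g :: w => nk w + 1
  | q :: w => nk w + 1
  | a :: w => nk w
  | h :: w => nk w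

@[simp] theorem nl_append (u v : List Sy) : nl (u ++ v) = nl u + nl v := by
  induction u with
  | nil => simp [nl]
  | cons s u ih => cases s <;> simp [nl, ih] <;> omega

@[simp] theorem nk_append (u v : List Sy) : nk (u ++ v) = nk u + nk v := by
  induction u with
  | nil => simp [nk]
  | cons s u ih => cases s <;> simp [nk, ih] <;> omega

/-- `(hg)^m` -/
def HG : ℕ → List Sy
  | 0 => []
  | m + 1 => h :: g :: HG m

/-- `(gh)^m` -/
def GH : ℕ → List Sy
  | 0 => []
  | m + 1 => g :: h :: GH m

@[simp] theorem nl_HG (m : ℕ) : nl (HG m) = m := by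
  induction m with
  | zero => rfl
  | succ m ih => simp [HG, nl, ih]

@[simp] theorem nk_HG (m : ℕ) : nk (HG m) = m := by
  induction m with
  | zero => rfl
  | succ m ih => simp [HG, nk, ih]

@[simp] theorem nl_GH (m : ℕ) : nl (GH m) = m := by
  induction m with
  | zero => rfl
  | succ m ih => simp [GH, nl, ih]

@[simp] theorem nk_GH (m : ℕ) : nk (GH m) = m := by
  induction m with
  | zero => rfl
  | succ m ih => simp [GH, nk, ih]

theorem GH_g (m : ℕ) (v : List Sy) : GH m ++ g :: v = g :: (HG m ++ v) := by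
  induction m with
  | zero => rfl
  | succ m ih => simp [GH, HG, ih]

theorem HG_h (m : ℕ) (v : List Sy) : HG m ++ h :: v = h :: (GH m ++ v) := by
  induction m with
  | zero => rfl
  | succ m ih => simp [GH, HG, ih]

theorem GH_add (i j : ℕ) : GH (i + j) = GH i ++ GH j := by
  induction i with
  | zero => simp [GH]
  | succ i ih => rw [show i + 1 + j = (i + j) + 1 by omega]; simp [GH, ih]

theorem HG_add (i j : ℕ) : HG (i + j) = HG i ++ HG j := by
  induction i with
  | zero => simp [HG]
  | succ i ih => rw [show i + 1 + j = (i + j) + 1 by omega]; simp [HG, ih]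

theorem a_notMem_HG (m : ℕ) : a ∉ HG m := by
  induction m with
  | zero => simp [HG]
  | succ m ih => simp [HG, ih]

theorem a_notMem_GH (m : ℕ) : a ∉ GH m := by
  induction m with
  | zero => simp [GH]
  | succ m ih => simp [GH, ih]

/-- words with `n + 1` letters and at most `n + 2` kernels -/
def Good (n : ℕ) (w : List Sy) : Prop := nl w = n + 1 ∧ nk w ≤ n + 2

/-- The rules. `N w` is the value of the word `w`, `Nl w` is the value of `λ w`. -/
structure Rules (n : ℕ) (s : ℝ) {V : Type} [AddCommGroup V] [Module ℝ V]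
    (N Nl : List Sy → V) : Prop where
  qq : ∀ u v, Good n (u ++ q :: q :: v) →
    N (u ++ q :: q :: v) = s • (N (u ++ g :: v) - Nl (u ++ g :: g :: v))
  qg : ∀ u v, Good n (u ++ q :: g :: v) → N (u ++ q :: g :: v) = N (u ++ g :: q :: v)
  qhg : ∀ u v, Good n (u ++ q :: h :: g :: v) →
    N (u ++ q :: h :: g :: v) + N (u ++ g :: h :: q :: v) =
      s • (N (u ++ a :: g :: v) - N (u ++ g :: a :: v))
  qag : ∀ u v, Good n (u ++ q :: a :: g :: v) →
    N (u ++ q :: a :: g :: v) = N (u ++ g :: a :: q :: v) + N (u ++ g :: h :: g :: v)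
  qaq : ∀ u v, Good n (u ++ q :: a :: q :: v) →
    N (u ++ q :: a :: q :: v) =
      s • (N (u ++ g :: a :: v) - Nl (u ++ g :: a :: g :: v)) + N (u ++ g :: h :: q :: v)
  ah : ∀ u v, Good n (u ++ a :: h :: v) → N (u ++ a :: h :: v) + N (u ++ h :: a :: v) = 0
  aa : ∀ u v, Good n (u ++ a :: a :: v) → N (u ++ a :: a :: v) = 0
  rotg : ∀ w, Good n (g :: w) → N (g :: w) = N (w ++ [g])
  rotgl : ∀ w, Good n (g :: w) → Nl (g :: w) = Nl (w ++ [g])
  rotq : ∀ w, Good n (w ++ [q]) → N (w ++ [q]) = (-1 : ℝ) ^ (n + 1) • N (q :: w)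
  rota : ∀ w, Good n (w ++ [a]) → N (w ++ [a]) = (-1 : ℝ) ^ n • N (a :: w)
  all : ∀ w, Good n w → a ∉ w → N w = 0

section
variable {n : ℕ} {s : ℝ} {V : Type} [AddCommGroup V] [Module ℝ V] {N Nl : List Sy → V}
  (R : Rules n s N Nl)
include R

/-- `D` passes through `G (hG)^m`. -/
theorem kh (m : ℕ) : ∀ u v, Good n (u ++ q :: (HG (m + 1) ++ v)) →
    N (u ++ q :: (HG (m + 1) ++ v)) = (-1 : ℝ) ^ (m + 1) • N (u ++ (GH (m + 1) ++ q :: v)) +
      s • N (u ++ a :: g :: (HG m ++ v)) +
      ((-1 : ℝ) ^ (m + 1) * s) • N (u ++ g :: (HG m ++ a :: v)) := by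
  induction m with
  | zero =>
    intro u v hg
    have h1 := R.qhg u v hg
    simp only [HG, GH, List.cons_append, List.nil_append, zero_add, pow_one] at h1 ⊢
    rw [eq_sub_of_add_eq h1, smul_sub, neg_one_mul]
    module
  | succ m ih =>
    intro u v hg
    have h1 := R.qhg u (HG (m + 1) ++ v) hg
    have hg2 : Good n ((u ++ [g, h]) ++ q :: (HG (m + 1) ++ v)) := by
      unfold Good at hg ⊢
      simp [nl, nk] at hg ⊢
      omega
    have h2 := ih (u ++ [g, h]) v hg2
    have hg3 : Good n ((u ++ [g]) ++ a :: h :: (g :: (HG m ++ v))) := by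
      unfold Good at hg ⊢
      simp [nl, nk] at hg ⊢
      omega
    have h3 := R.ah (u ++ [g]) (g :: (HG m ++ v)) hg3
    simp only [List.append_assoc, List.cons_append, List.nil_append] at h1 h2 h3
    rw [show HG (m + 1 + 1) = h :: g :: HG (m + 1) from rfl,
      show GH (m + 1 + 1) = g :: h :: GH (m + 1) from rfl]
    simp only [List.cons_append]
    rw [eq_sub_of_add_eq h1, h2, pow_succ (-1 : ℝ) (m + 1)]
    rw [show (HG (m + 1) : List Sy) = h :: g :: HG m from rfl] at *
    simp only [List.cons_append] at *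
    rw [eq_neg_of_add_eq_zero_left h3]
    module

theorem kh0 (m : ℕ) (u v : List Sy) (hg : Good n (u ++ q :: (HG (m + 1) ++ v))) :
    N (u ++ (GH (m + 1) ++ q :: v)) = (-1 : ℝ) ^ (m + 1) • N (u ++ q :: (HG (m + 1) ++ v)) -
      ((-1 : ℝ) ^ (m + 1) * s) • N (u ++ a :: g :: (HG m ++ v)) -
      s • N (u ++ g :: (HG m ++ a :: v)) := by
  rw [kh R m u v hg]
  have : (-1 : ℝ) ^ (m + 1) * (-1 : ℝ) ^ (m + 1) = 1 := by
    rw [← mul_pow]; simp
  simp only [smul_add, smul_smul, ← mul_assoc, this]
  module

/-- `R` -/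
theorem X_eq (i j : ℕ) (hij : i + j = n) :
    N (a :: (GH i ++ q :: q :: HG j)) = s • (N (a :: g :: HG n) -
      Nl (a :: g :: (HG i ++ g :: HG j))) := by
  have hg : Good n ((a :: GH i) ++ q :: q :: HG j) := by
    unfold Good; simp [nl, nk]; omega
  have h1 := R.qq (a :: GH i) (HG j) hg
  simp only [List.cons_append] at h1
  rw [h1, GH_g, GH_g, ← HG_add, hij]

theorem T_eq (i j : ℕ) (hij : i + j = n) :
    N (a :: (GH i ++ q :: (GH j ++ [q]))) =
      (-1 : ℝ) ^ (n + 1) • N (a :: q :: (HG i ++ q :: HG j)) := by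
  have hg : Good n ((a :: (GH i ++ q :: GH j)) ++ [q]) := by
    unfold Good; simp [nl, nk]; omega
  have h1 := R.rotq (a :: (GH i ++ q :: GH j)) hg
  simp only [List.cons_append, List.append_assoc] at h1
  rw [h1]
  congr 1
  cases i with
  | zero =>
    simp only [GH, HG, List.nil_append]
    have hg2 : Good n ([] ++ q :: a :: q :: GH j) := by
      unfold Good; simp [nl, nk]; omega
    have h2 := R.qaq [] (GH j) hg2
    simp only [List.nil_append] at h2
    rw [h2]
    have hj : j = n := by omega
    subst hj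
    have h3 : N (g :: h :: q :: GH j) = 0 := by
      refine R.all _ ?_ ?_
      · unfold Good; simp [nl, nk]
      · simp [a_notMem_GH]
    have h4 : N (g :: a :: GH j) = N (a :: g :: HG j) := by
      rw [R.rotg (a :: GH j) (by unfold Good; simp [nl, nk])]
      simp only [List.cons_append]
      rw [GH_g, List.append_nil]
    have h5 : Nl (g :: a :: g :: GH j) = Nl (a :: g :: (g :: HG j)) := by
      rw [R.rotgl (a :: g :: GH j) (by unfold Good; simp [nl, nk])]
      simp only [List.cons_append]
      rw [GH_g, List.append_nil]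
    have h6 := X_eq R 0 j (by omega)
    simp only [GH, HG, List.nil_append] at h6
    rw [h3, h4, h5, h6, add_zero]
  | succ i =>
    have hg2 : Good n ([] ++ q :: a :: g :: (h :: (GH i ++ q :: GH j))) := by
      unfold Good; simp [nl, nk]; omega
    have h2 := R.qag [] (h :: (GH i ++ q :: GH j)) hg2
    simp only [List.nil_append] at h2
    have h3 : N (g :: h :: g :: (h :: (GH i ++ q :: GH j))) = 0 := by
      refine R.all _ ?_ ?_
      · unfold Good; simp [nl, nk]; omega
      · simp [a_notMem_GH]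
    simp only [GH, List.cons_append]
    rw [h2, h3, add_zero, R.rotg (a :: q :: (h :: (GH i ++ q :: GH j)))
      (by unfold Good; simp [nl, nk]; omega)]
    simp only [List.cons_append, List.append_assoc, HG]
    rw [GH_g j [], List.append_nil, ← HG_h, ← List.cons_append]
    have hg3 : Good n ((a :: q :: HG i ++ [h]) ++ q :: g :: HG j) := by
      unfold Good; simp [nl, nk]; omega
    have h4 := R.qg (a :: q :: HG i ++ [h]) (HG j) hg3
    simp only [List.cons_append, List.append_assoc, List.nil_append] at h4 ⊢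
    rw [h4, HG_h, GH_g]

/-- The identity. -/
theorem word (hs : s ≠ 0) : ((n : ℝ) + 2) • N (a :: g :: HG n) =
    (2 : ℝ) • ∑ i ∈ Finset.range (n + 1), Nl (a :: g :: (HG i ++ g :: HG (n - i))) := by
  classical
  set r := N (a :: g :: HG n) with hr
  set S : ℕ → V := fun i => Nl (a :: g :: (HG i ++ g :: HG (n - i))) with hS
  set X : ℕ → V := fun i => N (a :: (GH i ++ q :: q :: HG (n - i))) with hX
  set T : ℕ → V := fun i => N (a :: q :: (HG i ++ q :: HG (n - i))) with hT
  -- `al i`, `be i` are the words for `i + 1`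
  set al : ℕ → V := fun i => N (a :: g :: (HG i ++ a :: q :: HG (n - (i + 1)))) with hal
  set be : ℕ → V := fun i => N (a :: (GH i ++ q :: a :: g :: HG (n - (i + 1)))) with hbe
  have hXs : ∀ i, i ≤ n → X i = s • (r - S i) := fun i hi => X_eq R i (n - i) (by omega)
  have hdiff : ∀ i, i < n → be i - al i = r := by
    intro i hi
    have hg : Good n ((a :: GH i) ++ q :: a :: g :: HG (n - (i + 1))) := by
      unfold Good; simp [nl, nk]; omega
    have h1 := R.qag (a :: GH i) (HG (n - (i + 1))) hg
    simp only [List.cons_append] at h1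
    rw [GH_g, GH_g] at h1
    rw [hbe, hal, hr]
    simp only
    rw [h1, add_sub_cancel_left]
    have : HG n = HG i ++ h :: g :: HG (n - (i + 1)) := by
      conv_lhs => rw [show n = i + ((n - (i + 1)) + 1) by omega, HG_add]
      rfl
    rw [this]
  -- first expression
  have h1 : ∀ i, i < n → X i = (-1 : ℝ) ^ (n - i) • ((-1 : ℝ) ^ (n + 1) • T i) + s • be i := by
    intro i hi
    obtain ⟨m, hm⟩ : ∃ m, n - i = m + 1 := ⟨n - i - 1, by omega⟩
    have hm' : n - (i + 1) = m := by omega
    have hg : Good n ((a :: (GH i ++ [q])) ++ q :: (HG (m + 1) ++ [])) := by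
      unfold Good; simp [nl, nk]; omega
    have k1 := kh R m (a :: (GH i ++ [q])) [] hg
    have hg2 : Good n ((a :: (GH i ++ q :: g :: HG m)) ++ [a]) := by
      unfold Good; simp [nl, nk]; omega
    have k2 := R.rota (a :: (GH i ++ q :: g :: HG m)) hg2
    have hg3 : Good n ([] ++ a :: a :: (GH i ++ q :: g :: HG m)) := by
      unfold Good; simp [nl, nk]; omega
    have k3 := R.aa [] (GH i ++ q :: g :: HG m) hg3
    have k4 := T_eq R i (m + 1) (by omega)
    simp only [List.cons_append, List.append_assoc, List.nil_append, List.append_nil] at k1 k2 k3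
    simp only [hX, hT, hbe, hm, hm']
    rw [k1, k2, k3, k4, smul_zero, smul_zero, add_zero]
  have h1n : X n = (-1 : ℝ) ^ (n + 1) • T n := by
    have k4 := T_eq R n 0 (by omega)
    simp only [GH, HG, List.nil_append] at k4
    simp only [hX, hT, Nat.sub_self, HG]
    exact k4
  -- second expression
  have h2 : ∀ i, i < n → X (i + 1) = (-1 : ℝ) ^ (i + 1) • T (i + 1) - s • al i := by
    intro i hi
    have hg : Good n ([a] ++ q :: (HG (i + 1) ++ q :: HG (n - (i + 1)))) := by
      unfold Good; simp [nl, nk]; omega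
    have k1 := kh0 R i [a] (q :: HG (n - (i + 1))) hg
    have hg3 : Good n ([] ++ a :: a :: (g :: (HG i ++ q :: HG (n - (i + 1))))) := by
      unfold Good; simp [nl, nk]; omega
    have k3 := R.aa [] (g :: (HG i ++ q :: HG (n - (i + 1)))) hg3
    simp only [List.cons_append, List.nil_append] at k1 k3
    simp only [hX, hT, hal]
    rw [k1, k3, smul_zero, sub_zero]
  have h20 : X 0 = T 0 := rfl
  -- combination
  have hT0 : ∀ i, i < n → (2 : ℝ) • X (i + 1) = s • ((if i + 1 < n then be (i + 1) else 0) - al i) := by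
    intro i hi
    have e2 := h2 i hi
    by_cases hin : i + 1 < n
    · rw [if_pos hin]
      have e1 := h1 (i + 1) hin
      have e3 : (-1 : ℝ) ^ (n - (i + 1)) * (-1 : ℝ) ^ (n + 1) = -(-1 : ℝ) ^ (i + 1) := by
        have e4 : -(-1 : ℝ) ^ (i + 1) = (-1 : ℝ) ^ (i + 1 + 1) := by rw [pow_succ _ (i + 1)]; ring
        rw [← pow_add, e4, neg_one_pow_eq_pow_mod_two, neg_one_pow_eq_pow_mod_two (i + 1 + 1)]
        congr 1
        omega
      rw [smul_smul, e3] at e1
      have : (2 : ℝ) • X (i + 1) = X (i + 1) + X (i + 1) := two_smul _ _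
      rw [this]
      nth_rewrite 1 [e1]
      rw [e2]
      module
    · rw [if_neg hin]
      have hn : i + 1 = n := by omega
      rw [hn] at e2 ⊢
      have e3 : (-1 : ℝ) ^ (n + 1) = -(-1 : ℝ) ^ n := by rw [pow_succ]; ring
      rw [e3] at h1n
      have : (2 : ℝ) • X n = X n + X n := two_smul _ _
      rw [this]
      nth_rewrite 1 [h1n]
      rw [e2]
      module
  have hX0 : (2 : ℝ) • X 0 = s • (if 0 < n then be 0 else 0) := by
    by_cases hn : 0 < n
    · rw [if_pos hn]
      have e1 := h1 0 hn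
      have e3 : (-1 : ℝ) ^ (n - 0) * (-1 : ℝ) ^ (n + 1) = -1 := by
        rw [← pow_add, neg_one_pow_eq_pow_mod_two]
        rw [show (n - 0 + (n + 1)) % 2 = 1 by omega, pow_one]
      rw [smul_smul, e3, ← h20] at e1
      have : (2 : ℝ) • X 0 = X 0 + X 0 := two_smul _ _
      rw [this]
      nth_rewrite 1 [e1]
      module
    · rw [if_neg hn]
      have hn0 : n = 0 := by omega
      subst hn0
      have e1 := h1n
      rw [← h20] at e1
      simp only [zero_add, pow_one, neg_one_smul, smul_zero] at e1 ⊢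
      rw [two_smul]
      nth_rewrite 1 [e1]
      simp
  have hsum : (2 : ℝ) • ∑ i ∈ Finset.range (n + 1), X i = s • ((n : ℝ) • r) := by
    rw [Finset.sum_range_succ', smul_add, Finset.smul_sum, hX0]
    have : ∑ i ∈ Finset.range n, (2 : ℝ) • X (i + 1) =
        s • ∑ i ∈ Finset.range n, ((if i + 1 < n then be (i + 1) else 0) - al i) := by
      rw [Finset.smul_sum]
      exact Finset.sum_congr rfl fun i hi => hT0 i (Finset.mem_range.1 hi)
    rw [this, ← smul_add]
    congr 1
    have e : ∑ i ∈ Finset.range n, (if i + 1 < n then be (i + 1) else 0) +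
        (if 0 < n then be 0 else 0) = ∑ i ∈ Finset.range n, be i := by
      cases n with
      | zero => simp
      | succ k =>
        rw [Finset.sum_range_succ, if_neg (lt_irrefl _), add_zero, if_pos (by omega),
          Finset.sum_range_succ' be]
        congr 1
        refine Finset.sum_congr rfl fun i hi => ?_
        rw [if_pos (by have := Finset.mem_range.1 hi; omega)]
    rw [Finset.sum_sub_distrib, sub_add_eq_add_sub, e, ← Finset.sum_sub_distrib,
      Finset.sum_congr rfl fun i hi => hdiff i (Finset.mem_range.1 hi), Finset.sum_const,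
      Finset.card_range, ← Nat.cast_smul_eq_nsmul ℝ]
  have hsum2 : ∑ i ∈ Finset.range (n + 1), X i =
      s • (((n : ℝ) + 1) • r - ∑ i ∈ Finset.range (n + 1), S i) := by
    rw [Finset.sum_congr rfl fun i hi => hXs i (by have := Finset.mem_range.1 hi; omega),
      ← Finset.smul_sum, Finset.sum_sub_distrib, Finset.sum_const, Finset.card_range,
      ← Nat.cast_smul_eq_nsmul ℝ]
    push_cast
    rfl
  rw [hsum2, smul_comm] at hsum
  have h3 := smul_right_injective V hs hsum
  rw [smul_sub, sub_eq_iff_eq_add, ← sub_eq_iff_eq_add'] at h3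
  rw [← h3]
  module

end

end Vale.Agent.P223.H316
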