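import Vale.Agent.P223.H316.All

/-! Words without functions have the value `0`. -/

namespace Vale.Agent.P223.H316

open scoped ENNReal
open PowerSeries Sy

section
variable {n : ℕ} {Γ ι B : Type} [Group Γ] [NormedRing B] [NormedAlgebra ℂ B]
  (W : WS n Γ ι B)

theorem find_h (w : List Sy) (hw : a ∉ w) : ∀ i < nl w, ∃ u v, w = u ++ h :: v ∧ nl u = i := by
  induction w with
  | nil => intro i hi; simp [nl] at hi
  | cons s w ih =>
    intro i hi
    have hw' : a ∉ w := fun h => hw (List.mem_cons_of_mem _ h)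
    cases s with
    | g =>
      obtain ⟨u, v, h1, h2⟩ := ih hw' i hi
      exact ⟨g :: u, v, by rw [h1]; rfl, h2⟩
    | q =>
      obtain ⟨u, v, h1, h2⟩ := ih hw' i hi
      exact ⟨q :: u, v, by rw [h1]; rfl, h2⟩
    | a => exact absurd List.mem_cons_self hw
    | h =>
      cases i with
      | zero => exact ⟨[], w, rfl, rfl⟩
      | succ i =>
        obtain ⟨u, v, h1, h2⟩ := ih hw' i (by simp only [nl] at hi; omega)
        exact ⟨h :: u, v, by rw [h1]; rfl, by rw [nl, h2]⟩

omit [Group Γ] in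
theorem ins_same {k : ℕ} (p : Fin (k + 2)) (x : Γ × ι) (l : Fin (k + 1) → Γ × ι) :
    ex (p.insertNth (α := fun _ => Γ × ι) x l) p = x := by
  rw [ex_of_lt _ p.2]
  exact Fin.insertNth_apply_same (α := fun _ => Γ × ι) p x l

omit [Group Γ] in
theorem ins_lt {k : ℕ} (p : Fin (k + 2)) (x : Γ × ι) (l : Fin (k + 1) → Γ × ι) {j : ℕ}
    (hj : j < p) : ex (p.insertNth (α := fun _ => Γ × ι) x l) j = ex l j := by
  have hp := p.2
  rw [ex_of_lt _ (show j < k + 1 + 1 by omega), ex_of_lt _ (show j < k + 1 by omega)]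
  have e : (⟨j, by omega⟩ : Fin (k + 2)) = p.succAbove ⟨j, by omega⟩ := by
    rw [Fin.succAbove_of_castSucc_lt]
    · rfl
    · exact hj
  rw [e]
  exact Fin.insertNth_apply_succAbove (α := fun _ => Γ × ι) p x l _

omit [Group Γ] in
theorem ins_gt {k : ℕ} (p : Fin (k + 2)) (x : Γ × ι) (l : Fin (k + 1) → Γ × ι) {j : ℕ}
    (hj : p ≤ j) (hj2 : j + 1 < k + 2) :
    ex (p.insertNth (α := fun _ => Γ × ι) x l) (j + 1) = ex l j := by
  rw [ex_of_lt _ (show j + 1 < k + 1 + 1 by omega), ex_of_lt _ (show j < k + 1 by omega)]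
  have e : (⟨j + 1, by omega⟩ : Fin (k + 2)) = p.succAbove ⟨j, by omega⟩ := by
    rw [Fin.succAbove_of_le_castSucc]
    · rfl
    · exact hj
  rw [e]
  exact Fin.insertNth_apply_succAbove (α := fun _ => Γ × ι) p x l _

theorem tv_ins (s : Bool) (u v : List Sy) (K : ℕ) {k : ℕ} (hw : nl (u ++ ls s :: v) = k + 2)
    (p : Fin (k + 2)) (hp : nl u = p) (x : Γ × ι) (l : Fin (k + 1) → Γ × ι) :
    W.tv (u ++ ls s :: v) K (p.insertNth (α := fun _ => Γ × ι) x l) =
      W.T.tr (W.Om * coeff K (W.ev u (ex l) * (C (W.lt s x) *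
        W.ev v fun j => ex l (j + nl u)))) := by
  rw [nl_append, nl_ls] at hw
  unfold WS.tv
  have e1 : W.ev u (ex (p.insertNth (α := fun _ => Γ × ι) x l)) = W.ev u (ex l) :=
    W.ev_congr u _ _ fun j hj => ins_lt p x l (by omega)
  have e2 : ex (p.insertNth (α := fun _ => Γ × ι) x l) (0 + nl u) = x := by
    rw [zero_add, hp]
    exact ins_same p x l
  have e3 : W.ev v (fun j => ex (p.insertNth (α := fun _ => Γ × ι) x l) (j + 1 + nl u)) =
      W.ev v fun j => ex l (j + nl u) := by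
    refine W.ev_congr v _ _ fun j hj => ?_
    rw [show j + 1 + nl u = (j + nl u) + 1 by omega]
    exact ins_gt p x l (by omega) (by omega)
  rw [W.ev_append, W.ev_ls, e1, e2, e3]

variable [Fintype ι] {F : (Fin (n + 1) → Γ) → ℝ} (hF : Cc F) {K : ℕ}
  (hK1 : 1 ≤ K) (hK : W.m * (n + 2) ≤ K)

include hF hK1 hK in
theorem r_all (w : List Sy) (hg : Good n w) (ha : a ∉ w) : W.N (lF F) K w = 0 := by
  have hKw : W.m * nk w ≤ K := (Nat.mul_le_mul_left _ hg.2).trans hK
  have hnl := hg.1
  have hnl2 : nl (a :: w) = n + 1 + 1 := by simp [nl, hnl]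
  set f : Fin (n + 2) → (Fin (n + 2) → Γ × ι) → ℂ := fun p l =>
    lF F (l ∘ p.succAbove) * W.tv (a :: w) K l with hf
  have hinv : ∀ p, Inv (f p) := fun p γ l =>
    congrArg₂ (· * ·) (lF_inv hF γ (l ∘ p.succAbove))
      (W.tv_inv (a :: w) K (n + 1) (by omega) hKw hK1 γ l)
  have hsum : ∀ p, Summable fun l : NL Γ ι (n + 1) => f p l.1 := fun p =>
    W.sum_tv (a :: w) K (n + 1) hnl2 hKw hK1 (fun l => lF F (l ∘ p.succAbove))
      fun l => lF_le hF _
  -- cocycle
  have h0 : ∑ p : Fin (n + 2), (-1 : ℂ) ^ (p : ℕ) * ∑' l : NL Γ ι (n + 1), f p l.1 = 0 := by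
    simp only [← tsum_mul_left]
    rw [← Summable.tsum_finsetSum fun p _ => (hsum p).mul_left _]
    have : ∀ l : NL Γ ι (n + 1), ∑ p : Fin (n + 2), (-1 : ℂ) ^ (p : ℕ) * f p l.1 = 0 := by
      intro l
      have h1 := hF.coc fun i => (l.1 i).1
      have h2 : ∑ p : Fin (n + 2), (-1 : ℂ) ^ (p : ℕ) * lF F (l.1 ∘ p.succAbove) = 0 := by
        have h3 := congrArg (fun r : ℝ => (r : ℂ)) h1
        push_cast at h3
        exact h3
      simp only [hf, ← mul_assoc, ← Finset.sum_mul, h2, zero_mul]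
    simp only [this, tsum_zero]
  -- insertion of `a`
  have hz : ∑' l : NL Γ ι (n + 1), f 0 l.1 = W.N (lF F) K w := by
    rw [WS.N_eq]
    refine tsum_ins (f 0) (hinv 0) (hsum 0) 0 _ fun l' => ?_
    have e1 : ∀ x : Γ × ι, f 0 ((0 : Fin (n + 2)).insertNth (α := fun _ => Γ × ι) x l'.1) =
        lF F l'.1 * W.T.tr (W.a x * (W.Om * coeff K (W.ev w (ex l'.1)))) := by
      intro x
      have e2 := tv_ins W true [] w K hnl2 0 rfl x l'.1
      have e3 : ((0 : Fin (n + 2)).insertNth (α := fun _ => Γ × ι) x l'.1) ∘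
          (0 : Fin (n + 2)).succAbove = l'.1 := by
        funext i
        exact Fin.insertNth_apply_succAbove (α := fun _ => Γ × ι) _ _ _ _
      simp only [hf]
      rw [e3]
      change _ * W.tv ([] ++ ls true :: w) K _ = _
      rw [e2]
      simp only [WS.ev, nl, one_mul, add_zero, WS.lt, if_true, coeff_C_mul]
      rw [← mul_assoc, W.Om_a, mul_assoc]
    have hn := W.nuc_ev w (by omega) K hKw hK1 (ex l'.1)
    simp only [e1]
    exact (W.sum_a _ (W.T.ne_left _ hn)).mul_left _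
  -- insertion of `h`
  have hs : ∀ i : Fin (n + 1), ∑' l : NL Γ ι (n + 1), f i.succ l.1 = 0 := by
    intro i
    rw [tsum_ins (f i.succ) (hinv _) (hsum _) i.succ (fun _ => 0) fun l' => ?_, tsum_zero]
    obtain ⟨u, v, huv, hu⟩ := find_h w ha i (by omega)
    obtain ⟨z, hz⟩ := rotw W (a :: u)
    have e0 : nk w = nk u + nk v := by rw [huv, nk_append]; rfl
    have e00 : nl w = nl u + nl v + 1 := by rw [huv, nl_append]; rfl
    have e1 : ∀ x : Γ × ι, f i.succ (i.succ.insertNth (α := fun _ => Γ × ι) x l'.1) =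
        (lF F l'.1 * z * (-1 : ℂ) ^ (n + 1)) *
          W.T.tr (W.h x * (W.Om * coeff K (W.ev (v ++ a :: u)
            (cmb (nl v) (fun j => ex l'.1 (j + nl (a :: u))) (ex l'.1))))) := by
      intro x
      have e2 := tv_ins W false (a :: u) v K (by rw [← hnl2, huv]; rfl) i.succ
        (by simp only [nl, hu]; rfl) x l'.1
      have e3 : (i.succ.insertNth (α := fun _ => Γ × ι) x l'.1) ∘ i.succ.succAbove = l'.1 := by
        funext j
        exact Fin.insertNth_apply_succAbove (α := fun _ => Γ × ι) _ _ _ _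
      simp only [hf]
      rw [e3]
      have e4 : a :: w = a :: u ++ ls false :: v := by rw [huv]; rfl
      rw [e4, e2]
      -- rotate
      have e5 : C (W.lt false x) * (W.ev v fun j => ex l'.1 (j + nl (a :: u))) =
          W.ev (ls false :: v) (cmb 1 (fun _ => x) fun j => ex l'.1 (j + nl (a :: u))) := by
        rw [W.ev_ls]; rfl
      rw [e5, hz (ls false :: v) (by rw [nl_ls]; omega) K (by
        rw [nk_ls]; simp only [nk]; rw [← e0]; exact hKw) hK1, ← e5, mul_assoc (C _), ← ev_cmb]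
      rw [coeff_C_mul]
      simp only [WS.lt, Bool.false_eq_true, if_false]
      rw [← mul_assoc W.Om, W.Om_h, smul_mul_assoc, W.T.tr_smul, mul_assoc (W.h x)]
      · ring
      · rw [mul_assoc (W.h x)]
        refine W.T.ne_left _ (W.T.ne_left _ ?_)
        exact W.nuc_ev (v ++ a :: u) (by rw [nl_append]; simp only [nl]; omega) K (by
          rw [nk_append]; simp only [nk]; rw [add_comm, ← e0]; exact hKw) hK1 _
    simp only [e1]
    have hn := W.nuc_ev (v ++ a :: u) (by rw [nl_append]; simp only [nl]; omega) K (by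
          rw [nk_append]; simp only [nk]; rw [add_comm, ← e0]; exact hKw) hK1
            (cmb (nl v) (fun j => ex l'.1 (j + nl (a :: u))) (ex l'.1))
    have := (W.sum_h _ (W.T.ne_left W.Om hn)).mul_left (lF F l'.1 * z * (-1 : ℂ) ^ (n + 1))
    rwa [mul_zero] at this
  rw [Fin.sum_univ_succ] at h0
  simp only [hs, hz, mul_zero, Finset.sum_const_zero, add_zero, Fin.val_zero, pow_zero,
    one_mul] at h0
  exact h0

end

end Vale.Agent.P223.H316
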